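import Vale.Agent.P372Q.Base

open Matrix Finset Filter Topology
open scoped Kronecker ComplexOrder BigOperators

namespace Vale.Agent.P372Q

/-- `N`-fold power of a Kraus operator -/
noncomputable def kN {a s ι₀ : Type} (N : ℕ) (k : Matrix s (ι₀ → a) ℂ) :
    Matrix (Fin N → s) (Fin N × ι₀ → a) ℂ :=
  Matrix.of fun p v => ∏ i, k (p i) (fun j => v (i, j))

/-- `N`-fold power of `U` -/
noncomputable def uN {s s' : Type} (N : ℕ) (U : Matrix (s × s') (s × s') ℂ) :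
    Matrix ((Fin N → s) × (Fin N → s')) ((Fin N → s) × (Fin N → s')) ℂ :=
  Matrix.of fun p q => ∏ i, U (p.1 i, p.2 i) (q.1 i, q.2 i)

section AD0aux

open scoped Matrix.Norms.L2Operator MatrixOrder

theorem AD0_bound {A : Type} [Fintype A] [DecidableEq A] (H : Matrix A A ℂ)
    (hH : H.PosSemidef) :
    ∃ C : ℝ, 0 < C ∧ ((C : ℂ) • (1 : Matrix A A ℂ) - H).PosSemidef := by
  refine ⟨‖H‖ + 1, by positivity, ?_⟩
  have h1 : IsSelfAdjoint H := hH.1
  have h2 := h1.le_algebraMap_norm_self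
  rw [Matrix.le_iff] at h2
  have h3 : (((‖H‖ + 1 : ℝ) : ℂ) • (1 : Matrix A A ℂ) - H)
      = (algebraMap ℝ (Matrix A A ℂ) ‖H‖ - H) + 1 := by
    rw [Algebra.algebraMap_eq_smul_one]
    ext i j
    simp only [Matrix.sub_apply, Matrix.smul_apply, Matrix.add_apply, smul_eq_mul,
      Complex.real_smul]
    push_cast
    ring_nf
  rw [h3]
  exact h2.add Matrix.PosSemidef.one

theorem AD0_sqrt {A : Type} [Fintype A] [DecidableEq A] (H : Matrix A A ℂ)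
    (hH : H.PosSemidef) : ∃ B : Matrix A A ℂ, H = Bᴴ * B :=
  CStarAlgebra.nonneg_iff_eq_star_mul_self.mp hH.nonneg

end AD0aux

/-- AD0. Complement of a pair of Kraus operators: for small `κ > 0` the matrix
`1 - κ^2 ∑ (k x)ᴴ k x` is positive semidefinite, so it is `Mᴴ M`. -/
theorem exists_compl {A s : Type} [Fintype A] [DecidableEq A] [Fintype s]
    (k : ZMod 2 → Matrix s A ℂ) :
    ∃ (κ : ℝ) (M : Matrix A A ℂ), 0 < κ ∧
      (κ : ℂ) ^ 2 • (∑ x, (k x)ᴴ * k x) + Mᴴ * M = 1 := by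
  have hH : (∑ x, (k x)ᴴ * k x).PosSemidef :=
    Matrix.posSemidef_sum _ (fun x _ => Matrix.posSemidef_conjTranspose_mul_self (k x))
  obtain ⟨C, hC, hP⟩ := AD0_bound _ hH
  have hk : 0 < (Real.sqrt C)⁻¹ := by positivity
  have hk2 : ((((Real.sqrt C)⁻¹ : ℝ) : ℂ)) ^ 2 = ((C⁻¹ : ℝ) : ℂ) := by
    rw [← Complex.ofReal_pow, inv_pow, Real.sq_sqrt hC.le]
  have hP2 : ((1 : Matrix A A ℂ) - ((C⁻¹ : ℝ) : ℂ) • (∑ x, (k x)ᴴ * k x)).PosSemidef := by
    have h4 : ((1 : Matrix A A ℂ) - ((C⁻¹ : ℝ) : ℂ) • (∑ x, (k x)ᴴ * k x))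
        = ((C⁻¹ : ℝ) : ℂ) • ((C : ℂ) • (1 : Matrix A A ℂ) - ∑ x, (k x)ᴴ * k x) := by
      rw [smul_sub, smul_smul, ← Complex.ofReal_mul, inv_mul_cancel₀ hC.ne']
      simp
    rw [h4]
    refine hP.smul ?_
    rw [Complex.zero_le_real]
    positivity
  obtain ⟨B, hB⟩ := AD0_sqrt _ hP2
  refine ⟨(Real.sqrt C)⁻¹, B, hk, ?_⟩
  rw [hk2, ← hB]
  abel

private theorem AD1_pair {α β : Type} [Fintype α] [Fintype β] (N : ℕ) (f : Fin N → α × β → ℂ) :
    ∑ p : (Fin N → α) × (Fin N → β), ∏ i, f i (p.1 i, p.2 i) = ∏ i, ∑ x : α × β, f i x := by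
  have h := Finset.prod_univ_sum (fun _ : Fin N => (Finset.univ : Finset (α × β))) f
  rw [Fintype.piFinset_univ] at h
  rw [h]
  refine (Fintype.sum_equiv
    (Equiv.arrowProdEquivProdArrow (Fin N) (fun _ => α) (fun _ => β)) _ _ ?_).symm
  intro x
  rfl

private theorem AD1_curry {α ι₀ : Type} [Fintype α] [Fintype ι₀] [DecidableEq ι₀] (N : ℕ)
    (f : Fin N → (ι₀ → α) → ℂ) :
    ∑ w : Fin N × ι₀ → α, ∏ i, f i (fun j => w (i, j)) = ∏ i, ∑ x : ι₀ → α, f i x := by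
  have h := Finset.prod_univ_sum (fun _ : Fin N => (Finset.univ : Finset (ι₀ → α))) f
  rw [Fintype.piFinset_univ] at h
  rw [h]
  refine Fintype.sum_equiv (Equiv.curry (Fin N) ι₀ α) _ _ ?_
  intro x
  rfl

private theorem AD1_curry2 {α β ι₀ : Type} [Fintype α] [Fintype β] [Fintype ι₀] [DecidableEq ι₀]
    (N : ℕ) (f : Fin N → (ι₀ → α) × (ι₀ → β) → ℂ) :
    ∑ v : (Fin N × ι₀ → α) × (Fin N × ι₀ → β),
      ∏ i, f i (fun j => v.1 (i, j), fun j => v.2 (i, j)) =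
      ∏ i, ∑ x : (ι₀ → α) × (ι₀ → β), f i x := by
  rw [← AD1_pair]
  refine Fintype.sum_equiv
    (Equiv.prodCongr (Equiv.curry (Fin N) ι₀ α) (Equiv.curry (Fin N) ι₀ β)) _ _ ?_
  intro x
  rfl

private theorem AD1_row {a b e s s' ι₀ : Type} [Fintype a] [Fintype b]
    [Fintype ι₀] [DecidableEq ι₀] (R : Matrix (a × b) e ℂ)
    (k : Matrix s (ι₀ → a) ℂ) (l : Matrix s' (ι₀ → b) ℂ) (N : ℕ) (p : Fin N → s)
    (p' : Fin N → s') (w : Fin N × ι₀ → e) :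
    ((kN N k ⊗ₖ kN N l) * copiesOn R (Fin N × ι₀)) (p, p') w =
      ∏ i, ((k ⊗ₖ l) * copiesOn R ι₀) (p i, p' i) (fun j => w (i, j)) := by
  simp only [Matrix.mul_apply, Matrix.kroneckerMap_apply, kN, copiesOn, Matrix.of_apply]
  rw [← AD1_curry2 N (fun i x => k (p i) x.1 * l (p' i) x.2 *
    ∏ j, R (x.1 j, x.2 j) (w (i, j)))]
  refine Finset.sum_congr rfl fun v _ => ?_
  rw [Fintype.prod_prod_type, ← Finset.prod_mul_distrib, ← Finset.prod_mul_distrib]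

private theorem AD1_uN {s s' ε ι₀ : Type} [Fintype s] [Fintype s']
    (U : Matrix (s × s') (s × s') ℂ) (N : ℕ)
    (H : Matrix (s × s') (ι₀ → ε) ℂ) (G : Matrix ((Fin N → s) × (Fin N → s')) (Fin N × ι₀ → ε) ℂ)
    (hG : ∀ p p' w, G (p, p') w = ∏ i, H (p i, p' i) (fun j => w (i, j)))
    (p : Fin N → s) (p' : Fin N → s') (w : Fin N × ι₀ → ε) :
    (uN N U * G) (p, p') w = ∏ i, (U * H) (p i, p' i) (fun j => w (i, j)) := by
  simp only [Matrix.mul_apply, uN, Matrix.of_apply]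
  rw [← AD1_pair N (fun i x => U (p i, p' i) x * H x (fun j => w (i, j)))]
  refine Finset.sum_congr rfl fun v _ => ?_
  obtain ⟨q, q'⟩ := v
  rw [hG, ← Finset.prod_mul_distrib]

/-- AD1. Multiplicativity of inner products. -/
theorem hsInner_kN {a b e s s' ι₀ : Type} [Fintype a] [DecidableEq a] [Fintype b] [DecidableEq b]
    [Fintype e] [Fintype s] [Fintype s'] [Fintype ι₀] [DecidableEq ι₀] (R : Matrix (a × b) e ℂ)
    (k k' : Matrix s (ι₀ → a) ℂ) (l l' : Matrix s' (ι₀ → b) ℂ) (U : Matrix (s × s') (s × s') ℂ)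
    (N : ℕ) :
    hsInner ((kN N k ⊗ₖ kN N l) * copiesOn R (Fin N × ι₀))
        (uN N U * ((kN N k' ⊗ₖ kN N l') * copiesOn R (Fin N × ι₀))) =
      (hsInner ((k ⊗ₖ l) * copiesOn R ι₀) (U * ((k' ⊗ₖ l') * copiesOn R ι₀))) ^ N := by
  have h1 : ∀ (p : Fin N → s) (p' : Fin N → s') (w : Fin N × ι₀ → e),
      (uN N U * ((kN N k' ⊗ₖ kN N l') * copiesOn R (Fin N × ι₀))) (p, p') w =
        ∏ i, (U * ((k' ⊗ₖ l') * copiesOn R ι₀)) (p i, p' i) (fun j => w (i, j)) :=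
    AD1_uN U N ((k' ⊗ₖ l') * copiesOn R ι₀) _ (AD1_row R k' l' N)
  unfold hsInner
  have h2 : ∀ (q : (Fin N → s) × (Fin N → s')),
      (∑ w : Fin N × ι₀ → e, star (((kN N k ⊗ₖ kN N l) * copiesOn R (Fin N × ι₀)) q w) *
        (uN N U * ((kN N k' ⊗ₖ kN N l') * copiesOn R (Fin N × ι₀))) q w) =
      ∏ i, ∑ w : ι₀ → e, star (((k ⊗ₖ l) * copiesOn R ι₀) (q.1 i, q.2 i) w) *
        (U * ((k' ⊗ₖ l') * copiesOn R ι₀)) (q.1 i, q.2 i) w := by
    rintro ⟨p, p'⟩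
    rw [← AD1_curry N (fun i w => star (((k ⊗ₖ l) * copiesOn R ι₀) (p i, p' i) w) *
        (U * ((k' ⊗ₖ l') * copiesOn R ι₀)) (p i, p' i) w)]
    refine Finset.sum_congr rfl fun w _ => ?_
    rw [h1 p p' w, AD1_row R k l N p p' w, star_prod, ← Finset.prod_mul_distrib]
  rw [Finset.sum_congr rfl fun q _ => h2 q]
  rw [AD1_pair N (fun _ x => ∑ w : ι₀ → e, star (((k ⊗ₖ l) * copiesOn R ι₀) x w) *
        (U * ((k' ⊗ₖ l') * copiesOn R ι₀)) x w)]
  rw [Finset.prod_const, Finset.card_univ, Fintype.card_fin]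

/-- AD1b. -/
theorem uN_isometry {s s' : Type} [Fintype s] [Fintype s'] [DecidableEq s] [DecidableEq s']
    (N : ℕ) (U : Matrix (s × s') (s × s') ℂ) (hU : Uᴴ * U = 1) : (uN N U)ᴴ * uN N U = 1 := by
  ext p q
  obtain ⟨p1, p2⟩ := p
  obtain ⟨q1, q2⟩ := q
  rw [Matrix.mul_apply]
  have h1 : ∀ r : (Fin N → s) × (Fin N → s'),
      (uN N U)ᴴ (p1, p2) r * uN N U r (q1, q2) =
        ∏ i, (star (U (r.1 i, r.2 i) (p1 i, p2 i)) * U (r.1 i, r.2 i) (q1 i, q2 i)) := by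
    intro r
    simp only [Matrix.conjTranspose_apply, uN, Matrix.of_apply, star_prod]
    rw [← Finset.prod_mul_distrib]
  rw [Finset.sum_congr rfl fun r _ => h1 r]
  rw [AD1_pair N (fun i x => star (U x (p1 i, p2 i)) * U x (q1 i, q2 i))]
  have h2 : ∀ i : Fin N, ∑ x : s × s', star (U x (p1 i, p2 i)) * U x (q1 i, q2 i) =
      if p1 i = q1 i ∧ p2 i = q2 i then 1 else 0 := by
    intro i
    have h3 : (Uᴴ * U) (p1 i, p2 i) (q1 i, q2 i) = (1 : Matrix (s × s') (s × s') ℂ)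
        (p1 i, p2 i) (q1 i, q2 i) := by rw [hU]
    rw [Matrix.mul_apply] at h3
    simp only [Matrix.conjTranspose_apply] at h3
    rw [h3, Matrix.one_apply]
    simp only [Prod.mk.injEq]
  rw [Finset.prod_congr rfl fun i _ => h2 i, Matrix.one_apply]
  by_cases h : ((p1, p2) : (Fin N → s) × (Fin N → s')) = (q1, q2)
  · rw [if_pos h]
    obtain ⟨ha, hb⟩ := Prod.mk.inj h
    subst ha
    subst hb
    exact Finset.prod_eq_one fun i _ => if_pos ⟨rfl, rfl⟩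
  · rw [if_neg h]
    obtain ⟨i, hi⟩ : ∃ i, ¬ (p1 i = q1 i ∧ p2 i = q2 i) := by
      by_contra hcon
      push Not at hcon
      exact h (Prod.ext (funext fun i => (hcon i).1) (funext fun i => (hcon i).2))
    exact Finset.prod_eq_zero (Finset.mem_univ i) (if_neg hi)

theorem AD2_hsInner_eq {I E : Type} [Fintype I] [Fintype E] (G H : Matrix I E ℂ) :
    hsInner G H = (Gᴴ * H).trace := by
  unfold hsInner
  rw [Finset.sum_comm]
  rfl

theorem AD2_hs {I E : Type} [Fintype I] [Fintype E] (G : Matrix I E ℂ) :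
    ((hs G : ℝ) : ℂ) = hsInner G G := by
  unfold hs hsInner
  push_cast
  refine Finset.sum_congr rfl fun i _ => Finset.sum_congr rfl fun e _ => ?_
  exact (Complex.conj_mul' (G i e)).symm

theorem AD2_iso {I J E : Type} [Fintype I] [Fintype J] [Fintype E] [DecidableEq I]
    (P : Matrix J I ℂ) (hP : Pᴴ * P = 1) (X Y : Matrix I E ℂ) :
    hsInner (P * X) (P * Y) = hsInner X Y := by
  rw [AD2_hsInner_eq, AD2_hsInner_eq, conjTranspose_mul, Matrix.mul_assoc, ← Matrix.mul_assoc Pᴴ,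
    hP, Matrix.one_mul]

theorem AD2_smul {I E : Type} [Fintype I] [Fintype E] (c : ℝ) (X Y : Matrix I E ℂ) :
    hsInner ((c : ℂ) • X) ((c : ℂ) • Y) = ((c ^ 2 : ℝ) : ℂ) * hsInner X Y := by
  unfold hsInner
  rw [Finset.mul_sum]
  refine Finset.sum_congr rfl fun i _ => ?_
  rw [Finset.mul_sum]
  refine Finset.sum_congr rfl fun e _ => ?_
  rw [Matrix.smul_apply, Matrix.smul_apply, smul_eq_mul, smul_eq_mul, star_mul]
  have h : star (c : ℂ) = (c : ℂ) := Complex.conj_ofReal c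
  rw [h]
  push_cast
  ring

/-- the inclusion of the first summands -/
def AD2_P (s₁ s₁' A B : Type) [DecidableEq s₁] [DecidableEq s₁'] [DecidableEq A] [DecidableEq B] :
    Matrix ((s₁ ⊕ A) × (s₁' ⊕ B)) (s₁ × s₁') ℂ :=
  Matrix.of fun p i => if p = (Sum.inl i.1, Sum.inl i.2) then 1 else 0

theorem AD2_PP (s₁ s₁' A B : Type) [DecidableEq s₁] [DecidableEq s₁'] [DecidableEq A]
    [DecidableEq B] [Fintype s₁] [Fintype s₁'] [Fintype A] [Fintype B] :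
    (AD2_P s₁ s₁' A B)ᴴ * AD2_P s₁ s₁' A B = 1 := by
  ext i j
  rw [Matrix.mul_apply, Matrix.one_apply]
  have h : ∀ p : (s₁ ⊕ A) × (s₁' ⊕ B), (AD2_P s₁ s₁' A B)ᴴ i p * AD2_P s₁ s₁' A B p j =
      if p = (Sum.inl i.1, Sum.inl i.2) then (if i = j then 1 else 0) else 0 := by
    intro p
    rw [conjTranspose_apply]
    unfold AD2_P
    rw [Matrix.of_apply, Matrix.of_apply]
    by_cases hp : p = (Sum.inl i.1, Sum.inl i.2)
    · rw [if_pos hp, if_pos hp, star_one, one_mul]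
      by_cases hij : i = j
      · rw [if_pos hij, if_pos (by rw [hp, hij])]
      · rw [if_neg hij, if_neg]
        rw [hp]
        intro h
        apply hij
        have h1 := Sum.inl_injective (congrArg Prod.fst h)
        have h2 := Sum.inl_injective (congrArg Prod.snd h)
        exact Prod.ext h1 h2
    · rw [if_neg hp, if_neg hp, star_zero, zero_mul]
  rw [Finset.sum_congr rfl fun p _ => h p, Finset.sum_ite_eq' Finset.univ, if_pos (Finset.mem_univ _)]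

theorem AD2_kr {s₁ s₁' A B : Type} [DecidableEq s₁] [DecidableEq s₁'] [DecidableEq A]
    [DecidableEq B] [Fintype s₁] [Fintype s₁'] (κ κ' : ℝ) (K : Matrix s₁ A ℂ) (L : Matrix s₁' B ℂ) :
    (Matrix.fromRows ((κ : ℂ) • K) (0 : Matrix A A ℂ)) ⊗ₖ
      (Matrix.fromRows ((κ' : ℂ) • L) (0 : Matrix B B ℂ)) =
      ((κ * κ' : ℝ) : ℂ) • (AD2_P s₁ s₁' A B * (K ⊗ₖ L)) := by
  ext p q
  obtain ⟨p, p'⟩ := p
  obtain ⟨q, q'⟩ := q
  rw [Matrix.smul_apply, Matrix.mul_apply, kroneckerMap_apply]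
  have h : ∀ i : s₁ × s₁', AD2_P s₁ s₁' A B (p, p') i * (K ⊗ₖ L) i (q, q') =
      if (p, p') = (Sum.inl i.1, Sum.inl i.2) then K i.1 q * L i.2 q' else 0 := by
    intro i
    unfold AD2_P
    rw [Matrix.of_apply, kroneckerMap_apply, ite_mul, one_mul, zero_mul]
  rw [Finset.sum_congr rfl fun i _ => h i]
  rcases p with p | p
  · rcases p' with p' | p'
    · have h2 : ∀ i : s₁ × s₁', (if ((Sum.inl p : s₁ ⊕ A), (Sum.inl p' : s₁' ⊕ B)) =
          (Sum.inl i.1, Sum.inl i.2) then K i.1 q * L i.2 q' else 0) =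
          if i = (p, p') then K p q * L p' q' else 0 := by
        intro i
        by_cases hi : i = (p, p')
        · rw [if_pos hi, hi, if_pos rfl]
        · rw [if_neg hi, if_neg]
          intro h
          apply hi
          have h1 := Sum.inl_injective (congrArg Prod.fst h)
          have h2 := Sum.inl_injective (congrArg Prod.snd h)
          exact Prod.ext h1.symm h2.symm
      rw [Finset.sum_congr rfl fun i _ => h2 i, Finset.sum_ite_eq' Finset.univ,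
        if_pos (Finset.mem_univ _)]
      rw [fromRows_apply_inl, fromRows_apply_inl, Matrix.smul_apply, Matrix.smul_apply]
      simp only [smul_eq_mul]
      push_cast
      ring
    · rw [Finset.sum_eq_zero, fromRows_apply_inr]
      · simp
      · intro i _
        rw [if_neg]
        intro h
        have := congrArg Prod.snd h
        simp at this
  · rw [Finset.sum_eq_zero, fromRows_apply_inr]
    · simp
    · intro i _
      rw [if_neg]
      intro h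
      have := congrArg Prod.fst h
      simp at this

theorem AD2_sum {s₁ A : Type} [Fintype s₁] [Fintype A] [DecidableEq A] (κ : ℝ)
    (K : ZMod 2 → Matrix s₁ A ℂ) (M : Matrix A A ℂ)
    (h : (κ : ℂ) ^ 2 • (∑ x, (K x)ᴴ * K x) + Mᴴ * M = 1) :
    ∑ x : Option (ZMod 2), (Option.elim x (Matrix.fromRows (0 : Matrix s₁ A ℂ) M)
        (fun x => Matrix.fromRows ((κ : ℂ) • K x) (0 : Matrix A A ℂ)))ᴴ *
      (Option.elim x (Matrix.fromRows (0 : Matrix s₁ A ℂ) M)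
        (fun x => Matrix.fromRows ((κ : ℂ) • K x) (0 : Matrix A A ℂ))) = 1 := by
  rw [Fintype.sum_option]
  simp only [Option.elim]
  rw [← h, add_comm, Finset.smul_sum]
  congr 1
  · refine Finset.sum_congr rfl fun x _ => ?_
    rw [conjTranspose_fromRows_eq_fromCols_conjTranspose, fromCols_mul_fromRows,
      conjTranspose_smul, conjTranspose_zero, Matrix.zero_mul, add_zero, Matrix.smul_mul,
      Matrix.mul_smul, smul_smul]
    have h : star (κ : ℂ) = (κ : ℂ) := Complex.conj_ofReal κ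
    rw [h, pow_two]
  · rw [conjTranspose_fromRows_eq_fromCols_conjTranspose, fromCols_mul_fromRows,
      conjTranspose_zero, Matrix.zero_mul, zero_add]

theorem AD2_V {I J : Type} [Fintype I] [Fintype J] [DecidableEq I] [DecidableEq J]
    (P : Matrix J I ℂ) (hP : Pᴴ * P = 1) (U : Matrix I I ℂ) (hU : Uᴴ * U = 1) :
    ∃ V : Matrix J J ℂ, Vᴴ * V = 1 ∧ V * P = P * U := by
  refine ⟨P * U * Pᴴ + (1 - P * Pᴴ), ?_, ?_⟩
  · have e1 : (P * U * Pᴴ + (1 - P * Pᴴ))ᴴ = P * Uᴴ * Pᴴ + (1 - P * Pᴴ) := by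
      rw [conjTranspose_add, conjTranspose_sub, conjTranspose_mul, conjTranspose_mul,
        conjTranspose_mul, conjTranspose_conjTranspose, conjTranspose_one, Matrix.mul_assoc]
    have e2 : ∀ X : Matrix I J ℂ, Pᴴ * (P * X) = X := fun X => by
      rw [← Matrix.mul_assoc, hP, Matrix.one_mul]
    have e3 : ∀ X : Matrix I J ℂ, Uᴴ * (U * X) = X := fun X => by
      rw [← Matrix.mul_assoc, hU, Matrix.one_mul]
    rw [e1]
    simp only [Matrix.add_mul, Matrix.mul_add, Matrix.sub_mul, Matrix.mul_sub, Matrix.mul_one,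
      Matrix.one_mul, Matrix.mul_assoc, e2, e3]
    abel
  · rw [Matrix.add_mul, Matrix.sub_mul, Matrix.one_mul, Matrix.mul_assoc, Matrix.mul_assoc P Pᴴ P,
      hP, Matrix.mul_one, Matrix.mul_one, sub_self, add_zero]

theorem AD2_core {A B E s₁ s₁' : Type} [Fintype A] [DecidableEq A] [Fintype B] [DecidableEq B]
    [Fintype E] [Fintype s₁] [Fintype s₁'] [DecidableEq s₁] [DecidableEq s₁']
    (G : Matrix (A × B) E ℂ) (k₁ : ZMod 2 → Matrix s₁ A ℂ)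
    (l₁ : ZMod 2 → Matrix s₁' B ℂ) (U : Matrix (s₁ × s₁') (s₁ × s₁') ℂ) (hU : Uᴴ * U = 1)
    (ps pd F : ℝ) (h0 : ∀ x, hs ((k₁ x ⊗ₖ l₁ x) * G) = ps)
    (h1 : ∀ x, hs ((k₁ x ⊗ₖ l₁ (x + 1)) * G) = pd)
    (hF : hsInner ((k₁ 0 ⊗ₖ l₁ 0) * G) (U * ((k₁ 1 ⊗ₖ l₁ 1) * G)) = (F : ℂ)) :
    ∃ (S S' : Type) (_ : Fintype S) (_ : Fintype S') (_ : DecidableEq S) (_ : DecidableEq S')
      (k : Option (ZMod 2) → Matrix S A ℂ)
      (l : Option (ZMod 2) → Matrix S' B ℂ)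
      (V : Matrix (S × S') (S × S') ℂ) (c : ℝ), 0 < c ∧
      (∑ x, (k x)ᴴ * k x = 1) ∧ (∑ x, (l x)ᴴ * l x = 1) ∧ Vᴴ * V = 1 ∧
      (∀ x : ZMod 2, hs ((k (some x) ⊗ₖ l (some x)) * G) = c * ps) ∧
      (∀ x : ZMod 2, hs ((k (some x) ⊗ₖ l (some (x + 1))) * G) = c * pd) ∧
      hsInner ((k (some 0) ⊗ₖ l (some 0)) * G) (V * ((k (some 1) ⊗ₖ l (some 1)) * G)) =
          ((c * F : ℝ) : ℂ) := by
  obtain ⟨κ, M, hκ, hM⟩ := exists_compl k₁
  obtain ⟨κ', M', hκ', hM'⟩ := exists_compl l₁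
  obtain ⟨V, hV, hVP⟩ := AD2_V (AD2_P s₁ s₁' A B) (AD2_PP s₁ s₁' A B) U hU
  have hkl : ∀ x y : ZMod 2, (Matrix.fromRows ((κ : ℂ) • k₁ x) (0 : Matrix A A ℂ)) ⊗ₖ
      (Matrix.fromRows ((κ' : ℂ) • l₁ y) (0 : Matrix B B ℂ)) * G =
      ((κ * κ' : ℝ) : ℂ) • (AD2_P s₁ s₁' A B * ((k₁ x ⊗ₖ l₁ y) * G)) := by
    intro x y
    rw [AD2_kr, Matrix.smul_mul, Matrix.mul_assoc]
  have hhs : ∀ x y : ZMod 2, hs ((Matrix.fromRows ((κ : ℂ) • k₁ x) (0 : Matrix A A ℂ)) ⊗ₖ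
      (Matrix.fromRows ((κ' : ℂ) • l₁ y) (0 : Matrix B B ℂ)) * G) =
      (κ * κ') ^ 2 * hs ((k₁ x ⊗ₖ l₁ y) * G) := by
    intro x y
    have h : ((hs ((Matrix.fromRows ((κ : ℂ) • k₁ x) (0 : Matrix A A ℂ)) ⊗ₖ
      (Matrix.fromRows ((κ' : ℂ) • l₁ y) (0 : Matrix B B ℂ)) * G) : ℝ) : ℂ) =
      (((κ * κ') ^ 2 * hs ((k₁ x ⊗ₖ l₁ y) * G) : ℝ) : ℂ) := by
      rw [AD2_hs, hkl, AD2_smul, AD2_iso _ (AD2_PP s₁ s₁' A B), ← AD2_hs, Complex.ofReal_mul]
    exact_mod_cast h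
  refine ⟨s₁ ⊕ A, s₁' ⊕ B, inferInstance, inferInstance, inferInstance, inferInstance,
    fun x => Option.elim x (Matrix.fromRows (0 : Matrix s₁ A ℂ) M)
        (fun x => Matrix.fromRows ((κ : ℂ) • k₁ x) (0 : Matrix A A ℂ)),
    fun x => Option.elim x (Matrix.fromRows (0 : Matrix s₁' B ℂ) M')
        (fun x => Matrix.fromRows ((κ' : ℂ) • l₁ x) (0 : Matrix B B ℂ)), V, (κ * κ') ^ 2,
    by positivity, AD2_sum κ k₁ M hM, AD2_sum κ' l₁ M' hM', hV, fun x => ?_, fun x => ?_, ?_⟩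
  · simp only [Option.elim]
    rw [hhs, h0]
  · simp only [Option.elim]
    rw [hhs, h1]
  · simp only [Option.elim]
    rw [hkl, hkl, Matrix.mul_smul, ← Matrix.mul_assoc V, hVP,
      Matrix.mul_assoc (AD2_P s₁ s₁' A B) U, AD2_smul,
      AD2_iso _ (AD2_PP s₁ s₁' A B), hF, Complex.ofReal_mul]

theorem AD2_uN_one {s s' : Type} [DecidableEq s] [DecidableEq s'] (N : ℕ) :
    uN N (1 : Matrix (s × s') (s × s') ℂ) = 1 := by
  ext p q
  unfold uN
  rw [Matrix.of_apply, Matrix.one_apply]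
  by_cases h : p = q
  · rw [if_pos h, h]
    refine Finset.prod_eq_one fun i _ => ?_
    rw [Matrix.one_apply_eq]
  · rw [if_neg h]
    have h2 : ∃ i, (p.1 i, p.2 i) ≠ (q.1 i, q.2 i) := by
      by_contra hc
      push Not at hc
      apply h
      refine Prod.ext (funext fun i => ?_) (funext fun i => ?_)
      · exact congrArg Prod.fst (hc i)
      · exact congrArg Prod.snd (hc i)
    obtain ⟨i, hi⟩ := h2
    exact Finset.prod_eq_zero (Finset.mem_univ i) (Matrix.one_apply_ne hi)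

theorem AD2_hsN {a b e s s' ι₀ : Type} [Fintype a] [DecidableEq a] [Fintype b] [DecidableEq b]
    [Fintype e] [Fintype s] [Fintype s'] [DecidableEq s] [DecidableEq s'] [Fintype ι₀]
    [DecidableEq ι₀] (R : Matrix (a × b) e ℂ) (k : Matrix s (ι₀ → a) ℂ)
    (l : Matrix s' (ι₀ → b) ℂ) (N : ℕ) :
    hs ((kN N k ⊗ₖ kN N l) * copiesOn R (Fin N × ι₀)) = (hs ((k ⊗ₖ l) * copiesOn R ι₀)) ^ N := by
  have h := hsInner_kN R k k l l (1 : Matrix (s × s') (s × s') ℂ) N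
  rw [AD2_uN_one, Matrix.one_mul, Matrix.one_mul, ← AD2_hs, ← AD2_hs] at h
  exact_mod_cast h

/-- AD2. Advantage distillation. New shields `S = (Fin N → s) ⊕ (Fin N × ι₀ → a)` and `S'` similarly;
`k (some x)` has the block `κ kN N (k₀ x)` in the first summand, `k none` the block `M` of AD0 in
the second one; `V` is `uN N U` on `inl × inl` and the identity elsewhere;
`c = (κ_A κ_B)^2`. -/
theorem adv_dist {a b e s s' ι₀ : Type} [Fintype a] [DecidableEq a] [Fintype b] [DecidableEq b]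
    [Fintype e] [Fintype s] [Fintype s'] [DecidableEq s] [DecidableEq s'] [Fintype ι₀]
    [DecidableEq ι₀] (R : Matrix (a × b) e ℂ) (k₀ : ZMod 2 → Matrix s (ι₀ → a) ℂ)
    (l₀ : ZMod 2 → Matrix s' (ι₀ → b) ℂ) (U : Matrix (s × s') (s × s') ℂ) (hU : Uᴴ * U = 1)
    (ps pd F : ℝ) (h0 : ∀ x, hs ((k₀ x ⊗ₖ l₀ x) * copiesOn R ι₀) = ps)
    (h1 : ∀ x, hs ((k₀ x ⊗ₖ l₀ (x + 1)) * copiesOn R ι₀) = pd)
    (hF : hsInner ((k₀ 0 ⊗ₖ l₀ 0) * copiesOn R ι₀) (U * ((k₀ 1 ⊗ₖ l₀ 1) * copiesOn R ι₀)) =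
      (F : ℂ)) (N : ℕ) :
    ∃ (S S' : Type) (_ : Fintype S) (_ : Fintype S') (_ : DecidableEq S) (_ : DecidableEq S')
      (k : Option (ZMod 2) → Matrix S (Fin N × ι₀ → a) ℂ)
      (l : Option (ZMod 2) → Matrix S' (Fin N × ι₀ → b) ℂ)
      (V : Matrix (S × S') (S × S') ℂ) (c : ℝ), 0 < c ∧
      (∑ x, (k x)ᴴ * k x = 1) ∧ (∑ x, (l x)ᴴ * l x = 1) ∧ Vᴴ * V = 1 ∧
      (∀ x : ZMod 2, hs ((k (some x) ⊗ₖ l (some x)) * copiesOn R (Fin N × ι₀)) = c * ps ^ N) ∧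
      (∀ x : ZMod 2, hs ((k (some x) ⊗ₖ l (some (x + 1))) * copiesOn R (Fin N × ι₀)) =
        c * pd ^ N) ∧
      hsInner ((k (some 0) ⊗ₖ l (some 0)) * copiesOn R (Fin N × ι₀))
        (V * ((k (some 1) ⊗ₖ l (some 1)) * copiesOn R (Fin N × ι₀))) =
          ((c * F ^ N : ℝ) : ℂ) := by
  refine AD2_core (copiesOn R (Fin N × ι₀)) (fun x => kN N (k₀ x)) (fun x => kN N (l₀ x))
    (uN N U) (uN_isometry N U hU) (ps ^ N) (pd ^ N) (F ^ N) (fun x => ?_) (fun x => ?_) ?_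
  · rw [AD2_hsN, h0]
  · rw [AD2_hsN, h1]
  · rw [hsInner_kN, hF, Complex.ofReal_pow]

end Vale.Agent.P372Q
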