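import Vale.Agent.P372Q.Code

open Matrix Finset Filter Topology
open scoped Kronecker ComplexOrder BigOperators

namespace Vale.Agent.P372Q

theorem avgc_fiber {X V : Type*} [AddGroup X] [Fintype X] [AddGroup V] [Fintype V] [DecidableEq V]
    (f : X →+ V) (hf : Function.Surjective f) (v : V) :
    Fintype.card V * (univ.filter fun x : X => f x = v).card = Fintype.card X := by
  classical
  have h1 : Fintype.card X = ∑ w : V, (univ.filter fun x : X => f x = w).card := by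
    rw [← Finset.card_univ]
    exact Finset.card_eq_sum_card_fiberwise (fun x _ => Finset.mem_coe.2 (Finset.mem_univ _))
  have h2 : ∀ w : V, (univ.filter fun x : X => f x = w).card =
      (univ.filter fun x : X => f x = v).card := fun w =>
    AddMonoidHom.card_fiber_eq_of_mem_range f (hf w) (hf v)
  rw [h1, Finset.sum_congr rfl fun w _ => h2 w, Finset.sum_const, Finset.card_univ, smul_eq_mul]

/-- AVGC. For a nonzero `c` the vector `c ᵥ* Θ` is uniformly distributed when `Θ` is. -/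
theorem card_vecMul {m d : ℕ} (c : Fin d → ZMod 2) (hc : c ≠ 0) (v : Fin m → ZMod 2) :
    (2 : ℝ) ^ m * ((univ.filter fun Θ : Matrix (Fin d) (Fin m) (ZMod 2) => c ᵥ* Θ = v).card : ℝ) =
      (Fintype.card (Matrix (Fin d) (Fin m) (ZMod 2)) : ℝ) := by
  classical
  let f : Matrix (Fin d) (Fin m) (ZMod 2) →+ (Fin m → ZMod 2) :=
    { toFun := fun Θ => c ᵥ* Θ
      map_zero' := Matrix.vecMul_zero c
      map_add' := fun A B => Matrix.vecMul_add A B c }
  have hf : Function.Surjective f := by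
    intro w
    obtain ⟨i, hi⟩ : ∃ i, c i ≠ 0 := by
      by_contra h
      push Not at h
      exact hc (funext h)
    have hi1 : c i = 1 := by
      have : ∀ a : ZMod 2, a ≠ 0 → a = 1 := by decide
      exact this _ hi
    refine ⟨Matrix.of fun j k => if j = i then w k else 0, ?_⟩
    show c ᵥ* (Matrix.of fun j k => if j = i then w k else 0) = w
    funext k
    rw [Matrix.vecMul, dotProduct]
    simp [hi1]
  have h1 := avgc_fiber f hf v
  have h2 : Fintype.card (Fin m → ZMod 2) = 2 ^ m := by simp [ZMod.card]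
  rw [h2] at h1
  exact_mod_cast h1

/-- AVGR. For a nonzero `z` the syndrome `S z` is uniformly distributed. -/
theorem card_mulVec {m r : ℕ} (z : Fin m → ZMod 2) (hz : z ≠ 0) :
    (2 : ℝ) ^ r * ((univ.filter fun S : Matrix (Fin r) (Fin m) (ZMod 2) => S *ᵥ z = 0).card : ℝ) =
      (Fintype.card (Matrix (Fin r) (Fin m) (ZMod 2)) : ℝ) := by
  classical
  let f : Matrix (Fin r) (Fin m) (ZMod 2) →+ (Fin r → ZMod 2) :=
    { toFun := fun S => S *ᵥ z
      map_zero' := Matrix.zero_mulVec z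
      map_add' := fun A B => Matrix.add_mulVec A B z }
  have hf : Function.Surjective f := by
    intro w
    obtain ⟨i, hi⟩ : ∃ i, z i ≠ 0 := by
      by_contra h
      push Not at h
      exact hz (funext h)
    have hi1 : z i = 1 := by
      have : ∀ a : ZMod 2, a ≠ 0 → a = 1 := by decide
      exact this _ hi
    refine ⟨Matrix.of fun j k => if k = i then w j else 0, ?_⟩
    show (Matrix.of fun j k => if k = i then w j else 0) *ᵥ z = w
    funext k
    rw [Matrix.mulVec, dotProduct]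
    simp [hi1]
  have h1 := avgc_fiber f hf 0
  have h2 : Fintype.card (Fin r → ZMod 2) = 2 ^ r := by simp [ZMod.card]
  rw [h2] at h1
  exact_mod_cast h1

theorem avg1_unif {m d : ℕ} (c : Fin d → ZMod 2) (hc : c ≠ 0) (G : (Fin m → ZMod 2) → ℝ) :
    (2 : ℝ) ^ m * ∑ Θ : Matrix (Fin d) (Fin m) (ZMod 2), G (c ᵥ* Θ) =
      (Fintype.card (Matrix (Fin d) (Fin m) (ZMod 2)) : ℝ) * ∑ w, G w := by
  have h : ∑ Θ : Matrix (Fin d) (Fin m) (ZMod 2), G (c ᵥ* Θ) =
      ∑ v, ((univ.filter fun Θ : Matrix (Fin d) (Fin m) (ZMod 2) => c ᵥ* Θ = v).card : ℝ) *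
        G v := by
    rw [← Finset.sum_fiberwise univ (fun Θ : Matrix (Fin d) (Fin m) (ZMod 2) => c ᵥ* Θ)]
    refine Finset.sum_congr rfl fun v _ => ?_
    rw [Finset.sum_congr rfl (g := fun _ => G v)
      (fun Θ hΘ => by rw [(Finset.mem_filter.1 hΘ).2]), Finset.sum_const, nsmul_eq_mul]
  rw [h, Finset.mul_sum, Finset.mul_sum]
  refine Finset.sum_congr rfl fun v _ => ?_
  rw [← mul_assoc, card_vecMul c hc v]

theorem avg1_pair {m ℓ r : ℕ} (c₁ : Fin ℓ → ZMod 2) (c₂ : Fin r → ZMod 2) (hc : c₁ ≠ 0 ∨ c₂ ≠ 0)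
    (G : (Fin m → ZMod 2) → ℝ) :
    (2 : ℝ) ^ m * ∑ H : Matrix (Fin ℓ) (Fin m) (ZMod 2), ∑ S : Matrix (Fin r) (Fin m) (ZMod 2),
      G (c₁ ᵥ* H + c₂ ᵥ* S) =
      (Fintype.card (Matrix (Fin ℓ) (Fin m) (ZMod 2)) : ℝ) *
      (Fintype.card (Matrix (Fin r) (Fin m) (ZMod 2)) : ℝ) * ∑ w, G w := by
  have key : ∀ {d : ℕ} (c : Fin d → ZMod 2) (u : Fin m → ZMod 2), c ≠ 0 →
      (2 : ℝ) ^ m * ∑ Θ : Matrix (Fin d) (Fin m) (ZMod 2), G (c ᵥ* Θ + u) =
      (Fintype.card (Matrix (Fin d) (Fin m) (ZMod 2)) : ℝ) * ∑ w, G w := by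
    intro d c u hc
    rw [avg1_unif c hc fun w => G (w + u)]
    congr 1
    exact Equiv.sum_comp (Equiv.addRight u) G
  by_cases h1 : c₁ = 0
  · have h2 : c₂ ≠ 0 := by tauto
    subst h1
    rw [Finset.mul_sum]
    have h3 : ∀ H : Matrix (Fin ℓ) (Fin m) (ZMod 2),
        (2 : ℝ) ^ m * ∑ S : Matrix (Fin r) (Fin m) (ZMod 2), G ((0 : Fin ℓ → ZMod 2) ᵥ* H + c₂ ᵥ* S) =
        (Fintype.card (Matrix (Fin r) (Fin m) (ZMod 2)) : ℝ) * ∑ w, G w := by
      intro H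
      have := key c₂ 0 h2
      simp only [add_zero] at this
      simp only [Matrix.zero_vecMul, zero_add]
      exact this
    rw [Finset.sum_congr rfl fun H _ => h3 H, Finset.sum_const, nsmul_eq_mul, Finset.card_univ]
    ring
  · rw [Finset.sum_comm, Finset.mul_sum,
      Finset.sum_congr rfl fun S _ => key c₁ (c₂ ᵥ* S) h1, Finset.sum_const, nsmul_eq_mul,
      Finset.card_univ]
    ring

theorem avg1_two (f : ZMod 2 → ℝ) : ∑ b, f b = f 0 + f 1 := Fin.sum_univ_two f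

theorem avg1_sqrt {m : ℕ} (x : Fin m → ℝ) (hx : ∀ i, 0 ≤ x i) :
    √(∏ i, x i) = ∏ i, √(x i) := by
  rw [Real.sqrt_eq_iff_mul_self_eq (Finset.prod_nonneg fun i _ => hx i)
    (Finset.prod_nonneg fun i _ => Real.sqrt_nonneg _), ← Finset.prod_mul_distrib]
  exact Finset.prod_congr rfl fun i _ => (Real.mul_self_sqrt (hx i)).symm

theorem avg1_mask {m : ℕ} {ω : Lab → ZMod 2 → ℝ} (hω : IsWeight ω) (l : Fin m → Lab)
    (k : Fin m → ZMod 2) :
    (∏ i, mult (l i)) * ∑ w : Fin m → ZMod 2, √(∏ i, ω (l i) ((k + mask l w) i)) ≤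
      2 ^ m * ∏ i, (√(ω (l i) 0) + √(ω (l i) 1)) := by
  have h1 : ∀ w : Fin m → ZMod 2, √(∏ i, ω (l i) ((k + mask l w) i)) =
      ∏ i, √(ω (l i) (k i + if act (l i) = true then w i else 0)) := fun w => by
    rw [avg1_sqrt _ fun i => hω.nonneg _ _]
    rfl
  rw [Finset.sum_congr rfl fun w _ => h1 w]
  have h2 : ∑ w : Fin m → ZMod 2, ∏ i, √(ω (l i) (k i + if act (l i) = true then w i else 0)) =
      ∏ i, ∑ b : ZMod 2, √(ω (l i) (k i + if act (l i) = true then b else 0)) := by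
    rw [Finset.prod_univ_sum]
    simp only [Fintype.piFinset_univ]
  rw [h2, ← Finset.prod_mul_distrib]
  have h3 : (2 : ℝ) ^ m = ∏ _i : Fin m, (2 : ℝ) := by simp
  rw [h3, ← Finset.prod_mul_distrib]
  refine Finset.prod_le_prod (fun i _ => ?_) fun i _ => ?_
  · refine mul_nonneg ?_ (Finset.sum_nonneg fun _ _ => Real.sqrt_nonneg _)
    unfold mult
    split_ifs <;> norm_num
  · rw [avg1_two]
    have hk : ∀ a : ZMod 2, a = 0 ∨ a = 1 := by decide
    have h11 : (1 : ZMod 2) + 1 = 0 := by decide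
    have hs0 := Real.sqrt_nonneg (ω (l i) 0)
    have hs1 := Real.sqrt_nonneg (ω (l i) 1)
    by_cases ha : act (l i) = true
    · simp only [ha, if_true, mult, add_zero]
      rcases hk (k i) with h | h <;> rw [h]
      · rw [zero_add]
      · rw [h11, add_comm]
    · simp only [ha, mult]
      rcases hk (k i) with h | h <;> rw [h] <;> simp <;> linarith

theorem avg1_F {m : ℕ} {ω : Lab → ZMod 2 → ℝ} (hω : IsWeight ω) (l : Fin m → Lab) :
    ∑ k : Fin m → ZMod 2, √(∏ i, ω (l i) (k i)) = ∏ i, (√(ω (l i) 0) + √(ω (l i) 1)) := by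
  rw [Finset.sum_congr rfl fun k _ => avg1_sqrt (fun i => ω (l i) (k i)) fun i => hω.nonneg _ _]
  have : ∏ i, (√(ω (l i) 0) + √(ω (l i) 1)) = ∏ i, ∑ b : ZMod 2, √(ω (l i) b) :=
    Finset.prod_congr rfl fun i _ => (avg1_two fun b => √(ω (l i) b)).symm
  rw [this, Finset.prod_univ_sum]
  simp only [Fintype.piFinset_univ]

open Classical in
theorem avg1_bad {m ℓ r : ℕ} {ω : Lab → ZMod 2 → ℝ} (hω : IsWeight ω)
    (H : Matrix (Fin ℓ) (Fin m) (ZMod 2)) (S : Matrix (Fin r) (Fin m) (ZMod 2))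
    (l : Fin m → Lab) (k : Fin m → ZMod 2) :
    (if Bad ω H S l k then (∏ i, mult (l i)) * ∏ i, ω (l i) (k i) else 0) ≤
      ∑ c : (Fin ℓ → ZMod 2) × (Fin r → ZMod 2), if c.1 ≠ 0 ∨ c.2 ≠ 0 then
        √(∏ i, ω (l i) (k i)) * ((∏ i, mult (l i)) *
          √(∏ i, ω (l i) ((k + mask l (c.1 ᵥ* H + c.2 ᵥ* S)) i))) else 0 := by
  have hM : 0 ≤ ∏ i, mult (l i) := Finset.prod_nonneg fun i _ => by
    unfold mult
    split_ifs <;> norm_num
  have hnn : ∀ c : (Fin ℓ → ZMod 2) × (Fin r → ZMod 2), 0 ≤ (if c.1 ≠ 0 ∨ c.2 ≠ 0 then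
        √(∏ i, ω (l i) (k i)) * ((∏ i, mult (l i)) *
          √(∏ i, ω (l i) ((k + mask l (c.1 ᵥ* H + c.2 ᵥ* S)) i))) else 0) := by
    intro c
    split_ifs
    · exact mul_nonneg (Real.sqrt_nonneg _) (mul_nonneg hM (Real.sqrt_nonneg _))
    · exact le_rfl
  by_cases hb : Bad ω H S l k
  · rw [if_pos hb]
    obtain ⟨c₁, c₂, hc, hle⟩ := hb
    refine le_trans ?_ (Finset.single_le_sum (fun c _ => hnn c) (Finset.mem_univ (c₁, c₂)))
    simp only
    rw [if_pos hc]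
    have hF : 0 ≤ ∏ i, ω (l i) (k i) := Finset.prod_nonneg fun i _ => hω.nonneg _ _
    have h1 : √(∏ i, ω (l i) (k i)) ≤
        √(∏ i, ω (l i) ((k + mask l (c₁ ᵥ* H + c₂ ᵥ* S)) i)) := Real.sqrt_le_sqrt hle
    have h2 : √(∏ i, ω (l i) (k i)) * √(∏ i, ω (l i) (k i)) = ∏ i, ω (l i) (k i) :=
      Real.mul_self_sqrt hF
    calc (∏ i, mult (l i)) * ∏ i, ω (l i) (k i) =
          √(∏ i, ω (l i) (k i)) * ((∏ i, mult (l i)) * √(∏ i, ω (l i) (k i))) := by
            rw [← h2, Real.sqrt_mul_self (Real.sqrt_nonneg _)]; ring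
      _ ≤ _ := by
        refine mul_le_mul_of_nonneg_left ?_ (Real.sqrt_nonneg _)
        exact mul_le_mul_of_nonneg_left h1 hM
  · rw [if_neg hb]
    exact Finset.sum_nonneg fun c _ => hnn c

/-- AVG1. Union bound over `(c₁, c₂) ≠ 0`; for a nonzero pair `c₁ ᵥ* H + c₂ ᵥ* S` is uniform (AVGC),
and `min(1, ·)`: `F k [F k ≤ F (k + d)] ≤ √(F k) √(F (k + d))` with `F k = ∏ ω (l i) (k i)`, which
vanishes unless `k` is supported on the active blocks; so the average of the `l`-term is at most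
`2^(ℓ+r) (∏ mult) 2^(-|active|) (∑_k √(F k))^2 = 2^(ℓ+r) ∏_i (√(ω (l i) 0) + √(ω (l i) 1))^2`
(`mult = 2` exactly on the active blocks). Sum over `l`. -/
theorem avg_Zbad {m : ℕ} (ℓ r : ℕ) {ω : Lab → ZMod 2 → ℝ} (hω : IsWeight ω) :
    ∑ H : Matrix (Fin ℓ) (Fin m) (ZMod 2), ∑ S : Matrix (Fin r) (Fin m) (ZMod 2), Zbad ω H S ≤
      (Fintype.card (Matrix (Fin ℓ) (Fin m) (ZMod 2)) : ℝ) *
      (Fintype.card (Matrix (Fin r) (Fin m) (ZMod 2)) : ℝ) * (2 ^ (ℓ + r) * Bc ω ^ m) := by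
  classical
  set cH : ℝ := (Fintype.card (Matrix (Fin ℓ) (Fin m) (ZMod 2)) : ℝ) with hcH
  set cS : ℝ := (Fintype.card (Matrix (Fin r) (Fin m) (ZMod 2)) : ℝ) with hcS
  have hcH0 : 0 ≤ cH := Nat.cast_nonneg _
  have hcS0 : 0 ≤ cS := Nat.cast_nonneg _
  have h2m : (0 : ℝ) < 2 ^ m := by positivity
  -- one label and one phase vector
  have step : ∀ (l : Fin m → Lab) (k : Fin m → ZMod 2),
      ∑ H : Matrix (Fin ℓ) (Fin m) (ZMod 2), ∑ S : Matrix (Fin r) (Fin m) (ZMod 2),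
        (if Bad ω H S l k then (∏ i, mult (l i)) * ∏ i, ω (l i) (k i) else 0) ≤
      2 ^ (ℓ + r) * (cH * cS * ∏ i, (√(ω (l i) 0) + √(ω (l i) 1))) *
        √(∏ i, ω (l i) (k i)) := by
    intro l k
    have hP : 0 ≤ ∏ i, (√(ω (l i) 0) + √(ω (l i) 1)) := Finset.prod_nonneg fun i _ =>
      add_nonneg (Real.sqrt_nonneg _) (Real.sqrt_nonneg _)
    have e1 : ∑ H : Matrix (Fin ℓ) (Fin m) (ZMod 2), ∑ S : Matrix (Fin r) (Fin m) (ZMod 2),
        (if Bad ω H S l k then (∏ i, mult (l i)) * ∏ i, ω (l i) (k i) else 0) ≤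
        ∑ H : Matrix (Fin ℓ) (Fin m) (ZMod 2), ∑ S : Matrix (Fin r) (Fin m) (ZMod 2),
        ∑ c : (Fin ℓ → ZMod 2) × (Fin r → ZMod 2), if c.1 ≠ 0 ∨ c.2 ≠ 0 then
        √(∏ i, ω (l i) (k i)) * ((∏ i, mult (l i)) *
          √(∏ i, ω (l i) ((k + mask l (c.1 ᵥ* H + c.2 ᵥ* S)) i))) else 0 :=
      Finset.sum_le_sum fun H _ => Finset.sum_le_sum fun S _ => avg1_bad hω H S l k
    have e2 : (∑ H : Matrix (Fin ℓ) (Fin m) (ZMod 2), ∑ S : Matrix (Fin r) (Fin m) (ZMod 2),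
        ∑ c : (Fin ℓ → ZMod 2) × (Fin r → ZMod 2), if c.1 ≠ 0 ∨ c.2 ≠ 0 then
        √(∏ i, ω (l i) (k i)) * ((∏ i, mult (l i)) *
          √(∏ i, ω (l i) ((k + mask l (c.1 ᵥ* H + c.2 ᵥ* S)) i))) else 0) =
        ∑ c : (Fin ℓ → ZMod 2) × (Fin r → ZMod 2),
        ∑ H : Matrix (Fin ℓ) (Fin m) (ZMod 2), ∑ S : Matrix (Fin r) (Fin m) (ZMod 2),
        if c.1 ≠ 0 ∨ c.2 ≠ 0 then
        √(∏ i, ω (l i) (k i)) * ((∏ i, mult (l i)) *
          √(∏ i, ω (l i) ((k + mask l (c.1 ᵥ* H + c.2 ᵥ* S)) i))) else 0 := by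
      rw [Finset.sum_congr rfl fun H _ => Finset.sum_comm, Finset.sum_comm]
    have e3 : ∀ c : (Fin ℓ → ZMod 2) × (Fin r → ZMod 2),
        (∑ H : Matrix (Fin ℓ) (Fin m) (ZMod 2), ∑ S : Matrix (Fin r) (Fin m) (ZMod 2),
        if c.1 ≠ 0 ∨ c.2 ≠ 0 then
        √(∏ i, ω (l i) (k i)) * ((∏ i, mult (l i)) *
          √(∏ i, ω (l i) ((k + mask l (c.1 ᵥ* H + c.2 ᵥ* S)) i))) else 0) ≤
        (cH * cS * ∏ i, (√(ω (l i) 0) + √(ω (l i) 1))) * √(∏ i, ω (l i) (k i)) := by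
      intro c
      by_cases hc : c.1 ≠ 0 ∨ c.2 ≠ 0
      · simp only [if_pos hc, ← Finset.mul_sum]
        rw [mul_comm (√_)]
        refine mul_le_mul_of_nonneg_right ?_ (Real.sqrt_nonneg _)
        have h1 := avg1_pair (m := m) c.1 c.2 hc fun w => √(∏ i, ω (l i) ((k + mask l w) i))
        have h2 := avg1_mask hω l k
        have h3 : 2 ^ m * ((∏ i, mult (l i)) *
            ∑ H : Matrix (Fin ℓ) (Fin m) (ZMod 2), ∑ S : Matrix (Fin r) (Fin m) (ZMod 2),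
              √(∏ i, ω (l i) ((k + mask l (c.1 ᵥ* H + c.2 ᵥ* S)) i))) ≤
            2 ^ m * (cH * cS * ∏ i, (√(ω (l i) 0) + √(ω (l i) 1))) := by
          calc _ = (∏ i, mult (l i)) * (2 ^ m *
            ∑ H : Matrix (Fin ℓ) (Fin m) (ZMod 2), ∑ S : Matrix (Fin r) (Fin m) (ZMod 2),
              √(∏ i, ω (l i) ((k + mask l (c.1 ᵥ* H + c.2 ᵥ* S)) i))) := by ring
            _ = cH * cS * ((∏ i, mult (l i)) *
                ∑ w : Fin m → ZMod 2, √(∏ i, ω (l i) ((k + mask l w) i))) := by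
                  rw [h1]; ring
            _ ≤ cH * cS * (2 ^ m * ∏ i, (√(ω (l i) 0) + √(ω (l i) 1))) :=
                  mul_le_mul_of_nonneg_left h2 (mul_nonneg hcH0 hcS0)
            _ = _ := by ring
        exact le_of_mul_le_mul_left h3 h2m
      · simp only [if_neg hc, Finset.sum_const_zero]
        exact mul_nonneg (mul_nonneg (mul_nonneg hcH0 hcS0) hP) (Real.sqrt_nonneg _)
    refine (e1.trans (le_of_eq e2)).trans ?_
    refine (Finset.sum_le_sum fun c _ => e3 c).trans ?_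
    rw [Finset.sum_const, Finset.card_univ, nsmul_eq_mul]
    have hcard : ((Fintype.card ((Fin ℓ → ZMod 2) × (Fin r → ZMod 2)) : ℕ) : ℝ) = 2 ^ (ℓ + r) := by
      rw [Fintype.card_prod, Fintype.card_fun, Fintype.card_fun, ZMod.card, Fintype.card_fin,
        Fintype.card_fin]
      push_cast
      rw [pow_add]
    rw [hcard, ← mul_assoc]
  have swap : ∑ H : Matrix (Fin ℓ) (Fin m) (ZMod 2), ∑ S : Matrix (Fin r) (Fin m) (ZMod 2),
      Zbad ω H S = ∑ l : Fin m → Lab, ∑ k : Fin m → ZMod 2,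
      ∑ H : Matrix (Fin ℓ) (Fin m) (ZMod 2), ∑ S : Matrix (Fin r) (Fin m) (ZMod 2),
        (if Bad ω H S l k then (∏ i, mult (l i)) * ∏ i, ω (l i) (k i) else 0) := by
    unfold Zbad
    have a1 : ∀ H : Matrix (Fin ℓ) (Fin m) (ZMod 2), (∑ S : Matrix (Fin r) (Fin m) (ZMod 2),
        ∑ l : Fin m → Lab, ∑ k : Fin m → ZMod 2,
        (if Bad ω H S l k then (∏ i, mult (l i)) * ∏ i, ω (l i) (k i) else 0)) =
        ∑ l : Fin m → Lab, ∑ k : Fin m → ZMod 2, ∑ S : Matrix (Fin r) (Fin m) (ZMod 2),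
        (if Bad ω H S l k then (∏ i, mult (l i)) * ∏ i, ω (l i) (k i) else 0) := by
      intro H
      rw [Finset.sum_comm]
      exact Finset.sum_congr rfl fun l _ => Finset.sum_comm
    rw [Finset.sum_congr rfl fun H _ => a1 H, Finset.sum_comm]
    exact Finset.sum_congr rfl fun l _ => Finset.sum_comm
  rw [swap]
  have fin1 : ∀ l : Fin m → Lab, ∑ k : Fin m → ZMod 2,
      2 ^ (ℓ + r) * (cH * cS * ∏ i, (√(ω (l i) 0) + √(ω (l i) 1))) *
        √(∏ i, ω (l i) (k i)) =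
      2 ^ (ℓ + r) * (cH * cS) * ∏ i, (√(ω (l i) 0) + √(ω (l i) 1)) ^ 2 := by
    intro l
    rw [← Finset.mul_sum, avg1_F hω l, Finset.prod_pow]
    ring
  calc _ ≤ ∑ l : Fin m → Lab, ∑ k : Fin m → ZMod 2,
      2 ^ (ℓ + r) * (cH * cS * ∏ i, (√(ω (l i) 0) + √(ω (l i) 1))) *
        √(∏ i, ω (l i) (k i)) :=
        Finset.sum_le_sum fun l _ => Finset.sum_le_sum fun k _ => step l k
    _ = ∑ l : Fin m → Lab, 2 ^ (ℓ + r) * (cH * cS) *
        ∏ i, (√(ω (l i) 0) + √(ω (l i) 1)) ^ 2 := Finset.sum_congr rfl fun l _ => fin1 l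
    _ = cH * cS * (2 ^ (ℓ + r) * Bc ω ^ m) := by
      rw [← Finset.mul_sum]
      unfold Bc
      rw [Fintype.sum_pow]
      ring

/-- AVG2 auxiliary -/
lemma AVG2_pow_wt {m : ℕ} (y : ℝ) (z : Fin m → ZMod 2) :
    y ^ wt z = ∏ i, (if z i ≠ 0 then y else 1) := by
  classical
  unfold wt
  rw [Finset.prod_ite, Finset.prod_const, Finset.prod_const_one, mul_one]

/-- AVG2 auxiliary -/
lemma AVG2_sum_supp {m : ℕ} (y : ℝ) (W : Fin m → Bool) :
    (∑ z : Fin m → ZMod 2, ∏ i, (if W i = false ∧ z i ≠ 0 then 0 else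
      if z i ≠ 0 then y else 1)) = ∏ i, (if W i = true then 1 + y else 1) := by
  classical
  have h := Finset.prod_univ_sum (fun _ : Fin m => (Finset.univ : Finset (ZMod 2)))
    (fun i b => (if W i = false ∧ b ≠ 0 then (0 : ℝ) else if b ≠ 0 then y else 1))
  rw [Fintype.piFinset_univ] at h
  rw [← h]
  refine Finset.prod_congr rfl fun i _ => ?_
  have hu : (Finset.univ : Finset (ZMod 2)) = {0, 1} := rfl
  rw [hu, Finset.sum_pair (by decide)]
  cases W i <;> simp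

open Classical in
/-- AVG2 auxiliary -/
lemma AVG2_one {m r : ℕ} {y : ℝ} (hy : 0 < y) (hy1 : y ≤ 1) (l : Fin m → Lab) :
    ((Finset.univ.filter fun S : Matrix (Fin r) (Fin m) (ZMod 2) => DecFail S l).card : ℝ) ≤
      (Fintype.card (Matrix (Fin r) (Fin m) (ZMod 2)) : ℝ) * (((2 : ℝ) ^ r)⁻¹ *
        ∏ i, (if act (l i) then (1 + y) * (if errBit (l i) = 0 then 1 else y⁻¹) else 1)) := by
  classical
  set z : Fin m → ZMod 2 := fun i => errBit (l i) with hz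
  set W : Fin m → Bool := fun i => act (l i) with hW
  have h1 : ((Finset.univ.filter fun S : Matrix (Fin r) (Fin m) (ZMod 2) => DecFail S l).card : ℝ) ≤
      ∑ S : Matrix (Fin r) (Fin m) (ZMod 2), ∑ z' : Fin m → ZMod 2,
        (if z' ≠ z ∧ Supp W z' then
          (if S *ᵥ (z' - z) = 0 then y ^ wt z' * (y⁻¹) ^ wt z else 0) else 0) := by
    rw [Finset.card_eq_sum_ones, Finset.sum_filter]
    push_cast
    refine Finset.sum_le_sum fun S _ => ?_
    have hnn : ∀ z' : Fin m → ZMod 2, 0 ≤ (if z' ≠ z ∧ Supp W z' then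
          (if S *ᵥ (z' - z) = 0 then y ^ wt z' * (y⁻¹) ^ wt z else 0) else 0) := by
      intro z'
      split_ifs <;> positivity
    split_ifs with hD
    · obtain ⟨z', hne, hs, hS, hw⟩ := hD
      refine le_trans ?_ (Finset.single_le_sum (fun z' _ => hnn z') (Finset.mem_univ z'))
      rw [if_pos ⟨hne, hs⟩, if_pos (by rw [Matrix.mulVec_sub, hS, sub_self])]
      rw [inv_pow, ← div_eq_mul_inv, one_le_div (by positivity)]
      exact pow_le_pow_of_le_one hy.le hy1 hw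
    · exact Finset.sum_nonneg fun z' _ => hnn z'
  refine h1.trans ?_
  rw [Finset.sum_comm]
  have h2 : ∀ z' : Fin m → ZMod 2, (∑ S : Matrix (Fin r) (Fin m) (ZMod 2),
        (if z' ≠ z ∧ Supp W z' then
          (if S *ᵥ (z' - z) = 0 then y ^ wt z' * (y⁻¹) ^ wt z else 0) else 0)) ≤
      (Fintype.card (Matrix (Fin r) (Fin m) (ZMod 2)) : ℝ) * (((2 : ℝ) ^ r)⁻¹ *
        ((∏ i, (if W i = false ∧ z' i ≠ 0 then 0 else if z' i ≠ 0 then y else 1)) *
          (y⁻¹) ^ wt z)) := by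
    intro z'
    by_cases hc : z' ≠ z ∧ Supp W z'
    · simp only [if_pos hc]
      rw [← Finset.sum_filter, Finset.sum_const, nsmul_eq_mul]
      have h3 := card_mulVec (r := r) (z' - z) (sub_ne_zero.mpr hc.1)
      have h4 : ((Finset.univ.filter fun S : Matrix (Fin r) (Fin m) (ZMod 2) =>
          S *ᵥ (z' - z) = 0).card : ℝ) =
          (Fintype.card (Matrix (Fin r) (Fin m) (ZMod 2)) : ℝ) * ((2 : ℝ) ^ r)⁻¹ := by
        rw [← h3]; field_simp
      rw [h4, AVG2_pow_wt y z']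
      have h5 : (∏ i, (if z' i ≠ 0 then y else 1)) =
          ∏ i, (if W i = false ∧ z' i ≠ 0 then 0 else if z' i ≠ 0 then y else 1) := by
        refine Finset.prod_congr rfl fun i _ => ?_
        by_cases hWi : W i = false ∧ z' i ≠ 0
        · exact absurd (hc.2 i hWi.1) hWi.2
        · rw [if_neg hWi]
      rw [h5]
      exact le_of_eq (by ring)
    · simp only [if_neg hc, Finset.sum_const_zero]
      have : 0 ≤ ∏ i, (if W i = false ∧ z' i ≠ 0 then 0 else if z' i ≠ 0 then y else (1 : ℝ)) :=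
        Finset.prod_nonneg fun i _ => by split_ifs <;> linarith
      positivity
  refine (Finset.sum_le_sum fun z' _ => h2 z').trans (le_of_eq ?_)
  rw [← Finset.mul_sum, ← Finset.mul_sum, ← Finset.sum_mul, AVG2_sum_supp]
  congr 2
  rw [AVG2_pow_wt, ← Finset.prod_mul_distrib]
  refine Finset.prod_congr rfl fun i _ => ?_
  simp only [hW, hz]
  rcases hl : l i with _ | _ | b
  · simp [act, errBit]
  · simp [act, errBit]
  · by_cases hb : b = 0 <;> simp [act, errBit, hb]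

/-- AVG2. Union bound over `z' ≠ z` supported on the active blocks with `wt z' ≤ wt z`
(`z` = error pattern of the label): the probability that `S (z' - z) = 0` is `2^(-r)` (AVGR) and
`[wt z' ≤ wt z] ≤ y^(wt z') y^(-wt z)`; the sum over all `z'` supported on the active blocks of
`y^(wt z')` is `(1 + y)^|active|`. -/
theorem avg_Pf {m : ℕ} (r : ℕ) {ω : Lab → ZMod 2 → ℝ} (hω : IsWeight ω) {y : ℝ} (hy : 0 < y)
    (hy1 : y ≤ 1) :
    ∑ S : Matrix (Fin r) (Fin m) (ZMod 2), Pf ω S ≤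
      (Fintype.card (Matrix (Fin r) (Fin m) (ZMod 2)) : ℝ) * (((2 : ℝ) ^ r)⁻¹ * Ac ω y ^ m) := by
  classical
  have hW : ∀ l : Fin m → Lab, 0 ≤ ∏ i, mult (l i) * (ω (l i) 0 + ω (l i) 1) := by
    intro l
    refine Finset.prod_nonneg fun i _ => mul_nonneg ?_ (add_nonneg (hω.nonneg _ _) (hω.nonneg _ _))
    unfold mult; split_ifs <;> norm_num
  unfold Pf
  rw [Finset.sum_comm]
  have h1 : ∀ l : Fin m → Lab, (∑ S : Matrix (Fin r) (Fin m) (ZMod 2),
      if DecFail S l then ∏ i, mult (l i) * (ω (l i) 0 + ω (l i) 1) else 0) ≤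
      (Fintype.card (Matrix (Fin r) (Fin m) (ZMod 2)) : ℝ) * (((2 : ℝ) ^ r)⁻¹ *
        ∏ i, (mult (l i) * (ω (l i) 0 + ω (l i) 1) *
          (if act (l i) then (1 + y) * (if errBit (l i) = 0 then 1 else y⁻¹) else 1))) := by
    intro l
    have hsplit : (∏ i, (mult (l i) * (ω (l i) 0 + ω (l i) 1) *
          (if act (l i) then (1 + y) * (if errBit (l i) = 0 then 1 else y⁻¹) else 1))) =
        (∏ i, mult (l i) * (ω (l i) 0 + ω (l i) 1)) *
        ∏ i, (if act (l i) then (1 + y) * (if errBit (l i) = 0 then 1 else y⁻¹) else 1) :=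
      Finset.prod_mul_distrib
    rw [← Finset.sum_filter, Finset.sum_const, nsmul_eq_mul, hsplit]
    calc _ ≤ ((Fintype.card (Matrix (Fin r) (Fin m) (ZMod 2)) : ℝ) * (((2 : ℝ) ^ r)⁻¹ *
        ∏ i, (if act (l i) then (1 + y) * (if errBit (l i) = 0 then 1 else y⁻¹) else 1))) *
          ∏ i, mult (l i) * (ω (l i) 0 + ω (l i) 1) :=
          mul_le_mul_of_nonneg_right (AVG2_one hy hy1 l) (hW l)
      _ = _ := by
        generalize (∏ i, mult (l i) * (ω (l i) 0 + ω (l i) 1)) = P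
        generalize (∏ i, (if act (l i) then (1 + y) * (if errBit (l i) = 0 then 1 else y⁻¹)
          else 1)) = Q
        ring
  refine (Finset.sum_le_sum fun l _ => h1 l).trans (le_of_eq ?_)
  rw [← Finset.mul_sum, ← Finset.mul_sum]
  congr 2
  have h := Finset.prod_univ_sum (fun _ : Fin m => (Finset.univ : Finset Lab))
    (fun _ l => mult l * (ω l 0 + ω l 1) *
          (if act l then (1 + y) * (if errBit l = 0 then 1 else y⁻¹) else 1))
  rw [Fintype.piFinset_univ] at h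
  rw [← h, Finset.prod_const, Finset.card_univ, Fintype.card_fin]
  rfl

private theorem EXI_Zbad_nonneg {m ℓ r : ℕ} {ω : Lab → ZMod 2 → ℝ} (hω : IsWeight ω)
    (H : Matrix (Fin ℓ) (Fin m) (ZMod 2)) (S : Matrix (Fin r) (Fin m) (ZMod 2)) :
    0 ≤ Zbad ω H S := by
  classical
  unfold Zbad
  refine Finset.sum_nonneg fun l _ => Finset.sum_nonneg fun k _ => ?_
  split_ifs
  · refine mul_nonneg (Finset.prod_nonneg fun i _ => ?_)
      (Finset.prod_nonneg fun i _ => hω.nonneg _ _)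
    unfold mult
    split_ifs <;> norm_num
  · exact le_rfl

/-- EXI. Choose `H`, `S` with at most the average of `4 √Zbad + 2 Pf`, using
`average of √Zbad ≤ √(average of Zbad)`. -/
theorem exists_code {m : ℕ} (ℓ r : ℕ) {ω : Lab → ZMod 2 → ℝ} (hω : IsWeight ω) {y : ℝ}
    (hy : 0 < y) (hy1 : y ≤ 1) :
    ∃ (H : Matrix (Fin ℓ) (Fin m) (ZMod 2)) (S : Matrix (Fin r) (Fin m) (ZMod 2)),
      4 * √(Zbad ω H S) + 2 * Pf ω S ≤
        4 * √(2 ^ (ℓ + r) * Bc ω ^ m) + 2 * (((2 : ℝ) ^ r)⁻¹ * Ac ω y ^ m) := by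
  classical
  by_contra hcon
  push Not at hcon
  have hNH : (0 : ℝ) < (Fintype.card (Matrix (Fin ℓ) (Fin m) (ZMod 2)) : ℝ) :=
    Nat.cast_pos.mpr Fintype.card_pos
  have hNS : (0 : ℝ) < (Fintype.card (Matrix (Fin r) (Fin m) (ZMod 2)) : ℝ) :=
    Nat.cast_pos.mpr Fintype.card_pos
  have hZ := avg_Zbad (m := m) ℓ r hω
  have hP := avg_Pf (m := m) r hω hy hy1
  generalize hB : (2 : ℝ) ^ (ℓ + r) * Bc ω ^ m = B at hcon hZ
  generalize hA : ((2 : ℝ) ^ r)⁻¹ * Ac ω y ^ m = A at hcon hP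
  have h1 : ∑ _H : Matrix (Fin ℓ) (Fin m) (ZMod 2), ∑ _S : Matrix (Fin r) (Fin m) (ZMod 2),
      (4 * √B + 2 * A) < ∑ H : Matrix (Fin ℓ) (Fin m) (ZMod 2),
        ∑ S : Matrix (Fin r) (Fin m) (ZMod 2), (4 * √(Zbad ω H S) + 2 * Pf ω S) :=
    Finset.sum_lt_sum_of_nonempty univ_nonempty fun H _ =>
      Finset.sum_lt_sum_of_nonempty univ_nonempty fun S _ => hcon H S
  have h3 : ∑ H : Matrix (Fin ℓ) (Fin m) (ZMod 2),
        ∑ S : Matrix (Fin r) (Fin m) (ZMod 2), √(Zbad ω H S) ≤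
      (Fintype.card (Matrix (Fin ℓ) (Fin m) (ZMod 2)) : ℝ) *
        (Fintype.card (Matrix (Fin r) (Fin m) (ZMod 2)) : ℝ) * √B := by
    have hcs := sq_sum_le_card_mul_sum_sq
      (s := (univ : Finset (Matrix (Fin ℓ) (Fin m) (ZMod 2) × Matrix (Fin r) (Fin m) (ZMod 2))))
      (f := fun p => √(Zbad ω p.1 p.2))
    have e1 : ∑ p : Matrix (Fin ℓ) (Fin m) (ZMod 2) × Matrix (Fin r) (Fin m) (ZMod 2),
        √(Zbad ω p.1 p.2) = ∑ H : Matrix (Fin ℓ) (Fin m) (ZMod 2),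
        ∑ S : Matrix (Fin r) (Fin m) (ZMod 2), √(Zbad ω H S) :=
      Fintype.sum_prod_type _
    have e2 : ∑ p : Matrix (Fin ℓ) (Fin m) (ZMod 2) × Matrix (Fin r) (Fin m) (ZMod 2),
        √(Zbad ω p.1 p.2) ^ 2 = ∑ H : Matrix (Fin ℓ) (Fin m) (ZMod 2),
        ∑ S : Matrix (Fin r) (Fin m) (ZMod 2), Zbad ω H S := by
      rw [Fintype.sum_prod_type]
      refine Finset.sum_congr rfl fun H _ => Finset.sum_congr rfl fun S _ => ?_
      exact Real.sq_sqrt (EXI_Zbad_nonneg hω H S)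
    have e3 : ((univ : Finset (Matrix (Fin ℓ) (Fin m) (ZMod 2) ×
        Matrix (Fin r) (Fin m) (ZMod 2))).card : ℝ) =
        (Fintype.card (Matrix (Fin ℓ) (Fin m) (ZMod 2)) : ℝ) *
        (Fintype.card (Matrix (Fin r) (Fin m) (ZMod 2)) : ℝ) := by
      rw [Finset.card_univ, Fintype.card_prod, Nat.cast_mul]
    rw [e1, e2, e3] at hcs
    have hN : 0 < (Fintype.card (Matrix (Fin ℓ) (Fin m) (ZMod 2)) : ℝ) *
        (Fintype.card (Matrix (Fin r) (Fin m) (ZMod 2)) : ℝ) := mul_pos hNH hNS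
    have h5 : (∑ H : Matrix (Fin ℓ) (Fin m) (ZMod 2),
        ∑ S : Matrix (Fin r) (Fin m) (ZMod 2), √(Zbad ω H S)) ^ 2 ≤
        ((Fintype.card (Matrix (Fin ℓ) (Fin m) (ZMod 2)) : ℝ) *
        (Fintype.card (Matrix (Fin r) (Fin m) (ZMod 2)) : ℝ)) ^ 2 * B := by
      refine hcs.trans ?_
      calc _ ≤ (Fintype.card (Matrix (Fin ℓ) (Fin m) (ZMod 2)) : ℝ) *
            (Fintype.card (Matrix (Fin r) (Fin m) (ZMod 2)) : ℝ) *
            ((Fintype.card (Matrix (Fin ℓ) (Fin m) (ZMod 2)) : ℝ) *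
            (Fintype.card (Matrix (Fin r) (Fin m) (ZMod 2)) : ℝ) * B) :=
              mul_le_mul_of_nonneg_left hZ hN.le
        _ = _ := by ring
    have h6 := Real.le_sqrt_of_sq_le h5
    rwa [Real.sqrt_mul (sq_nonneg _), Real.sqrt_sq hN.le] at h6
  have h7 : ∑ H : Matrix (Fin ℓ) (Fin m) (ZMod 2),
        ∑ S : Matrix (Fin r) (Fin m) (ZMod 2), (4 * √(Zbad ω H S) + 2 * Pf ω S) =
      4 * (∑ H : Matrix (Fin ℓ) (Fin m) (ZMod 2),
        ∑ S : Matrix (Fin r) (Fin m) (ZMod 2), √(Zbad ω H S)) +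
      2 * ((Fintype.card (Matrix (Fin ℓ) (Fin m) (ZMod 2)) : ℝ) *
        ∑ S : Matrix (Fin r) (Fin m) (ZMod 2), Pf ω S) := by
    simp only [Finset.sum_add_distrib, ← Finset.mul_sum, Finset.sum_const, Finset.card_univ,
      nsmul_eq_mul]
  have h8 : ∑ _H : Matrix (Fin ℓ) (Fin m) (ZMod 2), ∑ _S : Matrix (Fin r) (Fin m) (ZMod 2),
      (4 * √B + 2 * A) = 4 * ((Fintype.card (Matrix (Fin ℓ) (Fin m) (ZMod 2)) : ℝ) *
        (Fintype.card (Matrix (Fin r) (Fin m) (ZMod 2)) : ℝ) * √B) +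
      2 * ((Fintype.card (Matrix (Fin ℓ) (Fin m) (ZMod 2)) : ℝ) *
        ((Fintype.card (Matrix (Fin r) (Fin m) (ZMod 2)) : ℝ) * A)) := by
    simp only [Finset.sum_const, Finset.card_univ, nsmul_eq_mul]
    ring
  rw [h7, h8] at h1
  have h9 := mul_le_mul_of_nonneg_left hP hNH.le
  linarith

end Vale.Agent.P372Q
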