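import Vale.Agent.P372Q.Defs

/-!
# P372: auxiliary notions used in the proof
-/

open Matrix Finset Filter Topology
open scoped Kronecker ComplexOrder BigOperators

namespace Vale.Agent.P372Q

/-- the reduced (unnormalised) state of the second system of the vector `∑ G i e |i⟩ |e⟩` -/
noncomputable def eveState {I E : Type} [Fintype I] (G : Matrix I E ℂ) : Matrix E E ℂ :=
  Matrix.of fun e e' => ∑ i, G i e * star (G i e')

/-- Hilbert-Schmidt inner product -/
noncomputable def hsInner {I E : Type} [Fintype I] [Fintype E] (G H : Matrix I E ℂ) : ℂ :=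
  ∑ i, ∑ e, star (G i e) * H i e

/-- squared Hilbert-Schmidt norm -/
noncomputable def hs {I E : Type} [Fintype I] [Fintype E] (G : Matrix I E ℂ) : ℝ :=
  ∑ i, ∑ e, ‖G i e‖ ^ 2

/-- contractions -/
def IsContr {E : Type} [Fintype E] [DecidableEq E] (C : Matrix E E ℂ) : Prop :=
  (1 - Cᴴ * C).PosSemidef

/-- the sign `(-1)^b` -/
noncomputable def sgn (b : ZMod 2) : ℂ := if b = 0 then 1 else -1

/-- Labels of a block: `none`: Bob failed; `some none`: Bob succeeded, Alice failed;
`some (some z)`: both succeeded and the sum of their bits is `z`. -/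
abbrev Lab := Option (Option (ZMod 2))

/-- the label of a pair of outcomes (`none` = failure) -/
def lab : Option (ZMod 2) → Option (ZMod 2) → Lab
  | _, none => none
  | none, some _ => some none
  | some a, some b => some (some (a + b))

/-- Alice's bit, when both succeeded -/
def bit : Option (ZMod 2) → Option (ZMod 2) → ZMod 2
  | some a, some _ => a
  | _, _ => 0

/-- both parties succeeded -/
def act : Lab → Bool
  | some (some _) => true
  | _ => false

/-- Bob succeeded -/
def okB : Lab → Bool
  | none => false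
  | _ => true

/-- the error bit of a label -/
def errBit : Lab → ZMod 2
  | some (some z) => z
  | _ => 0

/-- number of values of Alice's bit for the label -/
def mult (l : Lab) : ℝ := if act l then 2 else 1

/-- constant of the privacy bound -/
noncomputable def Bc (ω : Lab → ZMod 2 → ℝ) : ℝ := ∑ l : Lab, (√(ω l 0) + √(ω l 1)) ^ 2

/-- constant of the decoding bound -/
noncomputable def Ac (ω : Lab → ZMod 2 → ℝ) (y : ℝ) : ℝ :=
  ∑ l : Lab, mult l * (ω l 0 + ω l 1) *
    (if act l then (1 + y) * (if errBit l = 0 then 1 else y⁻¹) else 1)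

/-- Properties of the weights: nonnegative, `ω l 1 = 0` for inactive labels, total mass one. -/
structure IsWeight (ω : Lab → ZMod 2 → ℝ) : Prop where
  nonneg : ∀ l k, 0 ≤ ω l k
  inact : ∀ l, act l = false → ω l 1 = 0
  total : ∑ l : Lab, mult l * (ω l 0 + ω l 1) = 1

/-- Block model. `S x y` is the unnormalised state of Eve when Alice obtains the outcomes `x` and
Bob the outcomes `y` in the `m` blocks. -/
structure IsModel {m : ℕ} {I E : Type} [Fintype I] [Fintype E] [DecidableEq E]
    (S : (Fin m → Option (ZMod 2)) → (Fin m → Option (ZMod 2)) → Matrix E E ℂ)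
    (g : (Fin m → Lab) → (Fin m → ZMod 2) → Matrix I E ℂ) (ω : Lab → ZMod 2 → ℝ) : Prop where
  psd : ∀ x y, (S x y).PosSemidef
  norm : ∀ (l : Fin m → Lab) (k : Fin m → ZMod 2), hs (g l k) = ∏ i, ω (l i) (k i)
  orth : ∀ (l : Fin m → Lab) (k k' : Fin m → ZMod 2), k ≠ k' → hsInner (g l k) (g l k') = 0
  state : ∀ (l : Fin m → Lab) (b : Fin m → ZMod 2), (∀ i, act (l i) = false → b i = 0) →
    (∑ x, ∑ y, if (∀ i, lab (x i) (y i) = l i) ∧ (∀ i, bit (x i) (y i) = b i) then S x y else 0) =
      eveState (∑ k, sgn (∑ i, k i * b i) • g l k)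

/-- many copies of a tripartite vector, general index set -/
def copiesOn {a b e : Type} (R : Matrix (a × b) e ℂ) (ι : Type) [Fintype ι] :
    Matrix ((ι → a) × (ι → b)) (ι → e) ℂ :=
  Matrix.of fun p q => ∏ i, R (p.1 i, p.2 i) (q i)

/-- One block: Kraus operators `k`, `l` of Alice and Bob on systems `A`, `B` (`none` = failure),
`G` the tripartite vector, `γ` vectors describing Eve's states. -/
structure IsBlock {A B E S S' I : Type} [Fintype A] [Fintype B] [Fintype E] [Fintype S]
    [Fintype S'] [Fintype I] [DecidableEq A] [DecidableEq B]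
    (G : Matrix (A × B) E ℂ) (k : Option (ZMod 2) → Matrix S A ℂ)
    (l : Option (ZMod 2) → Matrix S' B ℂ) (γ : Lab → ZMod 2 → Matrix I E ℂ)
    (ω : Lab → ZMod 2 → ℝ) : Prop where
  hk : ∑ x, (k x)ᴴ * k x = 1
  hl : ∑ x, (l x)ᴴ * l x = 1
  norm : ∀ c b, hs (γ c b) = ω c b
  orth : ∀ c, hsInner (γ c 0) (γ c 1) = 0
  state : ∀ (c : Lab) (b : ZMod 2), (act c = false → b = 0) →
    (∑ x, ∑ y, if lab x y = c ∧ bit x y = b then eveState ((k x ⊗ₖ l y) * G) else 0) =
      eveState (γ c 0 + sgn b • γ c 1)

end Vale.Agent.P372Q
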