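import Vale.Agent.P372Q.TNa

open Matrix Finset Filter Topology
open scoped Kronecker ComplexOrder BigOperators

namespace Vale.Agent.P372Q

/-- the vectors of a block before the Fourier transform; the rows carry the flag `(α, β)` of the
outcomes, except for the label `some (some 0)` where the flag is erased and `U` is applied for the
bit one -/
noncomputable def blkV {A B E S S' : Type} [Fintype A] [Fintype B] [Fintype S] [Fintype S']
    (G : Matrix (A × B) E ℂ) (k : Option (ZMod 2) → Matrix S A ℂ)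
    (l : Option (ZMod 2) → Matrix S' B ℂ) (U : Matrix (S × S') (S × S') ℂ) (c : Lab) (b : ZMod 2) :
    Matrix (Option (ZMod 2) × Option (ZMod 2) × (S × S')) E ℂ :=
  Matrix.of fun p e =>
    if c = some (some 0) then
      (if p.1 = none ∧ p.2.1 = none then
        (if b = 0 then ((k (some 0) ⊗ₖ l (some 0)) * G) p.2.2 e
          else (U * ((k (some 1) ⊗ₖ l (some 1)) * G)) p.2.2 e) else 0)
    else (if lab p.1 p.2.1 = c ∧ bit p.1 p.2.1 = b then ((k p.1 ⊗ₖ l p.2.1) * G) p.2.2 e else 0)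

/-- the vectors of a block -/
noncomputable def blkG {A B E S S' : Type} [Fintype A] [Fintype B] [Fintype S] [Fintype S']
    (G : Matrix (A × B) E ℂ) (k : Option (ZMod 2) → Matrix S A ℂ)
    (l : Option (ZMod 2) → Matrix S' B ℂ) (U : Matrix (S × S') (S × S') ℂ) (c : Lab) (b : ZMod 2) :
    Matrix (Option (ZMod 2) × Option (ZMod 2) × (S × S')) E ℂ :=
  if act c = true then
    ((1 / 2 : ℂ)) • (blkV G k l U c 0 + sgn b • blkV G k l U c 1)
  else (if b = 0 then blkV G k l U c 0 else 0)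

theorem BLK1_eve {I E : Type} [Fintype I] (G : Matrix I E ℂ) : eveState G = (Gᴴ * G)ᵀ := by
  ext e e'
  simp only [eveState, Matrix.of_apply, Matrix.transpose_apply, Matrix.mul_apply,
    Matrix.conjTranspose_apply]
  exact Finset.sum_congr rfl fun i _ => mul_comm _ _

theorem BLK1_inner {I E : Type} [Fintype I] [Fintype E] (G H : Matrix I E ℂ) :
    hsInner G H = (Gᴴ * H).trace := by
  simp only [hsInner, Matrix.trace, Matrix.diag, Matrix.mul_apply, Matrix.conjTranspose_apply]
  exact Finset.sum_comm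

theorem BLK1_eve_mul {I E : Type} [Fintype I] [DecidableEq I] {U : Matrix I I ℂ}
    (hU : Uᴴ * U = 1) (G : Matrix I E ℂ) : eveState (U * G) = eveState G := by
  rw [BLK1_eve, BLK1_eve, Matrix.conjTranspose_mul, Matrix.mul_assoc, ← Matrix.mul_assoc Uᴴ, hU,
    Matrix.one_mul]

theorem BLK1_inner_mul {I E : Type} [Fintype I] [Fintype E] [DecidableEq I] {U : Matrix I I ℂ}
    (hU : Uᴴ * U = 1) (G H : Matrix I E ℂ) : hsInner (U * G) (U * H) = hsInner G H := by
  rw [BLK1_inner, BLK1_inner, Matrix.conjTranspose_mul, Matrix.mul_assoc, ← Matrix.mul_assoc Uᴴ,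
    hU, Matrix.one_mul]

theorem BLK1_self {I E : Type} [Fintype I] [Fintype E] (G : Matrix I E ℂ) :
    hsInner G G = ((hs G : ℝ) : ℂ) := by
  unfold hsInner hs
  push_cast
  refine Finset.sum_congr rfl fun i _ => Finset.sum_congr rfl fun e _ => ?_
  rw [Complex.star_def, Complex.conj_mul']

theorem BLK1_star {I E : Type} [Fintype I] [Fintype E] (G H : Matrix I E ℂ) :
    hsInner H G = star (hsInner G H) := by
  unfold hsInner
  rw [star_sum]
  refine Finset.sum_congr rfl fun i _ => ?_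
  rw [star_sum]
  refine Finset.sum_congr rfl fun e _ => ?_
  rw [star_mul', star_star, mul_comm]

theorem BLK1_lin {I E : Type} [Fintype I] [Fintype E] (A B : Matrix I E ℂ) :
    hsInner ((1 / 2 : ℂ) • (A + B)) ((1 / 2 : ℂ) • (A - B)) =
      (1 / 4 : ℂ) * (hsInner A A - hsInner B B - hsInner A B + hsInner B A) := by
  unfold hsInner
  simp only [← Finset.sum_sub_distrib, ← Finset.sum_add_distrib, Finset.mul_sum]
  refine Finset.sum_congr rfl fun i _ => Finset.sum_congr rfl fun e _ => ?_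
  simp only [Matrix.smul_apply, Matrix.add_apply, Matrix.sub_apply, smul_eq_mul, star_mul',
    star_add]
  have h2 : star (1 / 2 : ℂ) = 1 / 2 := by
    rw [Complex.star_def, map_div₀, map_one, Complex.conj_ofNat]
  rw [h2]
  ring

theorem BLK1_sum_pair {X Y M : Type} [Fintype X] [Fintype Y] [DecidableEq X] [DecidableEq Y]
    [AddCommMonoid M] (F : X → Y → M) (a : X) (b : Y) :
    (∑ x, ∑ y, if x = a ∧ y = b then F x y else 0) = F a b := by
  rw [Finset.sum_eq_single a, Finset.sum_eq_single b]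
  · simp
  · intro y _ hy
    simp [hy]
  · intro h
    exact absurd (Finset.mem_univ _) h
  · intro x _ hx
    simp [hx]
  · intro h
    exact absurd (Finset.mem_univ _) h

theorem BLK1_sum_eve {O P S E : Type} [Fintype O] [Fintype P] [Fintype S] (Q : O → P → Prop)
    [∀ x y, Decidable (Q x y)] (T : O → P → Matrix S E ℂ) :
    eveState (Matrix.of fun (p : O × P × S) e =>
      if Q p.1 p.2.1 then T p.1 p.2.1 p.2.2 e else 0) =
      ∑ x, ∑ y, if Q x y then eveState (T x y) else 0 := by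
  ext e e'
  simp only [eveState, Matrix.of_apply, Fintype.sum_prod_type, Matrix.sum_apply]
  refine Finset.sum_congr rfl fun x _ => Finset.sum_congr rfl fun y _ => ?_
  by_cases h : Q x y
  · simp only [if_pos h, Matrix.of_apply]
  · simp [if_neg h]

theorem BLK1_sum_inner {O P S E : Type} [Fintype O] [Fintype P] [Fintype S] [Fintype E]
    (Q Q' : O → P → Prop) [∀ x y, Decidable (Q x y)] [∀ x y, Decidable (Q' x y)]
    (T T' : O → P → Matrix S E ℂ) :
    hsInner (Matrix.of fun (p : O × P × S) e =>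
      if Q p.1 p.2.1 then T p.1 p.2.1 p.2.2 e else 0)
      (Matrix.of fun (p : O × P × S) e =>
      if Q' p.1 p.2.1 then T' p.1 p.2.1 p.2.2 e else 0) =
      ∑ x, ∑ y, if Q x y ∧ Q' x y then hsInner (T x y) (T' x y) else 0 := by
  simp only [hsInner, Matrix.of_apply, Fintype.sum_prod_type]
  refine Finset.sum_congr rfl fun x _ => Finset.sum_congr rfl fun y _ => ?_
  by_cases h : Q x y
  · by_cases h' : Q' x y
    · simp only [if_pos h, if_pos h', if_pos (And.intro h h')]
    · simp [h']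
  · simp [h]

theorem BLK1_key : ∀ (z b : ZMod 2) (x y : Option (ZMod 2)),
    (lab x y = some (some z) ∧ bit x y = b) ↔ (x = some b ∧ y = some (b + z)) := by
  decide

theorem BLK1_zmod : ∀ b : ZMod 2, b = 0 ∨ b = 1 := by
  decide

section blk1

variable {A B E S S' : Type} [Fintype A] [Fintype B] [Fintype E] [Fintype S]
  [Fintype S'] [DecidableEq A] [DecidableEq B] [DecidableEq S] [DecidableEq S']
  (G : Matrix (A × B) E ℂ) (k : Option (ZMod 2) → Matrix S A ℂ)
  (l : Option (ZMod 2) → Matrix S' B ℂ) (U : Matrix (S × S') (S × S') ℂ)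

omit [Fintype E] [DecidableEq A] [DecidableEq B] [DecidableEq S] [DecidableEq S'] in
theorem BLK1_V0 (b : ZMod 2) : blkV G k l U (some (some 0)) b =
    Matrix.of fun (p : Option (ZMod 2) × Option (ZMod 2) × (S × S')) e =>
      if p.1 = none ∧ p.2.1 = none then
        (if b = 0 then (k (some 0) ⊗ₖ l (some 0)) * G
          else U * ((k (some 1) ⊗ₖ l (some 1)) * G)) p.2.2 e else 0 := by
  ext p e
  rcases BLK1_zmod b with rfl | rfl
  · simp [blkV]
  · simp [blkV]

omit [Fintype E] [DecidableEq A] [DecidableEq B] [DecidableEq S] [DecidableEq S'] in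
theorem BLK1_V (c : Lab) (hc : c ≠ some (some 0)) (b : ZMod 2) : blkV G k l U c b =
    Matrix.of fun (p : Option (ZMod 2) × Option (ZMod 2) × (S × S')) e =>
      if lab p.1 p.2.1 = c ∧ bit p.1 p.2.1 = b then
        ((k p.1 ⊗ₖ l p.2.1) * G) p.2.2 e else 0 := by
  ext p e
  simp only [blkV, Matrix.of_apply, if_neg hc]

omit [Fintype E] [DecidableEq A] [DecidableEq B] [DecidableEq S] [DecidableEq S'] in
theorem BLK1_G (c : Lab) (b : ZMod 2) (hb : act c = false → b = 0) :
    blkG G k l U c 0 + sgn b • blkG G k l U c 1 = blkV G k l U c b := by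
  have s0 : sgn 0 = 1 := if_pos rfl
  have s1 : sgn 1 = -1 := if_neg (by decide)
  unfold blkG
  by_cases h : act c = true
  · simp only [if_pos h, s0, s1]
    rcases BLK1_zmod b with rfl | rfl
    · rw [s0]
      ext p e
      simp only [Matrix.add_apply, Matrix.smul_apply, smul_eq_mul]
      ring
    · rw [s1]
      ext p e
      simp only [Matrix.add_apply, Matrix.smul_apply, smul_eq_mul]
      ring
  · rw [Bool.not_eq_true] at h
    have hb0 := hb h
    subst hb0
    simp [h]

omit [Fintype E] [DecidableEq A] [DecidableEq B] in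
theorem BLK1_state (hU : Uᴴ * U = 1) (c : Lab) (b : ZMod 2) :
    (∑ x, ∑ y, if lab x y = c ∧ bit x y = b then eveState ((k x ⊗ₖ l y) * G) else 0) =
      eveState (blkV G k l U c b) := by
  by_cases hc : c = some (some 0)
  · subst hc
    rw [BLK1_V0, BLK1_sum_eve (fun x y => x = none ∧ y = none)
      (fun _ _ => if b = 0 then (k (some 0) ⊗ₖ l (some 0)) * G
          else U * ((k (some 1) ⊗ₖ l (some 1)) * G))]
    simp only [BLK1_key]
    rw [BLK1_sum_pair, BLK1_sum_pair]
    rcases BLK1_zmod b with rfl | rfl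
    · rw [if_pos rfl, add_zero]
    · rw [if_neg (by decide), BLK1_eve_mul hU, add_zero]
  · rw [BLK1_V G k l U c hc, BLK1_sum_eve (fun x y => lab x y = c ∧ bit x y = b)
      (fun x y => (k x ⊗ₖ l y) * G)]

omit [DecidableEq A] [DecidableEq B] [DecidableEq S] [DecidableEq S'] in
theorem BLK1_in0 (b b' : ZMod 2) : hsInner (blkV G k l U (some (some 0)) b)
    (blkV G k l U (some (some 0)) b') =
    hsInner (if b = 0 then (k (some 0) ⊗ₖ l (some 0)) * G
          else U * ((k (some 1) ⊗ₖ l (some 1)) * G))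
      (if b' = 0 then (k (some 0) ⊗ₖ l (some 0)) * G
          else U * ((k (some 1) ⊗ₖ l (some 1)) * G)) := by
  rw [BLK1_V0, BLK1_V0]
  refine (BLK1_sum_inner (fun x y => x = (none : Option (ZMod 2)) ∧ y = (none : Option (ZMod 2)))
    (fun x y => x = (none : Option (ZMod 2)) ∧ y = (none : Option (ZMod 2)))
    (fun _ _ => _) (fun _ _ => _)).trans ?_
  simp only [and_self]
  exact BLK1_sum_pair (fun _ _ => _) none none

omit [DecidableEq A] [DecidableEq B] [DecidableEq S] [DecidableEq S'] in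
theorem BLK1_in1 (c : Lab) (hc : c ≠ some (some 0)) (b b' : ZMod 2) :
    hsInner (blkV G k l U c b) (blkV G k l U c b') =
    ∑ x, ∑ y, if (lab x y = c ∧ bit x y = b) ∧ (lab x y = c ∧ bit x y = b') then
      hsInner ((k x ⊗ₖ l y) * G) ((k x ⊗ₖ l y) * G) else 0 := by
  rw [BLK1_V G k l U c hc, BLK1_V G k l U c hc]
  exact BLK1_sum_inner (fun x y => lab x y = c ∧ bit x y = b)
    (fun x y => lab x y = c ∧ bit x y = b') (fun x y => (k x ⊗ₖ l y) * G)
    (fun x y => (k x ⊗ₖ l y) * G)

omit [DecidableEq A] [DecidableEq B] [DecidableEq S] [DecidableEq S'] in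
theorem BLK1_in2 (b : ZMod 2) :
    hsInner (blkV G k l U (some (some 1)) b) (blkV G k l U (some (some 1)) b) =
      ((hs ((k (some b) ⊗ₖ l (some (b + 1))) * G) : ℝ) : ℂ) := by
  rw [BLK1_in1 G k l U _ (by decide)]
  simp only [and_self, BLK1_key]
  rw [BLK1_sum_pair, BLK1_self]

omit [DecidableEq A] [DecidableEq B] [DecidableEq S] [DecidableEq S'] in
theorem BLK1_in3 (b b' : ZMod 2) (hb : b ≠ b') :
    hsInner (blkV G k l U (some (some 1)) b) (blkV G k l U (some (some 1)) b') = 0 := by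
  rw [BLK1_in1 G k l U _ (by decide)]
  refine Finset.sum_eq_zero fun x _ => Finset.sum_eq_zero fun y _ => ?_
  rw [if_neg]
  rintro ⟨⟨_, h1⟩, _, h2⟩
  exact hb (h1.symm.trans h2)

end blk1

/-- BLK1. `blkG` is a block structure. `eveState (U M) = eveState M` as `Uᴴ U = 1`; for the label
`some (some 0)` the inner product of the two vectors is the real number `φ` and both have norm
square `p0`; for `some (some 1)` they are orthogonal (different flags) with the same norm. -/
theorem blk_isBlock {A B E S S' : Type} [Fintype A] [Fintype B] [Fintype E] [Fintype S]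
    [Fintype S'] [DecidableEq A] [DecidableEq B] [DecidableEq S] [DecidableEq S']
    (G : Matrix (A × B) E ℂ) (k : Option (ZMod 2) → Matrix S A ℂ)
    (l : Option (ZMod 2) → Matrix S' B ℂ) (hk : ∑ x, (k x)ᴴ * k x = 1)
    (hl : ∑ x, (l x)ᴴ * l x = 1) (U : Matrix (S × S') (S × S') ℂ) (hU : Uᴴ * U = 1)
    (p0 p1 φ : ℝ) (h0 : ∀ x : ZMod 2, hs ((k (some x) ⊗ₖ l (some x)) * G) = p0)
    (h1 : ∀ x : ZMod 2, hs ((k (some x) ⊗ₖ l (some (x + 1))) * G) = p1)
    (hφ : hsInner ((k (some 0) ⊗ₖ l (some 0)) * G)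
      (U * ((k (some 1) ⊗ₖ l (some 1)) * G)) = (φ : ℂ)) :
    IsBlock G k l (blkG G k l U) (fun c b => hs (blkG G k l U c b)) := by
  refine ⟨hk, hl, fun c b => rfl, fun c => ?_, fun c b hb => ?_⟩
  · have s0 : sgn 0 = 1 := if_pos rfl
    have s1 : sgn 1 = -1 := if_neg (by decide)
    unfold blkG
    by_cases h : act c = true
    · simp only [if_pos h, s0, s1, one_smul, neg_smul, ← sub_eq_add_neg]
      rw [BLK1_lin]
      obtain ⟨z, rfl⟩ : ∃ z : ZMod 2, c = some (some z) := by
        revert c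
        decide
      rcases BLK1_zmod z with rfl | rfl
      · rw [BLK1_in0, BLK1_in0, BLK1_in0, BLK1_in0, if_pos rfl, if_neg (by decide),
          BLK1_inner_mul hU, BLK1_self, BLK1_self, h0, h0, hφ, BLK1_star, hφ, Complex.star_def,
          Complex.conj_ofReal]
        ring
      · rw [BLK1_in2, BLK1_in2, BLK1_in3 G k l U 0 1 (by decide),
          BLK1_in3 G k l U 1 0 (by decide), h1, h1]
        ring
    · simp only [if_neg h]
      simp [hsInner]
  · rw [BLK1_G G k l U c b hb]
    exact BLK1_state G k l U hU c b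

private def BLK2_mk {T E : Type} (Z : Option (ZMod 2) → Option (ZMod 2) → Matrix T E ℂ) :
    Matrix (Option (ZMod 2) × Option (ZMod 2) × T) E ℂ :=
  Matrix.of fun p e => Z p.1 p.2.1 p.2.2 e

private theorem BLK2_hs {T E : Type} [Fintype T] [Fintype E]
    (Z : Option (ZMod 2) → Option (ZMod 2) → Matrix T E ℂ) :
    hs (BLK2_mk Z) = ∑ α, ∑ β, hs (Z α β) := by
  unfold hs BLK2_mk
  rw [Fintype.sum_prod_type]
  refine Finset.sum_congr rfl fun α _ => ?_
  rw [Fintype.sum_prod_type]
  rfl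

private theorem BLK2_in {T E : Type} [Fintype T] [Fintype E]
    (Z Z' : Option (ZMod 2) → Option (ZMod 2) → Matrix T E ℂ) :
    hsInner (BLK2_mk Z) (BLK2_mk Z') = ∑ α, ∑ β, hsInner (Z α β) (Z' α β) := by
  unfold hsInner BLK2_mk
  rw [Fintype.sum_prod_type]
  refine Finset.sum_congr rfl fun α _ => ?_
  rw [Fintype.sum_prod_type]
  rfl

private theorem BLK2_zero {T E : Type} [Fintype T] [Fintype E] : hs (0 : Matrix T E ℂ) = 0 := by
  unfold hs
  simp

private theorem BLK2_in0 {T E : Type} [Fintype T] [Fintype E] (X : Matrix T E ℂ) :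
    hsInner X 0 = 0 := by
  unfold hsInner
  simp

private theorem BLK2_0in {T E : Type} [Fintype T] [Fintype E] (X : Matrix T E ℂ) :
    hsInner 0 X = 0 := by
  unfold hsInner
  simp

private theorem BLK2_single {T E : Type} [Fintype T] [Fintype E] (a b : Option (ZMod 2))
    (K : Option (ZMod 2) → Option (ZMod 2) → Matrix T E ℂ) :
    ∑ α, ∑ β, hs (if α = a ∧ β = b then K α β else 0) = hs (K a b) := by
  rw [Finset.sum_eq_single a, Finset.sum_eq_single b]
  · rw [if_pos ⟨rfl, rfl⟩]
  · intro β _ hβ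
    rw [if_neg fun h => hβ h.2, BLK2_zero]
  · exact fun h => absurd (Finset.mem_univ _) h
  · intro α _ hα
    refine Finset.sum_eq_zero fun β _ => ?_
    rw [if_neg fun h => hα h.1, BLK2_zero]
  · exact fun h => absurd (Finset.mem_univ _) h

private theorem BLK2_tr {T E : Type} [Fintype T] [Fintype E] (X : Matrix T E ℂ) :
    ((hs X : ℝ) : ℂ) = (Xᴴ * X).trace := by
  unfold hs Matrix.trace
  rw [Finset.sum_comm, Complex.ofReal_sum]
  refine Finset.sum_congr rfl fun e _ => ?_
  rw [Complex.ofReal_sum, Matrix.diag_apply, Matrix.mul_apply]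
  refine Finset.sum_congr rfl fun i _ => ?_
  rw [Matrix.conjTranspose_apply, Complex.star_def, Complex.conj_mul', Complex.ofReal_pow]

private theorem BLK2_iso {T E : Type} [Fintype T] [Fintype E] [DecidableEq T]
    {U : Matrix T T ℂ} (hU : Uᴴ * U = 1) (X : Matrix T E ℂ) : hs (U * X) = hs X := by
  have h : ((hs (U * X) : ℝ) : ℂ) = ((hs X : ℝ) : ℂ) := by
    rw [BLK2_tr, BLK2_tr, Matrix.conjTranspose_mul, Matrix.mul_assoc, ← Matrix.mul_assoc Uᴴ, hU,
      Matrix.one_mul]
  exact_mod_cast h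

private theorem BLK2_pt (x y : ℂ) (s : ℝ) :
    ‖(1 / 2 : ℂ) * (x + (s : ℂ) * y)‖ ^ 2 =
      (‖x‖ ^ 2 + s ^ 2 * ‖y‖ ^ 2 + 2 * s * (star x * y).re) / 4 := by
  rw [Complex.sq_norm, Complex.sq_norm, Complex.sq_norm, Complex.normSq_mul]
  have h1 : Complex.normSq (1 / 2 : ℂ) = 1 / 4 := by
    rw [Complex.normSq_apply]
    norm_num
  rw [h1]
  simp only [Complex.normSq_apply, Complex.add_re, Complex.add_im, Complex.mul_re, Complex.mul_im,
    Complex.ofReal_re, Complex.ofReal_im, Complex.star_def, Complex.conj_re, Complex.conj_im]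
  ring

private theorem BLK2_comb {T E : Type} [Fintype T] [Fintype E] (X Y : Matrix T E ℂ) (s : ℝ) :
    hs ((1 / 2 : ℂ) • (X + (s : ℂ) • Y)) =
      (hs X + s ^ 2 * hs Y + 2 * s * (hsInner X Y).re) / 4 := by
  unfold hs hsInner
  simp only [Matrix.smul_apply, Matrix.add_apply, smul_eq_mul, BLK2_pt, Complex.re_sum,
    Finset.mul_sum, ← Finset.sum_add_distrib, Finset.sum_div]

private theorem BLK2_fin {T E : Type} [Fintype T] [Fintype E] {X Y : Matrix T E ℂ} {p φ : ℝ}
    (hX : hs X = p) (hY : hs Y = p) (hXY : hsInner X Y = (φ : ℂ)) :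
    hs ((1 / 2 : ℂ) • (X + sgn 0 • Y)) = (p + φ) / 2 ∧
      hs ((1 / 2 : ℂ) • (X + sgn 1 • Y)) = (p - φ) / 2 := by
  have h0 : sgn 0 = ((1 : ℝ) : ℂ) := by unfold sgn; rw [if_pos rfl, Complex.ofReal_one]
  have h1 : sgn 1 = ((-1 : ℝ) : ℂ) := by
    unfold sgn
    rw [if_neg (by decide), Complex.ofReal_neg, Complex.ofReal_one]
  rw [h0, h1, BLK2_comb, BLK2_comb, hX, hY, hXY, Complex.ofReal_re]
  constructor <;> ring

/-- BLK2. The weights. -/
theorem blk_values {A B E S S' : Type} [Fintype A] [Fintype B] [Fintype E] [Fintype S]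
    [Fintype S'] [DecidableEq A] [DecidableEq B] [DecidableEq S] [DecidableEq S']
    (G : Matrix (A × B) E ℂ) (k : Option (ZMod 2) → Matrix S A ℂ)
    (l : Option (ZMod 2) → Matrix S' B ℂ) (U : Matrix (S × S') (S × S') ℂ) (hU : Uᴴ * U = 1)
    (p0 p1 φ : ℝ) (h0 : ∀ x : ZMod 2, hs ((k (some x) ⊗ₖ l (some x)) * G) = p0)
    (h1 : ∀ x : ZMod 2, hs ((k (some x) ⊗ₖ l (some (x + 1))) * G) = p1)
    (hφ : hsInner ((k (some 0) ⊗ₖ l (some 0)) * G)
      (U * ((k (some 1) ⊗ₖ l (some 1)) * G)) = (φ : ℂ)) :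
    hs (blkG G k l U (some (some 0)) 0) = (p0 + φ) / 2 ∧
    hs (blkG G k l U (some (some 0)) 1) = (p0 - φ) / 2 ∧
    hs (blkG G k l U (some (some 1)) 0) = p1 / 2 ∧
    hs (blkG G k l U (some (some 1)) 1) = p1 / 2 ∧
    hs (blkG G k l U none 1) = 0 ∧ hs (blkG G k l U (some none) 1) = 0 := by
  have e0 : blkV G k l U (some (some 0)) 0 =
      BLK2_mk fun α β => if α = none ∧ β = none then (k (some 0) ⊗ₖ l (some 0)) * G else 0 := by
    ext p e
    unfold blkV BLK2_mk
    simp only [Matrix.of_apply, if_true]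
    split_ifs <;> rfl
  have e1 : blkV G k l U (some (some 0)) 1 =
      BLK2_mk fun α β =>
        if α = none ∧ β = none then U * ((k (some 1) ⊗ₖ l (some 1)) * G) else 0 := by
    ext p e
    unfold blkV BLK2_mk
    simp only [Matrix.of_apply, if_true]
    rw [if_neg (by decide : ¬ (1 : ZMod 2) = 0)]
    split_ifs <;> rfl
  have hl0 : ∀ α β : Option (ZMod 2), (lab α β = some (some 1) ∧ bit α β = 0) ↔
      (α = some 0 ∧ β = some 1) := by decide
  have hl1 : ∀ α β : Option (ZMod 2), (lab α β = some (some 1) ∧ bit α β = 1) ↔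
      (α = some 1 ∧ β = some 0) := by decide
  have e2 : blkV G k l U (some (some 1)) 0 =
      BLK2_mk fun α β => if α = some 0 ∧ β = some 1 then (k α ⊗ₖ l β) * G else 0 := by
    ext p e
    unfold blkV BLK2_mk
    simp only [Matrix.of_apply]
    rw [if_neg (by decide : ¬ (some (some 1) : Lab) = some (some 0))]
    simp only [hl0]
    split_ifs <;> rfl
  have e3 : blkV G k l U (some (some 1)) 1 =
      BLK2_mk fun α β => if α = some 1 ∧ β = some 0 then (k α ⊗ₖ l β) * G else 0 := by
    ext p e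
    unfold blkV BLK2_mk
    simp only [Matrix.of_apply]
    rw [if_neg (by decide : ¬ (some (some 1) : Lab) = some (some 0))]
    simp only [hl1]
    split_ifs <;> rfl
  have v0 : hs (blkV G k l U (some (some 0)) 0) = p0 := by
    rw [e0, BLK2_hs, BLK2_single none none fun _ _ => (k (some 0) ⊗ₖ l (some 0)) * G]
    exact h0 0
  have v1 : hs (blkV G k l U (some (some 0)) 1) = p0 := by
    rw [e1, BLK2_hs, BLK2_single none none fun _ _ => U * ((k (some 1) ⊗ₖ l (some 1)) * G),
      BLK2_iso hU]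
    exact h0 1
  have v2 : hs (blkV G k l U (some (some 1)) 0) = p1 := by
    rw [e2, BLK2_hs, BLK2_single (some 0) (some 1) fun α β => (k α ⊗ₖ l β) * G]
    exact h1 0
  have v3 : hs (blkV G k l U (some (some 1)) 1) = p1 := by
    rw [e3, BLK2_hs, BLK2_single (some 1) (some 0) fun α β => (k α ⊗ₖ l β) * G]
    exact h1 1
  have i0 : hsInner (blkV G k l U (some (some 0)) 0) (blkV G k l U (some (some 0)) 1) =
      (φ : ℂ) := by
    rw [e0, e1, BLK2_in, ← hφ, Finset.sum_eq_single none, Finset.sum_eq_single none]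
    · rw [if_pos ⟨rfl, rfl⟩, if_pos ⟨rfl, rfl⟩]
    · intro β _ hβ
      rw [if_neg fun h => hβ h.2, BLK2_0in]
    · exact fun h => absurd (Finset.mem_univ _) h
    · intro α _ hα
      refine Finset.sum_eq_zero fun β _ => ?_
      rw [if_neg fun h => hα h.1, BLK2_0in]
    · exact fun h => absurd (Finset.mem_univ _) h
  have i1 : hsInner (blkV G k l U (some (some 1)) 0) (blkV G k l U (some (some 1)) 1) =
      ((0 : ℝ) : ℂ) := by
    rw [e2, e3, BLK2_in, Complex.ofReal_zero]
    refine Finset.sum_eq_zero fun α _ => Finset.sum_eq_zero fun β _ => ?_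
    by_cases hα : α = some 0 ∧ β = some 1
    · have : ¬ (α = some 1 ∧ β = some 0) := by
        rw [hα.1]
        exact fun h => absurd h.1 (by decide)
      rw [if_neg this, BLK2_in0]
    · rw [if_neg hα, BLK2_0in]
  obtain ⟨r0, r1⟩ := BLK2_fin v0 v1 i0
  obtain ⟨r2, r3⟩ := BLK2_fin v2 v3 i1
  have a0 : act (some (some 0)) = true := rfl
  have a1 : act (some (some 1)) = true := rfl
  refine ⟨?_, ?_, ?_, ?_, ?_, ?_⟩
  · unfold blkG
    rw [if_pos a0]
    exact r0
  · unfold blkG
    rw [if_pos a0]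
    exact r1
  · unfold blkG
    rw [if_pos a1]
    rw [r2, add_zero]
  · unfold blkG
    rw [if_pos a1]
    rw [r3, sub_zero]
  · unfold blkG
    rw [if_neg (by decide : ¬ act none = true), if_neg (by decide : ¬ (1 : ZMod 2) = 0), BLK2_zero]
  · unfold blkG
    rw [if_neg (by decide : ¬ act (some none) = true), if_neg (by decide : ¬ (1 : ZMod 2) = 0),
      BLK2_zero]

theorem BLK3_hs_trace {I E : Type} [Fintype I] [Fintype E] (M : Matrix I E ℂ) :
    hs M = ((Mᴴ * M).trace).re := by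
  unfold hs
  rw [Matrix.trace, Complex.re_sum, Finset.sum_comm]
  refine Finset.sum_congr rfl fun e _ => ?_
  rw [Matrix.diag_apply, Matrix.mul_apply, Complex.re_sum]
  refine Finset.sum_congr rfl fun i _ => ?_
  rw [Matrix.conjTranspose_apply, ← Complex.normSq_eq_norm_sq, Complex.normSq_apply]
  simp

theorem BLK3_complete {A B E S S' : Type} [Fintype A] [Fintype B] [Fintype E] [Fintype S]
    [Fintype S'] [DecidableEq A] [DecidableEq B] 
    (G : Matrix (A × B) E ℂ) (k : Option (ZMod 2) → Matrix S A ℂ)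
    (l : Option (ZMod 2) → Matrix S' B ℂ) (hk : ∑ x, (k x)ᴴ * k x = 1)
    (hl : ∑ x, (l x)ᴴ * l x = 1) : ∑ x, ∑ y, hs ((k x ⊗ₖ l y) * G) = hs G := by
  have h1 : ∑ x, ∑ y, (k x ⊗ₖ l y)ᴴ * (k x ⊗ₖ l y) = (1 : Matrix (A × B) (A × B) ℂ) := by
    have h2 : ∀ x y, (k x ⊗ₖ l y)ᴴ * (k x ⊗ₖ l y) = ((k x)ᴴ * k x) ⊗ₖ ((l y)ᴴ * l y) := by
      intro x y
      rw [Matrix.conjTranspose_kronecker, ← Matrix.mul_kronecker_mul]
    have h3 : (∑ x, (k x)ᴴ * k x) ⊗ₖ (∑ y, (l y)ᴴ * l y) =
        ∑ x, ∑ y, ((k x)ᴴ * k x) ⊗ₖ ((l y)ᴴ * l y) := by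
      ext i j
      simp only [Matrix.kroneckerMap_apply, Matrix.sum_apply, Finset.sum_mul_sum]
    simp only [h2]
    rw [← h3, hk, hl, Matrix.one_kronecker_one]
  have h4 : Gᴴ * (∑ x, ∑ y, (k x ⊗ₖ l y)ᴴ * (k x ⊗ₖ l y)) * G =
      ∑ x, ∑ y, ((k x ⊗ₖ l y) * G)ᴴ * ((k x ⊗ₖ l y) * G) := by
    simp only [Matrix.mul_sum, Matrix.sum_mul, Matrix.conjTranspose_mul, Matrix.mul_assoc]
  rw [h1, Matrix.mul_one] at h4
  rw [BLK3_hs_trace G, h4, Matrix.trace_sum, Complex.re_sum]
  refine Finset.sum_congr rfl fun x _ => ?_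
  rw [Matrix.trace_sum, Complex.re_sum]
  exact Finset.sum_congr rfl fun y _ => BLK3_hs_trace _

theorem BLK3_hsV {A B E S S' : Type} [Fintype A] [Fintype B] [Fintype E] [Fintype S]
    [Fintype S'] (G : Matrix (A × B) E ℂ) (k : Option (ZMod 2) → Matrix S A ℂ)
    (l : Option (ZMod 2) → Matrix S' B ℂ) (U : Matrix (S × S') (S × S') ℂ) (c : Lab)
    (hc : c ≠ some (some 0)) (b : ZMod 2) : hs (blkV G k l U c b) =
      ∑ x, ∑ y, if lab x y = c ∧ bit x y = b then hs ((k x ⊗ₖ l y) * G) else 0 := by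
  unfold hs blkV
  rw [Fintype.sum_prod_type]
  refine Finset.sum_congr rfl fun x _ => ?_
  rw [Fintype.sum_prod_type]
  refine Finset.sum_congr rfl fun y _ => ?_
  simp only [Matrix.of_apply, if_neg hc]
  by_cases h : lab x y = c ∧ bit x y = b
  · simp only [if_pos h]
  · simp only [if_neg h, norm_zero]
    simp

theorem BLK3_two (F : ZMod 2 → ℝ) : ∑ x, F x = F 0 + F 1 := Fin.sum_univ_two F

/-- BLK3. Total mass: `∑_(α,β) hs ((k α ⊗ₖ l β) * G) = hs G = 1` by completeness. -/
theorem blk_total {A B E S S' : Type} [Fintype A] [Fintype B] [Fintype E] [Fintype S]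
    [Fintype S'] [DecidableEq A] [DecidableEq B] [DecidableEq S] [DecidableEq S']
    (G : Matrix (A × B) E ℂ) (hG : hs G = 1) (k : Option (ZMod 2) → Matrix S A ℂ)
    (l : Option (ZMod 2) → Matrix S' B ℂ) (hk : ∑ x, (k x)ᴴ * k x = 1)
    (hl : ∑ x, (l x)ᴴ * l x = 1) (U : Matrix (S × S') (S × S') ℂ) (hU : Uᴴ * U = 1)
    (p0 p1 φ : ℝ) (h0 : ∀ x : ZMod 2, hs ((k (some x) ⊗ₖ l (some x)) * G) = p0)
    (h1 : ∀ x : ZMod 2, hs ((k (some x) ⊗ₖ l (some (x + 1))) * G) = p1)
    (hφ : hsInner ((k (some 0) ⊗ₖ l (some 0)) * G)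
      (U * ((k (some 1) ⊗ₖ l (some 1)) * G)) = (φ : ℂ)) :
    ∑ c : Lab, mult c * (hs (blkG G k l U c 0) + hs (blkG G k l U c 1)) = 1 := by
  obtain ⟨v1, v2, v3, v4, v5, v6⟩ := blk_values G k l U hU p0 p1 φ h0 h1 hφ
  have hn : hs (blkG G k l U none 0) = ∑ x, ∑ y, if lab x y = none ∧ bit x y = 0 then
      hs ((k x ⊗ₖ l y) * G) else 0 := by
    rw [← BLK3_hsV G k l U none (by simp) 0]
    rfl
  have hs' : hs (blkG G k l U (some none) 0) = ∑ x, ∑ y, if lab x y = some none ∧ bit x y = 0 then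
      hs ((k x ⊗ₖ l y) * G) else 0 := by
    rw [← BLK3_hsV G k l U (some none) (by simp) 0]
    rfl
  have hT := BLK3_complete G k l hk hl
  rw [hG] at hT
  have e00 := h0 0
  have e11 := h0 1
  have e01 := h1 0
  have e10 := h1 1
  have e2 : (1 : ZMod 2) + 1 = 0 := rfl
  rw [zero_add] at e01
  rw [e2] at e10
  simp only [Fintype.sum_option, BLK3_two] at hT hn hs' ⊢
  rw [v1, v2, v3, v4, v5, v6, hn, hs']
  have m1 : mult none = 1 := rfl
  have m2 : mult (some none) = 1 := rfl
  have m3 : mult (some (some 0)) = 2 := rfl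
  have m4 : mult (some (some 1)) = 2 := rfl
  rw [m1, m2, m3, m4]
  have c000 : (lab none none = none ∧ bit none none = 0) := by decide
  have c001 : ¬ (lab none (some 0) = none ∧ bit none (some 0) = 0) := by decide
  have c002 : ¬ (lab none (some 1) = none ∧ bit none (some 1) = 0) := by decide
  have c010 : (lab (some 0) none = none ∧ bit (some 0) none = 0) := by decide
  have c011 : ¬ (lab (some 0) (some 0) = none ∧ bit (some 0) (some 0) = 0) := by decide
  have c012 : ¬ (lab (some 0) (some 1) = none ∧ bit (some 0) (some 1) = 0) := by decide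
  have c020 : (lab (some 1) none = none ∧ bit (some 1) none = 0) := by decide
  have c021 : ¬ (lab (some 1) (some 0) = none ∧ bit (some 1) (some 0) = 0) := by decide
  have c022 : ¬ (lab (some 1) (some 1) = none ∧ bit (some 1) (some 1) = 0) := by decide
  have c100 : ¬ (lab none none = some none ∧ bit none none = 0) := by decide
  have c101 : (lab none (some 0) = some none ∧ bit none (some 0) = 0) := by decide
  have c102 : (lab none (some 1) = some none ∧ bit none (some 1) = 0) := by decide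
  have c110 : ¬ (lab (some 0) none = some none ∧ bit (some 0) none = 0) := by decide
  have c111 : ¬ (lab (some 0) (some 0) = some none ∧ bit (some 0) (some 0) = 0) := by decide
  have c112 : ¬ (lab (some 0) (some 1) = some none ∧ bit (some 0) (some 1) = 0) := by decide
  have c120 : ¬ (lab (some 1) none = some none ∧ bit (some 1) none = 0) := by decide
  have c121 : ¬ (lab (some 1) (some 0) = some none ∧ bit (some 1) (some 0) = 0) := by decide
  have c122 : ¬ (lab (some 1) (some 1) = some none ∧ bit (some 1) (some 1) = 0) := by decide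
  simp only [if_pos c000, if_neg c001, if_neg c002, if_pos c010, if_neg c011, if_neg c012,
    if_pos c020, if_neg c021, if_neg c022, if_neg c100, if_pos c101, if_pos c102, if_neg c110,
    if_neg c111, if_neg c112, if_neg c120, if_neg c121, if_neg c122]
  linarith

theorem BLK4_sum (f : Lab → ℝ) :
    ∑ l : Lab, f l = f none + (f (some none) + (f (some (some 0)) + f (some (some 1)))) := by
  rw [Fintype.sum_option, Fintype.sum_option]
  congr 2
  exact Fin.sum_univ_two (fun i : ZMod 2 => f (some (some i)))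

/-- BLK4. The constants, from the values of the weights. -/
theorem consts_of_values (ω : Lab → ZMod 2 → ℝ) (hω : IsWeight ω) (p0 p1 φ : ℝ)
    (h00 : ω (some (some 0)) 0 = (p0 + φ) / 2) (h01 : ω (some (some 0)) 1 = (p0 - φ) / 2)
    (h10 : ω (some (some 1)) 0 = p1 / 2) (h11 : ω (some (some 1)) 1 = p1 / 2) :
    Bc ω = 1 - p0 + √(p0 ^ 2 - φ ^ 2) ∧
      ∀ y : ℝ, 0 < y → Ac ω y = 1 + 2 * (y * p0 + p1 / y) := by
  have e1 : ω none 1 = 0 := hω.inact _ rfl
  have e2 : ω (some none) 1 = 0 := hω.inact _ rfl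
  have n1 := hω.nonneg none 0
  have n2 := hω.nonneg (some none) 0
  have n3 := hω.nonneg (some (some 0)) 0
  have n4 := hω.nonneg (some (some 0)) 1
  have n5 := hω.nonneg (some (some 1)) 0
  rw [h00] at n3
  rw [h01] at n4
  rw [h10] at n5
  have m1 : mult none = 1 := rfl
  have m2 : mult (some none) = 1 := rfl
  have m3 : mult (some (some 0)) = 2 := rfl
  have m4 : mult (some (some 1)) = 2 := rfl
  have ht := hω.total
  rw [BLK4_sum, e1, e2, h00, h01, h10, h11, m1, m2, m3, m4] at ht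
  constructor
  · unfold Bc
    rw [BLK4_sum, e1, e2, h00, h01, h10, h11]
    have s1 : (√(ω none 0) + √0) ^ 2 = ω none 0 := by
      rw [Real.sqrt_zero, add_zero, Real.sq_sqrt n1]
    have s2 : (√(ω (some none) 0) + √0) ^ 2 = ω (some none) 0 := by
      rw [Real.sqrt_zero, add_zero, Real.sq_sqrt n2]
    have s3 : (√((p0 + φ) / 2) + √((p0 - φ) / 2)) ^ 2 = p0 + √(p0 ^ 2 - φ ^ 2) := by
      have a1 : √((p0 + φ) / 2) * √((p0 - φ) / 2) = √(p0 ^ 2 - φ ^ 2) / 2 := by
        rw [← Real.sqrt_mul n3]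
        have : (p0 + φ) / 2 * ((p0 - φ) / 2) = (p0 ^ 2 - φ ^ 2) / 2 ^ 2 := by ring
        rw [this, Real.sqrt_div' _ (by norm_num), Real.sqrt_sq (by norm_num)]
      have a2 := Real.sq_sqrt n3
      have a3 := Real.sq_sqrt n4
      calc (√((p0 + φ) / 2) + √((p0 - φ) / 2)) ^ 2
          = √((p0 + φ) / 2) ^ 2 + √((p0 - φ) / 2) ^ 2 +
            2 * (√((p0 + φ) / 2) * √((p0 - φ) / 2)) := by ring
        _ = p0 + √(p0 ^ 2 - φ ^ 2) := by
            rw [a1, a2, a3]
            ring
    have s4 : (√(p1 / 2) + √(p1 / 2)) ^ 2 = 2 * p1 := by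
      have a2 := Real.sq_sqrt n5
      calc (√(p1 / 2) + √(p1 / 2)) ^ 2 = 4 * √(p1 / 2) ^ 2 := by ring
        _ = 2 * p1 := by
            rw [a2]
            ring
    rw [s1, s2, s3, s4]
    linarith
  · intro y hy
    unfold Ac
    rw [BLK4_sum, e1, e2, h00, h01, h10, h11, m1, m2, m3, m4]
    have c1 : act none = false := rfl
    have c2 : act (some none) = false := rfl
    have c3 : act (some (some 0)) = true := rfl
    have c4 : act (some (some 1)) = true := rfl
    have d3 : errBit (some (some 0)) = 0 := rfl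
    have d4 : errBit (some (some 1)) = 1 := rfl
    have d5 : (1 : ZMod 2) ≠ 0 := by decide
    rw [c1, c2, c3, c4, d3, d4, if_pos rfl, if_neg d5]
    simp only [Bool.false_eq_true, if_false, if_true]
    have h3 : (1 + y) * y⁻¹ = 1 + 1 / y := by
      field_simp
      ring
    rw [h3]
    have h4 : p1 / y = p1 * (1 / y) := by ring
    rw [h4]
    linear_combination ht

end Vale.Agent.P372Q
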