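import Vale.Agent.P372Q.Base

/-!
Codes, decoder, messages, bad sets.
-/

open Matrix Finset Filter Topology
open scoped Kronecker ComplexOrder BigOperators

namespace Vale.Agent.P372Q

/-- weight of a bit string -/
def wt {m : ℕ} (z : Fin m → ZMod 2) : ℕ := (univ.filter fun i => z i ≠ 0).card

/-- blocks where both succeeded -/
def actSet {m : ℕ} (x : Fin m → Option (ZMod 2)) (u : Fin m → Bool) : Fin m → Bool :=
  fun i => (x i).isSome && u i

/-- the bits of `x` on the set `u`, zero elsewhere -/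
def rest {m : ℕ} (x : Fin m → Option (ZMod 2)) (u : Fin m → Bool) : Fin m → ZMod 2 :=
  fun i => if u i = true then (x i).getD 0 else 0

/-- Bob's message: the blocks where he succeeded -/
def bobMsg {m : ℕ} (y : Fin m → Option (ZMod 2)) : Fin m → Bool := fun i => (y i).isSome

/-- Alice's message: the blocks where both succeeded, and the syndrome of her bits -/
def aliceMsg {m r : ℕ} (S : Matrix (Fin r) (Fin m) (ZMod 2)) (x : Fin m → Option (ZMod 2))
    (u : Fin m → Bool) : (Fin m → Bool) × (Fin r → ZMod 2) := (actSet x u, S *ᵥ rest x u)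

/-- Alice's key -/
def aliceKey {m ℓ : ℕ} (H : Matrix (Fin ℓ) (Fin m) (ZMod 2)) (x : Fin m → Option (ZMod 2))
    (u : Fin m → Bool) : Fin ℓ → ZMod 2 := H *ᵥ rest x u

/-- `z` is supported on `W` -/
def Supp {m : ℕ} (W : Fin m → Bool) (z : Fin m → ZMod 2) : Prop := ∀ i, W i = false → z i = 0

open Classical in
/-- the decoder: a vector of minimal weight supported on `W` with syndrome `τ` -/
noncomputable def dec {m r : ℕ} (S : Matrix (Fin r) (Fin m) (ZMod 2)) (W : Fin m → Bool)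
    (τ : Fin r → ZMod 2) : Fin m → ZMod 2 :=
  if h : ∃ z, Supp W z ∧ S *ᵥ z = τ ∧ ∀ z', Supp W z' → S *ᵥ z' = τ → wt z ≤ wt z' then
    h.choose else 0

/-- Bob's key -/
noncomputable def bobKey {m ℓ r : ℕ} (H : Matrix (Fin ℓ) (Fin m) (ZMod 2))
    (S : Matrix (Fin r) (Fin m) (ZMod 2)) (y : Fin m → Option (ZMod 2))
    (t : (Fin m → Bool) × (Fin r → ZMod 2)) : Fin ℓ → ZMod 2 :=
  H *ᵥ (rest y t.1 + dec S t.1 (t.2 + S *ᵥ rest y t.1))

/-- restriction of a vector to the active blocks of a label -/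
def mask {m : ℕ} (l : Fin m → Lab) (v : Fin m → ZMod 2) : Fin m → ZMod 2 :=
  fun i => if act (l i) = true then v i else 0

/-- the phase vector `k` is not the strictly heaviest one in its coset -/
def Bad {m ℓ r : ℕ} (ω : Lab → ZMod 2 → ℝ) (H : Matrix (Fin ℓ) (Fin m) (ZMod 2))
    (S : Matrix (Fin r) (Fin m) (ZMod 2)) (l : Fin m → Lab) (k : Fin m → ZMod 2) : Prop :=
  ∃ (c₁ : Fin ℓ → ZMod 2) (c₂ : Fin r → ZMod 2), (c₁ ≠ 0 ∨ c₂ ≠ 0) ∧
    ∏ i, ω (l i) (k i) ≤ ∏ i, ω (l i) ((k + mask l (c₁ ᵥ* H + c₂ ᵥ* S)) i)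

open Classical in
/-- total weight of the bad phase vectors -/
noncomputable def Zbad {m ℓ r : ℕ} (ω : Lab → ZMod 2 → ℝ) (H : Matrix (Fin ℓ) (Fin m) (ZMod 2))
    (S : Matrix (Fin r) (Fin m) (ZMod 2)) : ℝ :=
  ∑ l : Fin m → Lab, ∑ k : Fin m → ZMod 2,
    if Bad ω H S l k then (∏ i, mult (l i)) * ∏ i, ω (l i) (k i) else 0

/-- the decoder fails for the error pattern of the label -/
def DecFail {m r : ℕ} (S : Matrix (Fin r) (Fin m) (ZMod 2)) (l : Fin m → Lab) : Prop :=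
  ∃ z' : Fin m → ZMod 2, z' ≠ (fun i => errBit (l i)) ∧ Supp (fun i => act (l i)) z' ∧
    S *ᵥ z' = S *ᵥ (fun i => errBit (l i)) ∧ wt z' ≤ wt (fun i => errBit (l i))

open Classical in
/-- probability of a decoding failure -/
noncomputable def Pf {m r : ℕ} (ω : Lab → ZMod 2 → ℝ) (S : Matrix (Fin r) (Fin m) (ZMod 2)) : ℝ :=
  ∑ l : Fin m → Lab, if DecFail S l then ∏ i, mult (l i) * (ω (l i) 0 + ω (l i) 1) else 0

end Vale.Agent.P372Q
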