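import Vale.Agent.P372Q.TNa

open Matrix Finset Filter Topology
open scoped Kronecker ComplexOrder BigOperators

namespace Vale.Agent.P372Q

theorem SECA_self {I E : Type} [Fintype I] [Fintype E] (G : Matrix I E ℂ) :
    (hs G : ℂ) = hsInner G G := by
  unfold hs hsInner
  push_cast
  refine Finset.sum_congr rfl fun i _ => Finset.sum_congr rfl fun e _ => ?_
  have h2 := Complex.mul_conj (G i e)
  rw [Complex.normSq_eq_norm_sq] at h2
  have h3 : star (G i e) = (starRingEnd ℂ) (G i e) := rfl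
  rw [h3, mul_comm, h2]
  push_cast
  rfl

theorem SECA_right {κ I E : Type} [Fintype κ] [Fintype I] [Fintype E]
    (G : Matrix I E ℂ) (g : κ → Matrix I E ℂ) (a : κ → ℂ) :
    hsInner G (∑ k, a k • g k) = ∑ k, a k * hsInner G (g k) := by
  unfold hsInner
  have h1 : ∀ i e, star (G i e) * (∑ k, a k • g k) i e =
      ∑ k, a k * (star (G i e) * g k i e) := by
    intro i e
    rw [Matrix.sum_apply, Finset.mul_sum]
    refine Finset.sum_congr rfl fun k _ => ?_
    rw [Matrix.smul_apply, smul_eq_mul]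
    ring
  simp only [h1, Finset.mul_sum]
  have h2 : ∀ i, (∑ e, ∑ k, a k * (star (G i e) * g k i e)) =
      ∑ k, ∑ e, a k * (star (G i e) * g k i e) := fun i => Finset.sum_comm
  simp only [h2]
  rw [Finset.sum_comm]

theorem SECA_left {κ I E : Type} [Fintype κ] [Fintype I] [Fintype E]
    (H : Matrix I E ℂ) (g : κ → Matrix I E ℂ) (a : κ → ℂ) :
    hsInner (∑ k, a k • g k) H = ∑ k, star (a k) * hsInner (g k) H := by
  unfold hsInner
  have h1 : ∀ i e, star ((∑ k, a k • g k) i e) * H i e =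
      ∑ k, star (a k) * (star (g k i e) * H i e) := by
    intro i e
    rw [Matrix.sum_apply, star_sum, Finset.sum_mul]
    refine Finset.sum_congr rfl fun k _ => ?_
    rw [Matrix.smul_apply, smul_eq_mul, star_mul']
    ring
  simp only [h1, Finset.mul_sum]
  have h2 : ∀ i, (∑ e, ∑ k, star (a k) * (star (g k i e) * H i e)) =
      ∑ k, ∑ e, star (a k) * (star (g k i e) * H i e) := fun i => Finset.sum_comm
  simp only [h2]
  rw [Finset.sum_comm]

/-- SECA. `‖∑_k a_k g_k‖^2 = ∑ |a_k|^2 ‖g_k‖^2` for pairwise orthogonal `g_k`. -/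
theorem hs_sum_orth {κ I E : Type} [Fintype κ] [DecidableEq κ] [Fintype I] [Fintype E]
    (g : κ → Matrix I E ℂ) (hg : ∀ k k', k ≠ k' → hsInner (g k) (g k') = 0) (a : κ → ℂ) :
    hs (∑ k, a k • g k) = ∑ k, ‖a k‖ ^ 2 * hs (g k) := by
  have h : ((hs (∑ k, a k • g k) : ℝ) : ℂ) = ((∑ k, ‖a k‖ ^ 2 * hs (g k) : ℝ) : ℂ) := by
    rw [SECA_self, SECA_left]
    push_cast
    refine Finset.sum_congr rfl fun k _ => ?_
    rw [SECA_right, Finset.sum_eq_single k]
    · rw [← SECA_self]
      have h2 := Complex.mul_conj (a k)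
      rw [Complex.normSq_eq_norm_sq] at h2
      have h3 : star (a k) = (starRingEnd ℂ) (a k) := rfl
      rw [h3, ← mul_assoc, mul_comm ((starRingEnd ℂ) (a k)) (a k), h2]
      push_cast
      rfl
    · intro k' _ hk'
      rw [hg k k' hk'.symm, mul_zero]
    · intro hk
      exact absurd (Finset.mem_univ k) hk
  exact_mod_cast h

/-- SECB. `|form C G - form C H| ≤ (‖G‖ + ‖H‖) ‖G - H‖`. -/
theorem form_sub_bound {I E : Type} [Fintype I] [Fintype E] [DecidableEq E] {C : Matrix E E ℂ}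
    (hC : IsContr C) (G H : Matrix I E ℂ) :
    ‖(C * eveState G).trace - (C * eveState H).trace‖ ≤
      (√(hs G) + √(hs H)) * √(hs (G - H)) := by
  have h1 := form_bound hC (G - H) G
  have h2 := form_bound hC H (G - H)
  have h3 : (C * eveState G).trace - (C * eveState H).trace =
      (∑ i, ∑ e, ∑ e', C e' e * (G - H) i e * star (G i e')) +
      ∑ i, ∑ e, ∑ e', C e' e * H i e * star ((G - H) i e') := by
    rw [trace_eveState, trace_eveState, ← Finset.sum_sub_distrib, ← Finset.sum_add_distrib]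
    refine Finset.sum_congr rfl fun i _ => ?_
    rw [← Finset.sum_sub_distrib, ← Finset.sum_add_distrib]
    refine Finset.sum_congr rfl fun e _ => ?_
    rw [← Finset.sum_sub_distrib, ← Finset.sum_add_distrib]
    refine Finset.sum_congr rfl fun e' _ => ?_
    rw [Matrix.sub_apply, Matrix.sub_apply, star_sub]
    ring
  rw [h3]
  refine (norm_add_le _ _).trans ?_
  linarith [h1, h2, mul_comm (√(hs (G - H))) (√(hs G))]

theorem SECC_vec {m : ℕ} {D : Type} [Fintype D] [DecidableEq D]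
    (θ : Matrix D (Fin m) (ZMod 2)) (d : Fin m → ZMod 2)
    (hd : ∀ c : D → ZMod 2, c ᵥ* θ ≠ d) :
    ∃ b₀ : Fin m → ZMod 2, θ *ᵥ b₀ = 0 ∧ ∑ i, d i * b₀ i = 1 := by
  have hW : d ∉ LinearMap.range θ.vecMulLinear := by
    rintro ⟨c, hc⟩
    exact hd c hc
  obtain ⟨f, hf1, hf2⟩ := Submodule.exists_dual_map_eq_bot_of_notMem hW inferInstance
  have hfx : ∀ x : Fin m → ZMod 2, f x = ∑ i, x i * f (Pi.single i 1) := by
    intro x
    conv_lhs => rw [← Finset.univ_sum_single x]
    rw [map_sum]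
    refine Finset.sum_congr rfl fun i _ => ?_
    have : (Pi.single i (x i) : Fin m → ZMod 2) = x i • Pi.single i 1 := by
      rw [← Pi.single_smul]; simp
    rw [this, map_smul, smul_eq_mul]
  refine ⟨fun i => f (Pi.single i 1), ?_, ?_⟩
  · funext k
    have h1 : f ((Pi.single k 1 : D → ZMod 2) ᵥ* θ) = 0 := by
      have h2 : f ((Pi.single k 1 : D → ZMod 2) ᵥ* θ) ∈
          Submodule.map f (LinearMap.range θ.vecMulLinear) :=
        Submodule.mem_map_of_mem ⟨Pi.single k 1, rfl⟩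
      rw [hf2] at h2
      exact (Submodule.mem_bot _).1 h2
    rw [hfx] at h1
    simp only [Matrix.single_one_vecMul] at h1
    exact h1
  · rw [← hfx]
    have hz : ∀ z : ZMod 2, z ≠ 0 → z = 1 := by decide
    exact hz _ hf1

theorem SECC_sgn (x : ZMod 2) : sgn (x + 1) = - sgn x := by
  have hz : ∀ z : ZMod 2, z = 0 ∨ z = 1 := by decide
  unfold sgn
  rcases hz x with h | h
  · subst h
    rw [if_neg (by decide), if_pos rfl]
  · subst h
    rw [if_pos (by decide), if_neg (by decide), neg_neg]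

/-- SECC. Character sums over the solutions of a linear system over the field with two elements.
If `d` is not in the row space of `θ`, the sum of `(-1)^(d·b)` over all `b` with `θ b = t`
vanishes (there is `b₀` with `θ b₀ = 0` and `d·b₀ = 1`). -/
theorem char_sum_zero {m : ℕ} {D : Type} [Fintype D] [DecidableEq D]
    (θ : Matrix D (Fin m) (ZMod 2)) (t : D → ZMod 2) (d : Fin m → ZMod 2)
    (hd : ∀ c : D → ZMod 2, c ᵥ* θ ≠ d) :
    ∑ b : Fin m → ZMod 2, (if θ *ᵥ b = t then sgn (∑ i, d i * b i) else 0) = 0 := by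
  obtain ⟨b₀, h1, h2⟩ := SECC_vec θ d hd
  set F : (Fin m → ZMod 2) → ℂ := fun b => if θ *ᵥ b = t then sgn (∑ i, d i * b i) else 0 with hF
  have h3 : ∀ b, F (b + b₀) = - F b := by
    intro b
    have h4 : θ *ᵥ (b + b₀) = θ *ᵥ b := by rw [Matrix.mulVec_add, h1, add_zero]
    have h5 : ∑ i, d i * (b + b₀) i = (∑ i, d i * b i) + 1 := by
      rw [← h2, ← Finset.sum_add_distrib]
      refine Finset.sum_congr rfl fun i _ => ?_
      rw [Pi.add_apply, mul_add]
    simp only [hF, h4, h5]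
    by_cases h6 : θ *ᵥ b = t
    · rw [if_pos h6, if_pos h6, SECC_sgn]
    · rw [if_neg h6, if_neg h6, neg_zero]
  have h7 : ∑ b, F (b + b₀) = ∑ b, F b := Equiv.sum_comp (Equiv.addRight b₀) F
  simp only [h3, Finset.sum_neg_distrib] at h7
  have h8 : ∑ b, F b = 0 := by
    have h9 : (2 : ℂ) * ∑ b, F b = 0 := by linear_combination -h7
    simpa using h9
  exact h8

theorem SECD_surj {m : ℕ} {D : Type} [Fintype D] [DecidableEq D]
    (θ : Matrix D (Fin m) (ZMod 2)) (h : ∀ c : D → ZMod 2, c ≠ 0 → c ᵥ* θ ≠ 0)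
    (t : D → ZMod 2) : ∃ b : Fin m → ZMod 2, θ *ᵥ b = t := by
  have hinj : Function.Injective θ.vecMul := by
    intro c c' hcc
    by_contra hne
    apply h (c - c') (sub_ne_zero.2 hne)
    rw [Matrix.sub_vecMul]
    exact sub_eq_zero.2 hcc
  have hli : LinearIndependent (ZMod 2) θ.row := Matrix.vecMul_injective_iff.1 hinj
  have hr : θ.rank = Fintype.card D := hli.rank_matrix
  have hs : LinearMap.range θ.mulVecLin = ⊤ := by
    apply Submodule.eq_top_of_finrank_eq
    rw [Module.finrank_fintype_fun_eq_card]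
    exact hr
  obtain ⟨b, hb⟩ := LinearMap.range_eq_top.1 hs t
  exact ⟨b, hb⟩

/-- SECD. If the rows of `θ` are linearly independent, every system `θ b = t` has the same number
of solutions. -/
theorem card_solutions {m : ℕ} {D : Type} [Fintype D] [DecidableEq D]
    (θ : Matrix D (Fin m) (ZMod 2)) (h : ∀ c : D → ZMod 2, c ≠ 0 → c ᵥ* θ ≠ 0) (t : D → ZMod 2) :
    (2 : ℂ) ^ Fintype.card D * ∑ b : Fin m → ZMod 2, (if θ *ᵥ b = t then (1 : ℂ) else 0) =
      2 ^ m := by
  have hN : ∀ s : D → ZMod 2, ∑ b : Fin m → ZMod 2, (if θ *ᵥ b = s then (1 : ℂ) else 0)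
      = ∑ b : Fin m → ZMod 2, (if θ *ᵥ b = 0 then (1 : ℂ) else 0) := by
    intro s
    obtain ⟨b₀, hb₀⟩ := SECD_surj θ h s
    rw [← Equiv.sum_comp (Equiv.addRight b₀)
      fun b : Fin m → ZMod 2 => (if θ *ᵥ b = s then (1 : ℂ) else 0)]
    refine Finset.sum_congr rfl fun b _ => ?_
    simp only [Equiv.coe_addRight, Matrix.mulVec_add, hb₀, add_eq_right]
  have h1 : ∑ s : D → ZMod 2, ∑ b : Fin m → ZMod 2, (if θ *ᵥ b = s then (1 : ℂ) else 0)
      = 2 ^ m := by
    rw [Finset.sum_comm]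
    simp [ZMod.card]
  have h2 : ∑ s : D → ZMod 2, ∑ b : Fin m → ZMod 2, (if θ *ᵥ b = s then (1 : ℂ) else 0)
      = (2 : ℂ) ^ Fintype.card D *
        ∑ b : Fin m → ZMod 2, (if θ *ᵥ b = 0 then (1 : ℂ) else 0) := by
    rw [Finset.sum_congr rfl fun s _ => hN s, Finset.sum_const, Finset.card_univ, nsmul_eq_mul]
    congr 1
    simp [ZMod.card]
  rw [hN t, ← h2, h1]

end Vale.Agent.P372Q
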