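import Vale.Agent.P372Q.TNa
import Vale.Agent.P372Q.Code
import Vale.Agent.P372Q.SecA

open Matrix Finset Filter Topology
open scoped Kronecker ComplexOrder BigOperators

namespace Vale.Agent.P372Q

theorem DEC_two (a b : ZMod 2) : b + (a + b) = a := by
  revert a b; decide

theorem DEC_rest {m : ℕ} (x y : Fin m → Option (ZMod 2)) :
    rest x (bobMsg y) = rest y (actSet x (bobMsg y)) + fun i => errBit (lab (x i) (y i)) := by
  funext i
  rcases hx : x i with _ | a <;> rcases hy : y i with _ | b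
  · simp [rest, bobMsg, actSet, lab, errBit, hx, hy]
  · simp [rest, bobMsg, actSet, lab, errBit, hx, hy]
  · simp [rest, bobMsg, actSet, lab, errBit, hx, hy]
  · simp [rest, bobMsg, actSet, lab, errBit, hx, hy, DEC_two]

theorem DEC_act {m : ℕ} (x y : Fin m → Option (ZMod 2)) (i : Fin m) :
    act (lab (x i) (y i)) = actSet x (bobMsg y) i := by
  rcases hx : x i with _ | a <;> rcases hy : y i with _ | b <;>
    simp [bobMsg, actSet, lab, act, hx, hy]

theorem DEC_supp {m : ℕ} (x y : Fin m → Option (ZMod 2)) :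
    Supp (actSet x (bobMsg y)) (fun i => errBit (lab (x i) (y i))) := by
  intro i hi
  rw [← DEC_act] at hi
  show errBit (lab (x i) (y i)) = 0
  revert hi
  generalize x i = p
  generalize y i = q
  rcases p with _ | a <;> rcases q with _ | b <;> simp [lab, act, errBit]

theorem DEC_addself {n : ℕ} (v : Fin n → ZMod 2) : v + v = 0 := by
  funext i
  exact CharTwo.add_self_eq_zero (v i)

theorem DEC_exists {m r : ℕ} (S : Matrix (Fin r) (Fin m) (ZMod 2)) (W : Fin m → Bool)
    (z : Fin m → ZMod 2) (hz : Supp W z) :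
    ∃ z', Supp W z' ∧ S *ᵥ z' = S *ᵥ z ∧ ∀ z'', Supp W z'' → S *ᵥ z'' = S *ᵥ z →
      wt z' ≤ wt z'' := by
  classical
  have hne : (univ.filter fun w : Fin m → ZMod 2 => Supp W w ∧ S *ᵥ w = S *ᵥ z).Nonempty :=
    ⟨z, by simp [hz]⟩
  obtain ⟨z', hz', hmin⟩ := Finset.exists_min_image _ (fun w : Fin m → ZMod 2 => wt w) hne
  rw [Finset.mem_filter] at hz'
  refine ⟨z', hz'.2.1, hz'.2.2, fun z'' h1 h2 => ?_⟩
  exact hmin z'' (by rw [Finset.mem_filter]; exact ⟨mem_univ _, h1, h2⟩)

/-- DEC. If Alice's key differs from Bob's key then the decoder fails for the label of `(x, y)`: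
with `z i = errBit (lab (x i) (y i))` and `W = actSet x (bobMsg y)` one has
`rest x (bobMsg y) + rest y W = z` (characteristic two), so `S (rest x) + S (rest y) = S z`; `z` is
supported on `W`, so the minimum in `dec` is attained and `dec` returns some `z'` supported on `W`
with `S z' = S z`, `wt z' ≤ wt z`; if `z' = z` the keys agree. -/
theorem decFail_of_key_ne {m ℓ r : ℕ} (H : Matrix (Fin ℓ) (Fin m) (ZMod 2))
    (S : Matrix (Fin r) (Fin m) (ZMod 2)) (x y : Fin m → Option (ZMod 2))
    (h : aliceKey H x (bobMsg y) ≠ bobKey H S y (aliceMsg S x (bobMsg y))) :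
    DecFail S (fun i => lab (x i) (y i)) := by
  classical
  have hW := DEC_supp x y
  have hr := DEC_rest x y
  set z : Fin m → ZMod 2 := fun i => errBit (lab (x i) (y i)) with hzdef
  set W : Fin m → Bool := actSet x (bobMsg y) with hWdef
  have hsyn : S *ᵥ rest x (bobMsg y) + S *ᵥ rest y W = S *ᵥ z := by
    rw [hr, Matrix.mulVec_add, add_right_comm, DEC_addself, zero_add]
  have hex := DEC_exists S W z hW
  have hdec : ∃ z', dec S W (S *ᵥ rest x (bobMsg y) + S *ᵥ rest y W) = z' ∧ Supp W z' ∧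
      S *ᵥ z' = S *ᵥ z ∧ ∀ z'', Supp W z'' → S *ᵥ z'' = S *ᵥ z → wt z' ≤ wt z'' := by
    rw [hsyn]
    unfold dec
    rw [dif_pos hex]
    exact ⟨_, rfl, hex.choose_spec⟩
  obtain ⟨z', hz', h1, h2, h3⟩ := hdec
  refine ⟨z', ?_, ?_, h2, h3 z hW rfl⟩
  · intro hzz
    apply h
    have hzz' : z' = z := hzz
    unfold aliceKey bobKey aliceMsg
    simp only
    rw [← hWdef, hz', hzz', ← hr]
  · intro i hi
    apply h1 i
    rw [hWdef, ← DEC_act]
    exact hi

theorem DEC2_sum2 (f : ZMod 2 → ℝ) : ∑ z : ZMod 2, f z = f 0 + f 1 := Fin.sum_univ_two f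

theorem DEC2_bit {l : Lab} {a b : Option (ZMod 2)} (h : lab a b = l) (hl : act l = false) :
    bit a b = 0 := by
  subst h
  rcases a with _ | a <;> rcases b with _ | b <;> simp [bit, lab, act] at hl ⊢

theorem DEC2_mult (l : Lab) :
    ∑ z : ZMod 2, (if (act l = false → z = 0) then (1 : ℝ) else 0) = mult l := by
  rw [DEC2_sum2]
  unfold mult
  cases h : act l
  · simp
  · simp
    norm_num

theorem DEC2_mass {m : ℕ} {I E : Type} [Fintype I] [Fintype E] [DecidableEq E]
    {P : (Fin m → Option (ZMod 2)) → (Fin m → Option (ZMod 2)) → Matrix E E ℂ}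
    {g : (Fin m → Lab) → (Fin m → ZMod 2) → Matrix I E ℂ} {ω : Lab → ZMod 2 → ℝ}
    (hM : IsModel P g ω) (l : Fin m → Lab) :
    (∑ x, ∑ y, if (∀ i, lab (x i) (y i) = l i) then (P x y).trace.re else 0) =
      ∏ i, mult (l i) * (ω (l i) 0 + ω (l i) 1) := by
  have h1 : (∑ x, ∑ y, if (∀ i, lab (x i) (y i) = l i) then (P x y).trace.re else 0) =
      ∑ b : Fin m → ZMod 2, ∑ x, ∑ y,
        (if (∀ i, lab (x i) (y i) = l i) ∧ (∀ i, bit (x i) (y i) = b i) then (P x y).trace.re
          else 0) := by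
    symm
    rw [Finset.sum_comm]
    refine Finset.sum_congr rfl fun x _ => ?_
    rw [Finset.sum_comm]
    refine Finset.sum_congr rfl fun y _ => ?_
    rw [Finset.sum_eq_single (fun i => bit (x i) (y i))]
    · by_cases h : ∀ i, lab (x i) (y i) = l i
      · rw [if_pos h, if_pos ⟨h, fun i => rfl⟩]
      · rw [if_neg h, if_neg fun h' => h h'.1]
    · intro b _ hb
      rw [if_neg]
      rintro ⟨-, h2⟩
      exact hb (funext fun i => (h2 i).symm)
    · intro h
      exact absurd (Finset.mem_univ _) h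
  have h2 : ∀ b : Fin m → ZMod 2, (∑ x, ∑ y,
      (if (∀ i, lab (x i) (y i) = l i) ∧ (∀ i, bit (x i) (y i) = b i) then (P x y).trace.re
        else 0)) = (if (∀ i, act (l i) = false → b i = 0) then (1 : ℝ) else 0) *
          ∑ k : Fin m → ZMod 2, ∏ i, ω (l i) (k i) := by
    intro b
    by_cases hb : ∀ i, act (l i) = false → b i = 0
    · rw [if_pos hb, one_mul]
      have h3 := congrArg (fun X : Matrix E E ℂ => X.trace.re) (hM.state l b hb)
      rw [(eveState_psd _).2, Complex.ofReal_re, hs_sum_orth _ (hM.orth l)] at h3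
      have h4 : ∀ k : Fin m → ZMod 2, ‖sgn (∑ i, k i * b i)‖ ^ 2 * hs (g l k) =
          ∏ i, ω (l i) (k i) := by
        intro k
        rw [hM.norm]
        have : ‖sgn (∑ i, k i * b i)‖ = 1 := by
          unfold sgn
          split_ifs <;> simp
        rw [this]
        ring
      rw [Finset.sum_congr rfl fun k _ => h4 k] at h3
      rw [← h3, Matrix.trace_sum, Complex.re_sum]
      refine Finset.sum_congr rfl fun x _ => ?_
      rw [Matrix.trace_sum, Complex.re_sum]
      refine Finset.sum_congr rfl fun y _ => ?_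
      by_cases h : (∀ i, lab (x i) (y i) = l i) ∧ (∀ i, bit (x i) (y i) = b i)
      · rw [if_pos h, if_pos h]
      · rw [if_neg h, if_neg h, Matrix.trace_zero, Complex.zero_re]
    · rw [if_neg hb, zero_mul]
      refine Finset.sum_eq_zero fun x _ => Finset.sum_eq_zero fun y _ => ?_
      rw [if_neg]
      rintro ⟨h3, h4⟩
      exact hb fun i hi => by rw [← h4 i]; exact DEC2_bit (h3 i) hi
  rw [h1, Finset.sum_congr rfl fun b _ => h2 b, ← Finset.sum_mul]
  have h5 : ∑ b : Fin m → ZMod 2, (if (∀ i, act (l i) = false → b i = 0) then (1 : ℝ) else 0) =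
      ∏ i, mult (l i) := by
    rw [← Finset.prod_congr rfl fun i _ => DEC2_mult (l i), Finset.prod_univ_sum,
      Fintype.piFinset_univ]
    refine Finset.sum_congr rfl fun b _ => ?_
    rw [Finset.prod_boole]
    simp only [Finset.mem_univ, true_imp_iff]
  have h6 : ∑ k : Fin m → ZMod 2, ∏ i, ω (l i) (k i) = ∏ i, (ω (l i) 0 + ω (l i) 1) := by
    rw [← Finset.prod_congr rfl fun i _ => DEC2_sum2 (ω (l i)), Finset.prod_univ_sum,
      Fintype.piFinset_univ]
  rw [h5, h6, Finset.prod_mul_distrib]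

/-- sum over the pairs = sum over the labels -/
theorem DEC2_lab {m : ℕ} (F : (Fin m → Option (ZMod 2)) → (Fin m → Option (ZMod 2)) → ℝ) :
    ∑ x, ∑ y, F x y = ∑ l : Fin m → Lab, ∑ x, ∑ y,
      if (∀ i, lab (x i) (y i) = l i) then F x y else 0 := by
  symm
  rw [Finset.sum_comm]
  refine Finset.sum_congr rfl fun x _ => ?_
  rw [Finset.sum_comm]
  refine Finset.sum_congr rfl fun y _ => ?_
  rw [Finset.sum_eq_single (fun i => lab (x i) (y i))]
  · rw [if_pos fun i => rfl]
  · intro l _ hl
    rw [if_neg]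
    intro h2
    exact hl (funext fun i => (h2 i).symm)
  · intro h
    exact absurd (Finset.mem_univ _) h

open Classical in
/-- DEC2. Total mass of the pairs with given label: `2^|active| ∏ (ω 0 + ω 1)` (the squared norm
of each `v b` is `∑_k hs (g l k) = ∏ (ω (l i) 0 + ω (l i) 1)` and there are `2^|active|` supported
`b`), hence the mass of the pairs whose keys differ is at most `Pf`. -/
theorem mass_key_ne {m ℓ r : ℕ} {I E : Type} [Fintype I] [Fintype E] [DecidableEq E]
    {P : (Fin m → Option (ZMod 2)) → (Fin m → Option (ZMod 2)) → Matrix E E ℂ}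
    {g : (Fin m → Lab) → (Fin m → ZMod 2) → Matrix I E ℂ} {ω : Lab → ZMod 2 → ℝ}
    (hω : IsWeight ω) (hM : IsModel P g ω) (H : Matrix (Fin ℓ) (Fin m) (ZMod 2))
    (S : Matrix (Fin r) (Fin m) (ZMod 2)) :
    (∑ x, ∑ y, if aliceKey H x (bobMsg y) ≠ bobKey H S y (aliceMsg S x (bobMsg y)) then
      (P x y).trace.re else 0) ≤ Pf ω S := by
  have hnn : ∀ x y, 0 ≤ (P x y).trace.re := fun x y => by
    have := (hM.psd x y).trace_nonneg
    exact (Complex.le_def.1 this).1
  rw [DEC2_lab, Pf]
  refine Finset.sum_le_sum fun l _ => ?_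
  by_cases hl : DecFail S l
  · rw [if_pos hl, ← DEC2_mass hM l]
    refine Finset.sum_le_sum fun x _ => Finset.sum_le_sum fun y _ => ?_
    by_cases h : ∀ i, lab (x i) (y i) = l i
    · simp only [if_pos h]
      split_ifs
      · exact le_rfl
      · exact hnn x y
    · simp only [if_neg h]
      exact le_rfl
  · rw [if_neg hl]
    refine le_of_eq (Finset.sum_eq_zero fun x _ => Finset.sum_eq_zero fun y _ => ?_)
    by_cases h : ∀ i, lab (x i) (y i) = l i
    · simp only [if_pos h]
      by_cases hk : aliceKey H x (bobMsg y) ≠ bobKey H S y (aliceMsg S x (bobMsg y))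
      · exfalso
        have h2 := decFail_of_key_ne H S x y hk
        have h3 : (fun i => lab (x i) (y i)) = l := funext h
        rw [h3] at h2
        exact hl h2
      · simp only [if_neg hk]
    · simp only [if_neg h]

/-- DEC3. Total mass one. -/
theorem mass_total {m : ℕ} {I E : Type} [Fintype I] [Fintype E] [DecidableEq E]
    {P : (Fin m → Option (ZMod 2)) → (Fin m → Option (ZMod 2)) → Matrix E E ℂ}
    {g : (Fin m → Lab) → (Fin m → ZMod 2) → Matrix I E ℂ} {ω : Lab → ZMod 2 → ℝ}
    (hω : IsWeight ω) (hM : IsModel P g ω) : ∑ x, ∑ y, (P x y).trace.re = 1 := by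
  rw [DEC2_lab, Finset.sum_congr rfl fun l _ => DEC2_mass hM l]
  have h1 := Finset.prod_univ_sum (ι := Fin m) (fun _ => (Finset.univ : Finset Lab))
    (fun _ l => mult l * (ω l 0 + ω l 1))
  rw [Fintype.piFinset_univ] at h1
  rw [← h1, Finset.prod_congr rfl fun i _ => hω.total, Finset.prod_const_one]

end Vale.Agent.P372Q
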