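import Vale.Agent.P372Q.Sec
import Vale.Agent.P372Q.Code

open Matrix Finset Filter Topology
open scoped Kronecker ComplexOrder BigOperators

namespace Vale.Agent.P372Q

theorem prv_zmod2 : ∀ x : ZMod 2, x = 0 ∨ x = 1 := by decide

theorem prv_sum2 (f : ZMod 2 → ℝ) : ∑ x, f x = f 0 + f 1 := Fin.sum_univ_two f

section Lab

variable {m : ℕ} (l : Fin m → Lab)

theorem prv_mask_apply (v : Fin m → ZMod 2) (i : Fin m) :
    mask l v i = if act (l i) = true then v i else 0 := rfl

theorem prv_mask_supp (v : Fin m → ZMod 2) : Supp (fun i => act (l i)) (mask l v) := by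
  intro i hi
  have hi' : act (l i) = false := hi
  rw [prv_mask_apply, hi']
  simp

theorem prv_mask_of_supp {v : Fin m → ZMod 2} (h : Supp (fun i => act (l i)) v) :
    mask l v = v := by
  funext i
  rw [prv_mask_apply]
  split_ifs with h1
  · rfl
  · have h2 : act (l i) = false := by simpa using h1
    exact (h i h2).symm

theorem prv_mask_add (v w : Fin m → ZMod 2) : mask l (v + w) = mask l v + mask l w := by
  funext i
  rw [Pi.add_apply, prv_mask_apply, prv_mask_apply, prv_mask_apply, Pi.add_apply]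
  split_ifs
  · rfl
  · rw [add_zero]

theorem prv_mask_sub (v w : Fin m → ZMod 2) : mask l (v - w) = mask l v - mask l w := by
  funext i
  rw [Pi.sub_apply, prv_mask_apply, prv_mask_apply, prv_mask_apply, Pi.sub_apply]
  split_ifs
  · rfl
  · rw [sub_zero]

open Classical in
/-- the number of vectors with zero mask -/
noncomputable def prvC : ℕ := (Finset.univ.filter fun b : Fin m → ZMod 2 => mask l b = 0).card

theorem prvC_pos : 0 < prvC l := by
  classical
  unfold prvC
  refine Finset.card_pos.mpr ⟨0, ?_⟩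
  rw [Finset.mem_filter]
  refine ⟨Finset.mem_univ _, ?_⟩
  funext i
  rw [prv_mask_apply]
  split_ifs <;> rfl

open Classical in
theorem prv_fib {A : Type*} [AddCommMonoid A] (F : (Fin m → ZMod 2) → A) :
    ∑ b, F (mask l b) = prvC l • ∑ b, if Supp (fun i => act (l i)) b then F b else 0 := by
  rw [← Finset.sum_fiberwise (s := Finset.univ) (g := fun b => mask l b)
    (f := fun b => F (mask l b)), Finset.smul_sum]
  refine Finset.sum_congr rfl fun b _ => ?_
  have h1 : ∑ b' ∈ Finset.univ.filter (fun b' => mask l b' = b), F (mask l b') =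
      (Finset.univ.filter (fun b' => mask l b' = b)).card • F b := by
    rw [← Finset.sum_const]
    refine Finset.sum_congr rfl fun b' hb' => ?_
    rw [(Finset.mem_filter.mp hb').2]
  rw [h1]
  split_ifs with h
  · congr 1
    unfold prvC
    refine Finset.card_bij' (fun b' _ => b' - b) (fun b' _ => b' + b) ?_ ?_ ?_ ?_
    · intro b' hb'
      rw [Finset.mem_filter] at hb' ⊢
      refine ⟨Finset.mem_univ _, ?_⟩
      rw [prv_mask_sub, hb'.2, prv_mask_of_supp l h, sub_self]
    · intro b' hb'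
      rw [Finset.mem_filter] at hb' ⊢
      refine ⟨Finset.mem_univ _, ?_⟩
      rw [prv_mask_add, hb'.2, prv_mask_of_supp l h, zero_add]
    · intro b' _
      exact sub_add_cancel b' b
    · intro b' _
      exact add_sub_cancel_right b' b
  · rw [smul_zero]
    have h2 : Finset.univ.filter (fun b' => mask l b' = b) = ∅ := by
      rw [Finset.filter_eq_empty_iff]
      intro b' _ hb'
      apply h
      rw [← hb']
      exact prv_mask_supp l b'
    rw [h2, Finset.card_empty, zero_smul]

theorem prv_count : (prvC l : ℝ) * ∏ i, mult (l i) = 2 ^ m := by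
  classical
  have h1 := prv_fib l (fun _ => (1 : ℝ))
  rw [Finset.sum_const, Finset.card_univ, nsmul_eq_mul, mul_one, nsmul_eq_mul] at h1
  have h2 : (∑ b : Fin m → ZMod 2, if Supp (fun i => act (l i)) b then (1 : ℝ) else 0) =
      ∏ i, mult (l i) := by
    have h3 : ∀ b : Fin m → ZMod 2, (if Supp (fun i => act (l i)) b then (1 : ℝ) else 0) =
        ∏ i, if act (l i) = false → b i = 0 then (1 : ℝ) else 0 := by
      intro b
      split_ifs with h
      · refine (Finset.prod_eq_one fun i _ => ?_).symm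
        rw [if_pos (h i)]
      · unfold Supp at h
        push Not at h
        obtain ⟨i, hi⟩ := h
        refine (Finset.prod_eq_zero (Finset.mem_univ i) ?_).symm
        rw [if_neg]
        intro h'
        exact hi.2 (h' hi.1)
    rw [Finset.sum_congr rfl fun b _ => h3 b]
    have h5 := Finset.prod_univ_sum (fun _ : Fin m => (Finset.univ : Finset (ZMod 2)))
      (fun i x => if act (l i) = false → x = 0 then (1 : ℝ) else 0)
    rw [Fintype.piFinset_univ] at h5
    rw [← h5]
    refine Finset.prod_congr rfl fun i _ => ?_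
    rw [prv_sum2]
    unfold mult
    by_cases h6 : act (l i) = true
    · rw [if_pos h6]
      rw [if_pos (fun _ => rfl), if_pos (fun h7 => absurd (h6.symm.trans h7) (by decide))]
      norm_num
    · have h7 : act (l i) = false := by simpa using h6
      rw [if_neg h6, if_pos (fun _ => rfl), if_neg (fun h8 => absurd (h8 h7) (by decide))]
      norm_num
  rw [h2] at h1
  rw [← h1, Fintype.card_fun, Fintype.card_fin, ZMod.card]
  norm_num

/-- masked matrix -/
def prvM {D : Type} (θ : Matrix D (Fin m) (ZMod 2)) : Matrix D (Fin m) (ZMod 2) :=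
  Matrix.of fun i j => if act (l j) = true then θ i j else 0

theorem prvM_mulVec {D : Type} (θ : Matrix D (Fin m) (ZMod 2)) (b : Fin m → ZMod 2) :
    prvM l θ *ᵥ b = θ *ᵥ mask l b := by
  funext i
  unfold Matrix.mulVec dotProduct
  refine Finset.sum_congr rfl fun j _ => ?_
  show (if act (l j) = true then θ i j else 0) * b j =
    θ i j * (if act (l j) = true then b j else 0)
  split_ifs
  · rfl
  · rw [zero_mul, mul_zero]

theorem prvM_vecMul {D : Type} [Fintype D] (θ : Matrix D (Fin m) (ZMod 2)) (c : D → ZMod 2) :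
    c ᵥ* prvM l θ = mask l (c ᵥ* θ) := by
  funext j
  rw [prv_mask_apply]
  unfold Matrix.vecMul dotProduct
  by_cases h : act (l j) = true
  · rw [if_pos h]
    refine Finset.sum_congr rfl fun i _ => ?_
    show c i * (if act (l j) = true then θ i j else 0) = c i * θ i j
    rw [if_pos h]
  · rw [if_neg h]
    refine Finset.sum_eq_zero fun i _ => ?_
    show c i * (if act (l j) = true then θ i j else 0) = 0
    rw [if_neg h, mul_zero]

end Lab

theorem prv_hs_zero {I E : Type} [Fintype I] [Fintype E] {G : Matrix I E ℂ} (h : hs G = 0) :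
    G = 0 := by
  unfold hs at h
  ext i e
  have h1 := (Finset.sum_eq_zero_iff_of_nonneg (fun i _ =>
    Finset.sum_nonneg fun e _ => sq_nonneg ‖G i e‖)).mp h i (Finset.mem_univ i)
  have h2 := (Finset.sum_eq_zero_iff_of_nonneg (fun e _ => sq_nonneg ‖G i e‖)).mp h1 e
    (Finset.mem_univ e)
  have h3 : ‖G i e‖ = 0 := by
    rwa [sq_eq_zero_iff] at h2
  exact norm_eq_zero.mp h3

/-- the vectors depend only on the restriction to the active blocks -/
theorem prv_vec {m : ℕ} {I E : Type} [Fintype I] [Fintype E]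
    {ω : Lab → ZMod 2 → ℝ} (hω : IsWeight ω) (l : Fin m → Lab)
    (g : (Fin m → ZMod 2) → Matrix I E ℂ) (hn : ∀ k, hs (g k) = ∏ i, ω (l i) (k i))
    (b : Fin m → ZMod 2) : ∑ k', sgn (∑ i, k' i * b i) • g k' =
      ∑ k', sgn (∑ i, k' i * mask l b i) • g k' := by
  refine Finset.sum_congr rfl fun k' _ => ?_
  by_cases h : Supp (fun i => act (l i)) k'
  · have h1 : ∑ i, k' i * b i = ∑ i, k' i * mask l b i := by
      refine Finset.sum_congr rfl fun i _ => ?_
      rw [prv_mask_apply]
      split_ifs with h2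
      · rfl
      · have h3 : act (l i) = false := by simpa using h2
        rw [h i h3, zero_mul, zero_mul]
    rw [h1]
  · unfold Supp at h
    push Not at h
    obtain ⟨i, hi1, hi2⟩ := h
    have h4 : k' i = 1 := (prv_zmod2 (k' i)).resolve_left hi2
    have h5 : g k' = 0 := by
      refine prv_hs_zero ?_
      rw [hn]
      refine Finset.prod_eq_zero (Finset.mem_univ i) ?_
      rw [h4]
      exact hω.inact _ hi1
    rw [h5, smul_zero, smul_zero]

open Classical in
/-- PRL (privacy for one label `l`). Apply SEC to `g l` and the matrices `H`, `S` with the columns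
outside the active blocks set to zero. As `g l k = 0` unless `k` is supported on the active blocks
(its norm contains a factor `ω (l i) 1 = 0`), the vectors `v b` depend only on the restriction of
`b` to the active blocks, so the sum over all `b` is `2^(m - |active|)` times the sum over the
supported `b`; `2^m / 2^(m - |active|) = ∏ mult`. Also `∑_k hs (g l k) = ∏ (ω (l i) 0 + ω (l i) 1)`
and the bad set of SEC is contained in `Bad ω H S l` (for the masked matrices
`c₁ ᵥ* θ₁ + c₂ ᵥ* θ₂ = mask l (c₁ ᵥ* H + c₂ ᵥ* S)`). -/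
theorem priv_label {m ℓ r : ℕ} {I E : Type} [Fintype I] [Fintype E] [DecidableEq E]
    {ω : Lab → ZMod 2 → ℝ} (hω : IsWeight ω) (l : Fin m → Lab)
    (g : (Fin m → ZMod 2) → Matrix I E ℂ) (hn : ∀ k, hs (g k) = ∏ i, ω (l i) (k i))
    (ho : ∀ k k', k ≠ k' → hsInner (g k) (g k') = 0)
    (H : Matrix (Fin ℓ) (Fin m) (ZMod 2)) (S : Matrix (Fin r) (Fin m) (ZMod 2))
    (C : (Fin ℓ → ZMod 2) → (Fin r → ZMod 2) → Matrix E E ℂ) (hC : ∀ k t, IsContr (C k t)) :
    ∑ k, ∑ t, ‖(∑ b, if Supp (fun i => act (l i)) b ∧ H *ᵥ b = k ∧ S *ᵥ b = t then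
          (C k t * eveState (∑ k', sgn (∑ i, k' i * b i) • g k')).trace else 0) -
        ((2 : ℂ) ^ ℓ)⁻¹ * (∑ b, if Supp (fun i => act (l i)) b ∧ S *ᵥ b = t then
          (C k t * eveState (∑ k', sgn (∑ i, k' i * b i) • g k')).trace else 0)‖ ≤
      4 * (∏ i, mult (l i)) * √(∏ i, (ω (l i) 0 + ω (l i) 1)) *
        √(∑ k, if Bad ω H S l k then ∏ i, ω (l i) (k i) else 0) := by
  have hsec := sec_bound g ho (prvM l H) (prvM l S) C hC
  have hsum : ∑ k, hs (g k) = ∏ i, (ω (l i) 0 + ω (l i) 1) := by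
    rw [Finset.sum_congr rfl fun k _ => hn k]
    have h5 := Finset.prod_univ_sum (fun _ : Fin m => (Finset.univ : Finset (ZMod 2)))
      (fun i x => ω (l i) x)
    rw [Fintype.piFinset_univ] at h5
    rw [← h5]
    exact Finset.prod_congr rfl fun i _ => prv_sum2 _
  have hbad : (∑ k, if (∃ (c₁ : Fin ℓ → ZMod 2) (c₂ : Fin r → ZMod 2),
        (c₁ ≠ 0 ∨ c₂ ≠ 0) ∧ hs (g k) ≤ hs (g (k + (c₁ ᵥ* prvM l H + c₂ ᵥ* prvM l S)))) then
          hs (g k) else 0) = ∑ k, if Bad ω H S l k then ∏ i, ω (l i) (k i) else 0 := by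
    refine Finset.sum_congr rfl fun k _ => ?_
    have h1 : (∃ (c₁ : Fin ℓ → ZMod 2) (c₂ : Fin r → ZMod 2),
        (c₁ ≠ 0 ∨ c₂ ≠ 0) ∧ hs (g k) ≤ hs (g (k + (c₁ ᵥ* prvM l H + c₂ ᵥ* prvM l S)))) ↔
        Bad ω H S l k := by
      unfold Bad
      refine exists_congr fun c₁ => exists_congr fun c₂ => ?_
      rw [prvM_vecMul, prvM_vecMul, ← prv_mask_add, hn, hn]
    by_cases h2 : Bad ω H S l k
    · rw [if_pos h2, if_pos (h1.mpr h2), hn k]
    · rw [if_neg h2, if_neg (fun h3 => h2 (h1.mp h3))]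
  rw [hsum, hbad, Fintype.card_fin] at hsec
  have hc : (0 : ℝ) < prvC l := Nat.cast_pos.mpr (prvC_pos l)
  have key : ∀ k t, ‖(∑ b, if prvM l H *ᵥ b = k ∧ prvM l S *ᵥ b = t then
          (C k t * eveState (∑ k', sgn (∑ i, k' i * b i) • g k')).trace else 0) -
        ((2 : ℂ) ^ ℓ)⁻¹ * (∑ b, if prvM l S *ᵥ b = t then
          (C k t * eveState (∑ k', sgn (∑ i, k' i * b i) • g k')).trace else 0)‖ =
      prvC l * ‖(∑ b, if Supp (fun i => act (l i)) b ∧ H *ᵥ b = k ∧ S *ᵥ b = t then
          (C k t * eveState (∑ k', sgn (∑ i, k' i * b i) • g k')).trace else 0) -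
        ((2 : ℂ) ^ ℓ)⁻¹ * (∑ b, if Supp (fun i => act (l i)) b ∧ S *ᵥ b = t then
          (C k t * eveState (∑ k', sgn (∑ i, k' i * b i) • g k')).trace else 0)‖ := by
    intro k t
    have e1 : (∑ b, if prvM l H *ᵥ b = k ∧ prvM l S *ᵥ b = t then
          (C k t * eveState (∑ k', sgn (∑ i, k' i * b i) • g k')).trace else 0) =
        prvC l • (∑ b, if Supp (fun i => act (l i)) b ∧ H *ᵥ b = k ∧ S *ᵥ b = t then
          (C k t * eveState (∑ k', sgn (∑ i, k' i * b i) • g k')).trace else 0) := by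
      have h1 := prv_fib l (fun b => if H *ᵥ b = k ∧ S *ᵥ b = t then
          (C k t * eveState (∑ k', sgn (∑ i, k' i * b i) • g k')).trace else 0)
      rw [← Finset.sum_congr rfl fun b _ => ?_] at h1
      · rw [h1]
        congr 1
        refine Finset.sum_congr rfl fun b _ => ?_
        rw [← ite_and]
      · rw [prv_vec hω l g hn b, prvM_mulVec, prvM_mulVec]
    have e2 : (∑ b, if prvM l S *ᵥ b = t then
          (C k t * eveState (∑ k', sgn (∑ i, k' i * b i) • g k')).trace else 0) =
        prvC l • (∑ b, if Supp (fun i => act (l i)) b ∧ S *ᵥ b = t then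
          (C k t * eveState (∑ k', sgn (∑ i, k' i * b i) • g k')).trace else 0) := by
      have h1 := prv_fib l (fun b => if S *ᵥ b = t then
          (C k t * eveState (∑ k', sgn (∑ i, k' i * b i) • g k')).trace else 0)
      rw [← Finset.sum_congr rfl fun b _ => ?_] at h1
      · rw [h1]
        congr 1
        refine Finset.sum_congr rfl fun b _ => ?_
        rw [← ite_and]
      · rw [prv_vec hω l g hn b, prvM_mulVec]
    rw [e1, e2, nsmul_eq_mul, nsmul_eq_mul]
    have e3 : ∀ x y : ℂ, (prvC l : ℂ) * x - ((2 : ℂ) ^ ℓ)⁻¹ * ((prvC l : ℂ) * y) =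
        (prvC l : ℂ) * (x - ((2 : ℂ) ^ ℓ)⁻¹ * y) := fun x y => by ring
    rw [e3, norm_mul, Complex.norm_natCast]
  rw [Finset.sum_congr rfl fun k _ => Finset.sum_congr rfl fun t _ => key k t] at hsec
  simp only [← Finset.mul_sum] at hsec
  rw [← prv_count l] at hsec
  refine le_of_mul_le_mul_left (hsec.trans (le_of_eq ?_)) hc
  ring

open Classical in
/-- CS. Cauchy-Schwarz over the labels and `∑_l ∏ mult (l i) (ω (l i) 0 + ω (l i) 1) = 1`. -/
theorem priv_cs {m ℓ r : ℕ} {ω : Lab → ZMod 2 → ℝ} (hω : IsWeight ω)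
    (H : Matrix (Fin ℓ) (Fin m) (ZMod 2)) (S : Matrix (Fin r) (Fin m) (ZMod 2)) :
    ∑ l : Fin m → Lab, 4 * (∏ i, mult (l i)) * √(∏ i, (ω (l i) 0 + ω (l i) 1)) *
        √(∑ k, if Bad ω H S l k then ∏ i, ω (l i) (k i) else 0) ≤ 4 * √(Zbad ω H S) := by
  have hm : ∀ l : Lab, 0 ≤ mult l := by
    intro l
    unfold mult
    split_ifs <;> norm_num
  have h1 : ∀ l : Fin m → Lab, 4 * (∏ i, mult (l i)) * √(∏ i, (ω (l i) 0 + ω (l i) 1)) *
        √(∑ k, if Bad ω H S l k then ∏ i, ω (l i) (k i) else 0) =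
      4 * (√((∏ i, mult (l i)) * ∏ i, (ω (l i) 0 + ω (l i) 1)) *
        √((∏ i, mult (l i)) * ∑ k, if Bad ω H S l k then ∏ i, ω (l i) (k i) else 0)) := by
    intro l
    have h0 : 0 ≤ ∏ i, mult (l i) := Finset.prod_nonneg fun i _ => hm _
    rw [Real.sqrt_mul h0, Real.sqrt_mul h0]
    have h2 := Real.mul_self_sqrt h0
    calc _ = 4 * (√(∏ i, mult (l i)) * √(∏ i, mult (l i))) *
          √(∏ i, (ω (l i) 0 + ω (l i) 1)) *
          √(∑ k, if Bad ω H S l k then ∏ i, ω (l i) (k i) else 0) := by rw [h2]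
      _ = _ := by ring
  rw [Finset.sum_congr rfl fun l _ => h1 l, ← Finset.mul_sum]
  refine mul_le_mul_of_nonneg_left ?_ (by norm_num)
  refine (Real.sum_sqrt_mul_sqrt_le _ (fun l => ?_) (fun l => ?_)).trans ?_
  · exact mul_nonneg (Finset.prod_nonneg fun i _ => hm _)
      (Finset.prod_nonneg fun i _ => add_nonneg (hω.nonneg _ _) (hω.nonneg _ _))
  · refine mul_nonneg (Finset.prod_nonneg fun i _ => hm _) (Finset.sum_nonneg fun k _ => ?_)
    split_ifs
    · exact Finset.prod_nonneg fun i _ => hω.nonneg _ _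
    · exact le_rfl
  · have h3 : ∑ l : Fin m → Lab, (∏ i, mult (l i)) * ∏ i, (ω (l i) 0 + ω (l i) 1) = 1 := by
      have h4 : ∀ l : Fin m → Lab, (∏ i, mult (l i)) * ∏ i, (ω (l i) 0 + ω (l i) 1) =
          ∏ i, mult (l i) * (ω (l i) 0 + ω (l i) 1) := fun l => Finset.prod_mul_distrib.symm
      rw [Finset.sum_congr rfl fun l _ => h4 l]
      have h5 := Finset.prod_univ_sum (fun _ : Fin m => (Finset.univ : Finset Lab))
        (fun _ l => mult l * (ω l 0 + ω l 1))
      rw [Fintype.piFinset_univ] at h5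
      rw [← h5, hω.total, Finset.prod_const_one]
    rw [h3, Real.sqrt_one, one_mul]
    refine Real.sqrt_le_sqrt (le_of_eq ?_)
    unfold Zbad
    refine Finset.sum_congr rfl fun l _ => ?_
    rw [Finset.mul_sum]
    refine Finset.sum_congr rfl fun k _ => ?_
    split_ifs
    · rfl
    · rw [mul_zero]

end Vale.Agent.P372Q
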