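import Vale.Agent.P372Q.Code

open Matrix Finset Filter Topology
open scoped Kronecker ComplexOrder BigOperators

namespace Vale.Agent.P372Q

/-- compatibility of a label with the public information `u` (Bob's successes), `W` (both) -/
def Comp {m : ℕ} (l : Fin m → Lab) (u W : Fin m → Bool) : Prop :=
  ∀ i, okB (l i) = u i ∧ act (l i) = W i

theorem REG_okB (a b : Option (ZMod 2)) : okB (lab a b) = b.isSome := by
  cases a <;> cases b <;> rfl

theorem REG_act (a b : Option (ZMod 2)) : act (lab a b) = (a.isSome && b.isSome) := by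
  cases a <;> cases b <;> rfl

theorem REG_bit (a b : Option (ZMod 2)) : bit a b = if b.isSome = true then a.getD 0 else 0 := by
  cases a <;> cases b <;> rfl

theorem REG_bit0 (a b : Option (ZMod 2)) (h : act (lab a b) = false) : bit a b = 0 := by
  cases a <;> cases b <;> first | rfl | exact absurd h (by decide) | cases h

theorem REG_ite {α : Type*} {p q : Prop} {hp : Decidable p} {hq : Decidable q} (h : p ↔ q)
    (a b : α) : @ite α p hp a b = @ite α q hq a b := by
  by_cases h' : q
  · rw [if_pos h', if_pos (h.2 h')]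
  · rw [if_neg h', if_neg (fun hh => h' (h.1 hh))]

theorem REG_rest {m : ℕ} (x y : Fin m → Option (ZMod 2)) :
    rest x (bobMsg y) = fun i => bit (x i) (y i) := by
  funext i
  rw [REG_bit]
  rfl

theorem REG_comp {m : ℕ} (x y : Fin m → Option (ZMod 2)) (u W : Fin m → Bool) :
    Comp (fun i => lab (x i) (y i)) u W ↔ bobMsg y = u ∧ actSet x u = W := by
  constructor
  · intro h
    have hu : bobMsg y = u := by
      funext i
      rw [← (h i).1, REG_okB]
      rfl
    refine ⟨hu, ?_⟩
    funext i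
    rw [← (h i).2, REG_act, ← hu]
    rfl
  · rintro ⟨rfl, rfl⟩ i
    exact ⟨REG_okB _ _, REG_act _ _⟩

open Classical in
theorem REG_sum {m : ℕ} {E : Type} 
    (P : (Fin m → Option (ZMod 2)) → (Fin m → Option (ZMod 2)) → Matrix E E ℂ)
    (C : (Fin m → Lab) → (Fin m → ZMod 2) → Prop) :
    (∑ l, ∑ b, if C l b then
      (∑ x, ∑ y, if (∀ i, lab (x i) (y i) = l i) ∧ (∀ i, bit (x i) (y i) = b i) then P x y else 0)
      else 0) =
    ∑ x, ∑ y, if C (fun i => lab (x i) (y i)) (fun i => bit (x i) (y i)) then P x y else 0 := by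
  have h1 : ∀ l b, (if C l b then
      (∑ x, ∑ y, if (∀ i, lab (x i) (y i) = l i) ∧ (∀ i, bit (x i) (y i) = b i) then P x y else 0)
      else 0) = ∑ x, ∑ y, if C l b ∧ (∀ i, lab (x i) (y i) = l i) ∧
        (∀ i, bit (x i) (y i) = b i) then P x y else 0 := by
    intro l b
    by_cases h : C l b
    · simp only [h, if_true, true_and]
    · simp only [h, if_false, false_and, Finset.sum_const_zero]
  have h2 : ∀ x y, (∑ l, ∑ b, if C l b ∧ (∀ i, lab (x i) (y i) = l i) ∧
        (∀ i, bit (x i) (y i) = b i) then P x y else 0) =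
        if C (fun i => lab (x i) (y i)) (fun i => bit (x i) (y i)) then P x y else 0 := by
    intro x y
    rw [Finset.sum_eq_single (fun i => lab (x i) (y i)),
      Finset.sum_eq_single (fun i => bit (x i) (y i))]
    · simp only [implies_true, and_true]
    · intro b _ hb
      rw [if_neg]
      rintro ⟨-, -, h⟩
      exact hb (funext fun i => (h i).symm)
    · intro h
      exact absurd (Finset.mem_univ _) h
    · intro l _ hl
      apply Finset.sum_eq_zero
      intro b _
      rw [if_neg]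
      rintro ⟨-, h, -⟩
      exact hl (funext fun i => (h i).symm)
    · intro h
      exact absurd (Finset.mem_univ _) h
  calc _ = ∑ l, ∑ b, ∑ x, ∑ y, (if C l b ∧ (∀ i, lab (x i) (y i) = l i) ∧
        (∀ i, bit (x i) (y i) = b i) then P x y else 0) :=
        Finset.sum_congr rfl fun l _ => Finset.sum_congr rfl fun b _ => h1 l b
    _ = ∑ l, ∑ x, ∑ b, ∑ y, (if C l b ∧ (∀ i, lab (x i) (y i) = l i) ∧
        (∀ i, bit (x i) (y i) = b i) then P x y else 0) :=
        Finset.sum_congr rfl fun l _ => Finset.sum_comm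
    _ = ∑ x, ∑ l, ∑ b, ∑ y, (if C l b ∧ (∀ i, lab (x i) (y i) = l i) ∧
        (∀ i, bit (x i) (y i) = b i) then P x y else 0) := Finset.sum_comm
    _ = ∑ x, ∑ l, ∑ y, ∑ b, (if C l b ∧ (∀ i, lab (x i) (y i) = l i) ∧
        (∀ i, bit (x i) (y i) = b i) then P x y else 0) :=
        Finset.sum_congr rfl fun x _ => Finset.sum_congr rfl fun l _ => Finset.sum_comm
    _ = ∑ x, ∑ y, ∑ l, ∑ b, (if C l b ∧ (∀ i, lab (x i) (y i) = l i) ∧
        (∀ i, bit (x i) (y i) = b i) then P x y else 0) :=
        Finset.sum_congr rfl fun x _ => Finset.sum_comm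
    _ = _ := Finset.sum_congr rfl fun x _ => Finset.sum_congr rfl fun y _ => h2 x y

open Classical in
/-- REG1. Regrouping of the pairs `(x, y)` by label and bits: if `lab (x i) (y i) = l i` and
`bit (x i) (y i) = b i` for all `i` then `bobMsg y = u` iff `okB (l i) = u i` for all `i`,
`actSet x u i = act (l i)` and `rest x u i = b i`; and `b` is automatically supported on the active
blocks. -/
theorem regroup {m ℓ r : ℕ} {I E : Type} [Fintype I] [Fintype E] [DecidableEq E]
    {P : (Fin m → Option (ZMod 2)) → (Fin m → Option (ZMod 2)) → Matrix E E ℂ}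
    {g : (Fin m → Lab) → (Fin m → ZMod 2) → Matrix I E ℂ} {ω : Lab → ZMod 2 → ℝ}
    (hM : IsModel P g ω) (H : Matrix (Fin ℓ) (Fin m) (ZMod 2))
    (S : Matrix (Fin r) (Fin m) (ZMod 2)) (u W : Fin m → Bool) (t : Fin r → ZMod 2)
    (k : Fin ℓ → ZMod 2) :
    (∑ x, ∑ y, if bobMsg y = u ∧ aliceMsg S x u = (W, t) ∧ aliceKey H x u = k then P x y else 0) =
      ∑ l, if Comp l u W then
        (∑ b, if Supp (fun i => act (l i)) b ∧ H *ᵥ b = k ∧ S *ᵥ b = t then
          eveState (∑ k', sgn (∑ i, k' i * b i) • g l k') else 0) else 0 := by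
  have h3 := REG_sum P (fun l b => Comp l u W ∧ Supp (fun i => act (l i)) b ∧ H *ᵥ b = k ∧
    S *ᵥ b = t)
  refine Eq.trans ?_ (h3.symm.trans ?_)
  · refine Finset.sum_congr rfl fun x _ => Finset.sum_congr rfl fun y _ => ?_
    refine REG_ite ?_ _ _
    refine Iff.trans ?_ (and_congr_left' (REG_comp x y u W)).symm
    have hsupp : Supp (fun i => act (lab (x i) (y i))) (fun i => bit (x i) (y i)) :=
      fun i hi => REG_bit0 _ _ hi
    constructor
    · rintro ⟨rfl, h5, h6⟩
      unfold aliceMsg at h5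
      unfold aliceKey at h6
      rw [REG_rest] at h5 h6
      rw [Prod.mk.injEq] at h5
      exact ⟨⟨rfl, h5.1⟩, hsupp, h6, h5.2⟩
    · rintro ⟨⟨rfl, rfl⟩, -, rfl, rfl⟩
      unfold aliceMsg aliceKey
      rw [REG_rest]
      exact ⟨rfl, rfl, rfl⟩
  refine Finset.sum_congr rfl fun l _ => ?_
  by_cases hc : Comp l u W
  · rw [if_pos hc]
    refine Finset.sum_congr rfl fun b _ => ?_
    simp only [hc, true_and]
    by_cases hb : Supp (fun i => act (l i)) b ∧ H *ᵥ b = k ∧ S *ᵥ b = t
    · rw [if_pos hb, if_pos hb]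
      exact hM.state l b hb.1
    · rw [if_neg hb, if_neg hb]
  · rw [if_neg hc]
    apply Finset.sum_eq_zero
    intro b _
    rw [if_neg]
    exact fun h => hc h.1

open Classical in
/-- REG2. The same without the key. -/
theorem regroup' {m r : ℕ} {I E : Type} [Fintype I] [Fintype E] [DecidableEq E]
    {P : (Fin m → Option (ZMod 2)) → (Fin m → Option (ZMod 2)) → Matrix E E ℂ}
    {g : (Fin m → Lab) → (Fin m → ZMod 2) → Matrix I E ℂ} {ω : Lab → ZMod 2 → ℝ}
    (hM : IsModel P g ω) (S : Matrix (Fin r) (Fin m) (ZMod 2)) (u W : Fin m → Bool)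
    (t : Fin r → ZMod 2) :
    (∑ x, ∑ y, if bobMsg y = u ∧ aliceMsg S x u = (W, t) then P x y else 0) =
      ∑ l, if Comp l u W then
        (∑ b, if Supp (fun i => act (l i)) b ∧ S *ᵥ b = t then
          eveState (∑ k', sgn (∑ i, k' i * b i) • g l k') else 0) else 0 := by
  have h3 := REG_sum P (fun l b => Comp l u W ∧ Supp (fun i => act (l i)) b ∧ S *ᵥ b = t)
  refine Eq.trans ?_ (h3.symm.trans ?_)
  · refine Finset.sum_congr rfl fun x _ => Finset.sum_congr rfl fun y _ => ?_
    refine REG_ite ?_ _ _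
    refine Iff.trans ?_ (and_congr_left' (REG_comp x y u W)).symm
    have hsupp : Supp (fun i => act (lab (x i) (y i))) (fun i => bit (x i) (y i)) :=
      fun i hi => REG_bit0 _ _ hi
    constructor
    · rintro ⟨rfl, h5⟩
      unfold aliceMsg at h5
      rw [REG_rest] at h5
      rw [Prod.mk.injEq] at h5
      exact ⟨⟨rfl, h5.1⟩, hsupp, h5.2⟩
    · rintro ⟨⟨rfl, rfl⟩, -, rfl⟩
      unfold aliceMsg
      rw [REG_rest]
      exact ⟨rfl, rfl⟩
  refine Finset.sum_congr rfl fun l _ => ?_
  by_cases hc : Comp l u W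
  · rw [if_pos hc]
    refine Finset.sum_congr rfl fun b _ => ?_
    simp only [hc, true_and]
    by_cases hb : Supp (fun i => act (l i)) b ∧ S *ᵥ b = t
    · rw [if_pos hb, if_pos hb]
      exact hM.state l b hb.1
    · rw [if_neg hb, if_neg hb]
  · rw [if_neg hc]
    apply Finset.sum_eq_zero
    intro b _
    rw [if_neg]
    exact fun h => hc h.1

end Vale.Agent.P372Q
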