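import Vale.Agent.P372Q.Base

open Matrix Finset Filter Topology
open scoped Kronecker ComplexOrder BigOperators

namespace Vale.Agent.P372Q

theorem TN2_dot {E : Type} [Fintype E] (u : E → ℂ) :
    star u ⬝ᵥ u = ((∑ e, ‖u e‖ ^ 2 : ℝ) : ℂ) := by
  unfold dotProduct
  rw [Complex.ofReal_sum]
  refine Finset.sum_congr rfl fun e _ => ?_
  rw [Pi.star_apply, Complex.star_def, Complex.conj_mul', Complex.ofReal_pow]

theorem TN2_vec {E : Type} [Fintype E] [DecidableEq E] {C : Matrix E E ℂ} (hC : IsContr C)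
    (v : E → ℂ) : ∑ e, ‖(C *ᵥ v) e‖ ^ 2 ≤ ∑ e, ‖v e‖ ^ 2 := by
  have h := Matrix.PosSemidef.dotProduct_mulVec_nonneg hC v
  rw [Matrix.sub_mulVec, Matrix.one_mulVec, dotProduct_sub, ← Matrix.mulVec_mulVec,
    Matrix.dotProduct_mulVec, ← Matrix.star_mulVec, TN2_dot, TN2_dot, ← Complex.ofReal_sub,
    Complex.zero_le_real] at h
  linarith

theorem TN2_cs {I E : Type} [Fintype I] [Fintype E] (D H : I → E → ℂ) :
    ‖∑ i, ∑ e, D i e * star (H i e)‖ ≤ √(∑ i, ∑ e, ‖D i e‖ ^ 2) * √(∑ i, ∑ e, ‖H i e‖ ^ 2) := by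
  have h1 : ‖∑ i, ∑ e, D i e * star (H i e)‖ ≤ ∑ i, ∑ e, ‖D i e‖ * ‖H i e‖ := by
    refine (norm_sum_le _ _).trans (Finset.sum_le_sum fun i _ => ?_)
    refine (norm_sum_le _ _).trans (Finset.sum_le_sum fun e _ => ?_)
    rw [norm_mul, norm_star]
  have h2 := Real.sum_mul_le_sqrt_mul_sqrt (Finset.univ : Finset (I × E))
    (fun p => ‖D p.1 p.2‖) (fun p => ‖H p.1 p.2‖)
  rw [Fintype.sum_prod_type, Fintype.sum_prod_type, Fintype.sum_prod_type] at h2
  exact h1.trans h2

/-- TN2. `|⟨H_i, C G_i⟩| ≤ ‖H_i‖ ‖G_i‖` for the rows (as `C` is a contraction), then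
Cauchy-Schwarz for the sum over `i`. -/
theorem form_bound {I E : Type} [Fintype I] [Fintype E] [DecidableEq E] {C : Matrix E E ℂ}
    (hC : IsContr C) (G H : Matrix I E ℂ) :
    ‖∑ i, ∑ e, ∑ e', C e' e * G i e * star (H i e')‖ ≤ √(hs G) * √(hs H) := by
  have h1 : ∑ i, ∑ e, ∑ e', C e' e * G i e * star (H i e') =
      ∑ i, ∑ e', (C *ᵥ (fun e => G i e)) e' * star (H i e') := by
    refine Finset.sum_congr rfl fun i _ => ?_
    rw [Finset.sum_comm]
    refine Finset.sum_congr rfl fun e' _ => ?_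
    unfold Matrix.mulVec dotProduct
    rw [Finset.sum_mul]
  rw [h1]
  refine (TN2_cs _ _).trans ?_
  refine mul_le_mul_of_nonneg_right (Real.sqrt_le_sqrt ?_) (Real.sqrt_nonneg _)
  exact Finset.sum_le_sum fun i _ => TN2_vec hC _

theorem TN3_fact {E : Type} [Fintype E] [DecidableEq E] {X : Matrix E E ℂ}
    (hX : X.PosSemidef) : ∃ Y : Matrix E E ℂ, X = Yᴴ * Y := by
  have hA := hX.isHermitian
  have h0 : ∀ i, 0 ≤ hX.isHermitian.eigenvalues i := hX.eigenvalues_nonneg
  have h := hX.isHermitian.spectral_theorem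
  rw [Unitary.conjStarAlgAut_apply] at h
  refine ⟨Matrix.diagonal (fun i => ((√(hX.isHermitian.eigenvalues i) : ℝ) : ℂ)) *
    (star (hX.isHermitian.eigenvectorUnitary : Matrix E E ℂ)), ?_⟩
  rw [Matrix.conjTranspose_mul, Matrix.diagonal_conjTranspose]
  have h1 : (star (hX.isHermitian.eigenvectorUnitary : Matrix E E ℂ))ᴴ =
      (hX.isHermitian.eigenvectorUnitary : Matrix E E ℂ) :=
    Matrix.conjTranspose_conjTranspose _
  have h2 : star (fun i => ((√(hX.isHermitian.eigenvalues i) : ℝ) : ℂ)) =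
      fun i => ((√(hX.isHermitian.eigenvalues i) : ℝ) : ℂ) := by
    funext i
    exact Complex.conj_ofReal _
  rw [h1, h2, Matrix.mul_assoc, ← Matrix.mul_assoc (Matrix.diagonal _) (Matrix.diagonal _),
    Matrix.diagonal_mul_diagonal, ← Matrix.mul_assoc]
  have h3 : (fun i => ((√(hX.isHermitian.eigenvalues i) : ℝ) : ℂ) *
      ((√(hX.isHermitian.eigenvalues i) : ℝ) : ℂ)) =
      RCLike.ofReal ∘ hX.isHermitian.eigenvalues := by
    funext i
    rw [← Complex.ofReal_mul, Real.mul_self_sqrt (h0 i)]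
    rfl
  rw [h3]
  exact h

/-- TN3. For `X = Yᴴ Y` positive semidefinite, `|tr (C X)| ≤ tr X`, from TN2. -/
theorem trace_contr_psd {E : Type} [Fintype E] [DecidableEq E] {C X : Matrix E E ℂ}
    (hC : IsContr C) (hX : X.PosSemidef) : ‖(C * X).trace‖ ≤ X.trace.re := by
  obtain ⟨Y, rfl⟩ := TN3_fact hX
  obtain ⟨G, hG⟩ : ∃ G : Matrix E E ℂ, ∀ i e, G i e = star (Y i e) := ⟨fun i e => star (Y i e), fun _ _ => rfl⟩
  have h1 : (C * (Yᴴ * Y)).trace = ∑ i, ∑ e, ∑ e', C e' e * G i e * star (G i e') := by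
    have e1 : (C * (Yᴴ * Y)).trace = ∑ e', ∑ e, ∑ i, C e' e * G i e * star (G i e') := by
      unfold Matrix.trace
      refine Finset.sum_congr rfl fun e' _ => ?_
      rw [Matrix.diag_apply, Matrix.mul_apply]
      refine Finset.sum_congr rfl fun e _ => ?_
      rw [Matrix.mul_apply, Finset.mul_sum]
      refine Finset.sum_congr rfl fun i _ => ?_
      rw [Matrix.conjTranspose_apply, hG, hG, star_star, mul_assoc]
    rw [e1, Finset.sum_comm]
    have e2 : ∀ e, ∑ e', ∑ i, C e' e * G i e * star (G i e') =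
        ∑ i, ∑ e', C e' e * G i e * star (G i e') := fun e => Finset.sum_comm
    rw [Finset.sum_congr rfl fun e _ => e2 e, Finset.sum_comm]
  have h2 : (Yᴴ * Y).trace.re = hs G := by
    have e3 : (Yᴴ * Y).trace = ((∑ i, ∑ e, ‖Y i e‖ ^ 2 : ℝ) : ℂ) := by
      rw [Finset.sum_comm, Complex.ofReal_sum]
      unfold Matrix.trace
      refine Finset.sum_congr rfl fun e _ => ?_
      rw [Matrix.diag_apply, Matrix.mul_apply, Complex.ofReal_sum]
      refine Finset.sum_congr rfl fun i _ => ?_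
      rw [Matrix.conjTranspose_apply, Complex.star_def, Complex.conj_mul', Complex.ofReal_pow]
    rw [e3, Complex.ofReal_re]
    unfold hs
    refine Finset.sum_congr rfl fun i _ => Finset.sum_congr rfl fun e _ => ?_
    rw [hG, norm_star]
  rw [h1, h2]
  refine (form_bound hC G G).trans (le_of_eq ?_)
  refine Real.mul_self_sqrt ?_
  exact Finset.sum_nonneg fun i _ => Finset.sum_nonneg fun e _ => sq_nonneg _

/-- TN4. The trace against `eveState` -/
theorem trace_eveState {I E : Type} [Fintype I] [Fintype E] [DecidableEq E] (C : Matrix E E ℂ)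
    (G : Matrix I E ℂ) :
    (C * eveState G).trace = ∑ i, ∑ e, ∑ e', C e' e * G i e * star (G i e') := by
  have h1 : (C * eveState G).trace = ∑ a, ∑ b, ∑ i, C a b * G i b * star (G i a) := by
    rw [Matrix.trace]
    refine Finset.sum_congr rfl fun a _ => ?_
    rw [Matrix.diag_apply, Matrix.mul_apply]
    refine Finset.sum_congr rfl fun b _ => ?_
    simp only [eveState, Matrix.of_apply]
    rw [Finset.mul_sum]
    refine Finset.sum_congr rfl fun i _ => ?_
    ring
  rw [h1, Finset.sum_comm]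
  have h2 : ∀ b, (∑ a, ∑ i, C a b * G i b * star (G i a)) =
      ∑ i, ∑ a, C a b * G i b * star (G i a) := fun b => Finset.sum_comm
  simp only [h2]
  rw [Finset.sum_comm]

/-- TN5. -/
theorem eveState_psd {I E : Type} [Fintype I] [Fintype E] [DecidableEq E] (G : Matrix I E ℂ) :
    (eveState G).PosSemidef ∧ (eveState G).trace = (hs G : ℂ) := by
  have h1 : eveState G = Gᵀ * (Gᵀ)ᴴ := by
    ext e e'
    simp only [eveState, Matrix.of_apply, Matrix.mul_apply, Matrix.transpose_apply,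
      Matrix.conjTranspose_apply]
  refine ⟨?_, ?_⟩
  · rw [h1]
    exact Matrix.posSemidef_self_mul_conjTranspose _
  · simp only [Matrix.trace, Matrix.diag_apply, eveState, Matrix.of_apply, hs]
    rw [Finset.sum_comm]
    push_cast
    refine Finset.sum_congr rfl fun i _ => Finset.sum_congr rfl fun e _ => ?_
    have h2 := Complex.mul_conj (G i e)
    rw [Complex.normSq_eq_norm_sq] at h2
    have h3 : star (G i e) = (starRingEnd ℂ) (G i e) := rfl
    rw [h3, h2]
    push_cast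
    rfl

end Vale.Agent.P372Q
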