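import Vale.Agent.P372Q.TN
import Vale.Agent.P372Q.TNa

open Matrix Finset Filter Topology
open scoped Kronecker ComplexOrder BigOperators

namespace Vale.Agent.P372Q

theorem SPL_psd {E : Type} [Fintype E] [DecidableEq E] {X : Matrix E E ℂ} (hX : X.PosSemidef) :
    traceNorm X ≤ X.trace.re := by
  obtain ⟨C, hC, hCX⟩ := traceNorm_dual X
  have h1 := trace_contr_psd hC hX
  rw [hCX, Complex.norm_real, Real.norm_eq_abs] at h1
  exact (le_abs_self _).trans h1

/-- SPL. For `k ≠ k'`: `traceNorm (τ k k') ≤ tr τ k k'` (TN1, TN3). For `k = k'` let `C k` be the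
contraction of TN1 for `τ k k - c σ`; then `traceNorm = tr (C k (∑_k' τ k k' - c σ)) -
∑_(k' ≠ k) tr (C k (τ k k'))`. -/
theorem split_bound {κ E : Type} [Fintype κ] [DecidableEq κ] [Fintype E] [DecidableEq E]
    (τ : κ → κ → Matrix E E ℂ) (hτ : ∀ k k', (τ k k').PosSemidef) (σ : Matrix E E ℂ) (c : ℂ) :
    ∃ C : κ → Matrix E E ℂ, (∀ k, IsContr (C k)) ∧
      ∑ k, ∑ k', traceNorm (τ k k' - if k = k' then c • σ else 0) ≤
        2 * (∑ k, ∑ k', if k ≠ k' then (τ k k').trace.re else 0) +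
        ∑ k, ‖(C k * ((∑ k', τ k k') - c • σ)).trace‖ := by
  choose C hC hCX using fun k => traceNorm_dual (τ k k - c • σ)
  refine ⟨C, hC, ?_⟩
  rw [Finset.mul_sum, ← Finset.sum_add_distrib]
  refine Finset.sum_le_sum fun k _ => ?_
  obtain ⟨T, hT⟩ : ∃ T : ℝ, T = ∑ k' ∈ Finset.univ.erase k, (τ k k').trace.re := ⟨_, rfl⟩
  have h1 : (∑ k', if k ≠ k' then (τ k k').trace.re else 0) = T := by
    rw [hT, ← Finset.add_sum_erase _ _ (Finset.mem_univ k)]
    rw [if_neg (by simp), zero_add]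
    refine Finset.sum_congr rfl fun k' hk' => ?_
    rw [if_pos (Finset.ne_of_mem_erase hk').symm]
  have h2 : ∑ k', traceNorm (τ k k' - if k = k' then c • σ else 0) ≤
      traceNorm (τ k k - c • σ) + T := by
    rw [hT, ← Finset.add_sum_erase _ _ (Finset.mem_univ k), if_pos rfl]
    refine add_le_add le_rfl (Finset.sum_le_sum fun k' hk' => ?_)
    rw [if_neg (Finset.ne_of_mem_erase hk').symm, sub_zero]
    exact SPL_psd (hτ k k')
  have h3 : traceNorm (τ k k - c • σ) ≤ ‖(C k * ((∑ k', τ k k') - c • σ)).trace‖ + T := by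
    have e1 : (C k * (τ k k - c • σ)).trace = (C k * ((∑ k', τ k k') - c • σ)).trace -
        ∑ k' ∈ Finset.univ.erase k, (C k * τ k k').trace := by
      rw [← Finset.add_sum_erase _ _ (Finset.mem_univ k)]
      rw [← Matrix.trace_sum, ← Finset.mul_sum]
      rw [← Matrix.trace_sub, ← mul_sub]
      congr 2
      abel
    have e2 : traceNorm (τ k k - c • σ) ≤ ‖(C k * (τ k k - c • σ)).trace‖ := by
      rw [hCX k, Complex.norm_real, Real.norm_eq_abs]
      exact le_abs_self _
    refine e2.trans ?_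
    rw [e1]
    refine (norm_sub_le _ _).trans (add_le_add le_rfl ?_)
    refine (norm_sum_le _ _).trans ?_
    rw [hT]
    exact Finset.sum_le_sum fun k' _ => trace_contr_psd (hC k) (hτ k k')
  rw [h1]
  linarith

end Vale.Agent.P372Q
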