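import Vale.Agent.P372Q.ProtK
import Vale.Agent.P372Q.Spl
import Vale.Agent.P372Q.Prv
import Vale.Agent.P372Q.Reg
import Vale.Agent.P372Q.DecM
import Vale.Agent.P372Q.Avg

open Matrix Finset Filter Topology
open scoped Kronecker ComplexOrder BigOperators

namespace Vale.Agent.P372Q

theorem core_swap {α β γ δ M : Type} [Fintype α] [Fintype β] [Fintype γ] [Fintype δ] [AddCommMonoid M]
    (f : α → β → γ → δ → M) : ∑ u, ∑ t, ∑ x, ∑ y, f u t x y = ∑ x, ∑ y, ∑ u, ∑ t, f u t x y := by
  have h1 : ∑ u, ∑ t, ∑ x, ∑ y, f u t x y = ∑ u, ∑ x, ∑ t, ∑ y, f u t x y :=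
    Finset.sum_congr rfl (fun u _ => Finset.sum_comm)
  rw [h1, Finset.sum_comm]
  refine Finset.sum_congr rfl (fun x _ => ?_)
  have h2 : ∑ u, ∑ t, ∑ y, f u t x y = ∑ u, ∑ y, ∑ t, f u t x y :=
    Finset.sum_congr rfl (fun u _ => Finset.sum_comm)
  rw [h2, Finset.sum_comm]

theorem core_pick {α β M : Type} [Fintype α] [Fintype β] [DecidableEq α] [DecidableEq β] [AddCommMonoid M]
    (a : α) (b : α → β) (f : α → β → M) :
    ∑ u, ∑ t, (if a = u ∧ b u = t then f u t else 0) = f a (b a) := by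
  simp only [ite_and]
  rw [Finset.sum_eq_single a]
  · simp
  · intro u _ hu
    simp [Ne.symm hu]
  · intro h
    exact absurd (Finset.mem_univ a) h

theorem err_dec {m ℓ r : ℕ} (H : Matrix (Fin ℓ) (Fin m) (ZMod 2)) (S : Matrix (Fin r) (Fin m) (ZMod 2))
    {E : Type} [Fintype E] (P : (Fin m → Option (ZMod 2)) → (Fin m → Option (ZMod 2)) → Matrix E E ℂ) :
    (∑ u, ∑ t, ∑ k, ∑ k', if k ≠ k' then
      (∑ x, ∑ y, if bobMsg y = u ∧ aliceMsg S x u = t ∧ aliceKey H x u = k ∧
          bobKey H S y t = k' then P x y else 0).trace.re else 0) =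
    ∑ x, ∑ y, if aliceKey H x (bobMsg y) ≠ bobKey H S y (aliceMsg S x (bobMsg y)) then
      (P x y).trace.re else 0 := by
  have h1 : ∀ (u : Fin m → Bool) (t : (Fin m → Bool) × (Fin r → ZMod 2)),
      (∑ k, ∑ k', if k ≠ k' then
      (∑ x, ∑ y, if bobMsg y = u ∧ aliceMsg S x u = t ∧ aliceKey H x u = k ∧
          bobKey H S y t = k' then P x y else 0).trace.re else 0) =
      ∑ x, ∑ y, if bobMsg y = u ∧ aliceMsg S x u = t then
        (if aliceKey H x u ≠ bobKey H S y t then (P x y).trace.re else 0) else 0 := by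
    intro u t
    have h2 : ∀ k k' : Fin ℓ → ZMod 2, (if k ≠ k' then
      (∑ x, ∑ y, if bobMsg y = u ∧ aliceMsg S x u = t ∧ aliceKey H x u = k ∧
          bobKey H S y t = k' then P x y else 0).trace.re else 0) =
        ∑ x, ∑ y, if aliceKey H x u = k ∧ bobKey H S y t = k' then
          (if bobMsg y = u ∧ aliceMsg S x u = t then (if k ≠ k' then (P x y).trace.re else 0) else 0) else 0 := by
      intro k k'
      by_cases hk : k = k'
      · simp [hk]
      · rw [if_pos hk]
        simp only [Matrix.trace_sum, Complex.re_sum]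
        refine Finset.sum_congr rfl (fun x _ => Finset.sum_congr rfl (fun y _ => ?_))
        by_cases h3 : bobMsg y = u ∧ aliceMsg S x u = t
        · by_cases h4 : aliceKey H x u = k ∧ bobKey H S y t = k'
          · rw [if_pos ⟨h3.1, h3.2, h4.1, h4.2⟩, if_pos h4, if_pos h3, if_pos hk]
          · rw [if_neg (fun h => h4 h.2.2), if_neg h4]
            simp
        · rw [if_neg (fun h => h3 ⟨h.1, h.2.1⟩), if_neg h3]
          simp
    simp only [h2]
    rw [core_swap]
    refine Finset.sum_congr rfl (fun x _ => Finset.sum_congr rfl (fun y _ => ?_))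
    exact core_pick (aliceKey H x u) (fun _ => bobKey H S y t)
      (fun k k' => if bobMsg y = u ∧ aliceMsg S x u = t then (if k ≠ k' then (P x y).trace.re else 0) else 0)
  simp only [h1]
  rw [core_swap]
  refine Finset.sum_congr rfl (fun x _ => Finset.sum_congr rfl (fun y _ => ?_))
  exact core_pick (bobMsg y) (fun u => aliceMsg S x u)
    (fun u t => if aliceKey H x u ≠ bobKey H S y t then (P x y).trace.re else 0)

open Classical in
theorem err_priv {m ℓ r : ℕ} {I E : Type} [Fintype I] [Fintype E] [DecidableEq E]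
    {P : (Fin m → Option (ZMod 2)) → (Fin m → Option (ZMod 2)) → Matrix E E ℂ}
    {g : (Fin m → Lab) → (Fin m → ZMod 2) → Matrix I E ℂ} {ω : Lab → ZMod 2 → ℝ}
    (hω : IsWeight ω) (hM : IsModel P g ω) (H : Matrix (Fin ℓ) (Fin m) (ZMod 2))
    (S : Matrix (Fin r) (Fin m) (ZMod 2))
    (C : (Fin m → Bool) → ((Fin m → Bool) × (Fin r → ZMod 2)) → (Fin ℓ → ZMod 2) → Matrix E E ℂ)
    (hC : ∀ u t k, IsContr (C u t k)) :
    (∑ u, ∑ t, ∑ k, ‖(C u t k * ((∑ k', ∑ x, ∑ y, if bobMsg y = u ∧ aliceMsg S x u = t ∧ aliceKey H x u = k ∧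
          bobKey H S y t = k' then P x y else 0) - ((2 : ℂ) ^ ℓ)⁻¹ •
          ∑ x, ∑ y, if bobMsg y = u ∧ aliceMsg S x u = t then P x y else 0)).trace‖) ≤ 4 * √(Zbad ω H S) := by
  -- labels
  set D : (Fin m → Lab) → (Fin ℓ → ZMod 2) → (Fin r → ZMod 2) → ℝ := fun l k t =>
    ‖(∑ b, if Supp (fun i => act (l i)) b ∧ H *ᵥ b = k ∧ S *ᵥ b = t then
          (C (fun i => okB (l i)) (fun i => act (l i), t) k *
            eveState (∑ k', sgn (∑ i, k' i * b i) • g l k')).trace else 0) -
        ((2 : ℂ) ^ ℓ)⁻¹ * (∑ b, if Supp (fun i => act (l i)) b ∧ S *ᵥ b = t then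
          (C (fun i => okB (l i)) (fun i => act (l i), t) k *
            eveState (∑ k', sgn (∑ i, k' i * b i) • g l k')).trace else 0)‖ with hD
  have h1 : ∀ (u W : Fin m → Bool) (t : Fin r → ZMod 2) (k : Fin ℓ → ZMod 2),
      ‖(C u (W, t) k * ((∑ k', ∑ x, ∑ y, if bobMsg y = u ∧ aliceMsg S x u = (W, t) ∧ aliceKey H x u = k ∧
          bobKey H S y (W, t) = k' then P x y else 0) - ((2 : ℂ) ^ ℓ)⁻¹ •
          ∑ x, ∑ y, if bobMsg y = u ∧ aliceMsg S x u = (W, t) then P x y else 0)).trace‖ ≤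
        ∑ l, if (fun i => okB (l i)) = u ∧ (fun i => act (l i)) = W then D l k t else 0 := by
    intro u W t k
    have e1 : (∑ k', ∑ x, ∑ y, if bobMsg y = u ∧ aliceMsg S x u = (W, t) ∧ aliceKey H x u = k ∧
          bobKey H S y (W, t) = k' then P x y else 0) =
        ∑ x, ∑ y, if bobMsg y = u ∧ aliceMsg S x u = (W, t) ∧ aliceKey H x u = k then P x y else 0 := by
      rw [Finset.sum_comm]
      refine Finset.sum_congr rfl (fun x _ => ?_)
      rw [Finset.sum_comm]
      refine Finset.sum_congr rfl (fun y _ => ?_)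
      rw [Finset.sum_eq_single (bobKey H S y (W, t))]
      · by_cases hh : bobMsg y = u ∧ aliceMsg S x u = (W, t) ∧ aliceKey H x u = k
        · rw [if_pos hh, if_pos ⟨hh.1, hh.2.1, hh.2.2, rfl⟩]
        · rw [if_neg hh, if_neg (fun h => hh ⟨h.1, h.2.1, h.2.2.1⟩)]
      · intro k' _ hk'
        rw [if_neg (fun h => hk' h.2.2.2.symm)]
      · intro h
        exact absurd (Finset.mem_univ _) h
    rw [e1, regroup hM H S u W t k, regroup' hM S u W t, mul_sub, Matrix.mul_smul, Matrix.trace_sub,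
      Matrix.trace_smul, Finset.mul_sum, Finset.mul_sum, Matrix.trace_sum, Matrix.trace_sum, smul_eq_mul,
      Finset.mul_sum, ← Finset.sum_sub_distrib]
    refine le_trans (norm_sum_le _ _) (Finset.sum_le_sum (fun l _ => ?_))
    by_cases hl : (fun i => okB (l i)) = u ∧ (fun i => act (l i)) = W
    · have hc : Comp l u W := fun i => ⟨congrFun hl.1 i, congrFun hl.2 i⟩
      rw [if_pos hc, if_pos hc, if_pos hl, hD]
      obtain ⟨rfl, rfl⟩ := hl
      apply le_of_eq
      congr 1
      congr 1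
      · rw [Finset.mul_sum, Matrix.trace_sum]
        refine Finset.sum_congr rfl (fun b _ => ?_)
        split_ifs
        · rfl
        · simp
      · congr 1
        rw [Finset.mul_sum, Matrix.trace_sum]
        refine Finset.sum_congr rfl (fun b _ => ?_)
        split_ifs
        · rfl
        · simp
    · have hc : ¬ Comp l u W := fun h => hl ⟨funext (fun i => (h i).1), funext (fun i => (h i).2)⟩
      rw [if_neg hc, if_neg hc, if_neg hl]
      simp
  have h2 : (∑ u, ∑ t, ∑ k, ‖(C u t k * ((∑ k', ∑ x, ∑ y, if bobMsg y = u ∧ aliceMsg S x u = t ∧ aliceKey H x u = k ∧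
          bobKey H S y t = k' then P x y else 0) - ((2 : ℂ) ^ ℓ)⁻¹ •
          ∑ x, ∑ y, if bobMsg y = u ∧ aliceMsg S x u = t then P x y else 0)).trace‖) ≤
      ∑ u : Fin m → Bool, ∑ W : Fin m → Bool, ∑ t : Fin r → ZMod 2, ∑ k : Fin ℓ → ZMod 2,
        ∑ l, if (fun i => okB (l i)) = u ∧ (fun i => act (l i)) = W then D l k t else 0 := by
    refine Finset.sum_le_sum (fun u _ => ?_)
    rw [Fintype.sum_prod_type]
    exact Finset.sum_le_sum (fun W _ => Finset.sum_le_sum (fun t _ => Finset.sum_le_sum (fun k _ => h1 u W t k)))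
  refine le_trans h2 ?_
  have h3 : (∑ u : Fin m → Bool, ∑ W : Fin m → Bool, ∑ t : Fin r → ZMod 2, ∑ k : Fin ℓ → ZMod 2,
        ∑ l, if (fun i => okB (l i)) = u ∧ (fun i => act (l i)) = W then D l k t else 0) =
      ∑ l, ∑ k, ∑ t, D l k t := by
    rw [core_swap]
    have h4 : ∀ (t : Fin r → ZMod 2) (k : Fin ℓ → ZMod 2),
        (∑ u : Fin m → Bool, ∑ W : Fin m → Bool,
          ∑ l, if (fun i => okB (l i)) = u ∧ (fun i => act (l i)) = W then D l k t else 0) = ∑ l, D l k t := by
      intro t k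
      have h5 : (∑ u : Fin m → Bool, ∑ W : Fin m → Bool,
          ∑ l, if (fun i => okB (l i)) = u ∧ (fun i => act (l i)) = W then D l k t else 0) =
          ∑ u : Fin m → Bool, ∑ l : Fin m → Lab, ∑ W : Fin m → Bool,
          if (fun i => okB (l i)) = u ∧ (fun i => act (l i)) = W then D l k t else 0 :=
        Finset.sum_congr rfl (fun u _ => Finset.sum_comm)
      rw [h5, Finset.sum_comm]
      refine Finset.sum_congr rfl (fun l _ => ?_)
      exact core_pick (fun i => okB (l i)) (fun _ => (fun i => act (l i))) (fun _ _ => D l k t)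
    simp only [h4]
    rw [Finset.sum_comm]
    have h6 : (∑ k : Fin ℓ → ZMod 2, ∑ t : Fin r → ZMod 2, ∑ l : Fin m → Lab, D l k t) =
      ∑ k : Fin ℓ → ZMod 2, ∑ l : Fin m → Lab, ∑ t : Fin r → ZMod 2, D l k t :=
      Finset.sum_congr rfl (fun k _ => Finset.sum_comm)
    rw [h6, Finset.sum_comm]
  rw [h3]
  refine le_trans (Finset.sum_le_sum (fun l _ => ?_)) (priv_cs hω H S)
  exact priv_label hω l (g l) (hM.norm l) (hM.orth l) H S
    (fun k t => C (fun i => okB (l i)) (fun i => act (l i), t) k) (fun k t => hC _ _ _)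

open Classical in
/-- ERR. Error of the protocol with the code `H`, `S`, for
`σ u (W,t) = ∑_(x,y compatible) P x y`: SPL for every `(u, (W,t))`, then
(1) the sum over `k ≠ k'` of the traces is the mass of the pairs with different keys (DEC2);
(2) REG1, REG2 and the triangle inequality over the labels compatible with `(u, W)` (every label is
compatible with exactly one `(u, W)`), PRL for each label, then CS. -/
theorem error_bound {m ℓ r : ℕ} {I E : Type} [Fintype I] [Fintype E] [DecidableEq E]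
    {P : (Fin m → Option (ZMod 2)) → (Fin m → Option (ZMod 2)) → Matrix E E ℂ}
    {g : (Fin m → Lab) → (Fin m → ZMod 2) → Matrix I E ℂ} {ω : Lab → ZMod 2 → ℝ}
    (hω : IsWeight ω) (hM : IsModel P g ω) (H : Matrix (Fin ℓ) (Fin m) (ZMod 2))
    (S : Matrix (Fin r) (Fin m) (ZMod 2)) :
    (∑ u, ∑ t, ∑ k, ∑ k', traceNorm
      ((∑ x, ∑ y, if bobMsg y = u ∧ aliceMsg S x u = t ∧ aliceKey H x u = k ∧
          bobKey H S y t = k' then P x y else 0) -
        if k = k' then ((2 : ℂ) ^ ℓ)⁻¹ •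
          (∑ x, ∑ y, if bobMsg y = u ∧ aliceMsg S x u = t then P x y else 0) else 0)) ≤
      4 * √(Zbad ω H S) + 2 * Pf ω S := by
  have hpsd : ∀ (p : (Fin m → Option (ZMod 2)) → (Fin m → Option (ZMod 2)) → Prop)
      [∀ x y, Decidable (p x y)], (∑ x, ∑ y, if p x y then P x y else 0).PosSemidef := by
    intro p _
    refine posSemidef_sum _ (fun x _ => posSemidef_sum _ (fun y _ => ?_))
    split_ifs
    · exact hM.psd x y
    · exact PosSemidef.zero
  have hspl := fun (u : Fin m → Bool) (t : (Fin m → Bool) × (Fin r → ZMod 2)) =>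
    split_bound (fun k k' => ∑ x, ∑ y, if bobMsg y = u ∧ aliceMsg S x u = t ∧ aliceKey H x u = k ∧
          bobKey H S y t = k' then P x y else 0) (fun k k' => hpsd _)
      (∑ x, ∑ y, if bobMsg y = u ∧ aliceMsg S x u = t then P x y else 0) (((2 : ℂ) ^ ℓ)⁻¹)
  choose C hC hle using hspl
  refine le_trans (Finset.sum_le_sum (fun u _ => Finset.sum_le_sum (fun t _ => hle u t))) ?_
  simp only [Finset.sum_add_distrib]
  rw [add_comm]
  refine add_le_add ?_ ?_
  · -- privacy
    exact err_priv hω hM H S C hC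
  · -- decoding
    simp only [← Finset.mul_sum]
    refine mul_le_mul_of_nonneg_left ?_ (by norm_num)
    rw [err_dec H S P]
    exact mass_key_ne hω hM H S

/-- CORE. PROT with `U = bobMsg`, `T = aliceMsg S`, `f x u _ = aliceKey H x u`,
`g y _ t = bobKey H S y t` for the code of EXI; `Ach` is monotone in `ε`. -/
theorem core_ach {m ℓ r : ℕ} {A B I E K' L' : Type} [Fintype A] [Fintype B] [Fintype I]
    [Fintype E] [Fintype K'] [Fintype L'] [DecidableEq A] [DecidableEq B] [DecidableEq E]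
    [DecidableEq K'] [DecidableEq L'] (G : Matrix (A × B) E ℂ)
    (K : (Fin m → Option (ZMod 2)) → Matrix K' A ℂ) (L : (Fin m → Option (ZMod 2)) → Matrix L' B ℂ)
    (hK : ∑ x, (K x)ᴴ * K x = 1) (hL : ∑ x, (L x)ᴴ * L x = 1)
    {g : (Fin m → Lab) → (Fin m → ZMod 2) → Matrix I E ℂ} {ω : Lab → ZMod 2 → ℝ}
    (hω : IsWeight ω) (hM : IsModel (fun x y => eveState ((K x ⊗ₖ L y) * G)) g ω)
    {y : ℝ} (hy : 0 < y) (hy1 : y ≤ 1) :
    Ach G ℓ (4 * √(2 ^ (ℓ + r) * Bc ω ^ m) + 2 * (((2 : ℝ) ^ r)⁻¹ * Ac ω y ^ m)) := by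
  obtain ⟨H, S, hHS⟩ := exists_code ℓ r hω hy hy1 (m := m)
  have herr := error_bound hω hM H S
  have hpr := ach_of_kraus G K L hK hL ℓ bobMsg (aliceMsg S) (fun x u _ => aliceKey H x u)
    (fun y _ t => bobKey H S y t)
    (fun u t => ∑ x, ∑ y, if bobMsg y = u ∧ aliceMsg S x u = t then eveState ((K x ⊗ₖ L y) * G) else 0)
    ?_ ?_
  · obtain ⟨p, σ, h1, h2, h3⟩ := hpr
    exact ⟨p, σ, h1, h2, le_trans h3 (le_trans herr hHS)⟩
  · intro u t
    refine posSemidef_sum _ (fun x _ => posSemidef_sum _ (fun y _ => ?_))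
    split_ifs
    · exact hM.psd x y
    · exact PosSemidef.zero
  · have h := mass_total hω hM
    rw [← h]
    simp only [Matrix.trace_sum, Complex.re_sum]
    rw [core_swap]
    refine Finset.sum_congr rfl (fun x _ => Finset.sum_congr rfl (fun y _ => ?_))
    have h2 := core_pick (bobMsg y) (fun u => aliceMsg S x u)
      (fun _ _ => (eveState ((K x ⊗ₖ L y) * G)).trace.re)
    refine Eq.trans ?_ h2
    refine Finset.sum_congr rfl (fun u _ => Finset.sum_congr rfl (fun t _ => ?_))
    split_ifs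
    · rfl
    · simp

end Vale.Agent.P372Q
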