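import Vale.Agent.P372Q.Base

open Matrix Finset Filter Topology
open scoped Kronecker ComplexOrder BigOperators

namespace Vale.Agent.P372Q

open scoped MatrixOrder in
theorem C6_psd {A : Type} [Fintype A] [DecidableEq A] {P : Matrix A A ℂ} (h : P.PosSemidef) :
    ∃ M : Matrix A A ℂ, P = Mᴴ * M :=
  CStarAlgebra.nonneg_iff_eq_star_mul_self.mp h.nonneg

theorem C6_key {A B E : Type} [Fintype A] [Fintype B] [DecidableEq A] [DecidableEq B]
    (M : Matrix A A ℂ) (N : Matrix B B ℂ) (G : Matrix (A × B) E ℂ) :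
    (Matrix.of fun e e' => ∑ i, ∑ j, ((Mᴴ * M) ⊗ₖ (Nᴴ * N)) i j * G j e * star (G i e')) =
      eveState ((M ⊗ₖ N) * G) := by
  have h1 : (Mᴴ * M) ⊗ₖ (Nᴴ * N) = (M ⊗ₖ N)ᴴ * (M ⊗ₖ N) := by
    rw [Matrix.conjTranspose_kronecker, Matrix.mul_kronecker_mul]
  rw [h1]
  set W := M ⊗ₖ N
  have h2 : (Wᴴ * W * G) = Wᴴ * (W * G) := Matrix.mul_assoc _ _ _
  have h3 : Gᴴ * (Wᴴ * W * G) = (W * G)ᴴ * (W * G) := by
    rw [h2, ← Matrix.mul_assoc, Matrix.conjTranspose_mul]
  ext e e'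
  have h4 := congrFun (congrFun h3 e') e
  unfold eveState
  rw [Matrix.of_apply, Matrix.of_apply]
  have h5 : (Gᴴ * (Wᴴ * W * G)) e' e =
      ∑ i, ∑ j, (Wᴴ * W) i j * G j e * star (G i e') := by
    rw [Matrix.mul_apply]
    refine Finset.sum_congr rfl fun i _ => ?_
    rw [Matrix.conjTranspose_apply, Matrix.mul_apply, Finset.mul_sum]
    refine Finset.sum_congr rfl fun j _ => ?_
    ring
  have h6 : ((W * G)ᴴ * (W * G)) e' e = ∑ i, (W * G) i e * star ((W * G) i e') := by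
    rw [Matrix.mul_apply]
    refine Finset.sum_congr rfl fun i _ => ?_
    rw [Matrix.conjTranspose_apply]
    ring
  rw [← h5, ← h6, h4]

/-- C6. Eve's states for a transcript come from Kraus operators of both parties. Induction on the
protocol; at a leaf `P x = (M x)ᴴ M x`, `Q y = (N y)ᴴ N y`; at a node compose with the Kraus
operator of the message. -/
theorem eve_eq_eveState {ℓ : ℕ} {A B : Type} (p : Prot ℓ A B) [Fintype A] [Fintype B]
    [DecidableEq A] [DecidableEq B] (t : p.Tr) :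
    ∃ (s s' : Type) (_ : Fintype s) (_ : DecidableEq s) (_ : Fintype s') (_ : DecidableEq s')
      (K : (Fin ℓ → ZMod 2) → Matrix s A ℂ) (L : (Fin ℓ → ZMod 2) → Matrix s' B ℂ),
      ∀ (E : Type) (G : Matrix (A × B) E ℂ) (x y : Fin ℓ → ZMod 2),
        p.eve G t x y = eveState ((K x ⊗ₖ L y) * G) := by
  rename_i iA iB dA dB
  revert iA iB dA dB
  induction p with
  | @key A B i1 i2 i3 i4 P Q hP hP1 hQ hQ1 =>
    intro iA iB dA dB
    obtain rfl : i1 = iA := Subsingleton.elim _ _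
    obtain rfl : i2 = iB := Subsingleton.elim _ _
    obtain rfl : i3 = dA := Subsingleton.elim _ _
    obtain rfl : i4 = dB := Subsingleton.elim _ _
    choose M hM using fun x => C6_psd (hP x)
    choose N hN using fun x => C6_psd (hQ x)
    refine ⟨A, B, i1, i3, i2, i4, M, N, ?_⟩
    intro E G x y
    rw [← C6_key, ← hM, ← hN]
    rfl
  | @alice A B Ms i1 i2 i3 i4 i5 A' i6 K hK next ih =>
    intro iA iB dA dB
    obtain rfl : i1 = iA := Subsingleton.elim _ _
    obtain rfl : i2 = iB := Subsingleton.elim _ _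
    obtain rfl : i4 = dA := Subsingleton.elim _ _
    obtain rfl : i5 = dB := Subsingleton.elim _ _
    classical
    obtain ⟨i, t⟩ := t
    obtain ⟨s, s', f1, d1, f2, d2, K', L', h⟩ := ih i t
    refine ⟨s, s', f1, d1, f2, d2, fun x => K' x * K i, L', ?_⟩
    intro E G x y
    have h1 := h E ((K i ⊗ₖ (1 : Matrix B B ℂ)) * G) x y
    have h2 : (K' x * K i) ⊗ₖ L' y = (K' x ⊗ₖ L' y) * (K i ⊗ₖ (1 : Matrix B B ℂ)) := by
      rw [← Matrix.mul_kronecker_mul, Matrix.mul_one]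
    rw [h2, Matrix.mul_assoc]
    exact h1
  | @bob A B Ms i1 i2 i3 i4 i5 B' i6 K hK next ih =>
    intro iA iB dA dB
    obtain rfl : i1 = iA := Subsingleton.elim _ _
    obtain rfl : i2 = iB := Subsingleton.elim _ _
    obtain rfl : i4 = dA := Subsingleton.elim _ _
    obtain rfl : i5 = dB := Subsingleton.elim _ _
    classical
    obtain ⟨i, t⟩ := t
    obtain ⟨s, s', f1, d1, f2, d2, K', L', h⟩ := ih i t
    refine ⟨s, s', f1, d1, f2, d2, K', fun y => L' y * K i, ?_⟩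
    intro E G x y
    have h1 := h E (((1 : Matrix A A ℂ) ⊗ₖ K i) * G) x y
    have h2 : K' x ⊗ₖ (L' y * K i) = (K' x ⊗ₖ L' y) * ((1 : Matrix A A ℂ) ⊗ₖ K i) := by
      rw [← Matrix.mul_kronecker_mul, Matrix.mul_one]
    rw [h2, Matrix.mul_assoc]
    exact h1

theorem C7_lin {ℓ : ℕ} {A B : Type} (p : Prot ℓ A B) (ε : ℝ) :
    ∀ f g : p.Tr → ℝ, p.sum (fun t => f t - ε * g t) = p.sum f - ε * p.sum g := by
  induction p with
  | key => intro f g; rfl
  | alice A B M A' K hK next ih =>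
    intro f g
    simp only [Prot.sum]
    rw [Finset.mul_sum, ← Finset.sum_sub_distrib]
    exact Finset.sum_congr rfl (fun i _ => ih i _ _)
  | bob A B M B' K hK next ih =>
    intro f g
    simp only [Prot.sum]
    rw [Finset.mul_sum, ← Finset.sum_sub_distrib]
    exact Finset.sum_congr rfl (fun i _ => ih i _ _)

theorem C7_nonneg {ℓ : ℕ} {A B : Type} (p : Prot ℓ A B) :
    ∀ f : p.Tr → ℝ, (∀ t, 0 ≤ f t) → 0 ≤ p.sum f := by
  induction p with
  | key => intro f hf; exact hf ()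
  | alice A B M A' K hK next ih =>
    intro f hf
    simp only [Prot.sum]
    exact Finset.sum_nonneg (fun i _ => ih i _ (fun t => hf ⟨i, t⟩))
  | bob A B M B' K hK next ih =>
    intro f hf
    simp only [Prot.sum]
    exact Finset.sum_nonneg (fun i _ => ih i _ (fun t => hf ⟨i, t⟩))

theorem C7_le {ℓ : ℕ} {A B : Type} (p : Prot ℓ A B) :
    ∀ (f : p.Tr → ℝ), (∀ t, 0 ≤ f t) → ∀ t, f t ≤ p.sum f := by
  induction p with
  | key => intro f hf t; exact le_rfl
  | alice A B M A' K hK next ih =>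
    intro f hf t
    obtain ⟨i, t⟩ := t
    simp only [Prot.sum]
    refine (ih i (fun t => f ⟨i, t⟩) (fun t => hf ⟨i, t⟩) t).trans ?_
    exact Finset.single_le_sum (f := fun i => (next i).sum fun t => f ⟨i, t⟩)
      (fun j _ => C7_nonneg (next j) _ (fun t => hf ⟨j, t⟩)) (Finset.mem_univ i)
  | bob A B M B' K hK next ih =>
    intro f hf t
    obtain ⟨i, t⟩ := t
    simp only [Prot.sum]
    refine (ih i (fun t => f ⟨i, t⟩) (fun t => hf ⟨i, t⟩) t).trans ?_
    exact Finset.single_le_sum (f := fun i => (next i).sum fun t => f ⟨i, t⟩)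
      (fun j _ => C7_nonneg (next j) _ (fun t => hf ⟨j, t⟩)) (Finset.mem_univ i)

theorem C7_pos {ℓ : ℕ} {A B : Type} (p : Prot ℓ A B) (g : p.Tr → ℝ) (h : 0 < p.sum g) :
    ∃ t, 0 < g t := by
  by_contra hn
  push Not at hn
  have h1 := C7_nonneg p (fun t => (0 : ℝ) - 1 * g t) (fun t => by linarith [hn t])
  rw [C7_lin p 1 (fun _ => (0 : ℝ)) g] at h1
  have h2 : p.sum (fun _ => (0 : ℝ)) = 0 := by
    have h3 := C7_lin p 1 (fun _ => (0 : ℝ)) (fun _ => (0 : ℝ))
    simp only [mul_zero, one_mul, sub_self] at h3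
    exact h3
  rw [h2] at h1
  linarith

/-- C7. Some transcript is good. Induction on the protocol shows that `Prot.sum` is additive and
strictly monotone enough; if `f t > ε g t` for all `t` with `g t > 0` then the sums contradict. -/
theorem exists_transcript {ℓ : ℕ} {A B : Type} (p : Prot ℓ A B) (f g : p.Tr → ℝ) (ε : ℝ)
    (hf : ∀ t, 0 ≤ f t) (hg : ∀ t, 0 ≤ g t) (hg1 : p.sum g = 1) (hfε : p.sum f ≤ ε) :
    ∃ t, 0 < g t ∧ f t ≤ ε * g t := by
  by_contra hn
  push Not at hn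
  obtain ⟨t, ht⟩ := C7_pos p g (by rw [hg1]; exact one_pos)
  have h1 : ∀ t, 0 ≤ f t - ε * g t := by
    intro t
    rcases (hg t).eq_or_lt with h | h
    · rw [← h, mul_zero, sub_zero]
      exact hf t
    · linarith [hn t h]
  have h2 := C7_le p (fun t => f t - ε * g t) h1 t
  rw [C7_lin, hg1] at h2
  linarith [hn t ht]

/-- C8. A good pair of keys: average over `x` with `y = x + e` for a fixed `e ≠ 0`. -/
theorem exists_pair {ℓ : ℕ} (hℓ : 1 ≤ ℓ) (d : (Fin ℓ → ZMod 2) → (Fin ℓ → ZMod 2) → ℝ)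
    (hd : ∀ x y, 0 ≤ d x y) (z : ℝ) (hz : ∑ x, ∑ y, d x y ≤ z) :
    ∃ x y, x ≠ y ∧ d x x + d y y + d x y + d y x ≤ 4 * (z / 2 ^ ℓ) := by
  by_contra h
  push Not at h
  have hz0 : 0 ≤ z := le_trans (Finset.sum_nonneg fun x _ => Finset.sum_nonneg fun y _ => hd x y) hz
  obtain ⟨e, he⟩ : ∃ e : Fin ℓ → ZMod 2, e ≠ 0 := by
    refine ⟨fun _ => 1, fun h0 => ?_⟩
    have := congrFun h0 ⟨0, hℓ⟩
    exact one_ne_zero this
  have hxe : ∀ x : Fin ℓ → ZMod 2, x ≠ x + e := fun x h0 => he (by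
    have : x + 0 = x + e := by rw [add_zero]; exact h0
    exact (add_left_cancel this).symm)
  have hee : e + e = 0 := by
    funext i
    exact CharTwo.add_self_eq_zero (e i)
  have h1 : ∑ _x : Fin ℓ → ZMod 2, 4 * (z / 2 ^ ℓ) <
      ∑ x : Fin ℓ → ZMod 2, (d x x + d (x + e) (x + e) + d x (x + e) + d (x + e) x) :=
    Finset.sum_lt_sum_of_nonempty Finset.univ_nonempty fun x _ => h x (x + e) (hxe x)
  have hc : ∑ _x : Fin ℓ → ZMod 2, 4 * (z / 2 ^ ℓ) = 4 * z := by
    rw [Finset.sum_const, Finset.card_univ, Fintype.card_fun, ZMod.card, Fintype.card_fin,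
      nsmul_eq_mul]
    push_cast
    have : (2 : ℝ) ^ ℓ ≠ 0 := by positivity
    field_simp
  have hs1 : ∑ x : Fin ℓ → ZMod 2, d (x + e) (x + e) = ∑ x, d x x :=
    Equiv.sum_comp (Equiv.addRight e) (fun x => d x x)
  have hs2 : ∑ x : Fin ℓ → ZMod 2, d (x + e) x = ∑ x, d x (x + e) := by
    rw [← Equiv.sum_comp (Equiv.addRight e) (fun x => d (x + e) x)]
    refine Finset.sum_congr rfl fun x _ => ?_
    simp only [Equiv.coe_addRight, add_assoc, hee, add_zero]
  have hs3 : ∑ x : Fin ℓ → ZMod 2, (d x x + d x (x + e)) ≤ ∑ x, ∑ y, d x y := by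
    refine Finset.sum_le_sum fun x _ => ?_
    rw [← Finset.sum_pair (f := fun y => d x y) (hxe x)]
    exact Finset.sum_le_sum_of_subset_of_nonneg (Finset.subset_univ _) fun y _ _ => hd x y
  rw [hc, Finset.sum_add_distrib, Finset.sum_add_distrib, Finset.sum_add_distrib, hs1, hs2] at h1
  rw [Finset.sum_add_distrib] at hs3
  linarith

end Vale.Agent.P372Q
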