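import Vale.Agent.P372Q.TN
import Vale.Agent.P372Q.TNa

open Matrix Finset Filter Topology
open scoped Kronecker ComplexOrder BigOperators

namespace Vale.Agent.P372Q

theorem C1_cs {E : Type} [Fintype E] (a b : E → ℂ) :
    ‖∑ e, star (a e) * b e‖ ≤ √(∑ e, ‖a e‖ ^ 2) * √(∑ e, ‖b e‖ ^ 2) := by
  have h1 : ‖∑ e, star (a e) * b e‖ ≤ ∑ e, ‖a e‖ * ‖b e‖ := by
    refine (norm_sum_le _ _).trans (Finset.sum_le_sum fun e _ => ?_)
    rw [norm_mul, norm_star]
  exact h1.trans (Real.sum_mul_le_sqrt_mul_sqrt (Finset.univ : Finset E) (fun e => ‖a e‖)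
    (fun e => ‖b e‖))

theorem C1_col {E : Type} [Fintype E] (M : Matrix E E ℂ) (i : E) :
    (Mᴴ * M) i i = ((∑ e, ‖M e i‖ ^ 2 : ℝ) : ℂ) := by
  rw [Matrix.mul_apply, Complex.ofReal_sum]
  refine Finset.sum_congr rfl fun e _ => ?_
  rw [Matrix.conjTranspose_apply, Complex.star_def, Complex.conj_mul', Complex.ofReal_pow]

/-- C1. The other half of the duality for the trace norm. With the orthonormal eigenbasis `u_i` of
`Xᴴ X`: `tr (C X) = ∑ ⟨u_i, C X u_i⟩` and `‖C X u_i‖ ≤ ‖X u_i‖ = √λ_i`. -/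
theorem trace_le_traceNorm {E : Type} [Fintype E] [DecidableEq E] {C : Matrix E E ℂ}
    (hC : IsContr C) (X : Matrix E E ℂ) : ‖(C * X).trace‖ ≤ traceNorm X := by
  obtain ⟨U, hU, hXX⟩ := TN1_spec (Matrix.isHermitian_conjTranspose_mul_self X)
  unfold traceNorm
  generalize (Matrix.isHermitian_conjTranspose_mul_self X).eigenvalues = l at *
  have hU' : U * Uᴴ = 1 := mul_eq_one_comm.1 hU
  have h1 : (C * X).trace = ∑ i, ∑ e, star (U e i) * (C * (X * U)) e i := by
    have h2 : (C * X).trace = (Uᴴ * (C * (X * U))).trace := by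
      rw [Matrix.trace_mul_comm Uᴴ, Matrix.mul_assoc, Matrix.mul_assoc, hU', Matrix.mul_one]
    rw [h2]
    rfl
  rw [h1]
  refine (norm_sum_le _ _).trans (Finset.sum_le_sum fun i _ => ?_)
  refine (C1_cs _ _).trans ?_
  have hu : ∑ e, ‖U e i‖ ^ 2 = 1 := by
    have h3 := C1_col U i
    rw [hU, Matrix.one_apply_eq] at h3
    exact_mod_cast h3.symm
  have hx : ∑ e, ‖(X * U) e i‖ ^ 2 = l i := by
    have h3 := C1_col (X * U) i
    have h4 : (X * U)ᴴ * (X * U) = Matrix.diagonal (fun i => ((l i : ℝ) : ℂ)) := by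
      have h5 : (X * U)ᴴ * (X * U) = Uᴴ * (Xᴴ * X) * U := by
        rw [Matrix.conjTranspose_mul]
        simp only [Matrix.mul_assoc]
      rw [h5, hXX]
      have h6 : Uᴴ * (U * Matrix.diagonal (fun i => ((l i : ℝ) : ℂ)) * Uᴴ) * U =
          (Uᴴ * U) * Matrix.diagonal (fun i => ((l i : ℝ) : ℂ)) * (Uᴴ * U) := by
        simp only [Matrix.mul_assoc]
      rw [h6, hU, Matrix.one_mul, Matrix.mul_one]
    rw [h4, Matrix.diagonal_apply_eq] at h3
    exact_mod_cast h3.symm
  have hc := TN2_vec hC (fun e => (X * U) e i)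
  have hc2 : ∑ e, ‖(C * (X * U)) e i‖ ^ 2 ≤ l i := by
    rw [← hx]
    exact hc
  rw [hu, Real.sqrt_one, one_mul]
  exact Real.sqrt_le_sqrt hc2

theorem C2_proj {m n : Type} [Fintype m] [DecidableEq m] [Fintype n] [DecidableEq n]
    (W : Matrix m n ℂ) (h : W * Wᴴ * W = W) : (1 - Wᴴ * W).PosSemidef := by
  have h1 : (Wᴴ * W) * (Wᴴ * W) = Wᴴ * W := by
    rw [← Matrix.mul_assoc, Matrix.mul_assoc Wᴴ W Wᴴ, Matrix.mul_assoc Wᴴ (W * Wᴴ) W, h]
  have h2 : (1 - Wᴴ * W)ᴴ * (1 - Wᴴ * W) = 1 - Wᴴ * W := by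
    rw [Matrix.conjTranspose_sub, Matrix.conjTranspose_one, Matrix.conjTranspose_mul,
      Matrix.conjTranspose_conjTranspose, Matrix.sub_mul, Matrix.mul_sub, Matrix.mul_sub,
      Matrix.one_mul, Matrix.mul_one, h1, Matrix.one_mul, sub_self, sub_zero]
  rw [← h2]
  exact Matrix.posSemidef_conjTranspose_mul_self _

/-- C2. Polar decomposition. With `Xᴴ X = V Λ Vᴴ`: `H = V √Λ Vᴴ`, `W = X V Λ^(-1/2) Vᴴ`
(pseudo-inverse). -/
theorem polar {S E : Type} [Fintype S] [DecidableEq S] [Fintype E] [DecidableEq E]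
    (X : Matrix S E ℂ) :
    ∃ (H : Matrix E E ℂ) (W : Matrix S E ℂ), H.PosSemidef ∧ H * H = Xᴴ * X ∧ Wᴴ * X = H ∧
      (1 - Wᴴ * W).PosSemidef ∧ (1 - W * Wᴴ).PosSemidef := by
  have hpos : ∀ i, 0 ≤ (Matrix.isHermitian_conjTranspose_mul_self X).eigenvalues i :=
    (Matrix.posSemidef_conjTranspose_mul_self X).eigenvalues_nonneg
  obtain ⟨U, hU, hXX⟩ := TN1_spec (Matrix.isHermitian_conjTranspose_mul_self X)
  generalize (Matrix.isHermitian_conjTranspose_mul_self X).eigenvalues = l at *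
  obtain ⟨D, hDd⟩ : ∃ D : Matrix E E ℂ,
    D = Matrix.diagonal (fun i => (((√(l i))⁻¹ : ℝ) : ℂ)) := ⟨_, rfl⟩
  obtain ⟨L, hLd⟩ : ∃ L : Matrix E E ℂ,
    L = Matrix.diagonal (fun i => ((l i : ℝ) : ℂ)) := ⟨_, rfl⟩
  obtain ⟨R, hRd⟩ : ∃ R : Matrix E E ℂ,
    R = Matrix.diagonal (fun i => ((√(l i) : ℝ) : ℂ)) := ⟨_, rfl⟩
  rw [← hLd] at hXX
  have hDH : Dᴴ = D := by
    rw [hDd, Matrix.diagonal_conjTranspose]
    congr 1
    funext i
    exact Complex.conj_ofReal _
  have hRR : R * R = L := by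
    rw [hRd, hLd, Matrix.diagonal_mul_diagonal]
    congr 1
    funext i
    rw [← Complex.ofReal_mul, Real.mul_self_sqrt (hpos i)]
  have hDR : ∀ i, (√(l i))⁻¹ * l i = √(l i) := by
    intro i
    rcases (hpos i).eq_or_lt with h | h
    · rw [← h]
      simp
    · have h1 : (√(l i) : ℝ) ≠ 0 := (Real.sqrt_pos.2 h).ne'
      nth_rewrite 2 [← Real.mul_self_sqrt h.le]
      field_simp
  have hDL : D * L = R := by
    rw [hDd, hLd, hRd, Matrix.diagonal_mul_diagonal]
    congr 1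
    funext i
    rw [← Complex.ofReal_mul, hDR i]
  have hDDL : D * (D * L * D) = D := by
    rw [hDL, hDd, hRd, Matrix.diagonal_mul_diagonal, Matrix.diagonal_mul_diagonal]
    congr 1
    funext i
    rw [← Complex.ofReal_mul, ← Complex.ofReal_mul]
    congr 1
    rcases (hpos i).eq_or_lt with h | h
    · rw [← h]
      simp
    · have h1 : (√(l i) : ℝ) ≠ 0 := (Real.sqrt_pos.2 h).ne'
      field_simp
  have hUU : ∀ Z : Matrix E E ℂ, Uᴴ * (U * Z) = Z := by
    intro Z
    rw [← Matrix.mul_assoc, hU, Matrix.one_mul]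
  have hWX : (X * (U * (D * Uᴴ)))ᴴ * X = U * (R * Uᴴ) := by
    rw [Matrix.conjTranspose_mul, Matrix.conjTranspose_mul, Matrix.conjTranspose_mul,
      Matrix.conjTranspose_conjTranspose, hDH, Matrix.mul_assoc, hXX]
    have h1 : U * D * Uᴴ * (U * L * Uᴴ) = U * (D * (Uᴴ * (U * (L * Uᴴ)))) := by
      simp only [Matrix.mul_assoc]
    rw [h1, hUU, ← Matrix.mul_assoc D L, hDL]
  have hWW : (X * (U * (D * Uᴴ))) * (X * (U * (D * Uᴴ)))ᴴ * (X * (U * (D * Uᴴ)))
      = X * (U * (D * Uᴴ)) := by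
    have h1 : (X * (U * (D * Uᴴ))) * (X * (U * (D * Uᴴ)))ᴴ * (X * (U * (D * Uᴴ)))
        = X * (U * (D * Uᴴ)) * ((X * (U * (D * Uᴴ)))ᴴ * X) * (U * (D * Uᴴ)) := by
      simp only [Matrix.mul_assoc]
    rw [h1, hWX]
    have h2 : X * (U * (D * Uᴴ)) * (U * (R * Uᴴ)) * (U * (D * Uᴴ))
        = X * (U * (D * (Uᴴ * (U * (R * (Uᴴ * (U * (D * Uᴴ)))))))) := by
      simp only [Matrix.mul_assoc]
    rw [h2, hUU, hUU]
    have h3 : D * (R * (D * Uᴴ)) = (D * (D * L * D)) * Uᴴ := by
      rw [hDL]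
      simp only [Matrix.mul_assoc]
    rw [h3, hDDL]
  refine ⟨U * (R * Uᴴ), X * (U * (D * Uᴴ)), ?_, ?_, hWX, C2_proj _ hWW, ?_⟩
  · have hR : R.PosSemidef := by
      rw [hRd]
      refine Matrix.PosSemidef.diagonal ?_
      intro i
      show (0 : ℂ) ≤ ((√(l i) : ℝ) : ℂ)
      exact_mod_cast Real.sqrt_nonneg _
    have h1 := hR.mul_mul_conjTranspose_same U
    rw [Matrix.mul_assoc] at h1
    exact h1
  · rw [hXX]
    have h1 : U * (R * Uᴴ) * (U * (R * Uᴴ)) = U * (R * (Uᴴ * (U * (R * Uᴴ)))) := by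
      simp only [Matrix.mul_assoc]
    rw [h1, hUU, ← Matrix.mul_assoc R R, hRR, ← Matrix.mul_assoc]
  · have h1 := congrArg Matrix.conjTranspose hWW
    clear hWW hWX
    generalize X * (U * (D * Uᴴ)) = W at *
    rw [Matrix.conjTranspose_mul, Matrix.conjTranspose_mul] at h1
    have h2 := C2_proj Wᴴ (by rw [Matrix.mul_assoc]; exact h1)
    rw [Matrix.conjTranspose_conjTranspose] at h2
    exact h2

/-- C3. Powers-Stormer. With `T` the sign of the hermitian matrix `H - J` (a contraction commuting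
with it) `tr (T (H H - J J)) = tr (|H - J| (H + J)) ≥ tr ((H - J)^2)`, because
`H + J ± (H - J)` is positive semidefinite; then C1. (Use an orthonormal eigenbasis `w_i` of `H - J` with
eigenvalues `δ_i`: the trace is `∑ |δ_i| ⟨w_i, (H + J) w_i⟩` and
`⟨w_i, (H + J) w_i⟩ ≥ |⟨w_i, (H - J) w_i⟩| = |δ_i|`.) -/
theorem powers_stormer {E : Type} [Fintype E] [DecidableEq E] {H J : Matrix E E ℂ}
    (hH : H.PosSemidef) (hJ : J.PosSemidef) :
    ((H - J) * (H - J)).trace.re ≤ traceNorm (H * H - J * J) := by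
  have hA : (H - J).IsHermitian := hH.isHermitian.sub hJ.isHermitian
  obtain ⟨U, hU, hD⟩ := TN1_spec hA
  have hU' : U * Uᴴ = 1 := mul_eq_one_comm.1 hU
  obtain ⟨δ, hδ⟩ : ∃ δ : E → ℝ, δ = hA.eigenvalues := ⟨_, rfl⟩
  rw [← hδ] at hD
  have hU2 : ∀ Z : Matrix E E ℂ, Uᴴ * (U * Z) = Z := by
    intro Z
    rw [← Matrix.mul_assoc, hU, Matrix.one_mul]
  have hU3 : ∀ Z : Matrix E E ℂ, U * (Uᴴ * Z) = Z := by
    intro Z
    rw [← Matrix.mul_assoc, hU', Matrix.one_mul]
  obtain ⟨H', hH'⟩ : ∃ H', H' = Uᴴ * H * U := ⟨_, rfl⟩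
  obtain ⟨J', hJ'⟩ : ∃ J', J' = Uᴴ * J * U := ⟨_, rfl⟩
  have hHJ : H' - J' = Matrix.diagonal (fun i => ((δ i : ℝ) : ℂ)) := by
    rw [hH', hJ', ← Matrix.sub_mul, ← Matrix.mul_sub, hD]
    simp only [Matrix.mul_assoc]
    rw [hU2, hU, Matrix.mul_one]
  have hHp : ∀ i, 0 ≤ (H' i i).re := by
    intro i
    have h1 : H'.PosSemidef := by
      rw [hH']
      exact hH.conjTranspose_mul_mul_same U
    have h2 := h1.diag_nonneg (i := i)
    exact (Complex.nonneg_iff.1 h2).1
  have hJp : ∀ i, 0 ≤ (J' i i).re := by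
    intro i
    have h1 : J'.PosSemidef := by
      rw [hJ']
      exact hJ.conjTranspose_mul_mul_same U
    have h2 := h1.diag_nonneg (i := i)
    exact (Complex.nonneg_iff.1 h2).1
  have hdiag : ∀ i, (H' i i).re - (J' i i).re = δ i := by
    intro i
    have h1 := congrFun (congrFun hHJ i) i
    rw [Matrix.sub_apply, Matrix.diagonal_apply_eq] at h1
    have h2 := congrArg Complex.re h1
    rw [Complex.sub_re, Complex.ofReal_re] at h2
    exact h2
  obtain ⟨s, hs⟩ : ∃ s : E → ℝ, s = fun i => if 0 ≤ δ i then 1 else -1 := ⟨_, rfl⟩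
  have hss : ∀ i, s i * s i = 1 := by
    intro i
    rw [hs]
    dsimp only
    split_ifs <;> norm_num
  have hsd : ∀ i, s i * δ i = |δ i| := by
    intro i
    rw [hs]
    dsimp only
    split_ifs with h
    · rw [abs_of_nonneg h, one_mul]
    · rw [abs_of_neg (not_le.1 h)]
      ring
  obtain ⟨S, hS⟩ : ∃ S : Matrix E E ℂ, S = Matrix.diagonal (fun i => ((s i : ℝ) : ℂ)) := ⟨_, rfl⟩
  have hSH : Sᴴ = S := by
    rw [hS, Matrix.diagonal_conjTranspose]
    congr 1
    funext i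
    exact Complex.conj_ofReal _
  have hSS : S * S = 1 := by
    rw [hS, Matrix.diagonal_mul_diagonal, ← Matrix.diagonal_one]
    congr 1
    funext i
    rw [← Complex.ofReal_mul, hss, Complex.ofReal_one]
  have hT : IsContr (U * (S * Uᴴ)) := by
    unfold IsContr
    have h1 : (U * (S * Uᴴ))ᴴ * (U * (S * Uᴴ)) = 1 := by
      simp only [Matrix.conjTranspose_mul, Matrix.conjTranspose_conjTranspose, hSH,
        Matrix.mul_assoc]
      rw [hU2, ← Matrix.mul_assoc S S, hSS, Matrix.one_mul, hU']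
    rw [h1, sub_self]
    exact Matrix.PosSemidef.zero
  have hC1 := trace_le_traceNorm hT (H * H - J * J)
  have hleft : ((H - J) * (H - J)).trace.re = ∑ i, δ i * δ i := by
    have h1 : (H - J) * (H - J) = U * ((H' - J') * ((H' - J') * Uᴴ)) := by
      rw [hHJ]
      nth_rewrite 1 [hD]
      nth_rewrite 1 [hD]
      simp only [Matrix.mul_assoc]
      rw [hU2]
    rw [h1, Matrix.trace_mul_comm]
    simp only [Matrix.mul_assoc]
    rw [hU, Matrix.mul_one, hHJ, Matrix.diagonal_mul_diagonal, Matrix.trace_diagonal,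
      Complex.re_sum]
    refine Finset.sum_congr rfl fun i _ => ?_
    rw [← Complex.ofReal_mul, Complex.ofReal_re]
  have hright : (U * (S * Uᴴ) * (H * H - J * J)).trace.re =
      ∑ i, |δ i| * ((H' i i).re + (J' i i).re) := by
    have h1 : Uᴴ * ((H * H - J * J) * U) = H' * H' - J' * J' := by
      rw [hH', hJ', Matrix.sub_mul, Matrix.mul_sub]
      simp only [Matrix.mul_assoc]
      rw [hU3, hU3]
    have h2 : (U * (S * Uᴴ) * (H * H - J * J)).trace = (S * (H' * H' - J' * J')).trace := by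
      have h3 : U * (S * Uᴴ) * (H * H - J * J) = U * (S * (Uᴴ * (H * H - J * J))) := by
        simp only [Matrix.mul_assoc]
      rw [h3, Matrix.trace_mul_comm, ← h1]
      simp only [Matrix.mul_assoc]
    have h4 : H' * H' - J' * J' = (H' - J') * H' + J' * (H' - J') := by
      noncomm_ring
    rw [h2, h4, hHJ, Matrix.trace, Complex.re_sum]
    refine Finset.sum_congr rfl fun i _ => ?_
    rw [Matrix.diag_apply, hS, Matrix.diagonal_mul, Matrix.add_apply, Matrix.diagonal_mul,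
      Matrix.mul_diagonal, ← hsd i]
    rw [Complex.re_ofReal_mul, Complex.add_re, Complex.re_ofReal_mul, mul_comm (J' i i),
      Complex.re_ofReal_mul]
    ring
  rw [hleft]
  refine le_trans ?_ hC1
  refine le_trans ?_ (Complex.re_le_norm _)
  rw [hright]
  refine Finset.sum_le_sum fun i _ => ?_
  rw [← abs_mul_abs_self (δ i)]
  refine mul_le_mul_of_nonneg_left ?_ (abs_nonneg _)
  rw [← hdiag i, abs_le]
  have h1 := hHp i
  have h2 := hJp i
  constructor <;> linarith

theorem C4_inner {I E : Type} [Fintype I] [Fintype E] (G H : Matrix I E ℂ) :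
    hsInner G H = (Gᴴ * H).trace := by
  simp only [hsInner, Matrix.trace, Matrix.diag, Matrix.mul_apply, Matrix.conjTranspose_apply]
  exact Finset.sum_comm

theorem C4_eve {I E : Type} [Fintype I] (G : Matrix I E ℂ) :
    (G.map star)ᴴ * G.map star = eveState G := by
  ext e e'
  simp only [eveState, Matrix.of_apply, Matrix.mul_apply, Matrix.conjTranspose_apply,
    Matrix.map_apply, star_star]

theorem C4_trace {I E : Type} [Fintype I] [Fintype E] (G : Matrix I E ℂ) :
    (eveState G).trace.re = hs G := by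
  unfold hs
  simp only [Matrix.trace, Matrix.diag, eveState, Matrix.of_apply, Complex.re_sum]
  rw [Finset.sum_comm]
  refine Finset.sum_congr rfl fun i _ => Finset.sum_congr rfl fun e _ => ?_
  rw [Complex.star_def, Complex.mul_conj, Complex.ofReal_re, Complex.normSq_eq_norm_sq]

theorem C4_map {I E : Type} [Fintype I] [Fintype E] (G H : Matrix I E ℂ) :
    (hsInner (G.map star) (H.map star)).re = (hsInner G H).re := by
  have h : hsInner (G.map star) (H.map star) = star (hsInner G H) := by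
    unfold hsInner
    rw [star_sum]
    refine Finset.sum_congr rfl fun i _ => ?_
    rw [star_sum]
    refine Finset.sum_congr rfl fun e _ => ?_
    rw [star_mul', Matrix.map_apply, Matrix.map_apply]
  rw [h, Complex.star_def, Complex.conj_re]

theorem C4_mul {I J K : Type} [Fintype J] (A : Matrix I J ℂ) (B : Matrix J K ℂ) :
    A.map star * B.map star = (A * B).map star := by
  ext i k
  simp only [Matrix.mul_apply, Matrix.map_apply, star_sum, star_mul']

theorem C4_mm {I J : Type} (A : Matrix I J ℂ) : (A.map star).map star = A := by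
  ext i j
  simp

theorem C4_contr {S : Type} [Fintype S] [DecidableEq S] {C : Matrix S S ℂ} (hC : IsContr C) :
    IsContr (C.map star) := by
  unfold IsContr at hC ⊢
  have h : 1 - (C.map star)ᴴ * C.map star = ((1 - Cᴴ * C)ᴴ)ᵀ := by
    ext i j
    simp only [Matrix.sub_apply, Matrix.transpose_apply, Matrix.conjTranspose_apply,
      Matrix.mul_apply, Matrix.map_apply, star_sub, star_sum, star_mul', star_star]
    congr 1
    by_cases hij : i = j
    · subst hij
      simp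
    · simp [Matrix.one_apply_ne hij]
  rw [h]
  exact hC.conjTranspose.transpose

/-- C4. For `X' = X.map star`, `X'ᴴ X' = eveState X`. Polar decompositions `H, W` of `X'` and
`J, Z` of `Y'`; `C' = W Zᴴ` satisfies `hsInner X' (C' * Y') = tr (H J)` which is
`(tr H^2 + tr J^2 - tr (H - J)^2) / 2`; then C3. `C = C'.map star`. -/
theorem exists_overlap {S E : Type} [Fintype S] [DecidableEq S] [Fintype E] [DecidableEq E]
    (X Y : Matrix S E ℂ) :
    ∃ C : Matrix S S ℂ, IsContr C ∧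
      (hs X + hs Y - traceNorm (eveState X - eveState Y)) / 2 ≤ (hsInner X (C * Y)).re := by
  obtain ⟨H, W, hH, hH2, hWX, hW1, hW2⟩ := polar (X.map star)
  obtain ⟨J, Z, hJ, hJ2, hZY, hZ1, hZ2⟩ := polar (Y.map star)
  rw [C4_eve] at hH2 hJ2
  have hC' : IsContr (W * Zᴴ) := by
    unfold IsContr
    have e : 1 - (W * Zᴴ)ᴴ * (W * Zᴴ) = (1 - Z * Zᴴ) + Z * (1 - Wᴴ * W) * Zᴴ := by
      rw [Matrix.conjTranspose_mul, Matrix.conjTranspose_conjTranspose, Matrix.mul_sub,
        Matrix.sub_mul, Matrix.mul_one]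
      simp only [Matrix.mul_assoc]
      abel
    rw [e]
    exact hZ2.add (hW1.mul_mul_conjTranspose_same Z)
  refine ⟨(W * Zᴴ).map star, C4_contr hC', ?_⟩
  have h1 : (hsInner X ((W * Zᴴ).map star * Y)).re = (H * J).trace.re := by
    have e1 : hsInner X ((W * Zᴴ).map star * Y) =
        hsInner ((X.map star).map star) (((W * Zᴴ) * Y.map star).map star) := by
      rw [C4_mm X, ← C4_mul (W * Zᴴ) (Y.map star), C4_mm Y]
    rw [e1, C4_map, C4_inner]
    congr 2
    have e2 : (X.map star)ᴴ * (W * Zᴴ * Y.map star) =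
        (Wᴴ * X.map star)ᴴ * (Zᴴ * Y.map star) := by
      rw [Matrix.conjTranspose_mul, Matrix.conjTranspose_conjTranspose]
      simp only [Matrix.mul_assoc]
    rw [e2, hWX, hZY, hH.isHermitian.eq]
  have h2 := powers_stormer hH hJ
  rw [hH2, hJ2] at h2
  have h3 : ((H - J) * (H - J)).trace = (H * H).trace + (J * J).trace - 2 * (H * J).trace := by
    rw [Matrix.sub_mul, Matrix.mul_sub, Matrix.mul_sub, Matrix.trace_sub, Matrix.trace_sub,
      Matrix.trace_sub, Matrix.trace_mul_comm J H]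
    ring
  have h4 : ((H - J) * (H - J)).trace.re = hs X + hs Y - 2 * (H * J).trace.re := by
    rw [h3, hH2, hJ2, Complex.sub_re, Complex.add_re, C4_trace, C4_trace]
    simp
  rw [h1]
  linarith

open scoped MatrixOrder in
theorem C5_sqrt {A : Type} [Fintype A] [DecidableEq A] (H : Matrix A A ℂ)
    (hH : H.PosSemidef) : ∃ B : Matrix A A ℂ, H = Bᴴ * B :=
  CStarAlgebra.nonneg_iff_eq_star_mul_self.mp hH.nonneg

/-- the isometric columns -/
noncomputable def C5v {s s' : Type} (C D : Matrix (s × s') (s × s') ℂ)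
    (q : (s ⊕ s) × s') : EuclideanSpace ℂ ((s ⊕ s) × s') :=
  WithLp.toLp 2 fun p => Sum.elim (fun k => Sum.elim (fun i => C (i, p.2) (k, q.2))
    (fun i => D (i, p.2) (k, q.2)) p.1) (fun _ => 0) q.1

theorem C5_inner {s s' : Type} [Fintype s] [DecidableEq s] [Fintype s'] [DecidableEq s']
    (C D : Matrix (s × s') (s × s') ℂ) (hD : 1 - Cᴴ * C = Dᴴ * D) (k k' : s) (l l' : s') :
    inner ℂ (C5v C D (Sum.inl k, l)) (C5v C D (Sum.inl k', l')) =
      (1 : Matrix (s × s') (s × s') ℂ) (k, l) (k', l') := by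
  have h1 : (1 : Matrix (s × s') (s × s') ℂ) = Cᴴ * C + Dᴴ * D := by
    rw [← hD]; abel
  rw [h1, PiLp.inner_apply]
  simp only [C5v, Fintype.sum_prod_type, Fintype.sum_sum_type, Sum.elim_inl, Sum.elim_inr,
    RCLike.inner_apply, Matrix.add_apply, Matrix.mul_apply, Matrix.conjTranspose_apply,
    RCLike.star_def]
  congr 1
  · refine Finset.sum_congr rfl fun i _ => Finset.sum_congr rfl fun j _ => ?_
    rw [mul_comm]
  · refine Finset.sum_congr rfl fun i _ => Finset.sum_congr rfl fun j _ => ?_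
    rw [mul_comm]

/-- C5. Unitary dilation of a contraction `C` on `s × s'`, as a matrix on `(s ⊕ s) × s'`:
blocks `C, √(1 - C Cᴴ); √(1 - Cᴴ C), -Cᴴ` (or any isometric completion). -/
theorem exists_dilation {s s' : Type} [Fintype s] [DecidableEq s] [Fintype s'] [DecidableEq s']
    {C : Matrix (s × s') (s × s') ℂ} (hC : IsContr C) :
    ∃ U : Matrix ((s ⊕ s) × s') ((s ⊕ s) × s') ℂ, Uᴴ * U = 1 ∧
      ∀ i j k l, U (Sum.inl i, j) (Sum.inl k, l) = C (i, j) (k, l) := by
  obtain ⟨D, hD⟩ := C5_sqrt _ hC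
  have hv : Orthonormal ℂ (Set.domRestrict {q : (s ⊕ s) × s' | q.1.isLeft = true}
      (C5v C D)) := by
    rw [orthonormal_iff_ite]
    rintro ⟨⟨a, l⟩, ha⟩ ⟨⟨b, m⟩, hb⟩
    rcases a with k | k
    · rcases b with k' | k'
      · simp only [Set.domRestrict_apply]
        rw [C5_inner C D hD, Matrix.one_apply]
        simp only [Subtype.mk.injEq, Prod.mk.injEq, Sum.inl.injEq]
      · simp at hb
    · simp at ha
  obtain ⟨b, hb⟩ := hv.exists_orthonormalBasis_extension_of_card_eq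
    (by simp [finrank_euclideanSpace])
  refine ⟨Matrix.of fun p q => b q p, ?_, ?_⟩
  · ext p q
    have h := orthonormal_iff_ite.mp b.orthonormal p q
    rw [PiLp.inner_apply] at h
    rw [Matrix.mul_apply, Matrix.one_apply, ← h]
    refine Finset.sum_congr rfl fun x _ => ?_
    rw [Matrix.conjTranspose_apply, Matrix.of_apply, Matrix.of_apply, RCLike.inner_apply,
      mul_comm, RCLike.star_def]
  · intro i j k l
    rw [Matrix.of_apply, hb (Sum.inl k, l) (by simp)]
    simp [C5v]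

/-- padding with zero rows -/
noncomputable def pad {A s : Type} (K : Matrix s A ℂ) : Matrix (s ⊕ s) A ℂ :=
  Matrix.of fun i a => Sum.elim (fun i => K i a) (fun _ => 0) i

/-- C5b. Padding a Kraus operator with zero rows does not change anything. -/
theorem pad_overlap {A B E s s' : Type} [Fintype A] [Fintype B] [Fintype E] [Fintype s]
    [DecidableEq s] [Fintype s'] [DecidableEq s'] (G : Matrix (A × B) E ℂ)
    (K K' : Matrix s A ℂ) (L L' : Matrix s' B ℂ) (C : Matrix (s × s') (s × s') ℂ)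
    (U : Matrix ((s ⊕ s) × s') ((s ⊕ s) × s') ℂ)
    (hU : ∀ i j k l, U (Sum.inl i, j) (Sum.inl k, l) = C (i, j) (k, l)) :
    hsInner ((pad K ⊗ₖ L) * G) (U * ((pad K' ⊗ₖ L') * G)) =
      hsInner ((K ⊗ₖ L) * G) (C * ((K' ⊗ₖ L') * G)) ∧
    hs ((pad K ⊗ₖ L) * G) = hs ((K ⊗ₖ L) * G) := by
  have hl : ∀ (K : Matrix s A ℂ) (L : Matrix s' B ℂ) (i : s) (j : s') (e : E),
      ((pad K ⊗ₖ L) * G) (Sum.inl i, j) e = ((K ⊗ₖ L) * G) (i, j) e := by
    intro K L i j e
    rw [Matrix.mul_apply, Matrix.mul_apply]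
    rfl
  have hr : ∀ (K : Matrix s A ℂ) (L : Matrix s' B ℂ) (i : s) (j : s') (e : E),
      ((pad K ⊗ₖ L) * G) (Sum.inr i, j) e = 0 := by
    intro K L i j e
    rw [Matrix.mul_apply]
    refine Finset.sum_eq_zero fun ab _ => ?_
    show (0 * L j ab.2) * G ab e = 0
    rw [zero_mul, zero_mul]
  have hU2 : ∀ (i : s) (j : s') (e : E), (U * ((pad K' ⊗ₖ L') * G)) (Sum.inl i, j) e =
      (C * ((K' ⊗ₖ L') * G)) (i, j) e := by
    intro i j e
    rw [Matrix.mul_apply, Matrix.mul_apply, Fintype.sum_prod_type, Fintype.sum_prod_type,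
      Fintype.sum_sum_type]
    have h0 : ∑ x : s, ∑ y : s', U (Sum.inl i, j) (Sum.inr x, y) *
        ((pad K' ⊗ₖ L') * G) (Sum.inr x, y) e = 0 := by
      refine Finset.sum_eq_zero fun x _ => Finset.sum_eq_zero fun y _ => ?_
      rw [hr, mul_zero]
    rw [h0, add_zero]
    refine Finset.sum_congr rfl fun x _ => Finset.sum_congr rfl fun y _ => ?_
    rw [hU, hl]
  constructor
  · unfold hsInner
    rw [Fintype.sum_prod_type, Fintype.sum_prod_type, Fintype.sum_sum_type]
    have h0 : ∑ x : s, ∑ y : s', ∑ e, star (((pad K ⊗ₖ L) * G) (Sum.inr x, y) e) *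
        (U * ((pad K' ⊗ₖ L') * G)) (Sum.inr x, y) e = 0 := by
      refine Finset.sum_eq_zero fun x _ => Finset.sum_eq_zero fun y _ =>
        Finset.sum_eq_zero fun e _ => ?_
      rw [hr, star_zero, zero_mul]
    rw [h0, add_zero]
    refine Finset.sum_congr rfl fun x _ => Finset.sum_congr rfl fun y _ =>
      Finset.sum_congr rfl fun e _ => ?_
    rw [hl, hU2]
  · unfold hs
    rw [Fintype.sum_prod_type, Fintype.sum_prod_type, Fintype.sum_sum_type]
    have h0 : ∑ x : s, ∑ y : s', ∑ e, ‖((pad K ⊗ₖ L) * G) (Sum.inr x, y) e‖ ^ 2 = 0 := by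
      refine Finset.sum_eq_zero fun x _ => Finset.sum_eq_zero fun y _ =>
        Finset.sum_eq_zero fun e _ => ?_
      rw [hr, norm_zero]
      norm_num
    rw [h0, add_zero]
    refine Finset.sum_congr rfl fun x _ => Finset.sum_congr rfl fun y _ =>
      Finset.sum_congr rfl fun e _ => ?_
    rw [hl]

end Vale.Agent.P372Q
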