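import Mathlib

/-!
# P372: key distillation by local operations and public communication

Definitions: trace norm, protocols (LOPC trees), distillable key, the two-parameter family of
3 x 3 states.
-/

open Matrix Finset Filter Topology
open scoped Kronecker ComplexOrder BigOperators

namespace Vale.Agent.P372Q

/-- the trace norm `tr sqrt (X^* X)`, the sum of the singular values -/
noncomputable def traceNorm {E : Type} [Fintype E] [DecidableEq E] (X : Matrix E E ℂ) : ℝ :=
  ∑ i, Real.sqrt ((Matrix.isHermitian_conjTranspose_mul_self X).eigenvalues i)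

/-- A key-distillation protocol with key registers `{0,1}^ℓ` on local systems with orthonormal
bases `A` and `B`. In a round one party applies a quantum instrument with outcomes `M`; the outcome
is announced publicly and the party keeps everything else: `K i` maps the local system to the new
local system `A' i`, which may contain ancillas, private randomness and the environment of the
operation. At the end both parties perform a measurement with outcomes in `{0,1}^ℓ`. -/
inductive Prot (ℓ : ℕ) : Type → Type → Type 1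
  | key (A B : Type) [Fintype A] [Fintype B] [DecidableEq A] [DecidableEq B]
      (P : (Fin ℓ → ZMod 2) → Matrix A A ℂ) (Q : (Fin ℓ → ZMod 2) → Matrix B B ℂ)
      (hP : ∀ x, (P x).PosSemidef) (hP1 : ∑ x, P x = 1)
      (hQ : ∀ x, (Q x).PosSemidef) (hQ1 : ∑ x, Q x = 1) : Prot ℓ A B
  | alice (A B M : Type) [Fintype A] [Fintype B] [Fintype M] [DecidableEq A] [DecidableEq B]
      (A' : M → Type) [∀ i, Fintype (A' i)] (K : ∀ i, Matrix (A' i) A ℂ)
      (hK : ∑ i, (K i)ᴴ * K i = 1) (next : ∀ i, Prot ℓ (A' i) B) : Prot ℓ A B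
  | bob (A B M : Type) [Fintype A] [Fintype B] [Fintype M] [DecidableEq A] [DecidableEq B]
      (B' : M → Type) [∀ i, Fintype (B' i)] (K : ∀ i, Matrix (B' i) B ℂ)
      (hK : ∑ i, (K i)ᴴ * K i = 1) (next : ∀ i, Prot ℓ A (B' i)) : Prot ℓ A B

/-- the public transcripts of a protocol -/
def Prot.Tr {ℓ : ℕ} : {A B : Type} → Prot ℓ A B → Type
  | _, _, @Prot.key _ _ _ _ _ _ _ _ _ _ _ _ _ => Unit
  | _, _, @Prot.alice _ _ _ M _ _ _ _ _ _ _ _ _ next => Σ i : M, (next i).Tr
  | _, _, @Prot.bob _ _ _ M _ _ _ _ _ _ _ _ _ next => Σ i : M, (next i).Tr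

/-- the sum over all transcripts -/
def Prot.sum {ℓ : ℕ} : {A B : Type} → (p : Prot ℓ A B) → (p.Tr → ℝ) → ℝ
  | _, _, @Prot.key _ _ _ _ _ _ _ _ _ _ _ _ _, F => F ()
  | _, _, @Prot.alice _ _ _ M _ _ _ _ _ _ _ _ _ next, F => ∑ i : M, (next i).sum fun t => F ⟨i, t⟩
  | _, _, @Prot.bob _ _ _ M _ _ _ _ _ _ _ _ _ next, F => ∑ i : M, (next i).sum fun t => F ⟨i, t⟩

/-- Eve's unnormalised state for the transcript `t` and the keys `x`, `y`, when the tripartite
vector is `∑ G (a, b) e |a⟩ |b⟩ |e⟩` -/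
noncomputable def Prot.eve {ℓ : ℕ} {E : Type} : {A B : Type} → (p : Prot ℓ A B) →
    Matrix (A × B) E ℂ → p.Tr → (Fin ℓ → ZMod 2) → (Fin ℓ → ZMod 2) → Matrix E E ℂ
  | _, _, @Prot.key _ _ _ _ _ _ _ P Q _ _ _ _, G, _, x, y =>
      Matrix.of fun e e' => ∑ i, ∑ j, (P x ⊗ₖ Q y) i j * G j e * star (G i e')
  | _, _, @Prot.alice _ _ B _ _ _ _ _ _ _ _ K _ next, G, t, x, y =>
      (next t.1).eve ((K t.1 ⊗ₖ (1 : Matrix B B ℂ)) * G) t.2 x y
  | _, _, @Prot.bob _ A _ _ _ _ _ _ _ _ _ K _ next, G, t, x, y =>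
      (next t.1).eve (((1 : Matrix A A ℂ) ⊗ₖ K t.1) * G) t.2 x y

/-- There is a protocol producing `ℓ` bits of key with error at most `ε` from the tripartite
vector with coefficients `G`: for some state `σ` of Eve (block diagonal with respect to the
transcript) the trace distance to the ideal key is at most `ε`. -/
def Ach {A B E : Type} [Fintype E] [DecidableEq E] (G : Matrix (A × B) E ℂ) (ℓ : ℕ) (ε : ℝ) :
    Prop :=
  ∃ (p : Prot ℓ A B) (σ : p.Tr → Matrix E E ℂ), (∀ t, (σ t).PosSemidef) ∧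
    (p.sum fun t => (σ t).trace.re) = 1 ∧
    (p.sum fun t => ∑ x, ∑ y, traceNorm
      (p.eve G t x y - if x = y then ((2 : ℂ) ^ ℓ)⁻¹ • σ t else 0)) ≤ ε

/-- the tripartite vector of `n` copies -/
def copies {a b e : Type} (R : Matrix (a × b) e ℂ) (n : ℕ) :
    Matrix ((Fin n → a) × (Fin n → b)) (Fin n → e) ℂ :=
  Matrix.of fun p q => ∏ i, R (p.1 i, p.2 i) (q i)

/-- the distillable key of the state with purification `R`, i.e. of the state `R * Rᴴ` -/
noncomputable def KD {a b e : Type} [Fintype e] [DecidableEq e] (R : Matrix (a × b) e ℂ) :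
    ENNReal :=
  ⨆ (ℓ : ℕ → ℕ) (ε : ℕ → ℝ) (_ : Tendsto ε atTop (𝓝 0))
    (_ : ∀ n, Ach (copies R n) (ℓ n) (ε n)), liminf (fun n => (ℓ n : ENNReal) / n) atTop

/-- the two-parameter family of 3 x 3 states, proportional to
`∑_(i,j) |ii⟩⟨jj| + s ∑_i |i,i+1⟩⟨i,i+1| + t ∑_i |i+1,i⟩⟨i+1,i|` -/
noncomputable def rho (s t : ℝ) : Matrix (Fin 3 × Fin 3) (Fin 3 × Fin 3) ℂ :=
  Matrix.of fun p q => (((3 * (1 + s + t))⁻¹ * ((if p.1 = p.2 ∧ q.1 = q.2 then 1 else 0) +
    (if p = q then (if p.2 = p.1 + 1 then s else if p.1 = p.2 + 1 then t else 0) else 0) : ℝ) : ℝ) : ℂ)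

end Vale.Agent.P372Q
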