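import Vale.Agent.P372Q.Defs

open Matrix Finset
open scoped Kronecker ComplexOrder BigOperators

namespace Vale.Agent.P372Q

/-- separable: a finite sum of products of positive semidefinite matrices -/
def IsSeparable {a b : Type} [Fintype a] [Fintype b] (ρ : Matrix (a × b) (a × b) ℂ) : Prop :=
  ∃ (N : ℕ) (α : Fin N → Matrix a a ℂ) (β : Fin N → Matrix b b ℂ),
    (∀ i, (α i).PosSemidef) ∧ (∀ i, (β i).PosSemidef) ∧ ρ = ∑ i, α i ⊗ₖ β i

/-- partial transpose -/
def ptr {a b : Type} (ρ : Matrix (a × b) (a × b) ℂ) : Matrix (a × b) (a × b) ℂ :=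
  Matrix.of fun p q => ρ (p.1, q.2) (q.1, p.2)

end Vale.Agent.P372Q
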