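import Vale.Agent.P372Q.Defs2

open Matrix Finset
open scoped Kronecker ComplexOrder BigOperators

namespace Vale.Agent.P372Q

/-- the mixture of the pure vector `∑ c i |ii⟩` and the product states `|ij⟩`, `i ≠ j`, with
weights `n i j` -/
noncomputable def famC (c : Fin 3 → ℝ) (n : Fin 3 → Fin 3 → ℝ) :
    Matrix (Fin 3 × Fin 3) (Fin 3 × Fin 3) ℂ :=
  Matrix.of fun p q => (((if p.1 = p.2 ∧ q.1 = q.2 then c p.1 * c q.1 else 0) +
    (if p = q ∧ p.1 ≠ p.2 then n p.1 p.2 else 0) : ℝ) : ℂ)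

end Vale.Agent.P372Q
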