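import Vale.Agent.P372Q.Defs3

open Matrix Finset
open scoped Kronecker ComplexOrder BigOperators

namespace Vale.Agent.P372Q

/-- the `n`-fold tensor power of `ρ` -/
def pw {a b : Type} (ρ : Matrix (a × b) (a × b) ℂ) (n : ℕ) :
    Matrix ((Fin n → a) × (Fin n → b)) ((Fin n → a) × (Fin n → b)) ℂ :=
  Matrix.of fun p q => ∏ i, ρ (p.1 i, p.2 i) (q.1 i, q.2 i)

/-- the cycle conditions for `famC c n` -/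
def Cyc (c : Fin 3 → ℝ) (n : Fin 3 → Fin 3 → ℝ) : Prop :=
  (c 0 * c 1) ^ 2 ≤ n 0 1 * n 1 0 ∧ (c 1 * c 2) ^ 2 ≤ n 1 2 * n 2 1 ∧
  (c 0 * c 2) ^ 2 ≤ n 0 2 * n 2 0 ∧ (c 0 * c 1 * c 2) ^ 2 ≤ n 1 0 * n 2 1 * n 0 2 ∧
  (c 0 * c 1 * c 2) ^ 2 ≤ n 0 1 * n 1 2 * n 2 0

end Vale.Agent.P372Q
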