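import Vale.Agent.P372Q.Base

open Matrix Finset Filter Topology
open scoped Kronecker ComplexOrder BigOperators

namespace Vale.Agent.P372Q

/-- the unnormalised family -/
noncomputable def fam (s t : ℝ) : Matrix (Fin 3 × Fin 3) (Fin 3 × Fin 3) ℂ :=
  Matrix.of fun p q => (((if p.1 = p.2 ∧ q.1 = q.2 then 1 else 0) +
    (if p = q then (if p.2 = p.1 + 1 then s else if p.1 = p.2 + 1 then t else 0) else 0) : ℝ) : ℂ)

/-- entrywise power -/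
noncomputable def schur {I : Type} (ρ : Matrix I I ℂ) (n : ℕ) : Matrix I I ℂ :=
  Matrix.of fun i j => ρ i j ^ n

/-- restriction to the span of the constant strings -/
noncomputable def diagK {a s : Type} [Fintype a] [DecidableEq a] (n₀ : ℕ) (K : Matrix s a ℂ) :
    Matrix s (Fin n₀ → a) ℂ :=
  Matrix.of fun i v => ∑ j, if v = (fun _ => j) then K i j else 0

/-- Alice's filter -/
noncomputable def KA (v μ : ℝ) (x : ZMod 2) : Matrix (Fin 2) (Fin 3) ℂ :=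
  !![1, 0, sgn x * v; 0, (μ : ℂ), 0]

/-- Bob's filter -/
noncomputable def KB (v μ : ℝ) (x : ZMod 2) : Matrix (Fin 2) (Fin 3) ℂ :=
  !![(v : ℂ), 0, sgn x; 0, (μ : ℂ), 0]

/-- the twisting unitary -/
noncomputable def UU (h : ℝ) : Matrix (Fin 2 × Fin 2) (Fin 2 × Fin 2) ℂ :=
  Matrix.of fun p q =>
    if p = (0, 0) ∧ q = (0, 0) then (((4 - h ^ 2) / (h ^ 2 + 4) : ℝ) : ℂ)
    else if p = (0, 0) ∧ q = (1, 1) then ((4 * h / (h ^ 2 + 4) : ℝ) : ℂ)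
    else if p = (1, 1) ∧ q = (0, 0) then ((4 * h / (h ^ 2 + 4) : ℝ) : ℂ)
    else if p = (1, 1) ∧ q = (1, 1) then (((h ^ 2 - 4) / (h ^ 2 + 4) : ℝ) : ℂ)
    else if p = (1, 0) ∧ q = (1, 0) then -1
    else if p = (0, 1) ∧ q = (0, 1) then 1
    else 0

/-- FAM0. -/
theorem schur_rho (s t : ℝ) {n : ℕ} (hn : 1 ≤ n) :
    schur (rho s t) n = (((3 * (1 + s + t))⁻¹ ^ n : ℝ) : ℂ) • fam (s ^ n) (t ^ n) := by
  have hn0 : n ≠ 0 := by omega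
  have key : ∀ p q : Fin 3 × Fin 3,
      ((if p.1 = p.2 ∧ q.1 = q.2 then (1 : ℝ) else 0) +
        (if p = q then (if p.2 = p.1 + 1 then s else if p.1 = p.2 + 1 then t else 0) else 0)) ^ n =
      (if p.1 = p.2 ∧ q.1 = q.2 then (1 : ℝ) else 0) +
        (if p = q then (if p.2 = p.1 + 1 then s ^ n else if p.1 = p.2 + 1 then t ^ n else 0)
          else 0) := by
    intro p q
    have h3 : ∀ a : Fin 3, ¬ a = a + 1 := by decide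
    by_cases h1 : p.1 = p.2 ∧ q.1 = q.2
    · have h2 : ¬ p.2 = p.1 + 1 := by
        rw [← h1.1]
        exact h3 _
      have h4 : ¬ p.1 = p.2 + 1 := by
        rw [← h1.1]
        exact h3 _
      rw [if_neg h2, if_neg h4, if_neg h2, if_neg h4, if_pos h1]
      simp
    · rw [if_neg h1]
      split_ifs <;> simp [hn0]
  ext p q
  show (((3 * (1 + s + t))⁻¹ * ((if p.1 = p.2 ∧ q.1 = q.2 then 1 else 0) +
    (if p = q then (if p.2 = p.1 + 1 then s else if p.1 = p.2 + 1 then t else 0) else 0) : ℝ) : ℝ) : ℂ) ^ n =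
    (((3 * (1 + s + t))⁻¹ ^ n : ℝ) : ℂ) * (((if p.1 = p.2 ∧ q.1 = q.2 then 1 else 0) +
      (if p = q then (if p.2 = p.1 + 1 then s ^ n else if p.1 = p.2 + 1 then t ^ n else 0)
        else 0) : ℝ) : ℂ)
  rw [← key p q, ← Complex.ofReal_mul, ← mul_pow, ← Complex.ofReal_pow]

private theorem FAM1_gen (A B C : ℝ) (h1 : A * A + B * B = 1) (h2 : B * B + C * C = 1)
    (h3 : A * B + B * C = 0) :
    (Matrix.of fun p q : Fin 2 × Fin 2 =>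
    if p = (0, 0) ∧ q = (0, 0) then (A : ℂ)
    else if p = (0, 0) ∧ q = (1, 1) then (B : ℂ)
    else if p = (1, 1) ∧ q = (0, 0) then (B : ℂ)
    else if p = (1, 1) ∧ q = (1, 1) then (C : ℂ)
    else if p = (1, 0) ∧ q = (1, 0) then -1
    else if p = (0, 1) ∧ q = (0, 1) then 1
    else 0)ᴴ * (Matrix.of fun p q : Fin 2 × Fin 2 =>
    if p = (0, 0) ∧ q = (0, 0) then (A : ℂ)
    else if p = (0, 0) ∧ q = (1, 1) then (B : ℂ)
    else if p = (1, 1) ∧ q = (0, 0) then (B : ℂ)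
    else if p = (1, 1) ∧ q = (1, 1) then (C : ℂ)
    else if p = (1, 0) ∧ q = (1, 0) then -1
    else if p = (0, 1) ∧ q = (0, 1) then 1
    else 0) = 1 := by
  have c1 : (A : ℂ) * A + B * B = 1 := by exact_mod_cast h1
  have c2 : (B : ℂ) * B + C * C = 1 := by exact_mod_cast h2
  have c3 : (A : ℂ) * B + B * C = 0 := by exact_mod_cast h3
  have c4 : (B : ℂ) * A + C * B = 0 := by
    rw [← c3]; ring
  ext ⟨i, i'⟩ ⟨j, j'⟩
  rw [Matrix.mul_apply, Fintype.sum_prod_type]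
  fin_cases i <;> fin_cases i' <;> fin_cases j <;> fin_cases j' <;>
    simp [Fin.sum_univ_two, Matrix.conjTranspose_apply, c1, c2, c3, c4]

/-- FAM1. -/
theorem UU_isometry (h : ℝ) : (UU h)ᴴ * UU h = 1 := by
  have hpos : (h ^ 2 + 4 : ℝ) ≠ 0 := by positivity
  refine FAM1_gen ((4 - h ^ 2) / (h ^ 2 + 4)) (4 * h / (h ^ 2 + 4)) ((h ^ 2 - 4) / (h ^ 2 + 4))
    ?_ ?_ ?_
  · field_simp
    ring
  · field_simp
    ring
  · field_simp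
    ring

theorem BAS_hs {I E : Type} [Fintype I] [Fintype E] (G H : Matrix I E ℂ) :
    hsInner G H = (Gᴴ * H).trace := by
  unfold hsInner
  rw [Finset.sum_comm]
  rfl

theorem BAS_sum {a s : Type} [Fintype a] [DecidableEq a] (n₀ : ℕ) (K : Matrix s a ℂ) (i : s)
    (f : (Fin n₀ → a) → ℂ) :
    ∑ v, diagK n₀ K i v * f v = ∑ j, K i j * f (fun _ => j) := by
  simp only [diagK, Matrix.of_apply, Finset.sum_mul]
  rw [Finset.sum_comm]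
  refine Finset.sum_congr rfl fun j _ => ?_
  rw [Finset.sum_eq_single (fun _ => j)]
  · rw [if_pos rfl]
  · intro v _ hv
    rw [if_neg hv, zero_mul]
  · intro h
    exact absurd (Finset.mem_univ _) h

/-- copies on the constant strings -/
noncomputable def BAS_D {p e : Type} (n₀ : ℕ) (R : Matrix p e ℂ) :
    Matrix p (Fin n₀ → e) ℂ :=
  Matrix.of fun p q => ∏ l, R p (q l)

theorem BAS_diag {a b e s s' : Type} [Fintype a] [DecidableEq a] [Fintype b] [DecidableEq b]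
    [Fintype s] [Fintype s'] (n₀ : ℕ) (R : Matrix (a × b) e ℂ) (K : Matrix s a ℂ)
    (L : Matrix s' b ℂ) :
    (diagK n₀ K ⊗ₖ diagK n₀ L) * copiesOn R (Fin n₀) = (K ⊗ₖ L) * BAS_D n₀ R := by
  ext ⟨i, j⟩ q
  simp only [Matrix.mul_apply, Matrix.kroneckerMap_apply, Fintype.sum_prod_type, copiesOn, BAS_D,
    Matrix.of_apply]
  have h1 : ∀ v : Fin n₀ → a, ∑ w : Fin n₀ → b, diagK n₀ K i v * diagK n₀ L j w *
      ∏ l, R (v l, w l) (q l) = diagK n₀ K i v * ∑ w : Fin n₀ → b, diagK n₀ L j w *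
      ∏ l, R (v l, w l) (q l) := by
    intro v
    rw [Finset.mul_sum]
    exact Finset.sum_congr rfl fun w _ => by ring
  rw [Finset.sum_congr rfl fun v _ => h1 v, BAS_sum n₀ K i]
  refine Finset.sum_congr rfl fun j₁ _ => ?_
  rw [BAS_sum n₀ L j, Finset.mul_sum]
  exact Finset.sum_congr rfl fun j₂ _ => by ring

theorem BAS_schur {p e : Type} [Fintype e] (n₀ : ℕ) (R : Matrix p e ℂ) :
    BAS_D n₀ R * (BAS_D n₀ R)ᴴ = schur (R * Rᴴ) n₀ := by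
  ext x y
  simp only [Matrix.mul_apply, BAS_D, schur, Matrix.of_apply, Matrix.conjTranspose_apply]
  have h1 : ∀ q : Fin n₀ → e, (∏ l, R x (q l)) * star (∏ l, R y (q l)) =
      ∏ l, (R x (q l) * star (R y (q l))) := by
    intro q
    rw [Finset.prod_mul_distrib]
    congr 1
    exact map_prod (starRingEnd ℂ) _ _
  rw [Finset.sum_congr rfl fun q _ => h1 q]
  have h2 := Finset.prod_univ_sum (fun _ : Fin n₀ => (Finset.univ : Finset e))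
    (fun _ k => R x k * star (R y k))
  rw [Fintype.piFinset_univ] at h2
  rw [← h2, Finset.prod_const, Finset.card_univ, Fintype.card_fin]

/-- BAS. `tr(Xᴴ U Y)` for `X = (K ⊗ L)(J ⊗ J) C`, `Y = (K' ⊗ L')(J ⊗ J) C`, `C = copiesOn R`,
`J |v⟩ = |j⟩` if `v` is constant `j`; `((J ⊗ J) C Cᴴ (J ⊗ J)ᴴ)` is the entrywise power of
`R Rᴴ` (the strings are independent copies; for `n₀ ≥ 1` the constant strings are distinct). -/
theorem hsInner_diagK {a b e s s' : Type} [Fintype a] [DecidableEq a] [Fintype b] [DecidableEq b]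
    [Fintype e] [Fintype s] [Fintype s'] {n₀ : ℕ} (hn : 1 ≤ n₀) (R : Matrix (a × b) e ℂ)
    (K K' : Matrix s a ℂ) (L L' : Matrix s' b ℂ) (U : Matrix (s × s') (s × s') ℂ) :
    hsInner ((diagK n₀ K ⊗ₖ diagK n₀ L) * copiesOn R (Fin n₀))
        (U * ((diagK n₀ K' ⊗ₖ diagK n₀ L') * copiesOn R (Fin n₀))) =
      ((K ⊗ₖ L)ᴴ * U * (K' ⊗ₖ L') * schur (R * Rᴴ) n₀).trace := by
  rw [BAS_hs, BAS_diag, BAS_diag, Matrix.conjTranspose_mul, ← BAS_schur]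
  rw [Matrix.mul_assoc, Matrix.trace_mul_comm]
  congr 1
  simp only [Matrix.mul_assoc]

/-- HSI. -/
theorem hs_eq_hsInner {I E : Type} [Fintype I] [Fintype E] (G : Matrix I E ℂ) :
    hsInner G G = (hs G : ℂ) := by
  unfold hsInner hs
  push_cast
  exact Finset.sum_congr rfl fun i _ => Finset.sum_congr rfl fun e _ => Complex.conj_mul' _

/-- HSR. The trace of `rho s t` is one. -/
theorem hs_of_rho {s t : ℝ} (hs0 : 0 < s) (ht0 : 0 < t) {e : Type} [Fintype e]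
    (R : Matrix (Fin 3 × Fin 3) e ℂ) (hR : R * Rᴴ = rho s t) : hs R = 1 := by
  have h1 : ((hs R : ℝ) : ℂ) = ∑ i, (rho s t) i i := by
    rw [← hR]
    unfold hs
    push_cast
    refine Finset.sum_congr rfl fun i _ => ?_
    rw [Matrix.mul_apply]
    refine Finset.sum_congr rfl fun e _ => ?_
    rw [Matrix.conjTranspose_apply]
    exact (Complex.mul_conj' _).symm
  have h2 : ∑ i, (rho s t) i i = (((3 * (1 + s + t))⁻¹ * (3 * (1 + s + t)) : ℝ) : ℂ) := by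
    unfold rho
    simp only [Matrix.of_apply]
    rw [← Complex.ofReal_sum, ← Finset.mul_sum, Fintype.sum_prod_type]
    apply congrArg
    apply congrArg
    simp [Fin.sum_univ_three]
    ring
  rw [h2] at h1
  have h3 : hs R = (3 * (1 + s + t))⁻¹ * (3 * (1 + s + t)) := by exact_mod_cast h1
  rw [h3]
  exact inv_mul_cancel₀ (by positivity)

theorem FAM2_trace (B : Matrix (Fin 3 × Fin 3) (Fin 3 × Fin 3) ℂ) (s t : ℝ) :
    (B * fam s t).trace = (∑ i, ∑ j, B (i, i) (j, j)) +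
      s * (B (0, 1) (0, 1) + B (1, 2) (1, 2) + B (2, 0) (2, 0)) +
      t * (B (1, 0) (1, 0) + B (2, 1) (2, 1) + B (0, 2) (0, 2)) := by
  have h : ∀ p q, fam s t p q = (if p.1 = p.2 ∧ q.1 = q.2 then 1 else 0) +
    (if p = q then (if p.2 = p.1 + 1 then (s : ℂ) else if p.1 = p.2 + 1 then (t : ℂ) else 0)
      else 0) := by
    intro p q
    simp only [fam, Matrix.of_apply]
    split_ifs <;> simp
  have h1 : (B * fam s t).trace = (∑ p, ∑ q, B p q * (if q.1 = q.2 ∧ p.1 = p.2 then 1 else 0)) +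
      ∑ p, B p p * (if p.2 = p.1 + 1 then (s : ℂ) else if p.1 = p.2 + 1 then (t : ℂ) else 0) := by
    simp only [Matrix.trace, Matrix.diag_apply, Matrix.mul_apply]
    rw [← Finset.sum_add_distrib]
    refine Finset.sum_congr rfl fun p _ => ?_
    simp only [h, mul_add, Finset.sum_add_distrib]
    congr 1
    simp only [mul_ite, mul_zero, Finset.sum_ite_eq', Finset.mem_univ, if_true]
  rw [h1]
  have h2 : (∑ p : Fin 3 × Fin 3, ∑ q : Fin 3 × Fin 3,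
      B p q * (if q.1 = q.2 ∧ p.1 = p.2 then 1 else 0)) = ∑ i, ∑ j, B (i, i) (j, j) := by
    simp [Fintype.sum_prod_type, Fin.sum_univ_three]
  have h3 : (∑ p : Fin 3 × Fin 3,
      B p p * (if p.2 = p.1 + 1 then (s : ℂ) else if p.1 = p.2 + 1 then (t : ℂ) else 0)) =
      s * (B (0, 1) (0, 1) + B (1, 2) (1, 2) + B (2, 0) (2, 0)) +
      t * (B (1, 0) (1, 0) + B (2, 1) (2, 1) + B (0, 2) (0, 2)) := by
    simp [Fintype.sum_prod_type, Fin.sum_univ_three]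
    ring
  rw [h2, h3]
  ring

theorem FAM2_sgn (x : ZMod 2) : sgn x = 1 ∨ sgn x = -1 := by
  unfold sgn
  split_ifs
  · exact Or.inl rfl
  · exact Or.inr rfl

theorem FAM2_kron (K K' : Matrix (Fin 2) (Fin 3) ℂ) (L L' : Matrix (Fin 2) (Fin 3) ℂ) :
    (K ⊗ₖ L)ᴴ * (1 : Matrix (Fin 2 × Fin 2) (Fin 2 × Fin 2) ℂ) * (K' ⊗ₖ L') =
      (Kᴴ * K') ⊗ₖ (Lᴴ * L') := by
  rw [Matrix.mul_one, Matrix.conjTranspose_kronecker, ← Matrix.mul_kronecker_mul]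

/-- FAM2. Equal outcomes. With `Ω = ∑ |kk⟩`, `fam s t = |Ω⟩⟨Ω| + diagonal`;
`(KA x ⊗ KB x) Ω = 2 v |00⟩ + μ^2 |11⟩` up to the row convention. -/
theorem trace_same (v μ s t : ℝ) (x : ZMod 2) :
    ((KA v μ x ⊗ₖ KB v μ x)ᴴ * (1 : Matrix (Fin 2 × Fin 2) (Fin 2 × Fin 2) ℂ) *
      (KA v μ x ⊗ₖ KB v μ x) * fam s t).trace =
      ((4 * v ^ 2 + μ ^ 4 + s * (2 * μ ^ 2 + v ^ 4) + t * (2 * μ ^ 2 * v ^ 2 + 1) : ℝ) : ℂ) := by
  rw [FAM2_kron, FAM2_trace]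
  simp only [Matrix.kroneckerMap_apply, Matrix.mul_apply, Fin.sum_univ_three, Fin.sum_univ_two,
    Matrix.conjTranspose_apply, KA, KB]
  rcases FAM2_sgn x with h | h <;> rw [h] <;> simp <;> ring

theorem FAM3_sgn (x : ZMod 2) :
    (sgn x = 1 ∧ sgn (x + 1) = -1) ∨ (sgn x = -1 ∧ sgn (x + 1) = 1) := by
  have h : ∀ x : ZMod 2, (x = 0 ∧ x + 1 ≠ 0) ∨ (x ≠ 0 ∧ x + 1 = 0) := by decide
  unfold sgn
  rcases h x with ⟨h1, h2⟩ | ⟨h1, h2⟩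
  · left
    rw [if_pos h1, if_neg h2]
    exact ⟨rfl, rfl⟩
  · right
    rw [if_neg h1, if_pos h2]
    exact ⟨rfl, rfl⟩

theorem FAM3_M (v μ : ℝ) (x : ZMod 2) : (KA v μ x)ᴴ * KA v μ x =
    !![1, 0, sgn x * v; 0, (μ : ℂ) ^ 2, 0; sgn x * v, 0, (v : ℂ) ^ 2] := by
  unfold KA
  rcases FAM3_sgn x with ⟨h, -⟩ | ⟨h, -⟩ <;> rw [h] <;> ext i j <;>
    fin_cases i <;> fin_cases j <;>
    simp [Matrix.mul_apply, Fin.sum_univ_two, sq]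

theorem FAM3_N (v μ : ℝ) (x : ZMod 2) : (KB v μ x)ᴴ * KB v μ x =
    !![(v : ℂ) ^ 2, 0, sgn x * v; 0, (μ : ℂ) ^ 2, 0; sgn x * v, 0, 1] := by
  unfold KB
  rcases FAM3_sgn x with ⟨h, -⟩ | ⟨h, -⟩ <;> rw [h] <;> ext i j <;>
    fin_cases i <;> fin_cases j <;>
    simp [Matrix.mul_apply, Fin.sum_univ_two, sq]

/-- the trace against `fam` in terms of the entries -/
theorem FAM3_trace (M N : Matrix (Fin 3) (Fin 3) ℂ) (s t : ℝ) :
    ((M ⊗ₖ N) * fam s t).trace = (∑ i, ∑ j, M i j * N i j) +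
      s * (M 0 0 * N 1 1 + M 1 1 * N 2 2 + M 2 2 * N 0 0) +
      t * (M 1 1 * N 0 0 + M 2 2 * N 1 1 + M 0 0 * N 2 2) := by
  unfold Matrix.trace fam
  simp only [Matrix.diag_apply, Matrix.mul_apply, Fintype.sum_prod_type, Fin.sum_univ_three,
    Matrix.kroneckerMap_apply, Matrix.of_apply, Prod.mk.injEq]
  simp
  ring

/-- FAM3. Different outcomes. -/
theorem trace_diff (v μ s t : ℝ) (x : ZMod 2) :
    ((KA v μ x ⊗ₖ KB v μ (x + 1))ᴴ * (1 : Matrix (Fin 2 × Fin 2) (Fin 2 × Fin 2) ℂ) *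
      (KA v μ x ⊗ₖ KB v μ (x + 1)) * fam s t).trace =
      ((μ ^ 4 + s * (2 * μ ^ 2 + v ^ 4) + t * (2 * μ ^ 2 * v ^ 2 + 1) : ℝ) : ℂ) := by
  rw [Matrix.mul_one, Matrix.conjTranspose_kronecker, ← Matrix.mul_kronecker_mul, FAM3_M, FAM3_N,
    FAM3_trace]
  rcases FAM3_sgn x with ⟨h1, h2⟩ | ⟨h1, h2⟩
  · rw [h1, h2]
    simp [Fin.sum_univ_three]
    ring
  · rw [h1, h2]
    simp [Fin.sum_univ_three]
    ring

theorem FAM4_trace (s t : ℝ) (P : Matrix (Fin 3 × Fin 3) (Fin 3 × Fin 3) ℂ) :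
    (P * fam s t).trace =
      (P (0, 0) (0, 0) + P (0, 0) (1, 1) + P (0, 0) (2, 2) + P (1, 1) (0, 0) + P (1, 1) (1, 1) +
        P (1, 1) (2, 2) + P (2, 2) (0, 0) + P (2, 2) (1, 1) + P (2, 2) (2, 2)) +
      (s : ℂ) * (P (0, 1) (0, 1) + P (1, 2) (1, 2) + P (2, 0) (2, 0)) +
      (t : ℂ) * (P (1, 0) (1, 0) + P (2, 1) (2, 1) + P (0, 2) (0, 2)) := by
  simp only [Matrix.trace, Matrix.diag_apply, Matrix.mul_apply, Fintype.sum_prod_type,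
    Fin.sum_univ_three, fam, Matrix.of_apply]
  simp
  ring

theorem FAM4_U (h : ℝ) (M N : Matrix (Fin 2 × Fin 2) (Fin 3 × Fin 3) ℂ) (p q : Fin 3 × Fin 3) :
    (Mᴴ * UU h * N) p q =
      star (M (0, 0) p) * ((((4 - h ^ 2) / (h ^ 2 + 4) : ℝ) : ℂ) * N (0, 0) q +
        ((4 * h / (h ^ 2 + 4) : ℝ) : ℂ) * N (1, 1) q) +
      star (M (1, 1) p) * (((4 * h / (h ^ 2 + 4) : ℝ) : ℂ) * N (0, 0) q +
        (((h ^ 2 - 4) / (h ^ 2 + 4) : ℝ) : ℂ) * N (1, 1) q) -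
      star (M (1, 0) p) * N (1, 0) q + star (M (0, 1) p) * N (0, 1) q := by
  simp only [Matrix.mul_apply, Matrix.conjTranspose_apply, Fintype.sum_prod_type,
    Fin.sum_univ_two, UU, Matrix.of_apply]
  simp
  ring

/-- FAM4. The overlap, for `μ^2 = h v`. -/
theorem trace_overlap (v μ h s t : ℝ) (hμ : μ ^ 2 = h * v) :
    ((KA v μ 0 ⊗ₖ KB v μ 0)ᴴ * UU h * (KA v μ 1 ⊗ₖ KB v μ 1) * fam s t).trace =
      ((v ^ 2 * (h ^ 2 + 4) + 2 * μ ^ 2 * (s - t * v ^ 2) +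
        (s * v ^ 4 + t) * ((h ^ 2 - 4) / (h ^ 2 + 4)) : ℝ) : ℂ) := by
  have hh : (h ^ 2 + 4 : ℝ) ≠ 0 := by positivity
  have hμ' : (μ : ℂ) ^ 2 = h * v := by exact_mod_cast hμ
  have hhc : ((h : ℂ) ^ 2 + 4) ≠ 0 := by exact_mod_cast hh
  rw [FAM4_trace]
  simp only [FAM4_U]
  simp [KA, KB, sgn, Matrix.kroneckerMap_apply]
  field_simp
  linear_combination (16 * (h : ℂ) * v + ((h : ℂ) ^ 2 - 4) * ((μ : ℂ) ^ 2 + h * v)) * hμ'

theorem FAM5_alg {v h μ σ τ : ℝ} (hv : 0 < v) (hh : 0 < h) (hσ : 0 < σ) (hτ : 0 < τ)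
    (hμ : μ ^ 2 = h * v) (h1 : σ * v ^ 4 = τ) (h2 : 64 * τ = v ^ 2 * h ^ 2)
    (h3 : (h * v) ^ 3 ≤ 4) (ps pd F : ℝ)
    (hps : ps = 4 * v ^ 2 + μ ^ 4 + σ * (2 * μ ^ 2 + v ^ 4) + τ * (2 * μ ^ 2 * v ^ 2 + 1))
    (hpd : pd = μ ^ 4 + σ * (2 * μ ^ 2 + v ^ 4) + τ * (2 * μ ^ 2 * v ^ 2 + 1))
    (hF : F = v ^ 2 * (h ^ 2 + 4) + 2 * μ ^ 2 * (σ - τ * v ^ 2) +
        (σ * v ^ 4 + τ) * ((h ^ 2 - 4) / (h ^ 2 + 4))) :
    0 < F ∧ F ≤ ps ∧ 0 ≤ pd ∧ pd * ps ^ 3 < F ^ 4 := by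
  have hμ4 : μ ^ 4 = h ^ 2 * v ^ 2 := by
    have : μ ^ 4 = (μ ^ 2) ^ 2 := by ring
    rw [this, hμ]
    ring
  have hpd0 : 0 ≤ pd := by
    rw [hpd]
    positivity
  have hpspd : ps = pd + 4 * v ^ 2 := by
    rw [hps, hpd]
    ring
  have hv2 : 0 < v ^ 2 := by positivity
  have hh4 : 0 < h ^ 2 + 4 := by positivity
  have hdiff : ps - F = 16 * τ / (h ^ 2 + 4) + 4 * τ * h * v ^ 3 := by
    rw [hps, hF, hμ4, hμ, mul_add σ, h1]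
    field_simp
    ring
  have hA : 16 * τ / (h ^ 2 + 4) ≤ v ^ 2 / 4 := by
    rw [div_le_iff₀ hh4]
    nlinarith
  have hB : 4 * τ * h * v ^ 3 ≤ v ^ 2 / 4 := by
    have e : 4 * τ * h * v ^ 3 = v ^ 2 * (h * v) ^ 3 / 16 := by
      have e2 : τ = v ^ 2 * h ^ 2 / 64 := by linarith
      rw [e2]
      ring
    rw [e]
    nlinarith
  have hd0 : 0 ≤ ps - F := by
    rw [hdiff]
    positivity
  have hx : ps - v ^ 2 / 2 ≤ F := by linarith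
  have hps4 : 4 * v ^ 2 ≤ ps := by linarith
  have hps0 : 0 < ps := by linarith
  have hy : 0 < ps - v ^ 2 / 2 := by linarith
  refine ⟨by linarith, by linarith, hpd0, ?_⟩
  have h4 : (ps - v ^ 2 / 2) ^ 4 ≤ F ^ 4 := pow_le_pow_left₀ hy.le hx 4
  refine lt_of_lt_of_le ?_ h4
  have e1 : pd = ps - 4 * v ^ 2 := by linarith
  rw [e1]
  set x := v ^ 2 / 2 with hxd
  have hx0 : 0 < x := by positivity
  have e2 : 4 * v ^ 2 = 8 * x := by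
    rw [hxd]
    ring
  rw [e2]
  have e3 : (ps - x) ^ 4 - (ps - 8 * x) * ps ^ 3 =
      4 * x * ps ^ 3 + x ^ 2 * (2 * ps ^ 2 + (2 * ps - x) ^ 2) := by ring
  have e4 : 0 < 4 * x * ps ^ 3 + x ^ 2 * (2 * ps ^ 2 + (2 * ps - x) ^ 2) := by positivity
  linarith

/-- FAM5. Choose `k ≥ 1` with `t^(6k) ≤ 1/128` and `v = (t/s)^k`, `h = 8 (s t)^k`,
`μ = √(h v) = √8 t^k`; with `σ = s^(4k)`, `τ = t^(4k)`: `σ v^4 = τ`, `v^2 = √(τ / σ)`. Let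
`ps = 4 v^2 + μ^4 + σ(2 μ^2 + v^4) + τ(2 μ^2 v^2 + 1)`, `pd = ps - 4 v^2`; then
`ps - F = 16 τ / (h^2 + 4) + 4 h τ v^3 ≤ v^2 / 2 = (ps - pd) / 8`, because
`16 τ / v^2 = 16 (s t)^(2k)`, `h^2 = 64 (s t)^(2k)` and `4 h τ v = 32 t^(6k) ≤ 1/4`. Hence
`F ≥ ps (1 - δ/8)`, `δ = (ps - pd)/ps ≤ 1`, `F^4 ≥ ps^4 (1 - δ/2) > ps^4 (1 - δ) = pd ps^3`. -/
theorem fam_choice {s t : ℝ} (hs0 : 0 < s) (ht0 : 0 < t) (ht1 : t < 1) :
    ∃ (n₀ : ℕ) (v μ h : ℝ), 1 ≤ n₀ ∧ 0 < v ∧ μ ^ 2 = h * v ∧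
      ∀ ps pd F : ℝ,
      ps = 4 * v ^ 2 + μ ^ 4 + s ^ n₀ * (2 * μ ^ 2 + v ^ 4) + t ^ n₀ * (2 * μ ^ 2 * v ^ 2 + 1) →
      pd = μ ^ 4 + s ^ n₀ * (2 * μ ^ 2 + v ^ 4) + t ^ n₀ * (2 * μ ^ 2 * v ^ 2 + 1) →
      F = v ^ 2 * (h ^ 2 + 4) + 2 * μ ^ 2 * (s ^ n₀ - t ^ n₀ * v ^ 2) +
        (s ^ n₀ * v ^ 4 + t ^ n₀) * ((h ^ 2 - 4) / (h ^ 2 + 4)) →
      0 < F ∧ F ≤ ps ∧ 0 ≤ pd ∧ pd * ps ^ 3 < F ^ 4 := by
  obtain ⟨n, hn⟩ := exists_pow_lt_of_lt_one (show (0 : ℝ) < 1 / 128 by norm_num) ht1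
  set k := n + 1 with hk
  have ht6 : t ^ (6 * k) ≤ 1 / 128 := by
    refine (pow_le_pow_of_le_one ht0.le ht1.le ?_).trans hn.le
    omega
  have hv : 0 < (t / s) ^ k := by positivity
  have hh : 0 < 8 * (s * t) ^ k := by positivity
  have hhv : 8 * (s * t) ^ k * (t / s) ^ k = 8 * t ^ (2 * k) := by
    rw [mul_assoc, ← mul_pow, pow_mul]
    congr 2
    field_simp
  refine ⟨4 * k, (t / s) ^ k, Real.sqrt (8 * (s * t) ^ k * (t / s) ^ k), 8 * (s * t) ^ k,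
    by omega, hv, Real.sq_sqrt (by positivity), ?_⟩
  intro ps pd F hps hpd hF
  refine FAM5_alg hv hh (by positivity) (by positivity) (Real.sq_sqrt (by positivity)) ?_ ?_ ?_
    ps pd F hps hpd hF
  · rw [← pow_mul, mul_comm k 4, ← mul_pow]
    congr 1
    field_simp
  · rw [← mul_pow, mul_comm ((t / s) ^ k), hhv]
    ring
  · rw [hhv]
    have e : (8 * t ^ (2 * k)) ^ 3 = 512 * t ^ (6 * k) := by ring
    rw [e]
    linarith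

theorem FAM6_trace {s t : ℝ} {n₀ : ℕ} (hn : 1 ≤ n₀) {e : Type} [Fintype e]
    (R : Matrix (Fin 3 × Fin 3) e ℂ) (hR : R * Rᴴ = rho s t)
    (K K' L L' : Matrix (Fin 2) (Fin 3) ℂ) (U : Matrix (Fin 2 × Fin 2) (Fin 2 × Fin 2) ℂ) (T : ℝ)
    (hT : ((K ⊗ₖ L)ᴴ * U * (K' ⊗ₖ L') * fam (s ^ n₀) (t ^ n₀)).trace = (T : ℂ)) :
    hsInner ((diagK n₀ K ⊗ₖ diagK n₀ L) * copiesOn R (Fin n₀))
        (U * ((diagK n₀ K' ⊗ₖ diagK n₀ L') * copiesOn R (Fin n₀))) =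
      (((3 * (1 + s + t))⁻¹ ^ n₀ * T : ℝ) : ℂ) := by
  rw [hsInner_diagK hn, hR, schur_rho s t hn, Matrix.mul_smul, Matrix.trace_smul, hT,
    smul_eq_mul, Complex.ofReal_mul]

theorem FAM6_hs {s t : ℝ} {n₀ : ℕ} (hn : 1 ≤ n₀) {e : Type} [Fintype e]
    (R : Matrix (Fin 3 × Fin 3) e ℂ) (hR : R * Rᴴ = rho s t)
    (K L : Matrix (Fin 2) (Fin 3) ℂ) (T : ℝ)
    (hT : ((K ⊗ₖ L)ᴴ * (1 : Matrix (Fin 2 × Fin 2) (Fin 2 × Fin 2) ℂ) * (K ⊗ₖ L) *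
      fam (s ^ n₀) (t ^ n₀)).trace = (T : ℂ)) :
    hs ((diagK n₀ K ⊗ₖ diagK n₀ L) * copiesOn R (Fin n₀)) = (3 * (1 + s + t))⁻¹ ^ n₀ * T := by
  have h1 := FAM6_trace hn R hR K K L L 1 T hT
  rw [Matrix.one_mul, hs_eq_hsInner] at h1
  exact_mod_cast h1

/-- FAM6. Assembly of the above (the criterion is homogeneous, so the factor
`(3 (1 + s + t))⁻¹ ^ n₀` is harmless). -/
theorem base_exists {s t : ℝ} (hs0 : 0 < s) (ht0 : 0 < t) (ht1 : t < 1) {e : Type} [Fintype e]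
    (R : Matrix (Fin 3 × Fin 3) e ℂ) (hR : R * Rᴴ = rho s t) :
    ∃ (n₀ : ℕ) (k₀ l₀ : ZMod 2 → Matrix (Fin 2) (Fin n₀ → Fin 3) ℂ)
      (U : Matrix (Fin 2 × Fin 2) (Fin 2 × Fin 2) ℂ) (ps pd F : ℝ), 1 ≤ n₀ ∧ Uᴴ * U = 1 ∧
      (∀ x, hs ((k₀ x ⊗ₖ l₀ x) * copiesOn R (Fin n₀)) = ps) ∧
      (∀ x, hs ((k₀ x ⊗ₖ l₀ (x + 1)) * copiesOn R (Fin n₀)) = pd) ∧
      hsInner ((k₀ 0 ⊗ₖ l₀ 0) * copiesOn R (Fin n₀))
        (U * ((k₀ 1 ⊗ₖ l₀ 1) * copiesOn R (Fin n₀))) = (F : ℂ) ∧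
      0 < F ∧ F ≤ ps ∧ 0 ≤ pd ∧ pd * ps ^ 3 < F ^ 4 := by
  obtain ⟨n₀, v, μ, h, hn, hv, hμ, H⟩ := fam_choice hs0 ht0 ht1
  have hH := H _ _ _ rfl rfl rfl
  set ps := 4 * v ^ 2 + μ ^ 4 + s ^ n₀ * (2 * μ ^ 2 + v ^ 4) + t ^ n₀ * (2 * μ ^ 2 * v ^ 2 + 1)
    with hps
  set pd := μ ^ 4 + s ^ n₀ * (2 * μ ^ 2 + v ^ 4) + t ^ n₀ * (2 * μ ^ 2 * v ^ 2 + 1) with hpd
  set F := v ^ 2 * (h ^ 2 + 4) + 2 * μ ^ 2 * (s ^ n₀ - t ^ n₀ * v ^ 2) +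
        (s ^ n₀ * v ^ 4 + t ^ n₀) * ((h ^ 2 - 4) / (h ^ 2 + 4)) with hF
  obtain ⟨h1, h2, h3, h4⟩ := hH
  set c := (3 * (1 + s + t))⁻¹ ^ n₀ with hc
  have hc0 : 0 < c := by
    rw [hc]; positivity
  refine ⟨n₀, fun x => diagK n₀ (KA v μ x), fun x => diagK n₀ (KB v μ x), UU h,
    c * ps, c * pd, c * F, hn, UU_isometry h, ?_, ?_, ?_, ?_, ?_, ?_, ?_⟩
  · intro x
    exact FAM6_hs hn R hR (KA v μ x) (KB v μ x) ps (trace_same v μ (s ^ n₀) (t ^ n₀) x)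
  · intro x
    exact FAM6_hs hn R hR (KA v μ x) (KB v μ (x + 1)) pd (trace_diff v μ (s ^ n₀) (t ^ n₀) x)
  · exact FAM6_trace hn R hR (KA v μ 0) (KA v μ 1) (KB v μ 0) (KB v μ 1) (UU h) F
      (trace_overlap v μ h (s ^ n₀) (t ^ n₀) hμ)
  · positivity
  · exact mul_le_mul_of_nonneg_left h2 hc0.le
  · positivity
  · have e1 : c * pd * (c * ps) ^ 3 = c ^ 4 * (pd * ps ^ 3) := by ring
    have e2 : (c * F) ^ 4 = c ^ 4 * F ^ 4 := by ring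
    rw [e1, e2]
    exact mul_lt_mul_of_pos_left h4 (by positivity)

end Vale.Agent.P372Q
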