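import Vale.Agent.P372Q.Fam
import Vale.Agent.P372Q.Defs3

open Matrix Finset Filter Topology
open scoped Kronecker ComplexOrder BigOperators

namespace Vale.Agent.P372Q

/-- `n₀`-fold powers of three local vectors (the rows of `V`) -/
noncomputable def powK {a : Type} (n₀ : ℕ) (V : Matrix (Fin 3) a ℂ) :
    Matrix (Fin 3) (Fin n₀ → a) ℂ :=
  Matrix.of fun i v => ∏ k, V i (v k)

/-- total noise seen by the filters -/
noncomputable def Nn (v μ : ℝ) (m : Fin 3 → Fin 3 → ℝ) : ℝ :=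
  μ ^ 2 * m 0 1 + μ ^ 2 * m 1 2 + v ^ 4 * m 2 0 + μ ^ 2 * v ^ 2 * m 1 0 +
    μ ^ 2 * v ^ 2 * m 2 1 + m 0 2

theorem POW_copies {a b e : Type} [Fintype a] [Fintype b]
    (n₀ : ℕ) (R : Matrix (a × b) e ℂ)
    (VA : Matrix (Fin 3) a ℂ) (VB : Matrix (Fin 3) b ℂ) :
    (powK n₀ VA ⊗ₖ powK n₀ VB) * copiesOn R (Fin n₀) = BAS_D n₀ ((VA ⊗ₖ VB) * R) := by
  classical
  ext ⟨i, j⟩ q
  have h2 := Finset.prod_univ_sum (fun _ : Fin n₀ => (Finset.univ : Finset (a × b)))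
    (fun k p => VA i p.1 * VB j p.2 * R p (q k))
  rw [Fintype.piFinset_univ] at h2
  have hR : BAS_D n₀ ((VA ⊗ₖ VB) * R) (i, j) q =
      ∏ k, ∑ p : a × b, VA i p.1 * VB j p.2 * R p (q k) := rfl
  rw [hR, h2, Matrix.mul_apply]
  symm
  refine Fintype.sum_equiv (Equiv.arrowProdEquivProdArrow (Fin n₀) (fun _ => a) (fun _ => b)) _ _ ?_
  intro u
  show ∏ k, VA i (u k).1 * VB j (u k).2 * R (u k) (q k) =
    ((∏ k, VA i (u k).1) * ∏ k, VB j (u k).2) * ∏ k, R ((u k).1, (u k).2) (q k)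
  rw [Finset.prod_mul_distrib, Finset.prod_mul_distrib]

/-- POW. As `hsInner_diagK` in Fam.lean: the matrix of `R Rᴴ`-copies between the power vectors is
the entrywise power. -/
theorem hsInner_powK {a b e s s' : Type} [Fintype a] [DecidableEq a] [Fintype b] [DecidableEq b]
    [Fintype e] [Fintype s] [Fintype s'] (n₀ : ℕ) (R : Matrix (a × b) e ℂ)
    (VA : Matrix (Fin 3) a ℂ) (VB : Matrix (Fin 3) b ℂ) (K K' : Matrix s (Fin 3) ℂ)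
    (L L' : Matrix s' (Fin 3) ℂ) (U : Matrix (s × s') (s × s') ℂ) :
    hsInner (((K * powK n₀ VA) ⊗ₖ (L * powK n₀ VB)) * copiesOn R (Fin n₀))
        (U * (((K' * powK n₀ VA) ⊗ₖ (L' * powK n₀ VB)) * copiesOn R (Fin n₀))) =
      ((K ⊗ₖ L)ᴴ * U * (K' ⊗ₖ L') *
        schur ((VA ⊗ₖ VB) * (R * Rᴴ) * (VA ⊗ₖ VB)ᴴ) n₀).trace := by
  have h1 : ∀ (M : Matrix s (Fin 3) ℂ) (N : Matrix s' (Fin 3) ℂ),
      ((M * powK n₀ VA) ⊗ₖ (N * powK n₀ VB)) * copiesOn R (Fin n₀) =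
        (M ⊗ₖ N) * BAS_D n₀ ((VA ⊗ₖ VB) * R) := by
    intro M N
    rw [Matrix.mul_kronecker_mul, Matrix.mul_assoc, POW_copies]
  have h2 : schur ((VA ⊗ₖ VB) * (R * Rᴴ) * (VA ⊗ₖ VB)ᴴ) n₀ =
      BAS_D n₀ ((VA ⊗ₖ VB) * R) * (BAS_D n₀ ((VA ⊗ₖ VB) * R))ᴴ := by
    rw [BAS_schur, Matrix.conjTranspose_mul]
    simp only [Matrix.mul_assoc]
  rw [BAS_hs, h1, h1, h2, Matrix.conjTranspose_mul]
  rw [Matrix.mul_assoc, Matrix.trace_mul_comm]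
  congr 1
  simp only [Matrix.mul_assoc]

/-- FAMN. -/
theorem schur_famC (c : Fin 3 → ℝ) (n : Fin 3 → Fin 3 → ℝ) {m : ℕ} (hm : 1 ≤ m) :
    schur (famC c n) m = famC (fun i => c i ^ m) (fun i j => n i j ^ m) := by
  have hm0 : m ≠ 0 := by omega
  ext p q
  simp only [schur, famC, Matrix.of_apply]
  rw [← Complex.ofReal_pow]
  congr 1
  by_cases h1 : p.1 = p.2 ∧ q.1 = q.2
  · have h2 : ¬ (p = q ∧ p.1 ≠ p.2) := fun h => h.2 h1.1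
    rw [if_pos h1, if_pos h1, if_neg h2, if_neg h2, add_zero, add_zero, mul_pow]
  · rw [if_neg h1, if_neg h1, zero_add, zero_add]
    split_ifs with h2
    · rfl
    · exact zero_pow hm0

/-- FILT. -/
theorem famC_filter (c : Fin 3 → ℝ) (n : Fin 3 → Fin 3 → ℝ) (X Y : Fin 3 → ℝ) :
    ((Matrix.diagonal fun i => (X i : ℂ)) ⊗ₖ (Matrix.diagonal fun i => (Y i : ℂ))) * famC c n *
      ((Matrix.diagonal fun i => (X i : ℂ)) ⊗ₖ (Matrix.diagonal fun i => (Y i : ℂ)))ᴴ =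
      famC (fun i => X i * c i * Y i) (fun i j => n i j * X i ^ 2 * Y j ^ 2) := by
  rw [Matrix.diagonal_kronecker_diagonal, Matrix.diagonal_conjTranspose]
  ext p q
  rw [Matrix.mul_diagonal, Matrix.diagonal_mul]
  simp only [famC, Matrix.of_apply, Pi.star_apply, star_mul', Complex.star_def, Complex.conj_ofReal]
  rw [← Complex.ofReal_mul, ← Complex.ofReal_mul, ← Complex.ofReal_mul, ← Complex.ofReal_mul]
  congr 1
  by_cases h1 : p.1 = p.2 ∧ q.1 = q.2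
  · have h2 : ¬ (p = q ∧ p.1 ≠ p.2) := fun h => h.2 h1.1
    rw [if_pos h1, if_pos h1, if_neg h2, if_neg h2, ← h1.1, ← h1.2]
    ring
  · rw [if_neg h1, if_neg h1]
    by_cases h2 : p = q ∧ p.1 ≠ p.2
    · rw [if_pos h2, if_pos h2, ← h2.1]
      ring
    · rw [if_neg h2, if_neg h2]
      ring

/-- the trace against `famC 1 m` in terms of the entries -/
theorem TRS_trace (M N : Matrix (Fin 3) (Fin 3) ℂ) (m : Fin 3 → Fin 3 → ℝ) :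
    ((M ⊗ₖ N) * famC (fun _ => 1) m).trace = (∑ i, ∑ j, M i j * N i j) +
      ((m 0 1 : ℂ) * (M 0 0 * N 1 1) + (m 0 2 : ℂ) * (M 0 0 * N 2 2) +
        (m 1 0 : ℂ) * (M 1 1 * N 0 0) + (m 1 2 : ℂ) * (M 1 1 * N 2 2) +
        (m 2 0 : ℂ) * (M 2 2 * N 0 0) + (m 2 1 : ℂ) * (M 2 2 * N 1 1)) := by
  unfold Matrix.trace famC
  simp only [Matrix.diag_apply, Matrix.mul_apply, Fintype.sum_prod_type, Fin.sum_univ_three,
    Matrix.kroneckerMap_apply, Matrix.of_apply, Prod.mk.injEq]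
  simp
  ring

/-- TRS. As `trace_same` in Fam.lean. -/
theorem trace_same3 (v μ : ℝ) (m : Fin 3 → Fin 3 → ℝ) (x : ZMod 2) :
    ((KA v μ x ⊗ₖ KB v μ x)ᴴ * (1 : Matrix (Fin 2 × Fin 2) (Fin 2 × Fin 2) ℂ) *
      (KA v μ x ⊗ₖ KB v μ x) * famC (fun _ => 1) m).trace =
      ((4 * v ^ 2 + μ ^ 4 + Nn v μ m : ℝ) : ℂ) := by
  rw [Matrix.mul_one, Matrix.conjTranspose_kronecker, ← Matrix.mul_kronecker_mul, FAM3_M, FAM3_N,
    TRS_trace]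
  unfold Nn
  rcases FAM3_sgn x with ⟨h1, -⟩ | ⟨h1, -⟩
  · rw [h1]
    simp [Fin.sum_univ_three]
    ring
  · rw [h1]
    simp [Fin.sum_univ_three]
    ring

/-- TRD. As `trace_diff` in Fam.lean. -/
theorem trace_diff3 (v μ : ℝ) (m : Fin 3 → Fin 3 → ℝ) (x : ZMod 2) :
    ((KA v μ x ⊗ₖ KB v μ (x + 1))ᴴ * (1 : Matrix (Fin 2 × Fin 2) (Fin 2 × Fin 2) ℂ) *
      (KA v μ x ⊗ₖ KB v μ (x + 1)) * famC (fun _ => 1) m).trace =
      ((μ ^ 4 + Nn v μ m : ℝ) : ℂ) := by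
  rw [Matrix.mul_one, Matrix.conjTranspose_kronecker, ← Matrix.mul_kronecker_mul, FAM3_M, FAM3_N,
    TRS_trace]
  unfold Nn
  rcases FAM3_sgn x with ⟨h1, h2⟩ | ⟨h1, h2⟩
  · rw [h1, h2]
    simp [Fin.sum_univ_three]
    ring
  · rw [h1, h2]
    simp [Fin.sum_univ_three]
    ring

theorem TRO_trace (m : Fin 3 → Fin 3 → ℝ) (P : Matrix (Fin 3 × Fin 3) (Fin 3 × Fin 3) ℂ) :
    (P * famC (fun _ => 1) m).trace =
      (P (0, 0) (0, 0) + P (0, 0) (1, 1) + P (0, 0) (2, 2) + P (1, 1) (0, 0) + P (1, 1) (1, 1) +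
        P (1, 1) (2, 2) + P (2, 2) (0, 0) + P (2, 2) (1, 1) + P (2, 2) (2, 2)) +
      ((m 0 1 : ℝ) * P (0, 1) (0, 1) + (m 1 2 : ℝ) * P (1, 2) (1, 2) +
        (m 2 0 : ℝ) * P (2, 0) (2, 0)) +
      ((m 1 0 : ℝ) * P (1, 0) (1, 0) + (m 2 1 : ℝ) * P (2, 1) (2, 1) +
        (m 0 2 : ℝ) * P (0, 2) (0, 2)) := by
  simp only [Matrix.trace, Matrix.diag_apply, Matrix.mul_apply, Fintype.sum_prod_type,
    Fin.sum_univ_three, famC, Matrix.of_apply]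
  simp
  ring

/-- TRO. As `trace_overlap` in Fam.lean. -/
theorem trace_overlap3 (v μ h : ℝ) (hμ : μ ^ 2 = h * v) (m : Fin 3 → Fin 3 → ℝ) :
    ((KA v μ 0 ⊗ₖ KB v μ 0)ᴴ * UU h * (KA v μ 1 ⊗ₖ KB v μ 1) * famC (fun _ => 1) m).trace =
      ((v ^ 2 * (h ^ 2 + 4) + μ ^ 2 * (m 0 1 + m 1 2) - μ ^ 2 * v ^ 2 * (m 1 0 + m 2 1) +
        (m 2 0 * v ^ 4 + m 0 2) * ((h ^ 2 - 4) / (h ^ 2 + 4)) : ℝ) : ℂ) := by
  have hh : (h ^ 2 + 4 : ℝ) ≠ 0 := by positivity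
  have hμ' : (μ : ℂ) ^ 2 = h * v := by exact_mod_cast hμ
  have hhc : ((h : ℂ) ^ 2 + 4) ≠ 0 := by exact_mod_cast hh
  rw [TRO_trace]
  simp only [FAM4_U]
  simp [KA, KB, sgn, Matrix.kroneckerMap_apply]
  field_simp
  linear_combination (16 * (h : ℂ) * v + ((h : ℂ) ^ 2 - 4) * ((μ : ℂ) ^ 2 + h * v)) * hμ'

/-- CHO1. Equalisation along the cycle: replace `n 1 0`, `n 2 1`, `n 0 2` by slightly larger
positive numbers `a`, `b`, `d` with `a b d < 1`, `t = (a b d)^(1/3)`, `x 0 = 1`,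
`x 1 = √(t / a)`, `x 2 = √(t^2 / (a b))`. -/
theorem choice1 (n : Fin 3 → Fin 3 → ℝ) (hn : ∀ i j, i ≠ j → 0 ≤ n i j)
    (hc : n 1 0 * n 2 1 * n 0 2 < 1) :
    ∃ (x : Fin 3 → ℝ) (t s : ℝ), (∀ i, 0 < x i) ∧ 0 < t ∧ t < 1 ∧ 0 < s ∧
      n 1 0 * x 1 ^ 2 * (x 0)⁻¹ ^ 2 ≤ t ∧ n 2 1 * x 2 ^ 2 * (x 1)⁻¹ ^ 2 ≤ t ∧
      n 0 2 * x 0 ^ 2 * (x 2)⁻¹ ^ 2 ≤ t ∧ n 2 0 * x 2 ^ 2 * (x 0)⁻¹ ^ 2 ≤ s := by
  have h1 : ∃ ε : ℝ, 0 < ε ∧ (n 1 0 + ε) * (n 2 1 + ε) * (n 0 2 + ε) < 1 := by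
    have hcont : Continuous fun ε : ℝ => (n 1 0 + ε) * (n 2 1 + ε) * (n 0 2 + ε) := by
      fun_prop
    have ht : Tendsto (fun ε : ℝ => (n 1 0 + ε) * (n 2 1 + ε) * (n 0 2 + ε)) (𝓝[>] 0)
        (𝓝 ((n 1 0 + 0) * (n 2 1 + 0) * (n 0 2 + 0))) :=
      (hcont.tendsto 0).mono_left nhdsWithin_le_nhds
    rw [add_zero, add_zero, add_zero] at ht
    have h2 : ∀ᶠ ε : ℝ in 𝓝[>] 0, (n 1 0 + ε) * (n 2 1 + ε) * (n 0 2 + ε) < 1 :=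
      ht.eventually_lt_const hc
    obtain ⟨ε, h3, h4⟩ := (h2.and self_mem_nhdsWithin).exists
    exact ⟨ε, h4, h3⟩
  obtain ⟨ε, hε, hprod⟩ := h1
  have g10 : 0 ≤ n 1 0 := hn 1 0 (by decide)
  have g21 : 0 ≤ n 2 1 := hn 2 1 (by decide)
  have g02 : 0 ≤ n 0 2 := hn 0 2 (by decide)
  have g20 : 0 ≤ n 2 0 := hn 2 0 (by decide)
  obtain ⟨a, ha⟩ : ∃ a, a = n 1 0 + ε := ⟨_, rfl⟩
  obtain ⟨b, hb⟩ : ∃ b, b = n 2 1 + ε := ⟨_, rfl⟩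
  obtain ⟨d, hd⟩ : ∃ d, d = n 0 2 + ε := ⟨_, rfl⟩
  rw [← ha, ← hb, ← hd] at hprod
  have ha0 : 0 < a := by linarith
  have hb0 : 0 < b := by linarith
  have hd0 : 0 < d := by linarith
  have hP : 0 < a * b * d := by positivity
  obtain ⟨t, ht⟩ : ∃ t, t = (a * b * d) ^ ((1 : ℝ) / 3) := ⟨_, rfl⟩
  have ht0 : 0 < t := by
    rw [ht]
    exact Real.rpow_pos_of_pos hP _
  have ht1 : t < 1 := by
    rw [ht]
    exact Real.rpow_lt_one hP.le hprod (by norm_num)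
  have ht3 : t ^ 3 = a * b * d := by
    rw [ht, ← Real.rpow_natCast, ← Real.rpow_mul hP.le]
    norm_num
  have e1 : √(t / a) ^ 2 = t / a := Real.sq_sqrt (by positivity)
  have e2 : √(t ^ 2 / (a * b)) ^ 2 = t ^ 2 / (a * b) := Real.sq_sqrt (by positivity)
  refine ⟨![1, √(t / a), √(t ^ 2 / (a * b))], t, n 2 0 * (t ^ 2 / (a * b)) + 1, ?_, ht0, ht1,
    by positivity, ?_, ?_, ?_, ?_⟩
  · intro i
    fin_cases i
    · exact one_pos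
    · exact Real.sqrt_pos.2 (by positivity)
    · exact Real.sqrt_pos.2 (by positivity)
  · show n 1 0 * √(t / a) ^ 2 * (1 : ℝ)⁻¹ ^ 2 ≤ t
    rw [e1, inv_one, one_pow, mul_one]
    calc n 1 0 * (t / a) ≤ a * (t / a) :=
          mul_le_mul_of_nonneg_right (by linarith) (by positivity)
      _ = t := by field_simp
  · show n 2 1 * √(t ^ 2 / (a * b)) ^ 2 * (√(t / a))⁻¹ ^ 2 ≤ t
    rw [inv_pow, e1, e2]
    calc n 2 1 * (t ^ 2 / (a * b)) * (t / a)⁻¹ ≤ b * (t ^ 2 / (a * b)) * (t / a)⁻¹ :=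
          mul_le_mul_of_nonneg_right
            (mul_le_mul_of_nonneg_right (by linarith) (by positivity)) (by positivity)
      _ = t := by field_simp
  · show n 0 2 * (1 : ℝ) ^ 2 * (√(t ^ 2 / (a * b)))⁻¹ ^ 2 ≤ t
    rw [inv_pow, e2, one_pow, mul_one]
    calc n 0 2 * (t ^ 2 / (a * b))⁻¹ ≤ d * (t ^ 2 / (a * b))⁻¹ :=
          mul_le_mul_of_nonneg_right (by linarith) (by positivity)
      _ = (a * b * d) / t ^ 2 := by field_simp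
      _ = t := by
        rw [← ht3]
        field_simp
  · show n 2 0 * √(t ^ 2 / (a * b)) ^ 2 * (1 : ℝ)⁻¹ ^ 2 ≤ _
    rw [e2, inv_one, one_pow, mul_one]
    linarith

/-- CHO2. As `fam_choice` in Fam.lean: `k ≥ 1` with `t^(6k) ≤ 1/128`, `n₀ = 4k`, `v = (t/s)^k`,
`h = 8 (s t)^k`, `μ = √(h v)`. -/
theorem choice2 {s t : ℝ} (hs0 : 0 < s) (ht0 : 0 < t) (ht1 : t < 1) :
    ∃ (n₀ : ℕ) (v μ h : ℝ), 1 ≤ n₀ ∧ 0 < v ∧ 0 < h ∧ μ ^ 2 = h * v ∧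
      8 * (s ^ n₀ * v ^ 4 + t ^ n₀) / (h ^ 2 + 4) + 2 * μ ^ 2 * v ^ 2 * (t ^ n₀ + t ^ n₀) ≤
        v ^ 2 / 2 := by
  obtain ⟨n, hn⟩ := exists_pow_lt_of_lt_one (show (0 : ℝ) < 1 / 128 by norm_num) ht1
  obtain ⟨k, hk⟩ : ∃ k, k = n + 1 := ⟨_, rfl⟩
  have ht6 : t ^ (6 * k) ≤ 1 / 128 := by
    refine (pow_le_pow_of_le_one ht0.le ht1.le ?_).trans hn.le
    omega
  have hv : 0 < (t / s) ^ k := by positivity
  have hh : 0 < 8 * (s * t) ^ k := by positivity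
  have hhv : 8 * (s * t) ^ k * (t / s) ^ k = 8 * t ^ (2 * k) := by
    rw [mul_assoc, ← mul_pow, pow_mul]
    congr 2
    field_simp
  have hsv : s ^ (4 * k) * ((t / s) ^ k) ^ 4 = t ^ (4 * k) := by
    rw [← pow_mul, mul_comm k 4, ← mul_pow]
    congr 1
    field_simp
  refine ⟨4 * k, (t / s) ^ k, Real.sqrt (8 * (s * t) ^ k * (t / s) ^ k), 8 * (s * t) ^ k,
    by omega, hv, hh, Real.sq_sqrt (by positivity), ?_⟩
  rw [hsv, Real.sq_sqrt (by positivity), hhv]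
  generalize (t / s) ^ k = v at *
  generalize 8 * (s * t) ^ k = h at *
  have e2 : h ^ 2 * v ^ 2 = 64 * t ^ (4 * k) := by
    have : (h * v) ^ 2 = (8 * t ^ (2 * k)) ^ 2 := by rw [hhv]
    rw [mul_pow, mul_pow, ← pow_mul] at this
    rw [this]
    norm_num
    congr 1
    omega
  have h1 : 8 * (t ^ (4 * k) + t ^ (4 * k)) / (h ^ 2 + 4) ≤ v ^ 2 / 4 := by
    rw [div_le_iff₀ (by positivity)]
    nlinarith [sq_nonneg v]
  have h2 : 2 * (8 * t ^ (2 * k)) * v ^ 2 * (t ^ (4 * k) + t ^ (4 * k)) ≤ v ^ 2 / 4 := by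
    have e3 : 2 * (8 * t ^ (2 * k)) * v ^ 2 * (t ^ (4 * k) + t ^ (4 * k)) =
        v ^ 2 * (32 * t ^ (6 * k)) := by ring
    rw [e3]
    have : 32 * t ^ (6 * k) ≤ 1 / 4 := by linarith
    nlinarith [mul_le_mul_of_nonneg_left this (sq_nonneg v)]
  linarith

/-- NUMF. With `ps = 4 v^2 + μ^4 + Nn`, `pd = μ^4 + Nn`, `F` the overlap:
`ps - F = 8 (m 2 0 v^4 + m 0 2)/(h^2+4) + 2 μ^2 v^2 (m 1 0 + m 2 1) ≤ v^2/2 = (ps - pd)/8`. -/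
theorem num_fam (v μ h : ℝ) (hv : 0 < v) (hμ : μ ^ 2 = h * v) (m : Fin 3 → Fin 3 → ℝ)
    (hm : ∀ i j, i ≠ j → 0 ≤ m i j)
    (hle : 8 * (m 2 0 * v ^ 4 + m 0 2) / (h ^ 2 + 4) + 2 * μ ^ 2 * v ^ 2 * (m 1 0 + m 2 1) ≤
      v ^ 2 / 2) (ps pd F : ℝ) (h1 : ps = 4 * v ^ 2 + μ ^ 4 + Nn v μ m)
    (h2 : pd = μ ^ 4 + Nn v μ m)
    (h3 : F = v ^ 2 * (h ^ 2 + 4) + μ ^ 2 * (m 0 1 + m 1 2) - μ ^ 2 * v ^ 2 * (m 1 0 + m 2 1) +
        (m 2 0 * v ^ 4 + m 0 2) * ((h ^ 2 - 4) / (h ^ 2 + 4))) :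
    0 < F ∧ F ≤ ps ∧ 0 ≤ pd ∧ pd * ps ^ 3 < F ^ 4 := by
  have a01 : 0 ≤ m 0 1 := hm 0 1 (by decide)
  have a12 : 0 ≤ m 1 2 := hm 1 2 (by decide)
  have a20 : 0 ≤ m 2 0 := hm 2 0 (by decide)
  have a10 : 0 ≤ m 1 0 := hm 1 0 (by decide)
  have a21 : 0 ≤ m 2 1 := hm 2 1 (by decide)
  have a02 : 0 ≤ m 0 2 := hm 0 2 (by decide)
  have hN : 0 ≤ Nn v μ m := by
    unfold Nn
    positivity
  have hpd : 0 ≤ pd := by
    rw [h2]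
    positivity
  have hd : ps - pd = 4 * v ^ 2 := by
    rw [h1, h2]
    ring
  have hh : 0 < h ^ 2 + 4 := by positivity
  have hμ4 : μ ^ 4 = h ^ 2 * v ^ 2 := by
    have : μ ^ 4 = (μ ^ 2) ^ 2 := by ring
    rw [this, hμ]
    ring
  have hδ : ps - F = 8 * (m 2 0 * v ^ 4 + m 0 2) / (h ^ 2 + 4) +
      2 * μ ^ 2 * v ^ 2 * (m 1 0 + m 2 1) := by
    have e : (h ^ 2 - 4) / (h ^ 2 + 4) = 1 - 8 / (h ^ 2 + 4) := by
      field_simp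
      ring
    rw [h1, h3, e, hμ4]
    unfold Nn
    ring
  have hδ0 : 0 ≤ ps - F := by
    rw [hδ]
    positivity
  have hδ1 : ps - F ≤ v ^ 2 / 2 := by
    rw [hδ]
    exact hle
  have he : 0 < v ^ 2 := by positivity
  have hF : 0 < F := by linarith
  refine ⟨hF, by linarith, hpd, ?_⟩
  set e := v ^ 2 with hedef
  have hP : 4 * e ≤ ps := by linarith
  have hP0 : 0 < ps := by linarith
  have h5 : 0 ≤ ps - e / 2 := by linarith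
  have h6 : (ps - e / 2) ^ 4 ≤ F ^ 4 := pow_le_pow_left₀ h5 (by linarith) 4
  have h7 : pd * ps ^ 3 < (ps - e / 2) ^ 4 := by
    have h8 : pd = ps - 4 * e := by linarith
    rw [h8]
    have h9 : 0 < e * ps ^ 3 := by positivity
    have h10 : 0 ≤ e ^ 2 * ps * (3 * ps - e) := by
      have : 0 ≤ 3 * ps - e := by linarith
      positivity
    nlinarith [sq_nonneg (e ^ 2)]
  linarith

end Vale.Agent.P372Q
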