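import Vale.Agent.P372Q.Base

open Matrix Finset Filter Topology
open scoped BigOperators

namespace Vale.Agent.P372Q

/-- NUM. Put `p0 = c ps^N`, `p1 = c pd^N`, `φ = c F^N`, `κ = φ / p0 = (F / ps)^N`, `y = κ^2 / 16`.
`√(p0^2 - φ^2) ≤ p0 - φ^2 / (2 p0)`, so the second factor is at most `1 - w`, `w = κ^2 p0 / 2 > 0`.
`2 y p0 = w / 4` and `2 p1 / y = 32 p1 / κ^2 ≤ w / 2` as soon as `p1 / p0 ≤ κ^4 / 128`, i.e.
`(pd / ps)^N ≤ (F / ps)^(4 N) / 128`, true for large `N` since `pd / ps < (F / ps)^4`. Then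
`(1 + u)(1 - w) < 1` for `0 ≤ u ≤ w`. -/
theorem num (ps pd F : ℝ) (hF : 0 < F) (hFp : F ≤ ps) (hd : 0 ≤ pd)
    (hlt : pd * ps ^ 3 < F ^ 4) :
    ∃ N : ℕ, ∀ c : ℝ, 0 < c → ∃ y : ℝ, 0 < y ∧ y ≤ 1 ∧
      (1 + 2 * (y * (c * ps ^ N) + c * pd ^ N / y)) *
        (1 - c * ps ^ N + √((c * ps ^ N) ^ 2 - (c * F ^ N) ^ 2)) < 1 ∧
      1 - c * ps ^ N + √((c * ps ^ N) ^ 2 - (c * F ^ N) ^ 2) < 1 := by
  have hps : 0 < ps := lt_of_lt_of_le hF hFp
  obtain ⟨t, ht⟩ : ∃ t, t = F / ps := ⟨_, rfl⟩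
  have ht0 : 0 < t := by
    rw [ht]
    exact div_pos hF hps
  have ht1 : t ≤ 1 := by
    rw [ht, div_le_one hps]
    exact hFp
  have hρ : pd / ps < t ^ 4 := by
    rw [ht, div_pow, div_lt_div_iff₀ hps (by positivity)]
    calc pd * ps ^ 4 = (pd * ps ^ 3) * ps := by ring
      _ < F ^ 4 * ps := mul_lt_mul_of_pos_right hlt hps
  have hq : pd / ps / t ^ 4 < 1 := by
    rw [div_lt_one (by positivity)]
    exact hρ
  obtain ⟨N, hN⟩ := exists_pow_lt_of_lt_one (show (0 : ℝ) < 1 / 128 by norm_num) hq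
  obtain ⟨r, hr⟩ : ∃ r, r = (pd / ps) ^ N := ⟨_, rfl⟩
  obtain ⟨κ, hκ⟩ : ∃ κ, κ = t ^ N := ⟨_, rfl⟩
  have hκ0 : 0 < κ := by
    rw [hκ]
    positivity
  have hκ1 : κ ≤ 1 := by
    rw [hκ]
    exact pow_le_one₀ ht0.le ht1
  have hr0 : 0 ≤ r := by
    rw [hr]
    positivity
  have hrκ : r ≤ κ ^ 4 / 128 := by
    have e1 : (pd / ps / t ^ 4) ^ N = r / κ ^ 4 := by
      rw [div_pow, hr, hκ, ← pow_mul, ← pow_mul, mul_comm 4 N]
    rw [e1, div_lt_iff₀ (by positivity)] at hN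
    linarith
  refine ⟨N, fun c hc => ⟨κ ^ 2 / 16, by positivity, ?_, ?_⟩⟩
  · have : κ ^ 2 ≤ 1 := pow_le_one₀ hκ0.le hκ1
    linarith
  have e2 : c * pd ^ N = c * ps ^ N * r := by
    rw [hr, div_pow]
    field_simp
  have e3 : c * F ^ N = c * ps ^ N * κ := by
    rw [hκ, ht, div_pow]
    field_simp
  have hp0 : 0 < c * ps ^ N := by positivity
  rw [e2, e3]
  generalize c * ps ^ N = p at hp0 ⊢
  have hκ2 : κ ^ 2 ≤ 1 := pow_le_one₀ hκ0.le hκ1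
  have hS : √(p ^ 2 - (p * κ) ^ 2) ≤ p * (1 - κ ^ 2 / 2) := by
    rw [Real.sqrt_le_iff]
    refine ⟨mul_nonneg hp0.le (by linarith), ?_⟩
    have : (p * (1 - κ ^ 2 / 2)) ^ 2 - (p ^ 2 - (p * κ) ^ 2) = (p * κ ^ 2 / 2) ^ 2 := by ring
    nlinarith [sq_nonneg (p * κ ^ 2 / 2)]
  have hw : 0 < κ ^ 2 * p / 2 := by positivity
  have hX : 1 - p + √(p ^ 2 - (p * κ) ^ 2) ≤ 1 - κ ^ 2 * p / 2 := by
    nlinarith
  have hu : 2 * (κ ^ 2 / 16 * p + p * r / (κ ^ 2 / 16)) ≤ κ ^ 2 * p / 2 := by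
    have h1 : p * r / (κ ^ 2 / 16) ≤ p * κ ^ 2 / 8 := by
      rw [div_le_iff₀ (by positivity)]
      calc p * r ≤ p * (κ ^ 4 / 128) := mul_le_mul_of_nonneg_left hrκ hp0.le
        _ = p * κ ^ 2 / 8 * (κ ^ 2 / 16) := by ring
    nlinarith
  have hu0 : 0 < 2 * (κ ^ 2 / 16 * p + p * r / (κ ^ 2 / 16)) := by
    have : 0 ≤ p * r / (κ ^ 2 / 16) := by positivity
    have : 0 < κ ^ 2 / 16 * p := by positivity
    linarith
  refine ⟨?_, by linarith⟩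
  generalize 2 * (κ ^ 2 / 16 * p + p * r / (κ ^ 2 / 16)) = u at hu hu0 ⊢
  generalize κ ^ 2 * p / 2 = w at hw hX hu ⊢
  calc (1 + u) * (1 - p + √(p ^ 2 - (p * κ) ^ 2)) ≤ (1 + u) * (1 - w) :=
        mul_le_mul_of_nonneg_left hX (by linarith)
    _ < 1 := by nlinarith [mul_pos hu0 hw]

theorem GROW_exists {a B : ℝ} (hB : 0 ≤ B) (h : a * B < 1) : ∃ c, a < c ∧ c * B < 1 := by
  rcases hB.eq_or_lt with h0 | h0
  · exact ⟨a + 1, by linarith, by rw [← h0]; norm_num⟩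
  · have h1 : a < 1 / B := by
      rw [lt_div_iff₀ h0]
      exact h
    refine ⟨(a + 1 / B) / 2, by linarith, ?_⟩
    have h2 : (a + 1 / B) / 2 < 1 / B := by linarith
    have h3 := mul_lt_mul_of_pos_right h2 h0
    rw [one_div, inv_mul_cancel₀ h0.ne'] at h3
    rw [one_div]
    exact h3

theorem GROW_pow {θ : ℝ} (hθ : 0 < θ) (m : ℕ) :
    (2 : ℝ) ^ ((m : ℝ) * Real.logb 2 θ) = θ ^ m := by
  rw [mul_comm, Real.rpow_mul (by norm_num), Real.rpow_logb (by norm_num) (by norm_num) hθ,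
    Real.rpow_natCast]

/-- GROW. Choose `θ' < θ` with `max A 1 < θ'`, `θ B < 1`; `m = n / q`;
`r n = ⌈m log_2 θ'⌉`, `ℓ n = ⌊δ m⌋` with `2^δ θ' B < 1`. -/
theorem grow (A B : ℝ) (hA : 0 < A) (hB : 0 ≤ B) (hAB : A * B < 1) (hB1 : B < 1) (q : ℕ)
    (hq : 1 ≤ q) :
    ∃ ℓ r : ℕ → ℕ,
      Tendsto (fun n => 4 * √(2 ^ (ℓ n + r n) * B ^ (n / q)) +
        2 * (((2 : ℝ) ^ r n)⁻¹ * A ^ (n / q))) atTop (𝓝 0) ∧
      0 < liminf (fun n => (ℓ n : ENNReal) / n) atTop := by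
  have haB : max A 1 * B < 1 := by
    rcases le_total A 1 with h | h
    · rw [max_eq_right h, one_mul]
      exact hB1
    · rw [max_eq_left h]
      exact hAB
  obtain ⟨θ, hθa, hθB⟩ := GROW_exists hB haB
  have hθA : A < θ := lt_of_le_of_lt (le_max_left _ _) hθa
  have hθ1 : 1 < θ := lt_of_le_of_lt (le_max_right _ _) hθa
  have hθ0 : 0 < θ := by linarith
  have hθB0 : 0 ≤ θ * B := mul_nonneg hθ0.le hB
  obtain ⟨η, hη1, hηB⟩ := GROW_exists (a := 1) hθB0 (by rw [one_mul]; exact hθB)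
  have hη0 : 0 < η := by linarith
  set δ : ℝ := Real.logb 2 η with hδ
  set ρ : ℝ := Real.logb 2 θ with hρ
  have hδ0 : 0 < δ := Real.logb_pos (by norm_num) hη1
  have hρ0 : 0 < ρ := Real.logb_pos (by norm_num) hθ1
  have hq0 : (0:ℝ) < q := by exact_mod_cast hq
  refine ⟨fun n => ⌊((n / q : ℕ) : ℝ) * δ⌋₊, fun n => ⌈((n / q : ℕ) : ℝ) * ρ⌉₊, ?_, ?_⟩
  · have hℓ : ∀ m : ℕ, (2:ℝ) ^ (⌊(m : ℝ) * δ⌋₊) ≤ η ^ m := by
      intro m
      rw [← GROW_pow hη0 m, ← Real.rpow_natCast]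
      exact Real.rpow_le_rpow_of_exponent_le (by norm_num)
        (Nat.floor_le (mul_nonneg (Nat.cast_nonneg m) hδ0.le))
    have hr1 : ∀ m : ℕ, θ ^ m ≤ (2:ℝ) ^ (⌈(m : ℝ) * ρ⌉₊) := by
      intro m
      rw [← GROW_pow hθ0 m, ← Real.rpow_natCast 2]
      exact Real.rpow_le_rpow_of_exponent_le (by norm_num) (Nat.le_ceil _)
    have hr2 : ∀ m : ℕ, (2:ℝ) ^ (⌈(m : ℝ) * ρ⌉₊) ≤ 2 * θ ^ m := by
      intro m
      have h1 : (2:ℝ) * θ ^ m = (2:ℝ) ^ ((m : ℝ) * Real.logb 2 θ + 1) := by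
        rw [Real.rpow_add (by norm_num), GROW_pow hθ0 m, Real.rpow_one, mul_comm]
      rw [h1, ← Real.rpow_natCast 2]
      exact Real.rpow_le_rpow_of_exponent_le (by norm_num)
        (Nat.ceil_lt_add_one (mul_nonneg (Nat.cast_nonneg m) hρ0.le)).le
    have hm : Tendsto (fun n : ℕ => n / q) atTop atTop :=
      tendsto_atTop_atTop.mpr fun b => ⟨b * q, fun n hn => (Nat.le_div_iff_mul_le hq).mpr hn⟩
    have hx1 : 0 ≤ η * (θ * B) := mul_nonneg hη0.le hθB0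
    have t1 : Tendsto (fun n : ℕ => (η * (θ * B)) ^ (n / q)) atTop (𝓝 0) :=
      (tendsto_pow_atTop_nhds_zero_of_lt_one hx1 hηB).comp hm
    have hx2 : A / θ < 1 := (div_lt_one hθ0).mpr hθA
    have t2 : Tendsto (fun n : ℕ => (A / θ) ^ (n / q)) atTop (𝓝 0) :=
      (tendsto_pow_atTop_nhds_zero_of_lt_one (by positivity) hx2).comp hm
    have t3 : Tendsto (fun n : ℕ => 4 * √(2 * (η * (θ * B)) ^ (n / q)) +
        2 * (A / θ) ^ (n / q)) atTop (𝓝 0) := by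
      have h1 := ((t1.const_mul 2).sqrt.const_mul 4).add (t2.const_mul 2)
      simpa using h1
    refine squeeze_zero (fun n => by positivity) (fun n => ?_) t3
    have hBm : 0 ≤ B ^ (n / q) := pow_nonneg hB _
    refine add_le_add ?_ ?_
    · refine mul_le_mul_of_nonneg_left (Real.sqrt_le_sqrt ?_) (by norm_num)
      rw [pow_add, mul_pow, mul_pow]
      calc (2:ℝ) ^ (⌊((n / q : ℕ) : ℝ) * δ⌋₊) * 2 ^ (⌈((n / q : ℕ) : ℝ) * ρ⌉₊) * B ^ (n / q)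
          ≤ η ^ (n / q) * (2 * θ ^ (n / q)) * B ^ (n / q) :=
            mul_le_mul_of_nonneg_right (mul_le_mul (hℓ _) (hr2 _) (by positivity)
              (by positivity)) hBm
        _ = 2 * (η ^ (n / q) * (θ ^ (n / q) * B ^ (n / q))) := by ring
    · refine mul_le_mul_of_nonneg_left ?_ (by norm_num)
      rw [div_pow, div_eq_inv_mul]
      refine mul_le_mul_of_nonneg_right ?_ (by positivity)
      exact inv_anti₀ (by positivity) (hr1 _)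
  · have hc : (0 : ENNReal) < ENNReal.ofReal (δ / (2 * q)) := by
      rw [ENNReal.ofReal_pos]
      positivity
    refine lt_of_lt_of_le hc (le_liminf_of_le (by isBoundedDefault) ?_)
    obtain ⟨N, hN⟩ := exists_nat_ge (2 * q * (δ + 1) / δ)
    filter_upwards [eventually_ge_atTop (max N 1)] with n hn
    have hn1 : 1 ≤ n := le_trans (le_max_right _ _) hn
    have hnN : (N : ℝ) ≤ n := by exact_mod_cast le_trans (le_max_left _ _) hn
    have hn0 : (n : ENNReal) ≠ 0 := by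
      simp only [ne_eq, Nat.cast_eq_zero]
      omega
    rw [ENNReal.le_div_iff_mul_le (Or.inl hn0) (Or.inl (ENNReal.natCast_ne_top n))]
    have h1 : (n : ENNReal) = ENNReal.ofReal (n : ℝ) := (ENNReal.ofReal_natCast n).symm
    have h2 : ((⌊((n / q : ℕ) : ℝ) * δ⌋₊ : ℕ) : ENNReal) =
        ENNReal.ofReal ((⌊((n / q : ℕ) : ℝ) * δ⌋₊ : ℕ) : ℝ) := (ENNReal.ofReal_natCast _).symm
    rw [h1, h2, ← ENNReal.ofReal_mul (by positivity)]
    apply ENNReal.ofReal_le_ofReal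
    have h3 : ((n / q : ℕ) : ℝ) * δ - 1 < (⌊((n / q : ℕ) : ℝ) * δ⌋₊ : ℝ) := Nat.sub_one_lt_floor _
    have h4 : (n : ℝ) / q - 1 ≤ ((n / q : ℕ) : ℝ) := by
      have h5 : n < q * (n / q + 1) := by
        have := Nat.div_add_mod n q
        have h6 := Nat.mod_lt n (show 0 < q by omega)
        rw [mul_add, mul_one]
        omega
      have h7 : (n : ℝ) < q * (((n / q : ℕ) : ℝ) + 1) := by exact_mod_cast h5
      have h8 : (n : ℝ) / q < ((n / q : ℕ) : ℝ) + 1 := by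
        rw [div_lt_iff₀ hq0, mul_comm]
        exact h7
      linarith
    have h9 : 2 * q * (δ + 1) ≤ n * δ := by
      have := hN.trans hnN
      rwa [div_le_iff₀ hδ0] at this
    have h10 : ((n : ℝ) / q - 1) * δ ≤ ((n / q : ℕ) : ℝ) * δ :=
      mul_le_mul_of_nonneg_right h4 hδ0.le
    have h11 : δ / (2 * q) * n = n * δ / (2 * q) := by ring
    have h12 : ((n : ℝ) / q - 1) * δ = 2 * (n * δ / (2 * q)) - δ := by
      field_simp
    have h13 : δ + 1 ≤ n * δ / (2 * q) := by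
      rw [le_div_iff₀ (by positivity)]
      linarith
    rw [h11]
    linarith

end Vale.Agent.P372Q
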