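import Vale.Agent.P372Q.Base
import Vale.Agent.P372Q.Defs2

open Matrix Finset Filter Topology
open scoped Kronecker ComplexOrder BigOperators

namespace Vale.Agent.P372Q

/-- the fourth roots of unity -/
def SEP_pw : Fin 4 → GaussianInt := ![⟨1, 0⟩, ⟨0, 1⟩, ⟨-1, 0⟩, ⟨0, -1⟩]

/-- the phase vectors -/
def SEP_u (a b : Fin 4) : Fin 3 → GaussianInt := ![⟨1, 0⟩, SEP_pw a, SEP_pw b]

set_option maxRecDepth 100000 in
theorem SEP_dec : ∀ i j k l : Fin 3,
    ∑ a : Fin 4, ∑ b : Fin 4, SEP_u a b i * star (SEP_u a b k) * (SEP_u a b l * star (SEP_u a b j)) =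
      if (i = k ∧ j = l) ∨ (i = j ∧ k = l) then 16 else 0 := by
  decide +kernel

/-- the complex phase vectors -/
noncomputable def SEP_phi (p : Fin 4 × Fin 4) (i : Fin 3) : ℂ :=
  GaussianInt.toComplex (SEP_u p.1 p.2 i)

theorem SEP_sum (i j k l : Fin 3) :
    ∑ p : Fin 4 × Fin 4, SEP_phi p i * star (SEP_phi p k) * (SEP_phi p l * star (SEP_phi p j)) =
      if (i = k ∧ j = l) ∨ (i = j ∧ k = l) then 16 else 0 := by
  have h := congrArg GaussianInt.toComplex (SEP_dec i j k l)
  rw [Fintype.sum_prod_type]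
  have e : ∀ a b : Fin 4, SEP_phi (a, b) i * star (SEP_phi (a, b) k) *
      (SEP_phi (a, b) l * star (SEP_phi (a, b) j)) =
      GaussianInt.toComplex
        (SEP_u a b i * star (SEP_u a b k) * (SEP_u a b l * star (SEP_u a b j))) := by
    intro a b
    rw [map_mul, map_mul, map_mul, GaussianInt.toComplex_star, GaussianInt.toComplex_star]
    rfl
  simp only [e]
  rw [map_sum] at h
  simp only [map_sum] at h
  rw [h]
  split_ifs
  · exact map_ofNat _ 16
  · exact map_zero _

theorem SEP_of_fintype {a b ι : Type} [Fintype a] [Fintype b] [Fintype ι]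
    (α : ι → Matrix a a ℂ) (β : ι → Matrix b b ℂ) (hα : ∀ i, (α i).PosSemidef)
    (hβ : ∀ i, (β i).PosSemidef) : IsSeparable (∑ i, α i ⊗ₖ β i) :=
  ⟨Fintype.card ι, fun i => α ((Fintype.equivFin ι).symm i),
    fun i => β ((Fintype.equivFin ι).symm i), fun _ => hα _, fun _ => hβ _,
    ((Fintype.equivFin ι).symm.sum_comp (fun i => α i ⊗ₖ β i)).symm⟩

theorem SEP_tri : ∀ i j : Fin 3, i = j ∨ (j = i + 1 ∧ i ≠ j ∧ i ≠ j + 1) ∨
    (i = j + 1 ∧ i ≠ j ∧ j ≠ i + 1) := by
  decide

/-- SEP. `∑ |ii⟩⟨jj| + ∑_(i ≠ j) |ij⟩⟨ij|` is the average over `a, b ∈ ZMod 3` of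
`φφ^* ⊗ (φφ^*)^T`, `φ = (1, ω^a, ω^b)`, `ω` a primitive cube root of unity; the rest of
`rho s t` is diagonal with the nonnegative entries `s - 1`, `t - 1`. -/
theorem rho_separable {s t : ℝ} (hs1 : 1 ≤ s) (ht1 : 1 ≤ t) : IsSeparable (rho s t) := by
  set c : ℝ := (3 * (1 + s + t))⁻¹ with hc
  have hc0 : 0 ≤ c := by
    rw [hc]
    positivity
  have hc0' : (0 : ℂ) ≤ ((c / 16 : ℝ) : ℂ) := by
    exact_mod_cast (by positivity : (0 : ℝ) ≤ c / 16)
  have hs0' : (0 : ℂ) ≤ ((c * (s - 1) : ℝ) : ℂ) := by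
    exact_mod_cast mul_nonneg hc0 (by linarith)
  have ht0' : (0 : ℂ) ≤ ((c * (t - 1) : ℝ) : ℂ) := by
    exact_mod_cast mul_nonneg hc0 (by linarith)
  set α : (Fin 4 × Fin 4) ⊕ (Fin 3 ⊕ Fin 3) → Matrix (Fin 3) (Fin 3) ℂ :=
    Sum.elim (fun p => ((c / 16 : ℝ) : ℂ) • vecMulVec (SEP_phi p) (star (SEP_phi p)))
      (Sum.elim (fun x => ((c * (s - 1) : ℝ) : ℂ) • diagonal (Pi.single x 1))
        (fun x => ((c * (t - 1) : ℝ) : ℂ) • diagonal (Pi.single (x + 1) 1))) with hα
  set β : (Fin 4 × Fin 4) ⊕ (Fin 3 ⊕ Fin 3) → Matrix (Fin 3) (Fin 3) ℂ :=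
    Sum.elim (fun p => vecMulVec (star (SEP_phi p)) (SEP_phi p))
      (Sum.elim (fun x => diagonal (Pi.single (x + 1) 1))
        (fun x => diagonal (Pi.single x 1))) with hβ
  have hsing : ∀ x : Fin 3, (0 : Fin 3 → ℂ) ≤ Pi.single x 1 := by
    intro x i
    rcases eq_or_ne i x with rfl | h
    · simp
    · simp [h]
  have key : rho s t = ∑ i, α i ⊗ₖ β i := by
    ext ⟨i, j⟩ ⟨k, l⟩
    rw [Fintype.sum_sum_type, Fintype.sum_sum_type, Matrix.add_apply, Matrix.add_apply,
      Matrix.sum_apply, Matrix.sum_apply, Matrix.sum_apply]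
    have e1 : ∑ p : Fin 4 × Fin 4, (α (Sum.inl p) ⊗ₖ β (Sum.inl p)) (i, j) (k, l) =
        if (i = k ∧ j = l) ∨ (i = j ∧ k = l) then (c : ℂ) else 0 := by
      have e2 : ∀ p : Fin 4 × Fin 4, (α (Sum.inl p) ⊗ₖ β (Sum.inl p)) (i, j) (k, l) =
          ((c / 16 : ℝ) : ℂ) *
            (SEP_phi p i * star (SEP_phi p k) * (SEP_phi p l * star (SEP_phi p j))) := by
        intro p
        simp only [hα, hβ, Sum.elim_inl, Matrix.kroneckerMap_apply, Matrix.smul_apply,
          Matrix.vecMulVec_apply, Pi.star_apply, smul_eq_mul]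
        ring
      rw [Finset.sum_congr rfl fun p _ => e2 p, ← Finset.mul_sum, SEP_sum]
      split_ifs
      · push_cast
        ring
      · rw [mul_zero]
    have e3 : ∑ x : Fin 3, (α (Sum.inr (Sum.inl x)) ⊗ₖ β (Sum.inr (Sum.inl x))) (i, j) (k, l) =
        if i = k ∧ j = l ∧ j = i + 1 then ((c * (s - 1) : ℝ) : ℂ) else 0 := by
      rw [Finset.sum_eq_single i]
      · simp only [hα, hβ, Sum.elim_inl, Sum.elim_inr, Matrix.kroneckerMap_apply,
          Matrix.smul_apply, Matrix.diagonal_apply, smul_eq_mul]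
        by_cases h1 : i = k
        · by_cases h2 : j = l
          · by_cases h3 : j = i + 1
            · rw [if_pos h1, if_pos h2, if_pos ⟨h1, h2, h3⟩, Pi.single_eq_same, h3,
                Pi.single_eq_same, mul_one, mul_one]
            · rw [if_neg (fun h : i = k ∧ j = l ∧ j = i + 1 => h3 h.2.2), if_pos h1, if_pos h2,
                Pi.single_eq_of_ne h3, mul_zero]
          · rw [if_neg (fun h : i = k ∧ j = l ∧ j = i + 1 => h2 h.2.1), if_neg h2, mul_zero]
        · rw [if_neg (fun h : i = k ∧ j = l ∧ j = i + 1 => h1 h.1), if_neg h1, mul_zero, zero_mul]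
      · intro x _ hx
        simp only [hα, Sum.elim_inl, Sum.elim_inr, Matrix.kroneckerMap_apply,
          Matrix.smul_apply, Matrix.diagonal_apply, smul_eq_mul]
        by_cases h1 : i = k
        · rw [if_pos h1, Pi.single_eq_of_ne hx.symm, mul_zero, zero_mul]
        · rw [if_neg h1, mul_zero, zero_mul]
      · intro h
        exact absurd (Finset.mem_univ _) h
    have e4 : ∑ x : Fin 3, (α (Sum.inr (Sum.inr x)) ⊗ₖ β (Sum.inr (Sum.inr x))) (i, j) (k, l) =
        if i = k ∧ j = l ∧ i = j + 1 then ((c * (t - 1) : ℝ) : ℂ) else 0 := by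
      rw [Finset.sum_eq_single j]
      · simp only [hα, hβ, Sum.elim_inr, Matrix.kroneckerMap_apply,
          Matrix.smul_apply, Matrix.diagonal_apply, smul_eq_mul]
        by_cases h1 : i = k
        · by_cases h2 : j = l
          · by_cases h3 : i = j + 1
            · rw [if_pos h1, if_pos h2, if_pos ⟨h1, h2, h3⟩, h3, Pi.single_eq_same,
                Pi.single_eq_same, mul_one, mul_one]
            · rw [if_neg (fun h : i = k ∧ j = l ∧ i = j + 1 => h3 h.2.2), if_pos h1,
                Pi.single_eq_of_ne h3, mul_zero, zero_mul]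
          · rw [if_neg (fun h : i = k ∧ j = l ∧ i = j + 1 => h2 h.2.1), if_neg h2, mul_zero]
        · rw [if_neg (fun h : i = k ∧ j = l ∧ i = j + 1 => h1 h.1), if_neg h1, mul_zero, zero_mul]
      · intro x _ hx
        simp only [hβ, Sum.elim_inr, Matrix.kroneckerMap_apply, Matrix.diagonal_apply]
        by_cases h2 : j = l
        · rw [if_pos h2, Pi.single_eq_of_ne hx.symm, mul_zero]
        · rw [if_neg h2, mul_zero]
      · intro h
        exact absurd (Finset.mem_univ _) h
    rw [e1, e3, e4]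
    show (((3 * (1 + s + t))⁻¹ * ((if i = j ∧ k = l then 1 else 0) +
      (if ((i, j) : Fin 3 × Fin 3) = (k, l) then (if j = i + 1 then s else
        if i = j + 1 then t else 0) else 0) : ℝ) : ℝ) : ℂ) = _
    rw [← hc]
    by_cases h1 : i = k ∧ j = l
    · obtain ⟨rfl, rfl⟩ := h1
      rcases SEP_tri i j with h | ⟨h, h2, h3⟩ | ⟨h, h2, h3⟩
      · subst h
        have h5 : ∀ i : Fin 3, i ≠ i + 1 := by decide
        simp [h5 i]
      · simp only [h2, h3, false_and, and_false, if_false, if_true, true_and, or_false, h]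
        simp only [← h, h3, h2, if_false, if_true, if_pos h, false_and, or_false, and_self]
        push_cast
        simp
        ring
      · simp only [h2, h3, false_and, and_false, if_false, if_true, true_and, or_false]
        simp only [if_pos h, and_self, if_true]
        push_cast
        simp
        ring
    · have h2 : ¬ ((i, j) : Fin 3 × Fin 3) = (k, l) := fun h => h1 ⟨congrArg Prod.fst h,
        congrArg Prod.snd h⟩
      rw [if_neg h2, if_neg (fun h : i = k ∧ j = l ∧ j = i + 1 => h1 ⟨h.1, h.2.1⟩),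
        if_neg (fun h : i = k ∧ j = l ∧ i = j + 1 => h1 ⟨h.1, h.2.1⟩)]
      by_cases h3 : i = j ∧ k = l
      · rw [if_pos h3, if_pos (Or.inr h3)]
        simp
      · rw [if_neg h3, if_neg (fun h : i = k ∧ j = l ∨ i = j ∧ k = l => h.elim h1 h3)]
        simp
  rw [key]
  refine SEP_of_fintype α β ?_ ?_
  · rintro (p | x | x)
    · exact (posSemidef_vecMulVec_self_star (SEP_phi p)).smul hc0'
    · exact (PosSemidef.diagonal (hsing x)).smul hs0'
    · exact (PosSemidef.diagonal (hsing (x + 1))).smul ht0'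
  · rintro (p | x | x)
    · exact posSemidef_vecMulVec_star_self (SEP_phi p)
    · exact PosSemidef.diagonal (hsing (x + 1))
    · exact PosSemidef.diagonal (hsing x)

/-- entries of the partial transpose -/
theorem PPT_entry (s t : ℝ) (p q : Fin 3 × Fin 3) : ptr (rho s t) p q =
    (((3 * (1 + s + t))⁻¹ * ((if q = p.swap then 1 else 0) +
      (if p = q then (if p.2 = p.1 + 1 then s else if p.1 = p.2 + 1 then t else 0) else 0)) : ℝ) : ℂ) := by
  obtain ⟨i, j⟩ := p
  obtain ⟨k, l⟩ := q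
  unfold ptr rho
  simp only [Matrix.of_apply, Prod.swap_prod_mk, Prod.mk.injEq]
  apply congrArg
  apply congrArg
  congr 1
  · exact if_congr ⟨fun h => ⟨h.2, h.1.symm⟩, fun h => ⟨h.2.symm, h.1⟩⟩ rfl rfl
  · by_cases h1 : i = k <;> by_cases h2 : j = l <;> simp [h1, h2, eq_comm]

theorem PPT_fwd {s t : ℝ} (hs0 : 0 < s) (ht0 : 0 < t) (h : (ptr (rho s t)).PosSemidef) :
    1 ≤ s * t := by
  have hc : 0 < (3 * (1 + s + t))⁻¹ := by positivity
  have h2 := (h.submatrix (![((0 : Fin 3), (1 : Fin 3)), (1, 0)] : Fin 2 → Fin 3 × Fin 3)).det_nonneg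
  rw [Matrix.det_fin_two] at h2
  simp only [Matrix.submatrix_apply, Matrix.cons_val_zero, Matrix.cons_val_one, PPT_entry] at h2
  generalize (3 * (1 + s + t))⁻¹ = c at hc h2
  simp at h2
  have h3 : (0 : ℂ) ≤ ((c * s * (c * t) - c * c : ℝ) : ℂ) := by
    push_cast
    exact sub_nonneg.2 h2
  rw [Complex.zero_le_real] at h3
  have h4 : 0 ≤ c * c * (s * t - 1) := by linarith
  have h5 : 0 ≤ s * t - 1 := nonneg_of_mul_nonneg_right h4 (mul_pos hc hc)
  linarith

theorem PPT_real {s : ℝ} (t : ℝ) (hs0 : s ≠ 0) (p q : Fin 3 × Fin 3) :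
    ((if q = p.swap then 1 else 0) +
      (if p = q then (if p.2 = p.1 + 1 then s else if p.1 = p.2 + 1 then t else 0) else 0) : ℝ) =
    ∑ i : Fin 3, ((if p = (i, i) then 1 else 0) * (if q = (i, i) then 1 else 0) +
      s⁻¹ * ((if p = (i, i + 1) then s else if p = (i + 1, i) then 1 else 0) *
        (if q = (i, i + 1) then s else if q = (i + 1, i) then 1 else 0)) +
      (t - s⁻¹) * ((if p = (i + 1, i) then 1 else 0) * (if q = (i + 1, i) then 1 else 0))) := by
  obtain ⟨i, j⟩ := p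
  obtain ⟨k, l⟩ := q
  rw [Fin.sum_univ_three]
  fin_cases i <;> fin_cases j <;> fin_cases k <;> fin_cases l <;>
    simp [hs0]

theorem PPT_bwd {s t : ℝ} (hs0 : 0 < s) (ht0 : 0 < t) (h : 1 ≤ s * t) :
    (ptr (rho s t)).PosSemidef := by
  have hc : 0 < (3 * (1 + s + t))⁻¹ := by positivity
  let e : Fin 3 → Fin 3 × Fin 3 → ℂ := fun i p => if p = (i, i) then 1 else 0
  let w : Fin 3 → Fin 3 × Fin 3 → ℂ := fun i p =>
    if p = (i, i + 1) then (s : ℂ) else if p = (i + 1, i) then 1 else 0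
  let f : Fin 3 → Fin 3 × Fin 3 → ℂ := fun i p => if p = (i + 1, i) then 1 else 0
  have key : ptr (rho s t) = (((3 * (1 + s + t))⁻¹ : ℝ) : ℂ) •
      ∑ i : Fin 3, (vecMulVec (e i) (star (e i)) + ((s⁻¹ : ℝ) : ℂ) • vecMulVec (w i) (star (w i)) +
        ((t - s⁻¹ : ℝ) : ℂ) • vecMulVec (f i) (star (f i))) := by
    ext p q
    rw [PPT_entry, PPT_real t hs0.ne', Matrix.smul_apply, Matrix.sum_apply, smul_eq_mul]
    push_cast
    congr 1
    refine Finset.sum_congr rfl fun i _ => ?_
    simp only [Matrix.add_apply, Matrix.smul_apply, vecMulVec_apply, Pi.star_apply, smul_eq_mul,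
      e, w, f]
    split_ifs <;> simp
  rw [key]
  have hts : 0 ≤ t - s⁻¹ := by
    rw [sub_nonneg, inv_le_iff_one_le_mul₀ hs0]
    linarith
  refine Matrix.PosSemidef.smul ?_ (Complex.zero_le_real.2 hc.le)
  refine Matrix.posSemidef_sum _ fun i _ => ?_
  refine ((Matrix.posSemidef_vecMulVec_self_star _).add
    ((Matrix.posSemidef_vecMulVec_self_star _).smul (Complex.zero_le_real.2 (inv_nonneg.2 hs0.le)))).add
    ((Matrix.posSemidef_vecMulVec_self_star _).smul (Complex.zero_le_real.2 hts))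

/-- PPT. The partial transpose is a direct sum of `1 x 1` blocks `1` and of `2 x 2` blocks
`!![s, 1; 1, t]` (times the normalisation). -/
theorem rho_ppt {s t : ℝ} (hs0 : 0 < s) (ht0 : 0 < t) :
    (ptr (rho s t)).PosSemidef ↔ 1 ≤ s * t :=
  ⟨PPT_fwd hs0 ht0, PPT_bwd hs0 ht0⟩

/-- STATE. `rho s t` is a state. -/
theorem rho_state {s t : ℝ} (hs0 : 0 < s) (ht0 : 0 < t) :
    (rho s t).PosSemidef ∧ (rho s t).trace = 1 := by
  have hc : (0 : ℝ) < 3 * (1 + s + t) := by positivity
  constructor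
  · set v : Fin 3 × Fin 3 → ℂ := fun p => if p.1 = p.2 then 1 else 0 with hv
    set w : Fin 3 × Fin 3 → ℂ := fun p =>
      (((if p.2 = p.1 + 1 then s else if p.1 = p.2 + 1 then t else 0 : ℝ)) : ℂ) with hw
    have h : rho s t = (((3 * (1 + s + t))⁻¹ : ℝ) : ℂ) • (vecMulVec v (star v) + diagonal w) := by
      ext p q
      simp only [rho, Matrix.of_apply, Matrix.smul_apply, Matrix.add_apply, vecMulVec_apply,
        Matrix.diagonal_apply, hv, hw, smul_eq_mul, Pi.star_apply]
      by_cases h1 : p.1 = p.2 <;> by_cases h2 : q.1 = q.2 <;> by_cases h3 : p = q <;>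
        simp [h1, h2, h3] <;> split_ifs <;> push_cast <;> ring
    rw [h]
    refine PosSemidef.smul ?_ ?_
    · refine (posSemidef_vecMulVec_self_star v).add ?_
      rw [posSemidef_diagonal_iff]
      intro p
      simp only [hw]
      rw [Complex.zero_le_real]
      split_ifs
      · exact hs0.le
      · exact ht0.le
      · exact le_rfl
    · rw [Complex.zero_le_real]
      positivity
  · simp only [Matrix.trace, Matrix.diag_apply, rho, Matrix.of_apply, Fintype.sum_prod_type,
      Fin.sum_univ_three]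
    have e1 : ((0 : Fin 3) = 1) = False := by decide
    have e2 : ((0 : Fin 3) = 2) = False := by decide
    have e3 : ((1 : Fin 3) = 2) = False := by decide
    have e4 : ((1 : Fin 3) = 0) = False := by decide
    have e5 : ((2 : Fin 3) = 0) = False := by decide
    have e6 : ((2 : Fin 3) = 1) = False := by decide
    have a1 : (0 : Fin 3) + 1 = 1 := by decide
    have a2 : (1 : Fin 3) + 1 = 2 := by decide
    have a3 : (2 : Fin 3) + 1 = 0 := by decide
    simp only [e1, e2, e3, e4, e5, e6, a1, a2, a3, and_self, if_true, if_false]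
    norm_cast
    push_cast
    field_simp
    ring

end Vale.Agent.P372Q
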