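import Vale.Agent.P372Q.Base

open Matrix Finset Filter Topology
open scoped Kronecker ComplexOrder BigOperators

namespace Vale.Agent.P372Q

/-- Kraus operators for `n` copies: `k (x j)` on block `j`, identity on the remaining copies -/
noncomputable def tK {a s ι : Type} [DecidableEq a] {n m q : ℕ} (ε : Fin n ≃ (Fin m × ι) ⊕ Fin q)
    (k : Option (ZMod 2) → Matrix s (ι → a) ℂ) (x : Fin m → Option (ZMod 2)) :
    Matrix ((Fin m → s) × (Fin q → a)) (Fin n → a) ℂ :=
  Matrix.of fun p v => (∏ j, k (x j) (p.1 j) (fun i => v (ε.symm (Sum.inl (j, i))))) *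
    (if p.2 = (fun i => v (ε.symm (Sum.inr i))) then 1 else 0)

/-- the vectors for `n` copies -/
noncomputable def tG {a b e I ι : Type} {n m q : ℕ} (ε : Fin n ≃ (Fin m × ι) ⊕ Fin q)
    (γ : Lab → ZMod 2 → Matrix I (ι → e) ℂ) (R : Matrix (a × b) e ℂ) (l : Fin m → Lab)
    (c : Fin m → ZMod 2) : Matrix ((Fin m → I) × ((Fin q → a) × (Fin q → b))) (Fin n → e) ℂ :=
  Matrix.of fun p v => (∏ j, γ (l j) (c j) (p.1 j) (fun i => v (ε.symm (Sum.inl (j, i))))) *
    ∏ i, R (p.2.1 i, p.2.2 i) (v (ε.symm (Sum.inr i)))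

/-- TEN0. -/
theorem exists_equiv {ι : Type} [Fintype ι] (n : ℕ) :
    Nonempty (Fin n ≃ (Fin (n / Fintype.card ι) × ι) ⊕ Fin (n % Fintype.card ι)) := by
  refine Fintype.card_eq.1 ?_
  rw [Fintype.card_sum, Fintype.card_prod, Fintype.card_fin, Fintype.card_fin, Fintype.card_fin,
    Nat.div_add_mod']

theorem TEN1_swap {X : Type} [Fintype X] {m : ℕ} (g : Fin m → X → ℂ) :
    ∑ x : Fin m → X, ∏ j, g j (x j) = ∏ j, ∑ y, g j y := by
  classical
  rw [Finset.prod_univ_sum, Fintype.piFinset_univ]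

theorem TEN1_ite {X : Type} [Fintype X] [DecidableEq X] (A B : ℂ) (ur vr : X) :
    (∑ p : X, star (A * if p = ur then 1 else 0) * (B * if p = vr then 1 else 0)) =
      star A * B * (if ur = vr then 1 else 0) := by
  rw [Finset.sum_eq_single ur]
  · by_cases h : ur = vr <;> simp [h]
  · intro b _ hb
    simp [hb]
  · intro h
    exact absurd (Finset.mem_univ _) h

/-- TEN1. Completeness: entrywise, the sum over `x` of the products over the blocks is the product
of the sums. -/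
theorem tK_complete {a s ι : Type} [Fintype a] [DecidableEq a] [Fintype s] [Fintype ι]
    [DecidableEq ι] {n m q : ℕ} (ε : Fin n ≃ (Fin m × ι) ⊕ Fin q)
    (k : Option (ZMod 2) → Matrix s (ι → a) ℂ) (hk : ∑ x, (k x)ᴴ * k x = 1) :
    ∑ x, (tK ε k x)ᴴ * tK ε k x = 1 := by
  ext u v
  rw [Matrix.sum_apply]
  have h1 : ∀ x : Fin m → Option (ZMod 2), ((tK ε k x)ᴴ * tK ε k x) u v =
      (∏ j, ∑ z, star (k (x j) z (fun i => u (ε.symm (Sum.inl (j, i))))) *
        k (x j) z (fun i => v (ε.symm (Sum.inl (j, i))))) *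
      (if (fun i => u (ε.symm (Sum.inr i))) = (fun i => v (ε.symm (Sum.inr i))) then 1 else 0) := by
    intro x
    rw [Matrix.mul_apply, Fintype.sum_prod_type, ← TEN1_swap, Finset.sum_mul]
    refine Finset.sum_congr rfl fun p1 _ => ?_
    simp only [Matrix.conjTranspose_apply, tK, Matrix.of_apply]
    rw [TEN1_ite, star_prod, ← Finset.prod_mul_distrib]
  have h2 : ∀ j : Fin m, (∑ y, ∑ z, star (k y z (fun i => u (ε.symm (Sum.inl (j, i))))) *
      k y z (fun i => v (ε.symm (Sum.inl (j, i))))) =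
      (1 : Matrix (ι → a) (ι → a) ℂ) (fun i => u (ε.symm (Sum.inl (j, i))))
        (fun i => v (ε.symm (Sum.inl (j, i)))) := by
    intro j
    rw [← hk, Matrix.sum_apply]
    refine Finset.sum_congr rfl fun y _ => ?_
    rw [Matrix.mul_apply]
    rfl
  rw [Finset.sum_congr rfl fun x _ => h1 x, ← Finset.sum_mul,
    TEN1_swap (fun j y => ∑ z, star (k y z (fun i => u (ε.symm (Sum.inl (j, i))))) *
        k y z (fun i => v (ε.symm (Sum.inl (j, i))))), Finset.prod_congr rfl fun j _ => h2 j]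
  by_cases huv : u = v
  · subst huv
    simp
  · rw [Matrix.one_apply_ne huv]
    by_cases hr : (fun i => u (ε.symm (Sum.inr i))) = (fun i => v (ε.symm (Sum.inr i)))
    · have hex : ∃ j : Fin m, (fun i => u (ε.symm (Sum.inl (j, i)))) ≠
          (fun i => v (ε.symm (Sum.inl (j, i)))) := by
        by_contra hcon
        push Not at hcon
        apply huv
        funext t
        obtain ⟨t', rfl⟩ := ε.symm.surjective t
        rcases t' with ⟨j, i⟩ | i
        · exact congrFun (hcon j) i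
        · exact congrFun hr i
      obtain ⟨j, hj⟩ := hex
      have h3 : (∏ j, (1 : Matrix (ι → a) (ι → a) ℂ) (fun i => u (ε.symm (Sum.inl (j, i))))
          (fun i => v (ε.symm (Sum.inl (j, i))))) = 0 :=
        Finset.prod_eq_zero (Finset.mem_univ j) (Matrix.one_apply_ne hj)
      rw [h3, zero_mul]
    · rw [if_neg hr, mul_zero]

private theorem TEN2_elim {a ι : Type} {n m q : ℕ} (ε : Fin n ≃ (Fin m × ι) ⊕ Fin q)
    (g : Fin n → a) (s : (Fin m × ι) ⊕ Fin q) :
    Sum.elim (fun ji : Fin m × ι => g (ε.symm (Sum.inl (ji.1, ji.2))))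
      (fun i : Fin q => g (ε.symm (Sum.inr i))) s = g (ε.symm s) := by
  cases s <;> rfl

private def TEN2_E (a b : Type) {ι : Type} {n m q : ℕ} (ε : Fin n ≃ (Fin m × ι) ⊕ Fin q) :
    ((Fin n → a) × (Fin n → b)) ≃
      (Fin m → (ι → a) × (ι → b)) × ((Fin q → a) × (Fin q → b)) where
  toFun w := (fun j => (fun i => w.1 (ε.symm (Sum.inl (j, i))),
      fun i => w.2 (ε.symm (Sum.inl (j, i)))),
    (fun i => w.1 (ε.symm (Sum.inr i)), fun i => w.2 (ε.symm (Sum.inr i))))
  invFun z := (fun t => Sum.elim (fun ji : Fin m × ι => (z.1 ji.1).1 ji.2) z.2.1 (ε t),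
    fun t => Sum.elim (fun ji : Fin m × ι => (z.1 ji.1).2 ji.2) z.2.2 (ε t))
  left_inv w := by
    refine Prod.ext ?_ ?_
    · funext t
      have := TEN2_elim ε w.1 (ε t)
      rw [Equiv.symm_apply_apply] at this
      exact this
    · funext t
      have := TEN2_elim ε w.2 (ε t)
      rw [Equiv.symm_apply_apply] at this
      exact this
  right_inv z := by
    refine Prod.ext ?_ (Prod.ext ?_ ?_)
    · funext j
      refine Prod.ext ?_ ?_
      · funext i
        simp
      · funext i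
        simp
    · funext i
      simp
    · funext i
      simp

private theorem TEN2_alg {m : ℕ} (K L Rf : Fin m → ℂ) (I1 I2 RQ : ℂ) :
    ((∏ j, K j) * I1 * ((∏ j, L j) * I2)) * ((∏ j, Rf j) * RQ) =
      (∏ j, (K j * L j * Rf j)) * (I1 * I2 * RQ) := by
  rw [Finset.prod_mul_distrib, Finset.prod_mul_distrib]
  ring

/-- TEN2. Product formula: entries of `(tK ε k x ⊗ₖ tK ε l y) * copies R n`. The sum over
`(Fin n → a) × (Fin n → b)` factorises over the blocks and the remaining copies. -/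
theorem tK_mul_copies {a b e s s' ι : Type} [Fintype a] [DecidableEq a] [Fintype b]
    [DecidableEq b] [Fintype s] [Fintype s'] [Fintype ι] [DecidableEq ι] {n m q : ℕ}
    (ε : Fin n ≃ (Fin m × ι) ⊕ Fin q) (R : Matrix (a × b) e ℂ)
    (k : Option (ZMod 2) → Matrix s (ι → a) ℂ) (l : Option (ZMod 2) → Matrix s' (ι → b) ℂ)
    (x y : Fin m → Option (ZMod 2)) (p : (Fin m → s) × (Fin q → a))
    (p' : (Fin m → s') × (Fin q → b)) (v : Fin n → e) :
    ((tK ε k x ⊗ₖ tK ε l y) * copies R n) (p, p') v =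
      (∏ j, ((k (x j) ⊗ₖ l (y j)) * copiesOn R ι) (p.1 j, p'.1 j)
        (fun i => v (ε.symm (Sum.inl (j, i))))) *
      ∏ i, R (p.2 i, p'.2 i) (v (ε.symm (Sum.inr i))) := by

  have hL : ((tK ε k x ⊗ₖ tK ε l y) * copies R n) (p, p') v =
      ∑ w : (Fin n → a) × (Fin n → b), (tK ε k x p w.1 * tK ε l y p' w.2) *
        ∏ i, R (w.1 i, w.2 i) (v i) := by
    rw [Matrix.mul_apply]
    rfl
  have hR : ∀ j, ((k (x j) ⊗ₖ l (y j)) * copiesOn R ι) (p.1 j, p'.1 j)
        (fun i => v (ε.symm (Sum.inl (j, i)))) =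
      ∑ z : (ι → a) × (ι → b), (k (x j) (p.1 j) z.1 * l (y j) (p'.1 j) z.2) *
        ∏ i, R (z.1 i, z.2 i) (v (ε.symm (Sum.inl (j, i)))) := by
    intro j
    rw [Matrix.mul_apply]
    rfl
  rw [hL, Finset.prod_congr rfl (fun j _ => hR j), Finset.prod_univ_sum, Fintype.piFinset_univ]
  have hQ : ∏ i, R (p.2 i, p'.2 i) (v (ε.symm (Sum.inr i))) =
      ∑ r : (Fin q → a) × (Fin q → b), ((if p.2 = r.1 then (1 : ℂ) else 0) *
        (if p'.2 = r.2 then (1 : ℂ) else 0)) * ∏ i, R (r.1 i, r.2 i) (v (ε.symm (Sum.inr i))) := by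
    rw [Fintype.sum_prod_type, Finset.sum_eq_single p.2, Finset.sum_eq_single p'.2]
    · simp
    · intro b _ hb
      rw [if_neg (Ne.symm hb)]
      simp
    · intro h
      exact absurd (Finset.mem_univ _) h
    · intro b _ hb
      refine Finset.sum_eq_zero fun c _ => ?_
      simp only
      rw [if_neg (Ne.symm hb)]
      simp
    · intro h
      exact absurd (Finset.mem_univ _) h
  rw [hQ, Finset.sum_mul_sum, ← Fintype.sum_prod_type']
  refine Fintype.sum_equiv (TEN2_E a b ε) _ _ fun w => ?_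
  have hP : ∏ i, R (w.1 i, w.2 i) (v i) =
      (∏ j, ∏ i, R (w.1 (ε.symm (Sum.inl (j, i))), w.2 (ε.symm (Sum.inl (j, i))))
        (v (ε.symm (Sum.inl (j, i))))) *
      ∏ i, R (w.1 (ε.symm (Sum.inr i)), w.2 (ε.symm (Sum.inr i))) (v (ε.symm (Sum.inr i))) := by
    rw [← Equiv.prod_comp ε.symm, Fintype.prod_sum_type, Fintype.prod_prod_type]
  rw [hP]
  have hk : tK ε k x p w.1 = (∏ j, k (x j) (p.1 j) (fun i => w.1 (ε.symm (Sum.inl (j, i))))) *
    (if p.2 = (fun i => w.1 (ε.symm (Sum.inr i))) then 1 else 0) := rfl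
  have hl : tK ε l y p' w.2 = (∏ j, l (y j) (p'.1 j) (fun i => w.2 (ε.symm (Sum.inl (j, i))))) *
    (if p'.2 = (fun i => w.2 (ε.symm (Sum.inr i))) then 1 else 0) := rfl
  rw [hk, hl]
  exact TEN2_alg _ _ _ _ _ _

/-- (TEN3) reindexing of the sum over all entries -/
def TEN3_equiv {a b e I ι : Type} {n m q : ℕ} (ε : Fin n ≃ (Fin m × ι) ⊕ Fin q) :
    ((Fin m → I × (ι → e)) × (Fin q → (a × b) × e)) ≃
      (((Fin m → I) × ((Fin q → a) × (Fin q → b))) × (Fin n → e)) where
  toFun w := ((fun j => (w.1 j).1, (fun i => (w.2 i).1.1, fun i => (w.2 i).1.2)),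
    fun t => Sum.elim (fun ji : Fin m × ι => (w.1 ji.1).2 ji.2) (fun i => (w.2 i).2) (ε t))
  invFun z := (fun j => (z.1.1 j, fun i => z.2 (ε.symm (Sum.inl (j, i)))),
    fun i => ((z.1.2.1 i, z.1.2.2 i), z.2 (ε.symm (Sum.inr i))))
  left_inv w := by
    simp
  right_inv z := by
    rcases z with ⟨⟨z1, z2, z3⟩, v⟩
    simp only [Prod.mk.injEq, true_and]
    funext t
    rcases h : ε t with ji | i
    · simp only [Sum.elim_inl]
      rw [← h, Equiv.symm_apply_apply]
    · simp only [Sum.elim_inr]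
      rw [← h, Equiv.symm_apply_apply]

/-- TEN3. Inner products of product vectors. -/
theorem hsInner_tG {a b e I ι : Type} [Fintype a] [Fintype b] [Fintype e] [Fintype I] [Fintype ι]
    [DecidableEq ι] {n m q : ℕ} (ε : Fin n ≃ (Fin m × ι) ⊕ Fin q)
    (γ : Lab → ZMod 2 → Matrix I (ι → e) ℂ) (R : Matrix (a × b) e ℂ) (l : Fin m → Lab)
    (c c' : Fin m → ZMod 2) :
    hsInner (tG ε γ R l c) (tG ε γ R l c') =
      (∏ j, hsInner (γ (l j) (c j)) (γ (l j) (c' j))) * hsInner R R ^ q := by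
  classical
  have h1 : hsInner (tG ε γ R l c) (tG ε γ R l c') =
      ∑ z : ((Fin m → I) × ((Fin q → a) × (Fin q → b))) × (Fin n → e),
        star (tG ε γ R l c z.1 z.2) * tG ε γ R l c' z.1 z.2 := by
    rw [Fintype.sum_prod_type]
    rfl
  have h2 : ∀ w : (Fin m → I × (ι → e)) × (Fin q → (a × b) × e),
      star (tG ε γ R l c (TEN3_equiv ε w).1 (TEN3_equiv ε w).2) *
        tG ε γ R l c' (TEN3_equiv ε w).1 (TEN3_equiv ε w).2 =
      (∏ j, star (γ (l j) (c j) (w.1 j).1 (w.1 j).2) * γ (l j) (c' j) (w.1 j).1 (w.1 j).2) *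
        ∏ i, star (R (w.2 i).1 (w.2 i).2) * R (w.2 i).1 (w.2 i).2 := by
    intro w
    simp only [tG, TEN3_equiv, Matrix.of_apply, Equiv.coe_fn_mk, Equiv.apply_symm_apply,
      Sum.elim_inl, Sum.elim_inr, star_mul', star_prod, Prod.mk.eta]
    rw [Finset.prod_mul_distrib, Finset.prod_mul_distrib]
    ring
  rw [h1, ← (TEN3_equiv (a := a) (b := b) (e := e) (I := I) ε).sum_comp]
  simp only [h2]
  rw [Fintype.sum_prod_type]
  simp only [← Finset.mul_sum]
  rw [← Finset.sum_mul]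
  have h3 : (∑ g : Fin m → I × (ι → e),
      ∏ j, star (γ (l j) (c j) (g j).1 (g j).2) * γ (l j) (c' j) (g j).1 (g j).2) =
      ∏ j, hsInner (γ (l j) (c j)) (γ (l j) (c' j)) := by
    have := Finset.prod_univ_sum (fun _ : Fin m => (Finset.univ : Finset (I × (ι → e))))
      (fun j x => star (γ (l j) (c j) x.1 x.2) * γ (l j) (c' j) x.1 x.2)
    rw [Fintype.piFinset_univ] at this
    rw [← this]
    refine Finset.prod_congr rfl fun j _ => ?_
    rw [Fintype.sum_prod_type]
    rfl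
  have h4 : (∑ h : Fin q → (a × b) × e,
      ∏ i, star (R (h i).1 (h i).2) * R (h i).1 (h i).2) = hsInner R R ^ q := by
    have := Finset.prod_univ_sum (fun _ : Fin q => (Finset.univ : Finset ((a × b) × e)))
      (fun _ x => star (R x.1 x.2) * R x.1 x.2)
    rw [Fintype.piFinset_univ] at this
    rw [← this, Finset.prod_const, Finset.card_univ, Fintype.card_fin]
    congr 1
    rw [Fintype.sum_prod_type]
    rfl
  rw [h3, h4]

theorem TEN4_fac {m : ℕ} {α : Type} [Fintype α] (f : Fin m → α → ℂ) :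
    ∑ p : Fin m → α, ∏ j, f j (p j) = ∏ j, ∑ c, f j c := by
  classical
  rw [Finset.prod_univ_sum, Fintype.piFinset_univ]

theorem TEN4_fac2 {m : ℕ} {α β : Type} [Fintype α] [Fintype β] (f : Fin m → α → β → ℂ) :
    ∑ x : Fin m → α, ∑ y : Fin m → β, ∏ j, f j (x j) (y j) = ∏ j, ∑ c, ∑ d, f j c d := by
  rw [← TEN4_fac fun j c => ∑ d, f j c d]
  refine Finset.sum_congr rfl fun x _ => ?_
  exact TEN4_fac fun j d => f j (x j) d

theorem TEN4_fac4 {m : ℕ} {α β δ ζ : Type} [Fintype α] [Fintype β] [Fintype δ] [Fintype ζ]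
    (f : Fin m → α → β → δ → ζ → ℂ) :
    ∑ x : Fin m → α, ∑ y : Fin m → β, ∑ p : Fin m → δ, ∑ p' : Fin m → ζ,
      ∏ j, f j (x j) (y j) (p j) (p' j) = ∏ j, ∑ c, ∑ d, ∑ g, ∑ h, f j c d g h := by
  rw [← TEN4_fac2 fun j c d => ∑ g, ∑ h, f j c d g h]
  refine Finset.sum_congr rfl fun x _ => Finset.sum_congr rfl fun y _ => ?_
  exact TEN4_fac2 fun j g h => f j (x j) (y j) g h

theorem TEN4_psd {I E : Type} [Fintype I] [Fintype E] [DecidableEq E] (G : Matrix I E ℂ) :
    (eveState G).PosSemidef := by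
  have h : eveState G = Gᵀ * (Gᵀ)ᴴ := by
    ext e e'
    rw [Matrix.mul_apply]
    rfl
  rw [h]
  exact Matrix.posSemidef_self_mul_conjTranspose _

theorem TEN4_hs {I E : Type} [Fintype I] [Fintype E] (G : Matrix I E ℂ) :
    hsInner G G = (hs G : ℂ) := by
  unfold hsInner hs
  push_cast
  refine Finset.sum_congr rfl fun i _ => Finset.sum_congr rfl fun e _ => ?_
  have h := Complex.mul_conj (G i e)
  rw [Complex.normSq_eq_norm_sq] at h
  rw [mul_comm]
  push_cast at h
  exact h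

theorem TEN4_hsInner_symm {I E : Type} [Fintype I] [Fintype E] {G H : Matrix I E ℂ}
    (h : hsInner G H = 0) : hsInner H G = 0 := by
  have h1 : hsInner H G = star (hsInner G H) := by
    unfold hsInner
    rw [star_sum]
    refine Finset.sum_congr rfl fun i _ => ?_
    rw [star_sum]
    refine Finset.sum_congr rfl fun e _ => ?_
    rw [star_mul', star_star, mul_comm]
  rw [h1, h, star_zero]

theorem TEN4_sgn_add (x y : ZMod 2) : sgn (x + y) = sgn x * sgn y := by
  have hz : ∀ z : ZMod 2, z = 0 ∨ z = 1 := by decide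
  have h11 : (1 : ZMod 2) + 1 = 0 := by decide
  unfold sgn
  rcases hz x with rfl | rfl <;> rcases hz y with rfl | rfl <;> simp [h11]

theorem TEN4_sgn_sum {m : ℕ} (f : Fin m → ZMod 2) : sgn (∑ i, f i) = ∏ i, sgn (f i) := by
  classical
  have : ∀ S : Finset (Fin m), sgn (∑ i ∈ S, f i) = ∏ i ∈ S, sgn (f i) := by
    intro S
    induction S using Finset.induction_on with
    | empty => simp [sgn]
    | insert i S hi ih => rw [Finset.sum_insert hi, Finset.prod_insert hi, TEN4_sgn_add, ih]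
  exact this Finset.univ

theorem TEN4_split {α β δ ζ : Type} [Fintype α] [Fintype β] [Fintype δ] [Fintype ζ]
    (A : α → δ → ℂ) (B : β → ζ → ℂ) :
    ∑ i : (α × β) × (δ × ζ), A i.1.1 i.2.1 * B i.1.2 i.2.2 =
      (∑ p, ∑ p', A p p') * ∑ r, ∑ r', B r r' := by
  rw [Fintype.sum_prod_type, Fintype.sum_prod_type, Finset.sum_mul_sum]
  refine Finset.sum_congr rfl fun p _ => Finset.sum_congr rfl fun r _ => ?_
  rw [Fintype.sum_prod_type, Finset.sum_mul_sum]

theorem TEN4_vec {a b e I ι : Type} {n m q : ℕ} (ε : Fin n ≃ (Fin m × ι) ⊕ Fin q)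
    (γ : Lab → ZMod 2 → Matrix I (ι → e) ℂ) (R : Matrix (a × b) e ℂ) (L : Fin m → Lab)
    (c : Fin m → ZMod 2) (p : (Fin m → I) × ((Fin q → a) × (Fin q → b))) (v : Fin n → e) :
    (∑ k : Fin m → ZMod 2, sgn (∑ i, k i * c i) • tG ε γ R L k) p v =
      (∏ j, (γ (L j) 0 + sgn (c j) • γ (L j) 1) (p.1 j)
        (fun i => v (ε.symm (Sum.inl (j, i))))) *
        ∏ i, R (p.2.1 i, p.2.2 i) (v (ε.symm (Sum.inr i))) := by
  rw [Matrix.sum_apply]
  have h1 : ∀ k : Fin m → ZMod 2, (sgn (∑ i, k i * c i) • tG ε γ R L k) p v =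
      (∏ j, sgn (k j * c j) * γ (L j) (k j) (p.1 j) (fun i => v (ε.symm (Sum.inl (j, i))))) *
        ∏ i, R (p.2.1 i, p.2.2 i) (v (ε.symm (Sum.inr i))) := by
    intro k
    rw [Matrix.smul_apply, smul_eq_mul, TEN4_sgn_sum, Finset.prod_mul_distrib, mul_assoc]
    rfl
  rw [Finset.sum_congr rfl fun k _ => h1 k, ← Finset.sum_mul]
  congr 1
  refine (TEN4_fac fun j z => sgn (z * c j) * γ (L j) z (p.1 j)
    (fun i => v (ε.symm (Sum.inl (j, i))))).trans ?_
  refine Finset.prod_congr rfl fun j _ => ?_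
  have h2 : ∀ f : ZMod 2 → ℂ, ∑ z, f z = f 0 + f 1 := fun f => Fin.sum_univ_two f
  rw [h2, zero_mul, one_mul, Matrix.add_apply, Matrix.smul_apply, smul_eq_mul]
  congr 1
  rw [show sgn 0 = 1 from if_pos rfl, one_mul]

/-- TEN4. The model for `n` copies, from TEN2, TEN3 (entrywise product formulas:
`∏_j (γ (l j) 0 + sgn (b j) γ (l j) 1) = ∑_k sgn (∑ k i * b i) ∏_j γ (l j) (k j)`). -/
theorem tens_model {a b e s s' I ι : Type} [Fintype a] [DecidableEq a] [Fintype b]
    [DecidableEq b] [Fintype e] [DecidableEq e] [Fintype s] [Fintype s'] [Fintype I] [Fintype ι]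
    [DecidableEq ι] {n m q : ℕ} (ε : Fin n ≃ (Fin m × ι) ⊕ Fin q) (R : Matrix (a × b) e ℂ)
    (hR : hs R = 1) (k : Option (ZMod 2) → Matrix s (ι → a) ℂ)
    (l : Option (ZMod 2) → Matrix s' (ι → b) ℂ) (γ : Lab → ZMod 2 → Matrix I (ι → e) ℂ)
    (ω : Lab → ZMod 2 → ℝ) (hB : IsBlock (copiesOn R ι) k l γ ω) :
    IsModel (fun x y => eveState ((tK ε k x ⊗ₖ tK ε l y) * copies R n)) (tG ε γ R) ω := by
  refine ⟨fun x y => TEN4_psd _, fun L c => ?_, fun L c c' hcc => ?_, fun L c hc => ?_⟩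
  · have h := hsInner_tG ε γ R L c c
    rw [TEN4_hs, TEN4_hs R, hR] at h
    have h2 : ∀ j, hsInner (γ (L j) (c j)) (γ (L j) (c j)) = ((ω (L j) (c j) : ℝ) : ℂ) := by
      intro j
      rw [TEN4_hs, hB.norm]
    rw [Finset.prod_congr rfl fun j _ => h2 j] at h
    simp only [Complex.ofReal_one, one_pow, mul_one] at h
    exact_mod_cast h
  · rw [hsInner_tG ε γ R L c c']
    obtain ⟨j, hj⟩ := Function.ne_iff.1 hcc
    have h0 : hsInner (γ (L j) (c j)) (γ (L j) (c' j)) = 0 := by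
      have hz : ∀ z : ZMod 2, z = 0 ∨ z = 1 := by decide
      rcases hz (c j) with h1 | h1 <;> rcases hz (c' j) with h2 | h2
      · exact absurd (h1.trans h2.symm) hj
      · rw [h1, h2]
        exact hB.orth _
      · rw [h1, h2]
        exact TEN4_hsInner_symm (hB.orth _)
      · exact absurd (h1.trans h2.symm) hj
    rw [Finset.prod_eq_zero (Finset.mem_univ j) h0, zero_mul]
  · ext v v'
    -- local notation
    let w : Fin m → (ι → e) := fun j i => v (ε.symm (Sum.inl (j, i)))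
    let w' : Fin m → (ι → e) := fun j i => v' (ε.symm (Sum.inl (j, i)))
    let Gm : Option (ZMod 2) → Option (ZMod 2) → Matrix (s × s') (ι → e) ℂ :=
      fun x y => (k x ⊗ₖ l y) * copiesOn R ι
    let φ : Fin m → Option (ZMod 2) → Option (ZMod 2) → s → s' → ℂ := fun j x y t t' =>
      if lab x y = L j ∧ bit x y = c j then Gm x y (t, t') (w j) * star (Gm x y (t, t') (w' j))
      else 0
    let ψ : Fin q → a → b → ℂ := fun i t t' =>
      R (t, t') (v (ε.symm (Sum.inr i))) * star (R (t, t') (v' (ε.symm (Sum.inr i))))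
    have hφ : ∀ j, ∑ x, ∑ y, ∑ t, ∑ t', φ j x y t t' =
        eveState (γ (L j) 0 + sgn (c j) • γ (L j) 1) (w j) (w' j) := by
      intro j
      rw [← hB.state (L j) (c j) (hc j), Matrix.sum_apply]
      refine Finset.sum_congr rfl fun x _ => ?_
      rw [Matrix.sum_apply]
      refine Finset.sum_congr rfl fun y _ => ?_
      by_cases h : lab x y = L j ∧ bit x y = c j
      · simp only [φ, if_pos h]
        show _ = ∑ i : s × s', Gm x y i (w j) * star (Gm x y i (w' j))
        rw [Fintype.sum_prod_type]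
      · simp only [φ, if_neg h, Finset.sum_const_zero]
        rfl
    have hL : (∑ x : Fin m → Option (ZMod 2), ∑ y : Fin m → Option (ZMod 2),
        if (∀ i, lab (x i) (y i) = L i) ∧ (∀ i, bit (x i) (y i) = c i) then
          eveState ((tK ε k x ⊗ₖ tK ε l y) * copies R n) else 0) v v' =
        (∏ j, ∑ x, ∑ y, ∑ t, ∑ t', φ j x y t t') * ∏ i, ∑ t, ∑ t', ψ i t t' := by
      rw [← TEN4_fac4, ← TEN4_fac2, Matrix.sum_apply, Finset.sum_mul]
      refine Finset.sum_congr rfl fun x _ => ?_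
      rw [Matrix.sum_apply, Finset.sum_mul]
      refine Finset.sum_congr rfl fun y _ => ?_
      by_cases h : (∀ i, lab (x i) (y i) = L i) ∧ (∀ i, bit (x i) (y i) = c i)
      · rw [if_pos h]
        have hφ1 : ∀ j t t', φ j (x j) (y j) t t' =
            Gm (x j) (y j) (t, t') (w j) * star (Gm (x j) (y j) (t, t') (w' j)) := by
          intro j t t'
          simp only [φ]
          rw [if_pos ⟨h.1 j, h.2 j⟩]
        simp only [hφ1]
        show ∑ i : ((Fin m → s) × (Fin q → a)) × ((Fin m → s') × (Fin q → b)),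
          ((tK ε k x ⊗ₖ tK ε l y) * copies R n) i v *
            star (((tK ε k x ⊗ₖ tK ε l y) * copies R n) i v') = _
        rw [← TEN4_split]
        refine Finset.sum_congr rfl fun i _ => ?_
        obtain ⟨p, p'⟩ := i
        rw [tK_mul_copies, tK_mul_copies, star_mul', star_prod, star_prod, mul_mul_mul_comm,
          ← Finset.prod_mul_distrib, ← Finset.prod_mul_distrib]
      · rw [if_neg h]
        have h' : ∃ j, ¬ (lab (x j) (y j) = L j ∧ bit (x j) (y j) = c j) := by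
          by_contra hcon
          push Not at hcon
          exact h ⟨fun i => (hcon i).1, fun i => (hcon i).2⟩
        obtain ⟨j, hj⟩ := h'
        have h0 : ∑ p : Fin m → s, ∑ p' : Fin m → s', ∏ j, φ j (x j) (y j) (p j) (p' j) = 0 := by
          refine Finset.sum_eq_zero fun p _ => Finset.sum_eq_zero fun p' _ => ?_
          refine Finset.prod_eq_zero (Finset.mem_univ j) ?_
          simp only [φ]
          rw [if_neg hj]
        rw [h0, zero_mul]
        rfl
    have hRt : eveState (∑ k : Fin m → ZMod 2, sgn (∑ i, k i * c i) • tG ε γ R L k) v v' =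
        (∏ j, ∑ t, (γ (L j) 0 + sgn (c j) • γ (L j) 1) t (w j) *
          star ((γ (L j) 0 + sgn (c j) • γ (L j) 1) t (w' j))) *
          ∏ i, ∑ t, ∑ t', ψ i t t' := by
      rw [← TEN4_fac, ← TEN4_fac2, ← Fintype.sum_prod_type'
        (f := fun (r : Fin q → a) (r' : Fin q → b) => ∏ i, ψ i (r i) (r' i)),
        Finset.sum_mul_sum, ← Fintype.sum_prod_type']
      show ∑ i : (Fin m → I) × ((Fin q → a) × (Fin q → b)),
        (∑ k : Fin m → ZMod 2, sgn (∑ i, k i * c i) • tG ε γ R L k) i v *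
          star ((∑ k : Fin m → ZMod 2, sgn (∑ i, k i * c i) • tG ε γ R L k) i v') = _
      refine Finset.sum_congr rfl fun i _ => ?_
      rw [TEN4_vec, TEN4_vec, star_mul', star_prod, star_prod, mul_mul_mul_comm,
          ← Finset.prod_mul_distrib, ← Finset.prod_mul_distrib]
    rw [hL, hRt]
    congr 1
    refine Finset.prod_congr rfl fun j _ => ?_
    rw [hφ j]
    rfl

end Vale.Agent.P372Q
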