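import Vale.Agent.P372Q.Core
import Vale.Agent.P372Q.Tens
import Vale.Agent.P372Q.Blk
import Vale.Agent.P372Q.Ad
import Vale.Agent.P372Q.Num
import Vale.Agent.P372Q.Fam
import Vale.Agent.P372Q.Sep

open Matrix Finset Filter Topology
open scoped Kronecker ComplexOrder BigOperators

namespace Vale.Agent.P372Q

theorem MAIN_hs_nonneg {I E : Type} [Fintype I] [Fintype E] (G : Matrix I E ℂ) : 0 ≤ hs G := by
  unfold hs
  exact Finset.sum_nonneg fun i _ => Finset.sum_nonneg fun e _ => by positivity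

theorem MAIN_hs_copiesOn {a b e ι : Type} [Fintype a] [Fintype b] [Fintype e] [Fintype ι]
    [DecidableEq ι] (R : Matrix (a × b) e ℂ) :
    hs (copiesOn R ι) = (hs R) ^ Fintype.card ι := by
  have h1 : ∀ p : (ι → a) × (ι → b), ∀ v : ι → e,
      ‖copiesOn R ι p v‖ ^ 2 = ∏ i, ‖R (p.1 i, p.2 i) (v i)‖ ^ 2 := by
    intro p v
    simp only [copiesOn, Matrix.of_apply]
    rw [norm_prod, Finset.prod_pow]
  unfold hs
  simp only [h1]
  have h2 : ∀ p : (ι → a) × (ι → b), ∑ v : ι → e, ∏ i, ‖R (p.1 i, p.2 i) (v i)‖ ^ 2 =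
      ∏ i, ∑ x : e, ‖R (p.1 i, p.2 i) x‖ ^ 2 := by
    intro p
    rw [Finset.prod_univ_sum, Fintype.piFinset_univ]
  simp only [h2]
  rw [Fintype.sum_prod_type]
  have h3 : ∀ α : ι → a, ∑ β : ι → b, ∏ i, ∑ x : e, ‖R (α i, β i) x‖ ^ 2 =
      ∏ i, ∑ y : b, ∑ x : e, ‖R (α i, y) x‖ ^ 2 := by
    intro α
    rw [Finset.prod_univ_sum, Fintype.piFinset_univ]
  simp only [h3]
  have h4 : ∑ α : ι → a, ∏ i, ∑ y : b, ∑ x : e, ‖R (α i, y) x‖ ^ 2 =
      ∏ _i : ι, ∑ z : a, ∑ y : b, ∑ x : e, ‖R (z, y) x‖ ^ 2 := by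
    rw [Finset.prod_univ_sum, Fintype.piFinset_univ]
  rw [h4, Finset.prod_const, Fintype.sum_prod_type, Finset.card_univ]

/-- Positive key from the criterion `pd ps^3 < F^4`. -/
theorem KD_pos_of_base {a b e s s' : Type} [Fintype a] [DecidableEq a] [Fintype b]
    [DecidableEq b] [Fintype e] [DecidableEq e] [Fintype s] [Fintype s'] [DecidableEq s]
    [DecidableEq s'] (R : Matrix (a × b) e ℂ) (hR : hs R = 1) {n₀ : ℕ} (hn₀ : 1 ≤ n₀)
    (k₀ : ZMod 2 → Matrix s (Fin n₀ → a) ℂ) (l₀ : ZMod 2 → Matrix s' (Fin n₀ → b) ℂ)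
    (U : Matrix (s × s') (s × s') ℂ) (hU : Uᴴ * U = 1) (ps pd F : ℝ)
    (h0 : ∀ x, hs ((k₀ x ⊗ₖ l₀ x) * copiesOn R (Fin n₀)) = ps)
    (h1 : ∀ x, hs ((k₀ x ⊗ₖ l₀ (x + 1)) * copiesOn R (Fin n₀)) = pd)
    (hF : hsInner ((k₀ 0 ⊗ₖ l₀ 0) * copiesOn R (Fin n₀))
      (U * ((k₀ 1 ⊗ₖ l₀ 1) * copiesOn R (Fin n₀))) = (F : ℂ))
    (hF0 : 0 < F) (hFp : F ≤ ps) (hd : 0 ≤ pd) (hlt : pd * ps ^ 3 < F ^ 4) : 0 < KD R := by
  obtain ⟨N, hN⟩ := num ps pd F hF0 hFp hd hlt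
  have hN1 : 1 ≤ N := by
    rcases Nat.eq_zero_or_pos N with h | h
    · exfalso
      subst h
      obtain ⟨y, hy, hy1, h2, -⟩ := hN (1 / 2) (by norm_num)
      simp only [pow_zero, mul_one, sub_self, Real.sqrt_zero, add_zero] at h2
      have h3 : 0 < 1 / y := by positivity
      have h4 : y * (1 / y) = 1 := by field_simp
      have h5 : (1 / 2 : ℝ) / y = (1 / 2) * (1 / y) := by ring
      rw [h5] at h2
      nlinarith [sq_nonneg (y - 1 / y), sq_nonneg (y + 1 / y), mul_pos hy h3]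
    · exact h
  obtain ⟨S, S', _, _, _, _, k, l, V, c, hc, hk, hl, hV, hp0, hp1, hφ⟩ :=
    adv_dist R k₀ l₀ U hU ps pd F h0 h1 hF N
  obtain ⟨y, hy, hy1, hAB, hB1⟩ := hN c hc
  have hG : hs (copiesOn R (Fin N × Fin n₀)) = 1 := by
    rw [MAIN_hs_copiesOn, hR, one_pow]
  have hps : 0 < ps := lt_of_lt_of_le hF0 hFp
  set γ := blkG (copiesOn R (Fin N × Fin n₀)) k l V with hγ
  set ω : Lab → ZMod 2 → ℝ := fun c b => hs (γ c b) with hω'
  have hB := blk_isBlock (copiesOn R (Fin N × Fin n₀)) k l hk hl V hV (c * ps ^ N) (c * pd ^ N)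
    (c * F ^ N) hp0 hp1 hφ
  obtain ⟨hv1, hv2, hv3, hv4, hv5, hv6⟩ := blk_values (copiesOn R (Fin N × Fin n₀)) k l V hV
    (c * ps ^ N) (c * pd ^ N) (c * F ^ N) hp0 hp1 hφ
  have hω : IsWeight ω := by
    refine ⟨fun l k => MAIN_hs_nonneg _, ?_, ?_⟩
    · intro l hl
      rcases l with _ | _ | z
      · exact hv5
      · exact hv6
      · simp [act] at hl
    · exact blk_total (copiesOn R (Fin N × Fin n₀)) hG k l hk hl V hV (c * ps ^ N) (c * pd ^ N)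
        (c * F ^ N) hp0 hp1 hφ
  obtain ⟨hBc, hAc⟩ := consts_of_values ω hω (c * ps ^ N) (c * pd ^ N) (c * F ^ N) hv1 hv2 hv3 hv4
  have hAc' := hAc y hy
  have hA0 : 0 < Ac ω y := by
    rw [hAc']
    have h2 : 0 < y * (c * ps ^ N) := by positivity
    have h3 : 0 ≤ c * pd ^ N / y := by positivity
    linarith
  have hB0 : 0 ≤ Bc ω := by
    unfold Bc
    exact Finset.sum_nonneg fun l _ => sq_nonneg _
  have hAB' : Ac ω y * Bc ω < 1 := by
    rw [hAc', hBc]; exact hAB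
  have hB1' : Bc ω < 1 := by
    rw [hBc]; exact hB1
  have hcard : 1 ≤ Fintype.card (Fin N × Fin n₀) := by
    simp only [Fintype.card_prod, Fintype.card_fin]
    exact Nat.mul_pos hN1 hn₀
  obtain ⟨ℓ, r, hlim, hpos⟩ := grow (Ac ω y) (Bc ω) hA0 hB0 hAB' hB1'
    (Fintype.card (Fin N × Fin n₀)) hcard
  have hach : ∀ n, Ach (copies R n) (ℓ n) (4 * √(2 ^ (ℓ n + r n) *
      Bc ω ^ (n / Fintype.card (Fin N × Fin n₀))) + 2 * (((2 : ℝ) ^ r n)⁻¹ *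
      Ac ω y ^ (n / Fintype.card (Fin N × Fin n₀)))) := by
    intro n
    obtain ⟨ε⟩ := exists_equiv (ι := Fin N × Fin n₀) n
    have hM := tens_model ε R hR k l γ ω hB
    exact core_ach (copies R n) (tK ε k) (tK ε l) (tK_complete ε k hk) (tK_complete ε l hl) hω hM
      hy hy1
  unfold KD
  refine lt_of_lt_of_le hpos ?_
  exact le_iSup_of_le ℓ (le_iSup_of_le _ (le_iSup_of_le hlim (le_iSup_of_le hach le_rfl)))

/-- Every state `rho s t` with `s > 0`, `0 < t < 1` has positive distillable key. -/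
theorem KD_rho_pos {s t : ℝ} (hs0 : 0 < s) (ht0 : 0 < t) (ht1 : t < 1) {e : Type} [Fintype e]
    [DecidableEq e] (R : Matrix (Fin 3 × Fin 3) e ℂ) (hR : R * Rᴴ = rho s t) : 0 < KD R := by
  obtain ⟨n₀, k₀, l₀, U, ps, pd, F, hn, hU, h0, h1, hF, hF0, hFp, hd, hlt⟩ :=
    base_exists hs0 ht0 ht1 R hR
  exact KD_pos_of_base R (hs_of_rho hs0 ht0 R hR) hn k₀ l₀ U hU ps pd F h0 h1 hF hF0 hFp hd hlt

end Vale.Agent.P372Q
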