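import Vale.Agent.P372Q.Base
import Vale.Agent.P372Q.Num

open Matrix Finset Filter Topology
open scoped BigOperators

namespace Vale.Agent.P372Q

/-- NUM3. `p0 = c ps^N`, `p1 = c pd^N`, `φ = c F^N`, `κ = (F/ps)^N`, `w = (pd/ps)^N`.
Take `ρ = 1/L`, `y = exp(-L)`, so `y^(-ρ) = e`; `(1+y)^ρ ≤ 1 + ρ y ≤ 2`. Then
`A := 1 - 2(p0+p1) + 2 (1+y)^ρ (p0 + p1 (y⁻¹)^ρ) ≤ 1 + 2 ρ y p0 + 4 e p1 ≤ exp(2 ρ y p0 + 4 e p1)`,
`A^(1/ρ) ≤ exp(2 y p0 + 4 e L p1)`, and
`B := 1 - p0 + √(p0^2 - φ^2) ≤ 1 - κ^2 p0 / 2 ≤ exp(-κ^2 p0 / 2)`. So `A^(1/ρ) B < 1` as soon as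
`2 exp(-L) + 4 e L w < κ^2 / 2`. Choose `L = max 1 (log 16 - log κ^2)`: `2 exp(-L) ≤ κ^2/8` and it
remains `4 e L w < κ^2/4` for `N` large: `L` grows linearly in `N` and `w / κ^2` tends to zero
exponentially since `pd / ps < (F / ps)^2` (case `pd = 0` trivial for `N ≥ 1`). -/
theorem num3 (ps pd F : ℝ) (hF : 0 < F) (hFp : F ≤ ps) (hd : 0 ≤ pd)
    (hlt : pd * ps < F ^ 2) :
    ∃ N : ℕ, 1 ≤ N ∧ ∀ c : ℝ, 0 < c → c * ps ^ N + c * pd ^ N ≤ 1 / 2 →
      ∃ y ρ : ℝ, 0 < y ∧ y ≤ 1 ∧ 0 < ρ ∧ ρ ≤ 1 ∧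
      (1 - 2 * (c * ps ^ N + c * pd ^ N) +
          2 * (1 + y) ^ ρ * (c * ps ^ N + c * pd ^ N * (y⁻¹) ^ ρ)) ^ (1 / ρ) *
        (1 - c * ps ^ N + √((c * ps ^ N) ^ 2 - (c * F ^ N) ^ 2)) < 1 := by
  have hps : 0 < ps := lt_of_lt_of_le hF hFp
  have hF2 : 0 < F ^ 2 := by positivity
  set q := pd * ps / F ^ 2 with hq
  have hq0 : 0 ≤ q := by positivity
  have hq1 : q < 1 := by
    rw [hq, div_lt_one hF2]
    exact hlt
  set a := 1 + Real.log 16 with ha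
  set b := 2 * Real.log (ps / F) with hb
  have hb0 : 0 ≤ b := by
    have : 0 ≤ Real.log (ps / F) := Real.log_nonneg ((one_le_div hF).mpr hFp)
    positivity
  have ha1 : 1 ≤ a := by
    have : 0 ≤ Real.log 16 := Real.log_nonneg (by norm_num)
    linarith
  have ht : Tendsto (fun N : ℕ => 4 * Real.exp 1 * ((a + b * N) * q ^ N)) atTop (𝓝 0) := by
    have h1 := tendsto_pow_atTop_nhds_zero_of_lt_one hq0 hq1
    have h2 := tendsto_self_mul_const_pow_of_lt_one hq0 hq1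
    have h3 := ((h1.const_mul a).add (h2.const_mul b)).const_mul (4 * Real.exp 1)
    rw [mul_zero, mul_zero, add_zero, mul_zero] at h3
    refine h3.congr (fun N => ?_)
    ring
  obtain ⟨N, hN, hN1⟩ := ((ht.eventually (gt_mem_nhds (show (0 : ℝ) < 3 / 8 by norm_num))).and
    (eventually_ge_atTop 1)).exists
  refine ⟨N, hN1, fun c hc hcs => ?_⟩
  set L := a + b * N with hL
  have hL1 : 1 ≤ L := by
    have : 0 ≤ b * N := by positivity
    linarith
  have hL0 : 0 < L := by linarith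
  have hy0 : 0 < Real.exp (-L) := Real.exp_pos _
  have hy1 : Real.exp (-L) ≤ 1 := Real.exp_le_one_iff.mpr (by linarith)
  refine ⟨Real.exp (-L), 1 / L, hy0, hy1, by positivity, (div_le_one hL0).mpr hL1, ?_⟩
  rw [one_div_one_div]
  set y := Real.exp (-L) with hy
  set p0 := c * ps ^ N with hp0
  set p1 := c * pd ^ N with hp1
  have hp0p : 0 < p0 := by positivity
  have hp1p : 0 ≤ p1 := by positivity
  set κ := (F / ps) ^ (2 * N) with hκ
  have hκ0 : 0 < κ := by positivity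
  have hκ1 : κ ≤ 1 := pow_le_one₀ (by positivity) ((div_le_one hps).mpr hFp)
  -- relations
  have hφ : (c * F ^ N) ^ 2 = κ * p0 ^ 2 := by
    rw [hκ, hp0, div_pow]
    field_simp
    ring
  have hw : p1 = q ^ N * κ * p0 := by
    rw [hq, hκ, hp0, hp1, div_pow, div_pow, mul_pow]
    field_simp
    ring
  have hyκ : y ≤ κ / 16 := by
    have e1 : κ = Real.exp (-(b * N)) := by
      have h1 : F / ps = Real.exp (-(Real.log (ps / F))) := by
        rw [Real.exp_neg, Real.exp_log (by positivity), inv_div]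
      rw [hκ, h1, ← Real.exp_nat_mul]
      congr 1
      push_cast
      rw [hb]
      ring
    have e2 : y = Real.exp (-1) * (Real.exp (-(Real.log 16)) * Real.exp (-(b * N))) := by
      rw [← Real.exp_add, ← Real.exp_add, hy]
      congr 1
      rw [hL, ha]
      ring
    rw [e2, Real.exp_neg (Real.log 16), Real.exp_log (by norm_num), ← e1]
    have e3 : Real.exp (-1) ≤ 1 := Real.exp_le_one_iff.mpr (by norm_num)
    have e4 : 0 ≤ (16 : ℝ)⁻¹ * κ := by positivity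
    calc Real.exp (-1) * ((16 : ℝ)⁻¹ * κ) ≤ 1 * ((16 : ℝ)⁻¹ * κ) := mul_le_mul_of_nonneg_right e3 e4
      _ = κ / 16 := by ring
  -- the first factor
  have hyρ : (y⁻¹) ^ (1 / L) = Real.exp 1 := by
    rw [hy, ← Real.exp_neg, neg_neg, ← Real.exp_mul, mul_one_div, div_self hL0.ne']
  have hber : (1 + y) ^ (1 / L) ≤ 1 + 1 / L * y :=
    _root_.rpow_one_add_le_one_add_mul_self (by linarith) (by positivity) ((div_le_one hL0).mpr hL1)
  have h1L : 1 / L ≤ 1 := (div_le_one hL0).mpr hL1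
  have hLy : 1 / L * y ≤ 1 := by
    have : 0 < 1 / L := by positivity
    nlinarith
  have hber2 : (1 + y) ^ (1 / L) ≤ 2 := by linarith
  have hbp : 0 ≤ (1 + y) ^ (1 / L) := Real.rpow_nonneg (by linarith) _
  rw [hyρ]
  set Z := (1 + y) ^ (1 / L) with hZ
  have he0 : 0 < Real.exp 1 := Real.exp_pos _
  have hA0 : 0 ≤ 1 - 2 * (p0 + p1) + 2 * Z * (p0 + p1 * Real.exp 1) := by
    have : 0 ≤ 2 * Z * (p0 + p1 * Real.exp 1) := by positivity
    linarith
  have hA : 1 - 2 * (p0 + p1) + 2 * Z * (p0 + p1 * Real.exp 1) ≤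
      Real.exp (2 * (1 / L) * y * p0 + 4 * Real.exp 1 * p1) := by
    have h1 : 2 * Z * p0 ≤ 2 * (1 + 1 / L * y) * p0 := by
      have := mul_le_mul_of_nonneg_right hber hp0p.le
      linarith
    have h2 : 2 * Z * (p1 * Real.exp 1) ≤ 4 * Real.exp 1 * p1 := by
      have h3 : 0 ≤ p1 * Real.exp 1 := by positivity
      have := mul_le_mul_of_nonneg_right hber2 h3
      linarith
    have h4 := Real.add_one_le_exp (2 * (1 / L) * y * p0 + 4 * Real.exp 1 * p1)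
    have h5 : 1 - 2 * (p0 + p1) + 2 * Z * (p0 + p1 * Real.exp 1) =
      1 - 2 * p0 - 2 * p1 + 2 * Z * p0 + 2 * Z * (p1 * Real.exp 1) := by ring
    rw [h5]
    have h6 : 2 * (1 + 1 / L * y) * p0 = 2 * p0 + 2 * (1 / L) * y * p0 := by ring
    linarith
  have hAL : (1 - 2 * (p0 + p1) + 2 * Z * (p0 + p1 * Real.exp 1)) ^ L ≤
      Real.exp (2 * y * p0 + 4 * Real.exp 1 * L * p1) := by
    refine le_trans (Real.rpow_le_rpow hA0 hA hL0.le) ?_
    rw [← Real.exp_mul]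
    refine Real.exp_le_exp.mpr (le_of_eq ?_)
    field_simp
  -- the second factor
  have hB : 1 - p0 + √(p0 ^ 2 - (c * F ^ N) ^ 2) ≤ Real.exp (-(κ * p0 / 2)) := by
    have h1 : √(p0 ^ 2 - (c * F ^ N) ^ 2) ≤ p0 * (1 - κ / 2) := by
      rw [hφ]
      refine Real.sqrt_le_iff.mpr ⟨mul_nonneg hp0p.le (by linarith), ?_⟩
      have : (p0 * (1 - κ / 2)) ^ 2 = p0 ^ 2 - κ * p0 ^ 2 + (κ * p0 / 2) ^ 2 := by ring
      rw [this]
      have := sq_nonneg (κ * p0 / 2)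
      linarith
    have h2 := Real.add_one_le_exp (-(κ * p0 / 2))
    have h3 : p0 * (1 - κ / 2) = p0 - κ * p0 / 2 := by ring
    linarith
  have hB0 : 0 ≤ 1 - p0 + √(p0 ^ 2 - (c * F ^ N) ^ 2) := by
    have := Real.sqrt_nonneg (p0 ^ 2 - (c * F ^ N) ^ 2)
    linarith
  refine lt_of_le_of_lt (mul_le_mul hAL hB hB0 (Real.exp_pos _).le) ?_
  rw [← Real.exp_add, Real.exp_lt_one_iff]
  have hkey : 4 * Real.exp 1 * L * p1 < 3 / 8 * (κ * p0) := by
    have h1 : 4 * Real.exp 1 * L * p1 = (4 * Real.exp 1 * (L * q ^ N)) * (κ * p0) := by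
      rw [hw]
      ring
    rw [h1]
    exact mul_lt_mul_of_pos_right hN (by positivity)
  have h7 : 2 * y * p0 ≤ κ * p0 / 8 := by
    have := mul_le_mul_of_nonneg_right hyκ hp0p.le
    linarith
  linarith

/-- GROW3. As `grow` in Num.lean, with `r n = ⌈m log_2 θ'⌉` for `A^(1/ρ) < θ'`, `θ' > 1`,
`θ' B < 1`. -/
theorem grow3 (A B ρ : ℝ) (hA : 0 < A) (hB : 0 ≤ B) (hρ : 0 < ρ) (hρ1 : ρ ≤ 1)
    (hAB : A ^ (1 / ρ) * B < 1) (hB1 : B < 1) (q : ℕ) (hq : 1 ≤ q) :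
    ∃ ℓ r : ℕ → ℕ,
      Tendsto (fun n => 4 * √(2 ^ (ℓ n + r n) * B ^ (n / q)) +
        2 * ((((2 : ℝ) ^ r n)⁻¹) ^ ρ * A ^ (n / q))) atTop (𝓝 0) ∧
      0 < liminf (fun n => (ℓ n : ENNReal) / n) atTop := by
  have haB : max (A ^ (1 / ρ)) 1 * B < 1 := by
    rcases le_total (A ^ (1 / ρ)) 1 with h | h
    · rw [max_eq_right h, one_mul]
      exact hB1
    · rw [max_eq_left h]
      exact hAB
  obtain ⟨θ, hθa, hθB⟩ := GROW_exists hB haB
  have hθA' : A ^ (1 / ρ) < θ := lt_of_le_of_lt (le_max_left _ _) hθa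
  have hθ1 : 1 < θ := lt_of_le_of_lt (le_max_right _ _) hθa
  have hθ0 : 0 < θ := by linarith
  have hθA : A < θ ^ ρ := by
    have h1 := Real.rpow_lt_rpow (Real.rpow_nonneg hA.le _) hθA' hρ
    rwa [← Real.rpow_mul hA.le, one_div, inv_mul_cancel₀ hρ.ne', Real.rpow_one] at h1
  have hθρ0 : 0 < θ ^ ρ := Real.rpow_pos_of_pos hθ0 _
  have hθB0 : 0 ≤ θ * B := mul_nonneg hθ0.le hB
  obtain ⟨η, hη1, hηB⟩ := GROW_exists (a := 1) hθB0 (by rw [one_mul]; exact hθB)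
  have hη0 : 0 < η := by linarith
  set δ : ℝ := Real.logb 2 η with hδ
  set σ : ℝ := Real.logb 2 θ with hσ
  have hδ0 : 0 < δ := Real.logb_pos (by norm_num) hη1
  have hσ0 : 0 < σ := Real.logb_pos (by norm_num) hθ1
  have hq0 : (0:ℝ) < q := by exact_mod_cast hq
  refine ⟨fun n => ⌊((n / q : ℕ) : ℝ) * δ⌋₊, fun n => ⌈((n / q : ℕ) : ℝ) * σ⌉₊, ?_, ?_⟩
  · have hℓ : ∀ m : ℕ, (2:ℝ) ^ (⌊(m : ℝ) * δ⌋₊) ≤ η ^ m := by
      intro m
      rw [← GROW_pow hη0 m, ← Real.rpow_natCast]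
      exact Real.rpow_le_rpow_of_exponent_le (by norm_num)
        (Nat.floor_le (mul_nonneg (Nat.cast_nonneg m) hδ0.le))
    have hr1 : ∀ m : ℕ, θ ^ m ≤ (2:ℝ) ^ (⌈(m : ℝ) * σ⌉₊) := by
      intro m
      rw [← GROW_pow hθ0 m, ← Real.rpow_natCast 2]
      exact Real.rpow_le_rpow_of_exponent_le (by norm_num) (Nat.le_ceil _)
    have hr2 : ∀ m : ℕ, (2:ℝ) ^ (⌈(m : ℝ) * σ⌉₊) ≤ 2 * θ ^ m := by
      intro m
      have h1 : (2:ℝ) * θ ^ m = (2:ℝ) ^ ((m : ℝ) * Real.logb 2 θ + 1) := by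
        rw [Real.rpow_add (by norm_num), GROW_pow hθ0 m, Real.rpow_one, mul_comm]
      rw [h1, ← Real.rpow_natCast 2]
      exact Real.rpow_le_rpow_of_exponent_le (by norm_num)
        (Nat.ceil_lt_add_one (mul_nonneg (Nat.cast_nonneg m) hσ0.le)).le
    have hm : Tendsto (fun n : ℕ => n / q) atTop atTop :=
      tendsto_atTop_atTop.mpr fun b => ⟨b * q, fun n hn => (Nat.le_div_iff_mul_le hq).mpr hn⟩
    have hx1 : 0 ≤ η * (θ * B) := mul_nonneg hη0.le hθB0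
    have t1 : Tendsto (fun n : ℕ => (η * (θ * B)) ^ (n / q)) atTop (𝓝 0) :=
      (tendsto_pow_atTop_nhds_zero_of_lt_one hx1 hηB).comp hm
    have hx2 : A / θ ^ ρ < 1 := (div_lt_one hθρ0).mpr hθA
    have t2 : Tendsto (fun n : ℕ => (A / θ ^ ρ) ^ (n / q)) atTop (𝓝 0) :=
      (tendsto_pow_atTop_nhds_zero_of_lt_one (by positivity) hx2).comp hm
    have t3 : Tendsto (fun n : ℕ => 4 * √(2 * (η * (θ * B)) ^ (n / q)) +
        2 * (A / θ ^ ρ) ^ (n / q)) atTop (𝓝 0) := by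
      have h1 := ((t1.const_mul 2).sqrt.const_mul 4).add (t2.const_mul 2)
      simpa using h1
    refine squeeze_zero (fun n => by positivity) (fun n => ?_) t3
    have hBm : 0 ≤ B ^ (n / q) := pow_nonneg hB _
    refine add_le_add ?_ ?_
    · refine mul_le_mul_of_nonneg_left (Real.sqrt_le_sqrt ?_) (by norm_num)
      rw [pow_add, mul_pow, mul_pow]
      calc (2:ℝ) ^ (⌊((n / q : ℕ) : ℝ) * δ⌋₊) * 2 ^ (⌈((n / q : ℕ) : ℝ) * σ⌉₊) * B ^ (n / q)
          ≤ η ^ (n / q) * (2 * θ ^ (n / q)) * B ^ (n / q) :=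
            mul_le_mul_of_nonneg_right (mul_le_mul (hℓ _) (hr2 _) (by positivity)
              (by positivity)) hBm
        _ = 2 * (η ^ (n / q) * (θ ^ (n / q) * B ^ (n / q))) := by ring
    · refine mul_le_mul_of_nonneg_left ?_ (by norm_num)
      rw [div_pow, div_eq_inv_mul]
      refine mul_le_mul_of_nonneg_right ?_ (by positivity)
      rw [Real.inv_rpow (by positivity)]
      refine inv_anti₀ (by positivity) ?_
      rw [← Real.rpow_natCast (θ ^ ρ), ← Real.rpow_mul hθ0.le, mul_comm ρ, Real.rpow_mul hθ0.le,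
        Real.rpow_natCast]
      exact Real.rpow_le_rpow (by positivity) (hr1 _) hρ.le
  · have hc : (0 : ENNReal) < ENNReal.ofReal (δ / (2 * q)) := by
      rw [ENNReal.ofReal_pos]
      positivity
    refine lt_of_lt_of_le hc (le_liminf_of_le (by isBoundedDefault) ?_)
    obtain ⟨N, hN⟩ := exists_nat_ge (2 * q * (δ + 1) / δ)
    filter_upwards [eventually_ge_atTop (max N 1)] with n hn
    have hn1 : 1 ≤ n := le_trans (le_max_right _ _) hn
    have hnN : (N : ℝ) ≤ n := by exact_mod_cast le_trans (le_max_left _ _) hn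
    have hn0 : (n : ENNReal) ≠ 0 := by
      simp only [ne_eq, Nat.cast_eq_zero]
      omega
    rw [ENNReal.le_div_iff_mul_le (Or.inl hn0) (Or.inl (ENNReal.natCast_ne_top n))]
    have h1 : (n : ENNReal) = ENNReal.ofReal (n : ℝ) := (ENNReal.ofReal_natCast n).symm
    have h2 : ((⌊((n / q : ℕ) : ℝ) * δ⌋₊ : ℕ) : ENNReal) =
        ENNReal.ofReal ((⌊((n / q : ℕ) : ℝ) * δ⌋₊ : ℕ) : ℝ) := (ENNReal.ofReal_natCast _).symm
    rw [h1, h2, ← ENNReal.ofReal_mul (by positivity)]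
    apply ENNReal.ofReal_le_ofReal
    have h3 : ((n / q : ℕ) : ℝ) * δ - 1 < (⌊((n / q : ℕ) : ℝ) * δ⌋₊ : ℝ) := Nat.sub_one_lt_floor _
    have h4 : (n : ℝ) / q - 1 ≤ ((n / q : ℕ) : ℝ) := by
      have h5 : n < q * (n / q + 1) := by
        have := Nat.div_add_mod n q
        have h6 := Nat.mod_lt n (show 0 < q by omega)
        rw [mul_add, mul_one]
        omega
      have h7 : (n : ℝ) < q * (((n / q : ℕ) : ℝ) + 1) := by exact_mod_cast h5
      have h8 : (n : ℝ) / q < ((n / q : ℕ) : ℝ) + 1 := by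
        rw [div_lt_iff₀ hq0, mul_comm]
        exact h7
      linarith
    have h9 : 2 * q * (δ + 1) ≤ n * δ := by
      have := hN.trans hnN
      rwa [div_le_iff₀ hδ0] at this
    have h10 : ((n : ℝ) / q - 1) * δ ≤ ((n / q : ℕ) : ℝ) * δ :=
      mul_le_mul_of_nonneg_right h4 hδ0.le
    have h11 : δ / (2 * q) * n = n * δ / (2 * q) := by ring
    have h12 : ((n : ℝ) / q - 1) * δ = 2 * (n * δ / (2 * q)) - δ := by
      field_simp
    have h13 : δ + 1 ≤ n * δ / (2 * q) := by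
      rw [le_div_iff₀ (by positivity)]
      linarith
    rw [h11]
    linarith

end Vale.Agent.P372Q
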