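import Vale.Agent.P372Q.Sep
import Vale.Agent.P372Q.Defs3

open Matrix Finset Filter Topology
open scoped Kronecker ComplexOrder BigOperators

namespace Vale.Agent.P372Q

/-- SP1. -/
theorem IsSeparable.add {a b : Type} [Fintype a] [Fintype b] {ρ σ : Matrix (a × b) (a × b) ℂ}
    (h1 : IsSeparable ρ) (h2 : IsSeparable σ) : IsSeparable (ρ + σ) := by
  obtain ⟨N₁, α₁, β₁, hα₁, hβ₁, rfl⟩ := h1
  obtain ⟨N₂, α₂, β₂, hα₂, hβ₂, rfl⟩ := h2
  have h3 := SEP_of_fintype (ι := Fin N₁ ⊕ Fin N₂) (Sum.elim α₁ α₂) (Sum.elim β₁ β₂)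
    (by rintro (i | i); exacts [hα₁ i, hα₂ i]) (by rintro (i | i); exacts [hβ₁ i, hβ₂ i])
  rw [Fintype.sum_sum_type] at h3
  exact h3

/-- SP2. -/
theorem IsSeparable.smul {a b : Type} [Fintype a] [Fintype b] {ρ : Matrix (a × b) (a × b) ℂ}
    (h : IsSeparable ρ) {c : ℝ} (hc : 0 ≤ c) : IsSeparable ((c : ℂ) • ρ) := by
  obtain ⟨N, α, β, hα, hβ, rfl⟩ := h
  refine ⟨N, fun i => (c : ℂ) • α i, β, fun i => (hα i).smul ?_, hβ, ?_⟩
  · exact_mod_cast hc
  · rw [Finset.smul_sum]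
    refine Finset.sum_congr rfl fun i _ => ?_
    rw [Matrix.smul_kronecker]

/-- SP3. Local filters. -/
theorem IsSeparable.filter {a b : Type} [Fintype a] [Fintype b] {ρ : Matrix (a × b) (a × b) ℂ}
    (h : IsSeparable ρ) (K : Matrix a a ℂ) (L : Matrix b b ℂ) :
    IsSeparable ((K ⊗ₖ L) * ρ * (K ⊗ₖ L)ᴴ) := by
  obtain ⟨N, α, β, hα, hβ, rfl⟩ := h
  refine ⟨N, fun i => K * α i * Kᴴ, fun i => L * β i * Lᴴ,
    fun i => (hα i).mul_mul_conjTranspose_same K, fun i => (hβ i).mul_mul_conjTranspose_same L, ?_⟩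
  rw [Finset.mul_sum, Finset.sum_mul]
  refine Finset.sum_congr rfl fun i _ => ?_
  rw [Matrix.conjTranspose_kronecker, ← Matrix.mul_kronecker_mul, ← Matrix.mul_kronecker_mul]

/-- SP4. `famC 1 n` is separable if all `n i j ≥ 1`: it is `9 • rho 1 1` plus the nonnegative
diagonal matrices with entries `n i j - 1` at `|ij⟩`. -/
theorem famC_one_separable (n : Fin 3 → Fin 3 → ℝ) (hn : ∀ i j, i ≠ j → 1 ≤ n i j) :
    IsSeparable (famC (fun _ => 1) n) := by
  have hc0' : (0 : ℂ) ≤ ((1 / 16 : ℝ) : ℂ) := by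
    exact_mod_cast (by positivity : (0 : ℝ) ≤ 1 / 16)
  have hn0' : ∀ x y : Fin 3, (0 : ℂ) ≤ ((if x = y then 0 else n x y - 1 : ℝ) : ℂ) := by
    intro x y
    rw [Complex.zero_le_real]
    split_ifs with h
    · exact le_rfl
    · linarith [hn x y h]
  set α : (Fin 4 × Fin 4) ⊕ (Fin 3 × Fin 3) → Matrix (Fin 3) (Fin 3) ℂ :=
    Sum.elim (fun p => ((1 / 16 : ℝ) : ℂ) • vecMulVec (SEP_phi p) (star (SEP_phi p)))
      (fun x => ((if x.1 = x.2 then 0 else n x.1 x.2 - 1 : ℝ) : ℂ) • diagonal (Pi.single x.1 1)) with hα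
  set β : (Fin 4 × Fin 4) ⊕ (Fin 3 × Fin 3) → Matrix (Fin 3) (Fin 3) ℂ :=
    Sum.elim (fun p => vecMulVec (star (SEP_phi p)) (SEP_phi p))
      (fun x => diagonal (Pi.single x.2 1)) with hβ
  have hsing : ∀ x : Fin 3, (0 : Fin 3 → ℂ) ≤ Pi.single x 1 := by
    intro x i
    rcases eq_or_ne i x with rfl | h
    · simp
    · simp [h]
  have key : famC (fun _ => 1) n = ∑ i, α i ⊗ₖ β i := by
    ext ⟨i, j⟩ ⟨k, l⟩
    rw [Fintype.sum_sum_type, Matrix.add_apply, Matrix.sum_apply, Matrix.sum_apply]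
    have e1 : ∑ p : Fin 4 × Fin 4, (α (Sum.inl p) ⊗ₖ β (Sum.inl p)) (i, j) (k, l) =
        if (i = k ∧ j = l) ∨ (i = j ∧ k = l) then 1 else 0 := by
      have e2 : ∀ p : Fin 4 × Fin 4, (α (Sum.inl p) ⊗ₖ β (Sum.inl p)) (i, j) (k, l) =
          ((1 / 16 : ℝ) : ℂ) *
            (SEP_phi p i * star (SEP_phi p k) * (SEP_phi p l * star (SEP_phi p j))) := by
        intro p
        simp only [hα, hβ, Sum.elim_inl, Matrix.kroneckerMap_apply, Matrix.smul_apply,
          Matrix.vecMulVec_apply, Pi.star_apply, smul_eq_mul]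
        ring
      rw [Finset.sum_congr rfl fun p _ => e2 p, ← Finset.mul_sum, SEP_sum]
      split_ifs
      · push_cast
        norm_num
      · rw [mul_zero]
    have e3 : ∑ x : Fin 3 × Fin 3, (α (Sum.inr x) ⊗ₖ β (Sum.inr x)) (i, j) (k, l) =
        if i = k ∧ j = l ∧ i ≠ j then ((n i j - 1 : ℝ) : ℂ) else 0 := by
      rw [Finset.sum_eq_single (i, j)]
      · simp only [hα, hβ, Sum.elim_inr, Matrix.kroneckerMap_apply,
          Matrix.smul_apply, Matrix.diagonal_apply, smul_eq_mul]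
        by_cases h1 : i = k
        · by_cases h2 : j = l
          · by_cases h3 : i = j
            · rw [if_neg (fun h : i = k ∧ j = l ∧ i ≠ j => h.2.2 h3), if_pos h3]
              simp
            · rw [if_neg h3, if_pos h1, if_pos h2, Pi.single_eq_same,
                Pi.single_eq_same, mul_one, mul_one,
                if_pos (show i = k ∧ j = l ∧ i ≠ j from ⟨h1, h2, h3⟩)]
          · rw [if_neg (fun h : i = k ∧ j = l ∧ i ≠ j => h2 h.2.1), if_neg h2, mul_zero]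
        · rw [if_neg (fun h : i = k ∧ j = l ∧ i ≠ j => h1 h.1), if_neg h1, mul_zero, zero_mul]
      · rintro ⟨x, y⟩ _ hx
        simp only [hα, hβ, Sum.elim_inr, Matrix.kroneckerMap_apply,
          Matrix.smul_apply, Matrix.diagonal_apply, smul_eq_mul]
        by_cases h1 : i = x
        · have h2 : j ≠ y := by
            rintro rfl
            apply hx
            rw [h1]
          by_cases h3 : j = l
          · rw [if_pos h3, Pi.single_eq_of_ne h2, mul_zero]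
          · rw [if_neg h3, mul_zero]
        · by_cases h3 : i = k
          · rw [if_pos h3, Pi.single_eq_of_ne h1, mul_zero, zero_mul]
          · rw [if_neg h3, mul_zero, zero_mul]
      · intro h
        exact absurd (Finset.mem_univ _) h
    rw [e1, e3]
    simp only [famC, Matrix.of_apply]
    by_cases h1 : i = k <;> by_cases h2 : j = l <;> by_cases h3 : i = j <;> by_cases h4 : k = l <;>
      simp_all
  rw [key]
  refine SEP_of_fintype α β ?_ ?_
  · rintro (p | x)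
    · exact (posSemidef_vecMulVec_self_star (SEP_phi p)).smul hc0'
    · exact (PosSemidef.diagonal (hsing x.1)).smul (hn0' x.1 x.2)
  · rintro (p | x)
    · exact posSemidef_vecMulVec_star_self (SEP_phi p)
    · exact PosSemidef.diagonal (hsing x.2)

private theorem POT_aux {a01 a10 a02 a20 a12 a21 : ℝ} (p01 : 0 ≤ a01) (p02 : 0 ≤ a02)
    (p12 : 0 ≤ a12) (p21 : 0 ≤ a21)
    (h01 : 1 ≤ a01 * a10) (h12 : 1 ≤ a12 * a21)
    (h02 : 1 ≤ a02 * a20) (h3 : 1 ≤ a10 * a21 * a02) (h3' : 1 ≤ a01 * a12 * a20) :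
    ∃ y z : ℝ, 0 < y ∧ 0 < z ∧ y ≤ a01 ∧ z ≤ a02 ∧ 1 ≤ a10 * y ∧ 1 ≤ a20 * z ∧
      z ≤ a12 * y ∧ y ≤ a21 * z := by
  have q01 : 0 < a01 := by
    rcases p01.lt_or_eq with h | h
    · exact h
    · rw [← h, zero_mul] at h01
      linarith
  have q02 : 0 < a02 := by
    rcases p02.lt_or_eq with h | h
    · exact h
    · rw [← h, zero_mul] at h02
      linarith
  have q12 : 0 < a12 := by
    rcases p12.lt_or_eq with h | h
    · exact h
    · rw [← h, zero_mul] at h12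
      linarith
  have q21 : 0 < a21 := by
    rcases p21.lt_or_eq with h | h
    · exact h
    · rw [← h, mul_zero] at h12
      linarith
  refine ⟨min a01 (a02 * a21), min a02 (a01 * a12), lt_min q01 (mul_pos q02 q21),
    lt_min q02 (mul_pos q01 q12), min_le_left _ _, min_le_left _ _, ?_, ?_, ?_, ?_⟩
  · rcases min_choice a01 (a02 * a21) with h | h
    · rw [h]
      linarith
    · rw [h]
      linarith
  · rcases min_choice a02 (a01 * a12) with h | h
    · rw [h]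
      linarith
    · rw [h]
      linarith
  · rcases min_choice a01 (a02 * a21) with h | h
    · rw [h]
      exact (min_le_right _ _).trans (by rw [mul_comm])
    · rw [h]
      refine (min_le_left _ _).trans ?_
      have e := mul_le_mul_of_nonneg_left h12 p02
      linarith
  · rcases min_choice a02 (a01 * a12) with h | h
    · rw [h]
      exact (min_le_right _ _).trans (by rw [mul_comm])
    · rw [h]
      refine (min_le_left _ _).trans ?_
      have e := mul_le_mul_of_nonneg_left h12 p01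
      linarith

private theorem POT_div {m u v : ℝ} (hu : 0 < u) (hv : 0 < v) (h : (u * v) ^ 2 ≤ m) :
    1 ≤ m / (u ^ 2 * v ^ 2) := by
  rw [le_div_iff₀ (by positivity)]
  linarith [mul_pow u v 2]

private theorem POT_div3 {m u v w : ℝ} (hu : 0 < u) (hv : 0 < v) (hw : 0 < w)
    (h : (u * v * w) ^ 2 ≤ m) : 1 ≤ m / (u ^ 2 * v ^ 2 * w ^ 2) := by
  rw [le_div_iff₀ (by positivity)]
  linarith [mul_pow (u * v) w 2, mul_pow u v 2, congrArg (· * w ^ 2) (mul_pow u v 2)]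

private theorem POT_fin {m s t c : ℝ} (hs : 0 < s) (ht : 0 < t) (hc : 0 < c)
    (h : t ≤ m / c ^ 2 * s) : 1 ≤ m * √s ^ 2 * ((√t * c)⁻¹) ^ 2 := by
  rw [Real.sq_sqrt hs.le, inv_pow, mul_pow, Real.sq_sqrt ht.le, ← div_eq_mul_inv,
    le_div_iff₀ (by positivity), one_mul]
  have e : m / c ^ 2 * s = m * s / c ^ 2 := by ring
  rw [e, le_div_iff₀ (by positivity)] at h
  exact h

/-- POT. Potentials for three nodes. `W i j = n i j / c j ^ 2`; take `x 0 = 1`,
`x 1 ^ 2 = min (W 0 1) (W 0 2 * W 2 1)`, `x 2 ^ 2 = min (W 0 2) (W 0 1 * W 1 2)`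
(shortest paths); all cycle products of `W` are at least one. -/
theorem exists_potential (c : Fin 3 → ℝ) (hc : ∀ i, 0 < c i) (n : Fin 3 → Fin 3 → ℝ)
    (hn : ∀ i j, i ≠ j → 0 ≤ n i j) (h01 : (c 0 * c 1) ^ 2 ≤ n 0 1 * n 1 0)
    (h12 : (c 1 * c 2) ^ 2 ≤ n 1 2 * n 2 1) (h02 : (c 0 * c 2) ^ 2 ≤ n 0 2 * n 2 0)
    (h3 : (c 0 * c 1 * c 2) ^ 2 ≤ n 1 0 * n 2 1 * n 0 2)
    (h3' : (c 0 * c 1 * c 2) ^ 2 ≤ n 0 1 * n 1 2 * n 2 0) :
    ∃ x : Fin 3 → ℝ, (∀ i, 0 < x i) ∧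
      ∀ i j, i ≠ j → 1 ≤ n i j * x i ^ 2 * ((x j * c j)⁻¹) ^ 2 := by
  have hd : ∀ i j, i ≠ j → 0 ≤ n i j / c j ^ 2 := fun i j h => div_nonneg (hn i j h) (sq_nonneg _)
  obtain ⟨y, z, hy, hz, g01, g02, g10, g20, g12, g21⟩ :=
    POT_aux (hd 0 1 (by decide)) (hd 0 2 (by decide)) (hd 1 2 (by decide)) (hd 2 1 (by decide))
      (by
        have e := POT_div (hc 0) (hc 1) h01
        rwa [show n 0 1 * n 1 0 / (c 0 ^ 2 * c 1 ^ 2) = n 0 1 / c 1 ^ 2 * (n 1 0 / c 0 ^ 2) by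
          ring] at e)
      (by
        have e := POT_div (hc 1) (hc 2) h12
        rwa [show n 1 2 * n 2 1 / (c 1 ^ 2 * c 2 ^ 2) = n 1 2 / c 2 ^ 2 * (n 2 1 / c 1 ^ 2) by
          ring] at e)
      (by
        have e := POT_div (hc 0) (hc 2) h02
        rwa [show n 0 2 * n 2 0 / (c 0 ^ 2 * c 2 ^ 2) = n 0 2 / c 2 ^ 2 * (n 2 0 / c 0 ^ 2) by
          ring] at e)
      (by
        have e := POT_div3 (hc 0) (hc 1) (hc 2) h3
        rwa [show n 1 0 * n 2 1 * n 0 2 / (c 0 ^ 2 * c 1 ^ 2 * c 2 ^ 2) =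
          n 1 0 / c 0 ^ 2 * (n 2 1 / c 1 ^ 2) * (n 0 2 / c 2 ^ 2) by ring] at e)
      (by
        have e := POT_div3 (hc 0) (hc 1) (hc 2) h3'
        rwa [show n 0 1 * n 1 2 * n 2 0 / (c 0 ^ 2 * c 1 ^ 2 * c 2 ^ 2) =
          n 0 1 / c 1 ^ 2 * (n 1 2 / c 2 ^ 2) * (n 2 0 / c 0 ^ 2) by ring] at e)
  refine ⟨![√1, √y, √z], ?_, ?_⟩
  · intro i
    fin_cases i
    · exact Real.sqrt_pos.2 one_pos
    · exact Real.sqrt_pos.2 hy
    · exact Real.sqrt_pos.2 hz
  · intro i j hij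
    fin_cases i <;> fin_cases j
    · exact absurd rfl hij
    · exact POT_fin one_pos hy (hc 1) ((mul_one (n 0 1 / c 1 ^ 2)).symm ▸ g01)
    · exact POT_fin one_pos hz (hc 2) ((mul_one (n 0 2 / c 2 ^ 2)).symm ▸ g02)
    · exact POT_fin hy one_pos (hc 0) g10
    · exact absurd rfl hij
    · exact POT_fin hy hz (hc 2) g12
    · exact POT_fin hz one_pos (hc 0) g20
    · exact POT_fin hz hy (hc 1) g21
    · exact absurd rfl hij

end Vale.Agent.P372Q
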