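import Vale.Agent.P372Q.Core
import Vale.Agent.P372Q.Blk

open Matrix Finset Filter Topology
open scoped Kronecker ComplexOrder BigOperators

namespace Vale.Agent.P372Q

/-- constant of the sharper decoding bound -/
noncomputable def Ac2 (ω : Lab → ZMod 2 → ℝ) (y ρ : ℝ) : ℝ :=
  ∑ l : Lab, mult l * (ω l 0 + ω l 1) *
    (if act l then ((1 + y) * (if errBit l = 0 then 1 else y⁻¹)) ^ ρ else 1)

open Classical in
theorem AVG3_one {m r : ℕ} {y ρ : ℝ} (hy : 0 < y) (hy1 : y ≤ 1) (hρ : 0 < ρ) (hρ1 : ρ ≤ 1)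
    (l : Fin m → Lab) :
    ((Finset.univ.filter fun S : Matrix (Fin r) (Fin m) (ZMod 2) => DecFail S l).card : ℝ) ≤
      (Fintype.card (Matrix (Fin r) (Fin m) (ZMod 2)) : ℝ) * ((((2 : ℝ) ^ r)⁻¹) ^ ρ *
        ∏ i, (if act (l i) then ((1 + y) * (if errBit (l i) = 0 then 1 else y⁻¹)) ^ ρ else 1)) := by
  obtain ⟨N, hN⟩ : ∃ N : ℝ, N = (Fintype.card (Matrix (Fin r) (Fin m) (ZMod 2)) : ℝ) := ⟨_, rfl⟩
  have hN0 : 0 ≤ N := by
    rw [hN]
    exact Nat.cast_nonneg _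
  have hi : ∀ i, 0 < (if act (l i) then (1 + y) * (if errBit (l i) = 0 then 1 else y⁻¹) else 1) := by
    intro i
    have h1 : 0 < y⁻¹ := inv_pos.2 hy
    split_ifs
    · linarith
    · exact mul_pos (by linarith) h1
    · exact one_pos
  obtain ⟨X, hX⟩ : ∃ X : ℝ, X = ((2 : ℝ) ^ r)⁻¹ *
      ∏ i, (if act (l i) then (1 + y) * (if errBit (l i) = 0 then 1 else y⁻¹) else 1) := ⟨_, rfl⟩
  have hX0 : 0 < X := by
    rw [hX]
    exact mul_pos (by positivity) (Finset.prod_pos fun i _ => hi i)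
  have h1 := AVG2_one (r := r) hy hy1 l
  rw [← hX, ← hN] at h1
  have h2 : ((Finset.univ.filter fun S : Matrix (Fin r) (Fin m) (ZMod 2) => DecFail S l).card : ℝ) ≤
      N := by
    rw [hN]
    exact_mod_cast Finset.card_le_univ _
  have h4 : X ^ ρ = (((2 : ℝ) ^ r)⁻¹) ^ ρ *
      ∏ i, (if act (l i) then ((1 + y) * (if errBit (l i) = 0 then 1 else y⁻¹)) ^ ρ else 1) := by
    rw [hX, Real.mul_rpow (by positivity) (Finset.prod_nonneg fun i _ => (hi i).le),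
      ← Real.finsetProd_rpow _ _ (fun i _ => (hi i).le)]
    refine congrArg _ (Finset.prod_congr rfl fun i _ => ?_)
    by_cases ha : act (l i) = true
    · rw [if_pos ha, if_pos ha]
    · rw [if_neg ha, if_neg ha, Real.one_rpow]
  rw [← h4, ← hN]
  rcases le_total X 1 with hX1 | hX1
  · have h5 : X ^ (1 : ℝ) ≤ X ^ ρ := Real.rpow_le_rpow_of_exponent_ge hX0 hX1 hρ1
    rw [Real.rpow_one] at h5
    exact h1.trans (mul_le_mul_of_nonneg_left h5 hN0)
  · have h5 : 1 ≤ X ^ ρ := Real.one_le_rpow hX1 hρ.le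
    have h6 : N * 1 ≤ N * X ^ ρ := mul_le_mul_of_nonneg_left h5 hN0
    linarith

/-- AVG3. As `avg_Pf` in Avg.lean (copy its proof), but for each label the fraction of the `S` with
`DecFail S l` is at most `min 1 X ≤ X ^ ρ`, where `X = 2^(-r) (1 + y)^|active| y^(-wt z)` is the
bound used there. -/
theorem avg_Pf3 {m : ℕ} (r : ℕ) {ω : Lab → ZMod 2 → ℝ} (hω : IsWeight ω) {y ρ : ℝ} (hy : 0 < y)
    (hy1 : y ≤ 1) (hρ : 0 < ρ) (hρ1 : ρ ≤ 1) :
    ∑ S : Matrix (Fin r) (Fin m) (ZMod 2), Pf ω S ≤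
      (Fintype.card (Matrix (Fin r) (Fin m) (ZMod 2)) : ℝ) *
        ((((2 : ℝ) ^ r)⁻¹) ^ ρ * Ac2 ω y ρ ^ m) := by
  classical
  have hW : ∀ l : Fin m → Lab, 0 ≤ ∏ i, mult (l i) * (ω (l i) 0 + ω (l i) 1) := by
    intro l
    refine Finset.prod_nonneg fun i _ => mul_nonneg ?_ (add_nonneg (hω.nonneg _ _) (hω.nonneg _ _))
    unfold mult; split_ifs <;> norm_num
  unfold Pf
  rw [Finset.sum_comm]
  have h1 : ∀ l : Fin m → Lab, (∑ S : Matrix (Fin r) (Fin m) (ZMod 2),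
      if DecFail S l then ∏ i, mult (l i) * (ω (l i) 0 + ω (l i) 1) else 0) ≤
      (Fintype.card (Matrix (Fin r) (Fin m) (ZMod 2)) : ℝ) * ((((2 : ℝ) ^ r)⁻¹) ^ ρ *
        ∏ i, (mult (l i) * (ω (l i) 0 + ω (l i) 1) *
          (if act (l i) then ((1 + y) * (if errBit (l i) = 0 then 1 else y⁻¹)) ^ ρ else 1))) := by
    intro l
    have hsplit : (∏ i, (mult (l i) * (ω (l i) 0 + ω (l i) 1) *
          (if act (l i) then ((1 + y) * (if errBit (l i) = 0 then 1 else y⁻¹)) ^ ρ else 1))) =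
        (∏ i, mult (l i) * (ω (l i) 0 + ω (l i) 1)) *
        ∏ i, (if act (l i) then ((1 + y) * (if errBit (l i) = 0 then 1 else y⁻¹)) ^ ρ else 1) :=
      Finset.prod_mul_distrib
    rw [← Finset.sum_filter, Finset.sum_const, nsmul_eq_mul, hsplit]
    calc _ ≤ ((Fintype.card (Matrix (Fin r) (Fin m) (ZMod 2)) : ℝ) * ((((2 : ℝ) ^ r)⁻¹) ^ ρ *
        ∏ i, (if act (l i) then ((1 + y) * (if errBit (l i) = 0 then 1 else y⁻¹)) ^ ρ else 1))) *
          ∏ i, mult (l i) * (ω (l i) 0 + ω (l i) 1) :=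
          mul_le_mul_of_nonneg_right (AVG3_one hy hy1 hρ hρ1 l) (hW l)
      _ = _ := by
        generalize (∏ i, mult (l i) * (ω (l i) 0 + ω (l i) 1)) = P
        generalize (∏ i, (if act (l i) then ((1 + y) *
          (if errBit (l i) = 0 then 1 else y⁻¹)) ^ ρ else 1)) = Q
        ring
  refine (Finset.sum_le_sum fun l _ => h1 l).trans (le_of_eq ?_)
  rw [← Finset.mul_sum, ← Finset.mul_sum]
  congr 2
  have h := Finset.prod_univ_sum (fun _ : Fin m => (Finset.univ : Finset Lab))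
    (fun _ l => mult l * (ω l 0 + ω l 1) *
          (if act l then ((1 + y) * (if errBit l = 0 then 1 else y⁻¹)) ^ ρ else 1))
  rw [Fintype.piFinset_univ] at h
  rw [← h, Finset.prod_const, Finset.card_univ, Fintype.card_fin]
  rfl

private theorem EXI3_Zbad_nonneg {m ℓ r : ℕ} {ω : Lab → ZMod 2 → ℝ} (hω : IsWeight ω)
    (H : Matrix (Fin ℓ) (Fin m) (ZMod 2)) (S : Matrix (Fin r) (Fin m) (ZMod 2)) :
    0 ≤ Zbad ω H S := by
  classical
  unfold Zbad
  refine Finset.sum_nonneg fun l _ => Finset.sum_nonneg fun k _ => ?_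
  split_ifs
  · refine mul_nonneg (Finset.prod_nonneg fun i _ => ?_)
      (Finset.prod_nonneg fun i _ => hω.nonneg _ _)
    unfold mult
    split_ifs <;> norm_num
  · exact le_rfl

/-- EXI3. As `exists_code`. -/
theorem exists_code3 {m : ℕ} (ℓ r : ℕ) {ω : Lab → ZMod 2 → ℝ} (hω : IsWeight ω) {y ρ : ℝ}
    (hy : 0 < y) (hy1 : y ≤ 1) (hρ : 0 < ρ) (hρ1 : ρ ≤ 1) :
    ∃ (H : Matrix (Fin ℓ) (Fin m) (ZMod 2)) (S : Matrix (Fin r) (Fin m) (ZMod 2)),
      4 * √(Zbad ω H S) + 2 * Pf ω S ≤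
        4 * √(2 ^ (ℓ + r) * Bc ω ^ m) + 2 * ((((2 : ℝ) ^ r)⁻¹) ^ ρ * Ac2 ω y ρ ^ m) := by
  classical
  by_contra hcon
  push Not at hcon
  have hNH : (0 : ℝ) < (Fintype.card (Matrix (Fin ℓ) (Fin m) (ZMod 2)) : ℝ) :=
    Nat.cast_pos.mpr Fintype.card_pos
  have hNS : (0 : ℝ) < (Fintype.card (Matrix (Fin r) (Fin m) (ZMod 2)) : ℝ) :=
    Nat.cast_pos.mpr Fintype.card_pos
  have hZ := avg_Zbad (m := m) ℓ r hω
  have hP := avg_Pf3 (m := m) r hω hy hy1 hρ hρ1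
  generalize hB : (2 : ℝ) ^ (ℓ + r) * Bc ω ^ m = B at hcon hZ
  generalize hA : (((2 : ℝ) ^ r)⁻¹) ^ ρ * Ac2 ω y ρ ^ m = A at hcon hP
  have h1 : ∑ _H : Matrix (Fin ℓ) (Fin m) (ZMod 2), ∑ _S : Matrix (Fin r) (Fin m) (ZMod 2),
      (4 * √B + 2 * A) < ∑ H : Matrix (Fin ℓ) (Fin m) (ZMod 2),
        ∑ S : Matrix (Fin r) (Fin m) (ZMod 2), (4 * √(Zbad ω H S) + 2 * Pf ω S) :=
    Finset.sum_lt_sum_of_nonempty univ_nonempty fun H _ =>
      Finset.sum_lt_sum_of_nonempty univ_nonempty fun S _ => hcon H S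
  have h3 : ∑ H : Matrix (Fin ℓ) (Fin m) (ZMod 2),
        ∑ S : Matrix (Fin r) (Fin m) (ZMod 2), √(Zbad ω H S) ≤
      (Fintype.card (Matrix (Fin ℓ) (Fin m) (ZMod 2)) : ℝ) *
        (Fintype.card (Matrix (Fin r) (Fin m) (ZMod 2)) : ℝ) * √B := by
    have hcs := sq_sum_le_card_mul_sum_sq
      (s := (univ : Finset (Matrix (Fin ℓ) (Fin m) (ZMod 2) × Matrix (Fin r) (Fin m) (ZMod 2))))
      (f := fun p => √(Zbad ω p.1 p.2))
    have e1 : ∑ p : Matrix (Fin ℓ) (Fin m) (ZMod 2) × Matrix (Fin r) (Fin m) (ZMod 2),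
        √(Zbad ω p.1 p.2) = ∑ H : Matrix (Fin ℓ) (Fin m) (ZMod 2),
        ∑ S : Matrix (Fin r) (Fin m) (ZMod 2), √(Zbad ω H S) :=
      Fintype.sum_prod_type _
    have e2 : ∑ p : Matrix (Fin ℓ) (Fin m) (ZMod 2) × Matrix (Fin r) (Fin m) (ZMod 2),
        √(Zbad ω p.1 p.2) ^ 2 = ∑ H : Matrix (Fin ℓ) (Fin m) (ZMod 2),
        ∑ S : Matrix (Fin r) (Fin m) (ZMod 2), Zbad ω H S := by
      rw [Fintype.sum_prod_type]
      refine Finset.sum_congr rfl fun H _ => Finset.sum_congr rfl fun S _ => ?_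
      exact Real.sq_sqrt (EXI3_Zbad_nonneg hω H S)
    have e3 : ((univ : Finset (Matrix (Fin ℓ) (Fin m) (ZMod 2) ×
        Matrix (Fin r) (Fin m) (ZMod 2))).card : ℝ) =
        (Fintype.card (Matrix (Fin ℓ) (Fin m) (ZMod 2)) : ℝ) *
        (Fintype.card (Matrix (Fin r) (Fin m) (ZMod 2)) : ℝ) := by
      rw [Finset.card_univ, Fintype.card_prod, Nat.cast_mul]
    rw [e1, e2, e3] at hcs
    have hN : 0 < (Fintype.card (Matrix (Fin ℓ) (Fin m) (ZMod 2)) : ℝ) *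
        (Fintype.card (Matrix (Fin r) (Fin m) (ZMod 2)) : ℝ) := mul_pos hNH hNS
    have h5 : (∑ H : Matrix (Fin ℓ) (Fin m) (ZMod 2),
        ∑ S : Matrix (Fin r) (Fin m) (ZMod 2), √(Zbad ω H S)) ^ 2 ≤
        ((Fintype.card (Matrix (Fin ℓ) (Fin m) (ZMod 2)) : ℝ) *
        (Fintype.card (Matrix (Fin r) (Fin m) (ZMod 2)) : ℝ)) ^ 2 * B := by
      refine hcs.trans ?_
      calc _ ≤ (Fintype.card (Matrix (Fin ℓ) (Fin m) (ZMod 2)) : ℝ) *
            (Fintype.card (Matrix (Fin r) (Fin m) (ZMod 2)) : ℝ) *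
            ((Fintype.card (Matrix (Fin ℓ) (Fin m) (ZMod 2)) : ℝ) *
            (Fintype.card (Matrix (Fin r) (Fin m) (ZMod 2)) : ℝ) * B) :=
              mul_le_mul_of_nonneg_left hZ hN.le
        _ = _ := by ring
    have h6 := Real.le_sqrt_of_sq_le h5
    rwa [Real.sqrt_mul (sq_nonneg _), Real.sqrt_sq hN.le] at h6
  have h7 : ∑ H : Matrix (Fin ℓ) (Fin m) (ZMod 2),
        ∑ S : Matrix (Fin r) (Fin m) (ZMod 2), (4 * √(Zbad ω H S) + 2 * Pf ω S) =
      4 * (∑ H : Matrix (Fin ℓ) (Fin m) (ZMod 2),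
        ∑ S : Matrix (Fin r) (Fin m) (ZMod 2), √(Zbad ω H S)) +
      2 * ((Fintype.card (Matrix (Fin ℓ) (Fin m) (ZMod 2)) : ℝ) *
        ∑ S : Matrix (Fin r) (Fin m) (ZMod 2), Pf ω S) := by
    simp only [Finset.sum_add_distrib, ← Finset.mul_sum, Finset.sum_const, Finset.card_univ,
      nsmul_eq_mul]
  have h8 : ∑ _H : Matrix (Fin ℓ) (Fin m) (ZMod 2), ∑ _S : Matrix (Fin r) (Fin m) (ZMod 2),
      (4 * √B + 2 * A) = 4 * ((Fintype.card (Matrix (Fin ℓ) (Fin m) (ZMod 2)) : ℝ) *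
        (Fintype.card (Matrix (Fin r) (Fin m) (ZMod 2)) : ℝ) * √B) +
      2 * ((Fintype.card (Matrix (Fin ℓ) (Fin m) (ZMod 2)) : ℝ) *
        ((Fintype.card (Matrix (Fin r) (Fin m) (ZMod 2)) : ℝ) * A)) := by
    simp only [Finset.sum_const, Finset.card_univ, nsmul_eq_mul]
    ring
  rw [h7, h8] at h1
  have h9 := mul_le_mul_of_nonneg_left hP hNH.le
  linarith

/-- CORE3. As `core_ach`. -/
theorem core_ach3 {m ℓ r : ℕ} {A B I E K' L' : Type} [Fintype A] [Fintype B] [Fintype I]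
    [Fintype E] [Fintype K'] [Fintype L'] [DecidableEq A] [DecidableEq B] [DecidableEq E]
    [DecidableEq K'] [DecidableEq L'] (G : Matrix (A × B) E ℂ)
    (K : (Fin m → Option (ZMod 2)) → Matrix K' A ℂ) (L : (Fin m → Option (ZMod 2)) → Matrix L' B ℂ)
    (hK : ∑ x, (K x)ᴴ * K x = 1) (hL : ∑ x, (L x)ᴴ * L x = 1)
    {g : (Fin m → Lab) → (Fin m → ZMod 2) → Matrix I E ℂ} {ω : Lab → ZMod 2 → ℝ}
    (hω : IsWeight ω) (hM : IsModel (fun x y => eveState ((K x ⊗ₖ L y) * G)) g ω)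
    {y ρ : ℝ} (hy : 0 < y) (hy1 : y ≤ 1) (hρ : 0 < ρ) (hρ1 : ρ ≤ 1) :
    Ach G ℓ (4 * √(2 ^ (ℓ + r) * Bc ω ^ m) + 2 * ((((2 : ℝ) ^ r)⁻¹) ^ ρ * Ac2 ω y ρ ^ m)) := by
  obtain ⟨H, S, hHS⟩ := exists_code3 ℓ r hω hy hy1 hρ hρ1 (m := m)
  have herr := error_bound hω hM H S
  have hpr := ach_of_kraus G K L hK hL ℓ bobMsg (aliceMsg S) (fun x u _ => aliceKey H x u)
    (fun y _ t => bobKey H S y t)
    (fun u t => ∑ x, ∑ y, if bobMsg y = u ∧ aliceMsg S x u = t then eveState ((K x ⊗ₖ L y) * G) else 0)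
    ?_ ?_
  · obtain ⟨p, σ, h1, h2, h3⟩ := hpr
    exact ⟨p, σ, h1, h2, le_trans h3 (le_trans herr hHS)⟩
  · intro u t
    refine posSemidef_sum _ (fun x _ => posSemidef_sum _ (fun y _ => ?_))
    split_ifs
    · exact hM.psd x y
    · exact PosSemidef.zero
  · have h := mass_total hω hM
    rw [← h]
    simp only [Matrix.trace_sum, Complex.re_sum]
    rw [core_swap]
    refine Finset.sum_congr rfl (fun x _ => Finset.sum_congr rfl (fun y _ => ?_))
    have h2 := core_pick (bobMsg y) (fun u => aliceMsg S x u)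
      (fun _ _ => (eveState ((K x ⊗ₖ L y) * G)).trace.re)
    refine Eq.trans ?_ h2
    refine Finset.sum_congr rfl (fun u _ => Finset.sum_congr rfl (fun t _ => ?_))
    split_ifs
    · rfl
    · simp

private theorem CON3_sum (f : Lab → ℝ) :
    ∑ l : Lab, f l = f none + (f (some none) + (f (some (some 0)) + f (some (some 1)))) := by
  have h1 : ∑ l : Lab, f l = f none + ∑ o : Option (ZMod 2), f (some o) := Fintype.sum_option f
  rw [h1, Fintype.sum_option]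
  congr 2
  exact Fin.sum_univ_two (fun i : ZMod 2 => f (some (some i)))

/-- CON3. As `consts_of_values` (sum over the four labels of
`Lab = Option (Option (ZMod 2))`, `∑ mult (ω 0 + ω 1) = 1`). -/
theorem consts3 (ω : Lab → ZMod 2 → ℝ) (hω : IsWeight ω) (p0 p1 φ : ℝ)
    (h00 : ω (some (some 0)) 0 = (p0 + φ) / 2) (h01 : ω (some (some 0)) 1 = (p0 - φ) / 2)
    (h10 : ω (some (some 1)) 0 = p1 / 2) (h11 : ω (some (some 1)) 1 = p1 / 2) (y ρ : ℝ)
    (hy : 0 < y) :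
    Ac2 ω y ρ = 1 - 2 * (p0 + p1) + 2 * (1 + y) ^ ρ * (p0 + p1 * (y⁻¹) ^ ρ) ∧ p0 + p1 ≤ 1 / 2 := by
  have e1 : ω none 1 = 0 := hω.inact _ rfl
  have e2 : ω (some none) 1 = 0 := hω.inact _ rfl
  have n1 := hω.nonneg none 0
  have n2 := hω.nonneg (some none) 0
  have m1 : mult none = 1 := rfl
  have m2 : mult (some none) = 1 := rfl
  have m3 : mult (some (some 0)) = 2 := rfl
  have m4 : mult (some (some 1)) = 2 := rfl
  have ht := hω.total
  rw [CON3_sum, e1, e2, h00, h01, h10, h11, m1, m2, m3, m4] at ht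
  constructor
  · unfold Ac2
    rw [CON3_sum, e1, e2, h00, h01, h10, h11, m1, m2, m3, m4]
    have c1 : act none = false := rfl
    have c2 : act (some none) = false := rfl
    have c3 : act (some (some 0)) = true := rfl
    have c4 : act (some (some 1)) = true := rfl
    have d3 : errBit (some (some 0)) = 0 := rfl
    have d4 : errBit (some (some 1)) = 1 := rfl
    have d5 : (1 : ZMod 2) ≠ 0 := by decide
    rw [c1, c2, c3, c4, d3, d4, if_pos rfl, if_neg d5]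
    simp only [Bool.false_eq_true, if_false, if_true]
    rw [mul_one (1 + y), Real.mul_rpow (by linarith) (inv_nonneg.2 hy.le)]
    linear_combination ht
  · linarith

end Vale.Agent.P372Q
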