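import Vale.Agent.P372Q.Base

open Matrix Finset Filter Topology
open scoped Kronecker ComplexOrder BigOperators

namespace Vale.Agent.P372Q

/-- product of two Kraus operators on two groups of copies -/
noncomputable def k2 {a s s₁ ι₀ : Type} (k : Matrix s (ι₀ → a) ℂ) (k' : Matrix s₁ (ι₀ → a) ℂ) :
    Matrix (s × s₁) (Fin 2 × ι₀ → a) ℂ :=
  Matrix.of fun p v => k p.1 (fun j => v (0, j)) * k' p.2 (fun j => v (1, j))

/-- product of two operators on the shields -/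
noncomputable def u2 {s s' : Type} (U V : Matrix (s × s') (s × s') ℂ) :
    Matrix ((s × s) × (s' × s')) ((s × s) × (s' × s')) ℂ :=
  Matrix.of fun p q => U (p.1.1, p.2.1) (q.1.1, q.2.1) * V (p.1.2, p.2.2) (q.1.2, q.2.2)

private theorem SYM1_c {α ι₀ : Type} [Fintype α] [Fintype ι₀] [DecidableEq ι₀]
    (f g : (ι₀ → α) → ℂ) :
    ∑ w : Fin 2 × ι₀ → α, f (fun j => w (0, j)) * g (fun j => w (1, j)) =
      (∑ x, f x) * ∑ x, g x := by
  have h := Finset.prod_univ_sum (fun _ : Fin 2 => (Finset.univ : Finset (ι₀ → α)))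
    (fun i x => if i = 0 then f x else g x)
  rw [Fintype.piFinset_univ, Fin.prod_univ_two] at h
  simp only [if_true, Fin.reduceEq, if_false] at h
  rw [h]
  refine Fintype.sum_equiv (Equiv.curry (Fin 2) ι₀ α) _ _ ?_
  intro x
  rw [Fin.prod_univ_two]
  rfl

private theorem SYM1_pair {α β : Type} [Fintype α] [Fintype β] (f g : α × β → ℂ) :
    ∑ x : (α × α) × (β × β), f (x.1.1, x.2.1) * g (x.1.2, x.2.2) = (∑ x, f x) * ∑ x, g x := by
  rw [Finset.sum_mul_sum, ← Fintype.sum_prod_type' (fun (x y : α × β) => f x * g y)]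
  exact Fintype.sum_equiv (Equiv.prodProdProdComm α α β β) _ _ fun x => rfl

private theorem SYM1_c2 {α β ι₀ : Type} [Fintype α] [Fintype β] [Fintype ι₀] [DecidableEq ι₀]
    (f g : (ι₀ → α) × (ι₀ → β) → ℂ) :
    ∑ v : (Fin 2 × ι₀ → α) × (Fin 2 × ι₀ → β),
      f (fun j => v.1 (0, j), fun j => v.2 (0, j)) * g (fun j => v.1 (1, j), fun j => v.2 (1, j)) =
      (∑ x, f x) * ∑ x, g x := by
  rw [Fintype.sum_prod_type]
  have h1 : ∀ v : Fin 2 × ι₀ → α, ∑ v' : Fin 2 × ι₀ → β,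
      f (fun j => v (0, j), fun j => v' (0, j)) * g (fun j => v (1, j), fun j => v' (1, j)) =
      (∑ x, f (fun j => v (0, j), x)) * ∑ x, g (fun j => v (1, j), x) := fun v =>
    SYM1_c (fun x => f (fun j => v (0, j), x)) (fun x => g (fun j => v (1, j), x))
  rw [Finset.sum_congr rfl fun v _ => h1 v,
    SYM1_c (fun y => ∑ x, f (y, x)) (fun y => ∑ x, g (y, x)), Fintype.sum_prod_type,
    Fintype.sum_prod_type]

private theorem SYM1_row {a b e s s' ι₀ : Type} [Fintype a] [Fintype b]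
    [Fintype ι₀] [DecidableEq ι₀] (R : Matrix (a × b) e ℂ)
    (k kk : Matrix s (ι₀ → a) ℂ) (l ll : Matrix s' (ι₀ → b) ℂ) (p : s × s)
    (p' : s' × s') (w : Fin 2 × ι₀ → e) :
    ((k2 k kk ⊗ₖ k2 l ll) * copiesOn R (Fin 2 × ι₀)) (p, p') w =
      ((k ⊗ₖ l) * copiesOn R ι₀) (p.1, p'.1) (fun j => w (0, j)) *
      ((kk ⊗ₖ ll) * copiesOn R ι₀) (p.2, p'.2) (fun j => w (1, j)) := by
  simp only [Matrix.mul_apply, Matrix.kroneckerMap_apply, k2, copiesOn, Matrix.of_apply]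
  rw [← SYM1_c2 (fun x => k p.1 x.1 * l p'.1 x.2 * ∏ j, R (x.1 j, x.2 j) (w (0, j)))
    (fun x => kk p.2 x.1 * ll p'.2 x.2 * ∏ j, R (x.1 j, x.2 j) (w (1, j)))]
  refine Finset.sum_congr rfl fun v _ => ?_
  rw [Fintype.prod_prod_type, Fin.prod_univ_two]
  ring

private theorem SYM1_u {s s' ε ι₀ : Type} [Fintype s] [Fintype s']
    (U V : Matrix (s × s') (s × s') ℂ) (H H' : Matrix (s × s') (ι₀ → ε) ℂ)
    (G : Matrix ((s × s) × (s' × s')) (Fin 2 × ι₀ → ε) ℂ)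
    (hG : ∀ p p' w, G (p, p') w = H (p.1, p'.1) (fun j => w (0, j)) *
      H' (p.2, p'.2) (fun j => w (1, j))) (p : s × s) (p' : s' × s') (w : Fin 2 × ι₀ → ε) :
    (u2 U V * G) (p, p') w = (U * H) (p.1, p'.1) (fun j => w (0, j)) *
      (V * H') (p.2, p'.2) (fun j => w (1, j)) := by
  simp only [Matrix.mul_apply, u2, Matrix.of_apply]
  rw [← SYM1_pair (fun x => U (p.1, p'.1) x * H x (fun j => w (0, j)))
    (fun x => V (p.2, p'.2) x * H' x (fun j => w (1, j)))]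
  refine Finset.sum_congr rfl fun v _ => ?_
  obtain ⟨q, q'⟩ := v
  rw [hG]
  ring

/-- SYM1. Multiplicativity for two groups of copies (compare `hsInner_kN` in Ad.lean). -/
theorem hsInner_k2 {a b e s s' ι₀ : Type} [Fintype a] [DecidableEq a] [Fintype b] [DecidableEq b]
    [Fintype e] [Fintype s] [Fintype s'] [Fintype ι₀] [DecidableEq ι₀] (R : Matrix (a × b) e ℂ)
    (k k' kk kk' : Matrix s (ι₀ → a) ℂ) (l l' ll ll' : Matrix s' (ι₀ → b) ℂ)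
    (U V : Matrix (s × s') (s × s') ℂ) :
    hsInner ((k2 k kk ⊗ₖ k2 l ll) * copiesOn R (Fin 2 × ι₀))
        (u2 U V * ((k2 k' kk' ⊗ₖ k2 l' ll') * copiesOn R (Fin 2 × ι₀))) =
      hsInner ((k ⊗ₖ l) * copiesOn R ι₀) (U * ((k' ⊗ₖ l') * copiesOn R ι₀)) *
      hsInner ((kk ⊗ₖ ll) * copiesOn R ι₀) (V * ((kk' ⊗ₖ ll') * copiesOn R ι₀)) := by
  unfold hsInner
  have h1 := SYM1_u U V ((k' ⊗ₖ l') * copiesOn R ι₀) ((kk' ⊗ₖ ll') * copiesOn R ι₀) _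
    (SYM1_row R k' kk' l' ll')
  have h2 : ∀ q : (s × s) × (s' × s'),
      (∑ w : Fin 2 × ι₀ → e, star (((k2 k kk ⊗ₖ k2 l ll) * copiesOn R (Fin 2 × ι₀)) q w) *
        (u2 U V * ((k2 k' kk' ⊗ₖ k2 l' ll') * copiesOn R (Fin 2 × ι₀))) q w) =
      (∑ w : ι₀ → e, star (((k ⊗ₖ l) * copiesOn R ι₀) (q.1.1, q.2.1) w) *
        (U * ((k' ⊗ₖ l') * copiesOn R ι₀)) (q.1.1, q.2.1) w) *
      ∑ w : ι₀ → e, star (((kk ⊗ₖ ll) * copiesOn R ι₀) (q.1.2, q.2.2) w) *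
        (V * ((kk' ⊗ₖ ll') * copiesOn R ι₀)) (q.1.2, q.2.2) w := by
    rintro ⟨p, p'⟩
    rw [← SYM1_c (fun w => star (((k ⊗ₖ l) * copiesOn R ι₀) (p.1, p'.1) w) *
        (U * ((k' ⊗ₖ l') * copiesOn R ι₀)) (p.1, p'.1) w)
      (fun w => star (((kk ⊗ₖ ll) * copiesOn R ι₀) (p.2, p'.2) w) *
        (V * ((kk' ⊗ₖ ll') * copiesOn R ι₀)) (p.2, p'.2) w)]
    refine Finset.sum_congr rfl fun w _ => ?_
    rw [h1 p p' w, SYM1_row R k kk l ll p p' w, star_mul']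
    ring
  rw [Finset.sum_congr rfl fun q _ => h2 q]
  exact SYM1_pair (fun x => ∑ w : ι₀ → e, star (((k ⊗ₖ l) * copiesOn R ι₀) x w) *
        (U * ((k' ⊗ₖ l') * copiesOn R ι₀)) x w)
    (fun x => ∑ w : ι₀ → e, star (((kk ⊗ₖ ll) * copiesOn R ι₀) x w) *
        (V * ((kk' ⊗ₖ ll') * copiesOn R ι₀)) x w)

/-- SYM2. -/
theorem u2_isometry {s s' : Type} [Fintype s] [Fintype s'] [DecidableEq s] [DecidableEq s']
    (U V : Matrix (s × s') (s × s') ℂ) (hU : Uᴴ * U = 1) (hV : Vᴴ * V = 1) :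
    (u2 U V)ᴴ * u2 U V = 1 := by
  ext ⟨p, p'⟩ ⟨q, q'⟩
  simp only [Matrix.mul_apply, Matrix.conjTranspose_apply, u2, Matrix.of_apply]
  have h1 : ∀ x : (s × s) × (s' × s'),
      star (U (x.1.1, x.2.1) (p.1, p'.1) * V (x.1.2, x.2.2) (p.2, p'.2)) *
        (U (x.1.1, x.2.1) (q.1, q'.1) * V (x.1.2, x.2.2) (q.2, q'.2)) =
      (star (U (x.1.1, x.2.1) (p.1, p'.1)) * U (x.1.1, x.2.1) (q.1, q'.1)) *
        (star (V (x.1.2, x.2.2) (p.2, p'.2)) * V (x.1.2, x.2.2) (q.2, q'.2)) := by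
    intro x
    rw [star_mul']
    ring
  rw [Finset.sum_congr rfl fun x _ => h1 x,
    SYM1_pair (fun x => star (U x (p.1, p'.1)) * U x (q.1, q'.1))
      (fun x => star (V x (p.2, p'.2)) * V x (q.2, q'.2))]
  have e1 : ∑ x, star (U x (p.1, p'.1)) * U x (q.1, q'.1) =
      (1 : Matrix (s × s') (s × s') ℂ) (p.1, p'.1) (q.1, q'.1) := by
    rw [← hU]
    rfl
  have e2 : ∑ x, star (V x (p.2, p'.2)) * V x (q.2, q'.2) =
      (1 : Matrix (s × s') (s × s') ℂ) (p.2, p'.2) (q.2, q'.2) := by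
    rw [← hV]
    rfl
  rw [e1, e2]
  simp only [Matrix.one_apply, Prod.mk.injEq]
  obtain ⟨p1, p2⟩ := p
  obtain ⟨p3, p4⟩ := p'
  obtain ⟨q1, q2⟩ := q
  obtain ⟨q3, q4⟩ := q'
  simp only [Prod.mk.injEq]
  by_cases a1 : p1 = q1 <;> by_cases a2 : p2 = q2 <;> by_cases a3 : p3 = q3 <;>
    by_cases a4 : p4 = q4 <;> simp [a1, a2, a3, a4]

theorem SYM3_trace {I E : Type} [Fintype I] [Fintype E] (G H : Matrix I E ℂ) :
    hsInner G H = (Gᴴ * H).trace := by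
  unfold hsInner Matrix.trace
  rw [Finset.sum_comm]
  rfl

theorem SYM3_star {I E : Type} [Fintype I] [Fintype E] (G H : Matrix I E ℂ) (U : Matrix I I ℂ) :
    hsInner H (Uᴴ * G) = star (hsInner G (U * H)) := by
  rw [SYM3_trace, SYM3_trace, ← Matrix.trace_conjTranspose, Matrix.conjTranspose_mul,
    Matrix.conjTranspose_mul, Matrix.conjTranspose_conjTranspose, Matrix.mul_assoc]

theorem SYM3_hs {I E : Type} [Fintype I] [Fintype E] (G : Matrix I E ℂ) :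
    ((hs G : ℝ) : ℂ) = hsInner G G := by
  unfold hs hsInner
  push_cast
  refine Finset.sum_congr rfl fun i _ => Finset.sum_congr rfl fun e _ => ?_
  rw [Complex.star_def, ← Complex.normSq_eq_conj_mul_self, Complex.normSq_eq_norm_sq]
  push_cast
  rfl

theorem SYM3_one {s s' : Type} [DecidableEq s] [DecidableEq s'] :
    u2 (1 : Matrix (s × s') (s × s') ℂ) 1 = 1 := by
  ext ⟨⟨p1, p2⟩, ⟨p3, p4⟩⟩ ⟨⟨q1, q2⟩, ⟨q3, q4⟩⟩
  unfold u2
  simp only [Matrix.of_apply, Matrix.one_apply, Prod.mk.injEq]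
  by_cases h1 : p1 = q1 <;> by_cases h2 : p2 = q2 <;> by_cases h3 : p3 = q3 <;>
    by_cases h4 : p4 = q4 <;> simp [h1, h2, h3, h4]

theorem SYM3_norm {a b e s s' ι₀ : Type} [Fintype a] [DecidableEq a] [Fintype b] [DecidableEq b]
    [Fintype e] [Fintype s] [Fintype s'] [DecidableEq s] [DecidableEq s'] [Fintype ι₀]
    [DecidableEq ι₀] (R : Matrix (a × b) e ℂ) (k kk : Matrix s (ι₀ → a) ℂ)
    (l ll : Matrix s' (ι₀ → b) ℂ) :
    hs ((k2 k kk ⊗ₖ k2 l ll) * copiesOn R (Fin 2 × ι₀)) =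
      hs ((k ⊗ₖ l) * copiesOn R ι₀) * hs ((kk ⊗ₖ ll) * copiesOn R ι₀) := by
  have h := hsInner_k2 R k k kk kk l l ll ll 1 1
  rw [SYM3_one, Matrix.one_mul, Matrix.one_mul, Matrix.one_mul, ← SYM3_hs, ← SYM3_hs,
    ← SYM3_hs] at h
  exact_mod_cast h

/-- SYM3. Symmetrisation: `k' x = k2 (k x) (k (x + 1))`, `l'` similarly, `U' = u2 U Uᴴ`. The numbers
are `ps = P 0 0 * P 1 1`, `pd = P 0 1 * P 1 0`, `F = |f|^2`; from SYM1 (with `U = V = 1`,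
`u2 1 1 = 1`, for the norms) and SYM2. -/
theorem symmetrise {a b e s s' ι₀ : Type} [Fintype a] [DecidableEq a] [Fintype b] [DecidableEq b]
    [Fintype e] [Fintype s] [Fintype s'] [DecidableEq s] [DecidableEq s'] [Fintype ι₀]
    [DecidableEq ι₀] (R : Matrix (a × b) e ℂ) (k : ZMod 2 → Matrix s (ι₀ → a) ℂ)
    (l : ZMod 2 → Matrix s' (ι₀ → b) ℂ) (U : Matrix (s × s') (s × s') ℂ) (hU : Uᴴ * U = 1) :
    ∃ (k' : ZMod 2 → Matrix (s × s) (Fin 2 × ι₀ → a) ℂ)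
      (l' : ZMod 2 → Matrix (s' × s') (Fin 2 × ι₀ → b) ℂ)
      (U' : Matrix ((s × s) × (s' × s')) ((s × s) × (s' × s')) ℂ), U'ᴴ * U' = 1 ∧
      (∀ x, hs ((k' x ⊗ₖ l' x) * copiesOn R (Fin 2 × ι₀)) =
        hs ((k 0 ⊗ₖ l 0) * copiesOn R ι₀) * hs ((k 1 ⊗ₖ l 1) * copiesOn R ι₀)) ∧
      (∀ x, hs ((k' x ⊗ₖ l' (x + 1)) * copiesOn R (Fin 2 × ι₀)) =
        hs ((k 0 ⊗ₖ l 1) * copiesOn R ι₀) * hs ((k 1 ⊗ₖ l 0) * copiesOn R ι₀)) ∧
      hsInner ((k' 0 ⊗ₖ l' 0) * copiesOn R (Fin 2 × ι₀))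
        (U' * ((k' 1 ⊗ₖ l' 1) * copiesOn R (Fin 2 × ι₀))) =
        ((‖hsInner ((k 0 ⊗ₖ l 0) * copiesOn R ι₀) (U * ((k 1 ⊗ₖ l 1) * copiesOn R ι₀))‖ ^ 2 : ℝ)
          : ℂ) := by
  have h01 : ∀ x : ZMod 2, x = 0 ∨ x = 1 := by decide
  have h11 : (1 : ZMod 2) + 1 = 0 := by decide
  refine ⟨fun x => k2 (k x) (k (x + 1)), fun x => k2 (l x) (l (x + 1)), u2 U Uᴴ, ?_, ?_, ?_, ?_⟩
  · refine u2_isometry U Uᴴ hU ?_
    rw [Matrix.conjTranspose_conjTranspose]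
    exact mul_eq_one_comm.1 hU
  · intro x
    show hs ((k2 (k x) (k (x + 1)) ⊗ₖ k2 (l x) (l (x + 1))) * copiesOn R (Fin 2 × ι₀)) = _
    rw [SYM3_norm]
    rcases h01 x with rfl | rfl
    · rw [zero_add]
    · rw [h11, mul_comm]
  · intro x
    show hs ((k2 (k x) (k (x + 1)) ⊗ₖ k2 (l (x + 1)) (l (x + 1 + 1))) *
      copiesOn R (Fin 2 × ι₀)) = _
    rw [SYM3_norm]
    rcases h01 x with rfl | rfl
    · rw [zero_add, h11]
    · rw [h11, zero_add, mul_comm]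
  · show hsInner ((k2 (k 0) (k (0 + 1)) ⊗ₖ k2 (l 0) (l (0 + 1))) * copiesOn R (Fin 2 × ι₀))
      (u2 U Uᴴ * ((k2 (k 1) (k (1 + 1)) ⊗ₖ k2 (l 1) (l (1 + 1))) * copiesOn R (Fin 2 × ι₀))) = _
    rw [zero_add, h11, hsInner_k2, SYM3_star, Complex.star_def, Complex.mul_conj,
      Complex.normSq_eq_norm_sq]

theorem SYM4_trace {I E : Type} [Fintype I] [Fintype E] (X : Matrix I E ℂ) :
    ((hs X : ℝ) : ℂ) = (Xᴴ * X).trace := by
  unfold hs Matrix.trace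
  simp only [Matrix.diag_apply, Matrix.mul_apply, Matrix.conjTranspose_apply]
  rw [Finset.sum_comm]
  push_cast
  refine Finset.sum_congr rfl fun e _ => Finset.sum_congr rfl fun i _ => ?_
  have h := Complex.conj_mul' (X i e)
  exact h.symm

theorem SYM4_iso {I E : Type} [Fintype I] [Fintype E] [DecidableEq I] (H : Matrix I E ℂ)
    (U : Matrix I I ℂ) (hU : Uᴴ * U = 1) : hs (U * H) = hs H := by
  have h : ((hs (U * H) : ℝ) : ℂ) = ((hs H : ℝ) : ℂ) := by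
    rw [SYM4_trace, SYM4_trace, Matrix.conjTranspose_mul, Matrix.mul_assoc,
      ← Matrix.mul_assoc Uᴴ, hU, Matrix.one_mul]
  exact_mod_cast h

/-- SYM4. Cauchy-Schwarz. -/
theorem hsInner_le {I E : Type} [Fintype I] [Fintype E] [DecidableEq I] (G H : Matrix I E ℂ)
    (U : Matrix I I ℂ) (hU : Uᴴ * U = 1) : ‖hsInner G (U * H)‖ ^ 2 ≤ hs G * hs H := by
  rw [← SYM4_iso H U hU]
  generalize U * H = K
  have h1 : ‖hsInner G K‖ ≤ ∑ p : I × E, ‖G p.1 p.2‖ * ‖K p.1 p.2‖ := by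
    unfold hsInner
    rw [← Fintype.sum_prod_type' (fun i e => star (G i e) * K i e)]
    refine (norm_sum_le _ _).trans (le_of_eq ?_)
    refine Finset.sum_congr rfl fun p _ => ?_
    rw [norm_mul, norm_star]
  have h2 : hs G = ∑ p : I × E, ‖G p.1 p.2‖ ^ 2 := by
    unfold hs
    rw [← Fintype.sum_prod_type' (fun i e => ‖G i e‖ ^ 2)]
  have h3 : hs K = ∑ p : I × E, ‖K p.1 p.2‖ ^ 2 := by
    unfold hs
    rw [← Fintype.sum_prod_type' (fun i e => ‖K i e‖ ^ 2)]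
  rw [h2, h3]
  calc ‖hsInner G K‖ ^ 2 ≤ (∑ p : I × E, ‖G p.1 p.2‖ * ‖K p.1 p.2‖) ^ 2 :=
        pow_le_pow_left₀ (norm_nonneg _) h1 2
    _ ≤ _ := Finset.sum_mul_sq_le_sq_mul_sq _ _ _

end Vale.Agent.P372Q
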