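import Vale.Agent.P372Q.Main
import Vale.Agent.P372Q.Sharp
import Vale.Agent.P372Q.Num3
import Vale.Agent.P372Q.Sym
import Vale.Agent.P372Q.Fam3
import Vale.Agent.P372Q.Sep3

open Matrix Finset Filter Topology
open scoped Kronecker ComplexOrder BigOperators

namespace Vale.Agent.P372Q

/-- Positive key from the sharp symmetric criterion `pd ps < F^2`. -/
theorem KD_pos_sym {a b e s s' ι₀ : Type} [Fintype a] [DecidableEq a] [Fintype b]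
    [DecidableEq b] [Fintype e] [DecidableEq e] [Fintype s] [Fintype s'] [DecidableEq s]
    [DecidableEq s'] [Fintype ι₀] [DecidableEq ι₀] [Nonempty ι₀] (R : Matrix (a × b) e ℂ)
    (hR : hs R = 1) (k₀ : ZMod 2 → Matrix s (ι₀ → a) ℂ) (l₀ : ZMod 2 → Matrix s' (ι₀ → b) ℂ)
    (U : Matrix (s × s') (s × s') ℂ) (hU : Uᴴ * U = 1) (ps pd F : ℝ)
    (h0 : ∀ x, hs ((k₀ x ⊗ₖ l₀ x) * copiesOn R ι₀) = ps)
    (h1 : ∀ x, hs ((k₀ x ⊗ₖ l₀ (x + 1)) * copiesOn R ι₀) = pd)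
    (hF : hsInner ((k₀ 0 ⊗ₖ l₀ 0) * copiesOn R ι₀)
      (U * ((k₀ 1 ⊗ₖ l₀ 1) * copiesOn R ι₀)) = (F : ℂ))
    (hF0 : 0 < F) (hFp : F ≤ ps) (hd : 0 ≤ pd) (hlt : pd * ps < F ^ 2) : 0 < KD R := by
  obtain ⟨N, hN1, hN⟩ := num3 ps pd F hF0 hFp hd hlt
  obtain ⟨S, S', _, _, _, _, k, l, V, c, hc, hk, hl, hV, hp0, hp1, hφ⟩ :=
    adv_dist R k₀ l₀ U hU ps pd F h0 h1 hF N
  have hG : hs (copiesOn R (Fin N × ι₀)) = 1 := by
    rw [MAIN_hs_copiesOn, hR, one_pow]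
  have hps : 0 < ps := lt_of_lt_of_le hF0 hFp
  set γ := blkG (copiesOn R (Fin N × ι₀)) k l V with hγ
  set ω : Lab → ZMod 2 → ℝ := fun c b => hs (γ c b) with hω'
  have hB := blk_isBlock (copiesOn R (Fin N × ι₀)) k l hk hl V hV (c * ps ^ N) (c * pd ^ N)
    (c * F ^ N) hp0 hp1 hφ
  obtain ⟨hv1, hv2, hv3, hv4, hv5, hv6⟩ := blk_values (copiesOn R (Fin N × ι₀)) k l V hV
    (c * ps ^ N) (c * pd ^ N) (c * F ^ N) hp0 hp1 hφ
  have hω : IsWeight ω := by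
    refine ⟨fun l k => MAIN_hs_nonneg _, ?_, ?_⟩
    · intro l hl
      rcases l with _ | _ | z
      · exact hv5
      · exact hv6
      · simp [act] at hl
    · exact blk_total (copiesOn R (Fin N × ι₀)) hG k l hk hl V hV (c * ps ^ N) (c * pd ^ N)
        (c * F ^ N) hp0 hp1 hφ
  obtain ⟨hBc, -⟩ := consts_of_values ω hω (c * ps ^ N) (c * pd ^ N) (c * F ^ N) hv1 hv2 hv3 hv4
  have hle : c * ps ^ N + c * pd ^ N ≤ 1 / 2 :=
    (consts3 ω hω (c * ps ^ N) (c * pd ^ N) (c * F ^ N) hv1 hv2 hv3 hv4 1 1 one_pos).2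
  obtain ⟨y, ρ, hy, hy1, hρ, hρ1, hAB⟩ := hN c hc hle
  have hAc' := (consts3 ω hω (c * ps ^ N) (c * pd ^ N) (c * F ^ N) hv1 hv2 hv3 hv4 y ρ hy).1
  have hp0' : 0 < c * ps ^ N := by positivity
  have hp1' : 0 ≤ c * pd ^ N := by positivity
  have hA0 : 0 < Ac2 ω y ρ := by
    rw [hAc']
    have h2 : 1 ≤ (1 + y) ^ ρ := Real.one_le_rpow (by linarith) hρ.le
    have h3 : 1 ≤ (y⁻¹) ^ ρ := Real.one_le_rpow ((one_le_inv₀ hy).2 hy1) hρ.le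
    have h4 : c * pd ^ N ≤ c * pd ^ N * (y⁻¹) ^ ρ := le_mul_of_one_le_right hp1' h3
    have h5 : c * ps ^ N + c * pd ^ N ≤ (1 + y) ^ ρ * (c * ps ^ N + c * pd ^ N * (y⁻¹) ^ ρ) := by
      calc c * ps ^ N + c * pd ^ N ≤ c * ps ^ N + c * pd ^ N * (y⁻¹) ^ ρ := by linarith
        _ ≤ _ := le_mul_of_one_le_left (by positivity) h2
    nlinarith
  have hB0 : 0 ≤ Bc ω := by
    unfold Bc
    exact Finset.sum_nonneg fun l _ => sq_nonneg _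
  have hAB' : Ac2 ω y ρ ^ (1 / ρ) * Bc ω < 1 := by
    rw [hAc', hBc]; exact hAB
  have hB1' : Bc ω < 1 := by
    rw [hBc]
    have h2 : √((c * ps ^ N) ^ 2 - (c * F ^ N) ^ 2) < c * ps ^ N := by
      rw [Real.sqrt_lt' hp0']
      have h3 : 0 < (c * F ^ N) ^ 2 := by positivity
      linarith
    linarith
  have hcard : 1 ≤ Fintype.card (Fin N × ι₀) := by
    simp only [Fintype.card_prod, Fintype.card_fin]
    exact Nat.mul_pos hN1 Fintype.card_pos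
  obtain ⟨ℓ, r, hlim, hpos⟩ := grow3 (Ac2 ω y ρ) (Bc ω) ρ hA0 hB0 hρ hρ1 hAB' hB1'
    (Fintype.card (Fin N × ι₀)) hcard
  have hach : ∀ n, Ach (copies R n) (ℓ n) (4 * √(2 ^ (ℓ n + r n) *
      Bc ω ^ (n / Fintype.card (Fin N × ι₀))) + 2 * ((((2 : ℝ) ^ r n)⁻¹) ^ ρ *
      Ac2 ω y ρ ^ (n / Fintype.card (Fin N × ι₀)))) := by
    intro n
    obtain ⟨ε⟩ := exists_equiv (ι := Fin N × ι₀) n
    have hM := tens_model ε R hR k l γ ω hB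
    exact core_ach3 (copies R n) (tK ε k) (tK ε l) (tK_complete ε k hk) (tK_complete ε l hl) hω hM
      hy hy1 hρ hρ1
  unfold KD
  refine lt_of_lt_of_le hpos ?_
  exact le_iSup_of_le ℓ (le_iSup_of_le _ (le_iSup_of_le hlim (le_iSup_of_le hach le_rfl)))

/-- The general criterion, in terms of the purification. -/
theorem KD_pos_criterion {a b e s s' : Type} [Fintype a] [DecidableEq a] [Fintype b]
    [DecidableEq b] [Fintype e] [DecidableEq e] [Fintype s] [Fintype s'] [DecidableEq s]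
    [DecidableEq s'] (R : Matrix (a × b) e ℂ) (hR : hs R = 1) {n : ℕ} (hn : 1 ≤ n)
    (k : ZMod 2 → Matrix s (Fin n → a) ℂ) (l : ZMod 2 → Matrix s' (Fin n → b) ℂ)
    (U : Matrix (s × s') (s × s') ℂ) (hU : Uᴴ * U = 1)
    (hcrit : (hs ((k 0 ⊗ₖ l 0) * copiesOn R (Fin n)) * hs ((k 1 ⊗ₖ l 1) * copiesOn R (Fin n))) *
      (hs ((k 0 ⊗ₖ l 1) * copiesOn R (Fin n)) * hs ((k 1 ⊗ₖ l 0) * copiesOn R (Fin n))) <
      ‖hsInner ((k 0 ⊗ₖ l 0) * copiesOn R (Fin n))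
        (U * ((k 1 ⊗ₖ l 1) * copiesOn R (Fin n)))‖ ^ 4) : 0 < KD R := by
  haveI : Nonempty (Fin 2 × Fin n) := ⟨(0, ⟨0, hn⟩)⟩
  obtain ⟨k', l', U', hU', h0, h1, hF⟩ := symmetrise (ι₀ := Fin n) R k l U hU
  set f := hsInner ((k 0 ⊗ₖ l 0) * copiesOn R (Fin n))
        (U * ((k 1 ⊗ₖ l 1) * copiesOn R (Fin n))) with hf
  have hA : 0 ≤ hs ((k 0 ⊗ₖ l 1) * copiesOn R (Fin n)) * hs ((k 1 ⊗ₖ l 0) * copiesOn R (Fin n)) :=
    mul_nonneg (MAIN_hs_nonneg _) (MAIN_hs_nonneg _)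
  have hB : 0 ≤ hs ((k 0 ⊗ₖ l 0) * copiesOn R (Fin n)) * hs ((k 1 ⊗ₖ l 1) * copiesOn R (Fin n)) :=
    mul_nonneg (MAIN_hs_nonneg _) (MAIN_hs_nonneg _)
  have hf0 : f ≠ 0 := by
    intro h
    rw [h, norm_zero] at hcrit
    have : (0 : ℝ) ^ 4 = 0 := by norm_num
    rw [this] at hcrit
    exact absurd hcrit (not_lt.2 (mul_nonneg hB hA))
  refine KD_pos_sym R hR k' l' U' hU' _ _ (‖f‖ ^ 2) h0 h1 hF ?_ ?_ hA ?_
  · positivity
  · exact hsInner_le _ _ U hU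
  · rw [mul_comm]
    calc _ < ‖f‖ ^ 4 := hcrit
      _ = (‖f‖ ^ 2) ^ 2 := by ring

end Vale.Agent.P372Q
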