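import Vale.Agent.P372Q.Main3
import Vale.Agent.P372Q.Defs4

open Matrix Finset Filter Topology
open scoped Kronecker ComplexOrder BigOperators

namespace Vale.Agent.P372Q

theorem hsInner_eq_trace {I E : Type} [Fintype I] [Fintype E] (G H : Matrix I E ℂ) :
    hsInner G H = (Gᴴ * H).trace := by
  simp only [hsInner, Matrix.trace, Matrix.diag, Matrix.mul_apply, Matrix.conjTranspose_apply]
  rw [Finset.sum_comm]

theorem copies_mul_conj {a b e : Type} [Fintype e] (R : Matrix (a × b) e ℂ) (n : ℕ) :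
    copiesOn R (Fin n) * (copiesOn R (Fin n))ᴴ = pw (R * Rᴴ) n := by
  ext p q
  simp only [Matrix.mul_apply, Matrix.conjTranspose_apply, copiesOn, Matrix.of_apply, pw]
  rw [Finset.prod_univ_sum, Fintype.piFinset_univ]
  refine Finset.sum_congr rfl fun v _ => ?_
  rw [star_prod, ← Finset.prod_mul_distrib]

theorem hs_eq_trace {I J E : Type} [Fintype I] [Fintype J] [Fintype E] (X : Matrix I J ℂ)
    (C : Matrix J E ℂ) : hs (X * C) = ((X * (C * Cᴴ) * Xᴴ).trace).re := by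
  have h1 : ((hs (X * C) : ℝ) : ℂ) = (X * (C * Cᴴ) * Xᴴ).trace := by
    rw [← hs_eq_hsInner, hsInner_eq_trace, Matrix.conjTranspose_mul, Matrix.trace_mul_comm]
    simp only [Matrix.mul_assoc]
  rw [← h1, Complex.ofReal_re]

theorem hsInner_eq_trace2 {I J E : Type} [Fintype I] [Fintype J] [Fintype E] (X Y : Matrix I J ℂ)
    (U : Matrix I I ℂ) (C : Matrix J E ℂ) :
    hsInner (X * C) (U * (Y * C)) = (U * Y * (C * Cᴴ) * Xᴴ).trace := by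
  rw [hsInner_eq_trace, Matrix.conjTranspose_mul, Matrix.trace_mul_comm]
  simp only [Matrix.mul_assoc]

/-- General criterion in terms of the state. -/
theorem KD_criterion {a b e s s' : Type} [Fintype a] [DecidableEq a] [Fintype b]
    [DecidableEq b] [Fintype e] [DecidableEq e] [Fintype s] [Fintype s'] [DecidableEq s]
    [DecidableEq s'] (ρ : Matrix (a × b) (a × b) ℂ) (hρ : ρ.trace = 1) {n : ℕ} (hn : 1 ≤ n)
    (K : ZMod 2 → Matrix s (Fin n → a) ℂ) (L : ZMod 2 → Matrix s' (Fin n → b) ℂ)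
    (U : Matrix (s × s') (s × s') ℂ) (hU : Uᴴ * U = 1)
    (hcrit : (((K 0 ⊗ₖ L 0) * pw ρ n * (K 0 ⊗ₖ L 0)ᴴ).trace.re *
        ((K 1 ⊗ₖ L 1) * pw ρ n * (K 1 ⊗ₖ L 1)ᴴ).trace.re) *
      (((K 0 ⊗ₖ L 1) * pw ρ n * (K 0 ⊗ₖ L 1)ᴴ).trace.re *
        ((K 1 ⊗ₖ L 0) * pw ρ n * (K 1 ⊗ₖ L 0)ᴴ).trace.re) <
      ‖(U * (K 1 ⊗ₖ L 1) * pw ρ n * (K 0 ⊗ₖ L 0)ᴴ).trace‖ ^ 4)
    (R : Matrix (a × b) e ℂ) (hR : R * Rᴴ = ρ) : 0 < KD R := by
  have h1 : hs R = 1 := by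
    have h2 : ((hs R : ℝ) : ℂ) = 1 := by
      rw [← hs_eq_hsInner, hsInner_eq_trace, Matrix.trace_mul_comm, hR, hρ]
    exact_mod_cast h2
  subst hR
  refine KD_pos_criterion R h1 hn K L U hU ?_
  simp only [hs_eq_trace, hsInner_eq_trace2, copies_mul_conj]
  exact hcrit

/-- Three-cycle criterion. -/
theorem KD_three {a b e : Type} [Fintype a] [DecidableEq a] [Fintype b]
    [DecidableEq b] [Fintype e] [DecidableEq e] (ρ : Matrix (a × b) (a × b) ℂ)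
    (hρ : ρ.trace = 1) (VA : Matrix (Fin 3) a ℂ) (VB : Matrix (Fin 3) b ℂ)
    (n : Fin 3 → Fin 3 → ℝ) (hn : ∀ i j, i ≠ j → 0 ≤ n i j)
    (hV : (VA ⊗ₖ VB) * ρ * (VA ⊗ₖ VB)ᴴ = famC (fun _ => 1) n)
    (hcyc : n 1 0 * n 2 1 * n 0 2 < 1) (R : Matrix (a × b) e ℂ) (hR : R * Rᴴ = ρ) :
    0 < KD R := by
  have h1 : hs R = 1 := by
    have h2 : ((hs R : ℝ) : ℂ) = 1 := by
      rw [← hs_eq_hsInner, hsInner_eq_trace, Matrix.trace_mul_comm, hR, hρ]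
    exact_mod_cast h2
  subst hR
  obtain ⟨x, t, s, hx, ht0, ht1, hs0, e10, e21, e02, e20⟩ := choice1 n hn hcyc
  obtain ⟨n₀, v, μ, h, hn₀, hv, hh, hμ, hle⟩ := choice2 hs0 ht0 ht1
  set X : Fin 3 → ℝ := fun i => x i ^ n₀ with hX
  set Y : Fin 3 → ℝ := fun i => (x i)⁻¹ ^ n₀ with hY
  set m : Fin 3 → Fin 3 → ℝ := fun i j => n i j ^ n₀ * X i ^ 2 * Y j ^ 2 with hm
  set DX : Matrix (Fin 3) (Fin 3) ℂ := Matrix.diagonal fun i => (X i : ℂ) with hDX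
  set DY : Matrix (Fin 3) (Fin 3) ℂ := Matrix.diagonal fun i => (Y i : ℂ) with hDY
  have hfilt : (DX ⊗ₖ DY) * schur (famC (fun _ => 1) n) n₀ * (DX ⊗ₖ DY)ᴴ = famC (fun _ => 1) m := by
    rw [schur_famC _ _ hn₀, famC_filter]
    have hc1 : (fun i => X i * (1 : ℝ) ^ n₀ * Y i) = fun _ => (1 : ℝ) := by
      funext i
      simp only [hX, hY, one_pow, mul_one]
      rw [← mul_pow, mul_inv_cancel₀ (hx i).ne', one_pow]
    rw [hc1]
  have key : ∀ (i j i' j' : ZMod 2) (W : Matrix (Fin 2 × Fin 2) (Fin 2 × Fin 2) ℂ),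
      hsInner (((KA v μ i * DX * powK n₀ VA) ⊗ₖ (KB v μ j * DY * powK n₀ VB)) *
          copiesOn R (Fin n₀))
        (W * (((KA v μ i' * DX * powK n₀ VA) ⊗ₖ (KB v μ j' * DY * powK n₀ VB)) *
          copiesOn R (Fin n₀))) =
      ((KA v μ i ⊗ₖ KB v μ j)ᴴ * W * (KA v μ i' ⊗ₖ KB v μ j') * famC (fun _ => 1) m).trace := by
    intro i j i' j' W
    rw [hsInner_powK, hV, ← hfilt]
    have h3 : ∀ (p q : ZMod 2), (KA v μ p * DX) ⊗ₖ (KB v μ q * DY) =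
        (KA v μ p ⊗ₖ KB v μ q) * (DX ⊗ₖ DY) := by
      intro p q
      rw [Matrix.mul_kronecker_mul]
    rw [h3, h3, Matrix.conjTranspose_mul]
    have h4 : (DX ⊗ₖ DY)ᴴ * (KA v μ i ⊗ₖ KB v μ j)ᴴ * W * ((KA v μ i' ⊗ₖ KB v μ j') * (DX ⊗ₖ DY)) *
        schur (famC (fun _ => 1) n) n₀ = (DX ⊗ₖ DY)ᴴ * ((KA v μ i ⊗ₖ KB v μ j)ᴴ * W *
          (KA v μ i' ⊗ₖ KB v μ j') * ((DX ⊗ₖ DY) * schur (famC (fun _ => 1) n) n₀)) := by
      simp only [Matrix.mul_assoc]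
    rw [h4, Matrix.trace_mul_comm]
    simp only [Matrix.mul_assoc]
  have hsk : ∀ (i j : ZMod 2), ((hs (((KA v μ i * DX * powK n₀ VA) ⊗ₖ
      (KB v μ j * DY * powK n₀ VB)) * copiesOn R (Fin n₀)) : ℝ) : ℂ) =
      ((KA v μ i ⊗ₖ KB v μ j)ᴴ * (1 : Matrix (Fin 2 × Fin 2) (Fin 2 × Fin 2) ℂ) *
        (KA v μ i ⊗ₖ KB v μ j) * famC (fun _ => 1) m).trace := by
    intro i j
    rw [← key, ← hs_eq_hsInner, Matrix.one_mul]
  have hm0 : ∀ i j, i ≠ j → 0 ≤ m i j := by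
    intro i j hij
    simp only [hm]
    have := hn i j hij
    positivity
  have hpow : ∀ (i j : Fin 3) (z : ℝ), i ≠ j → n i j * x i ^ 2 * (x j)⁻¹ ^ 2 ≤ z →
      m i j ≤ z ^ n₀ := by
    intro i j z hij hz
    have h5 : m i j = (n i j * x i ^ 2 * (x j)⁻¹ ^ 2) ^ n₀ := by
      simp only [hm, hX, hY]
      ring
    rw [h5]
    exact pow_le_pow_left₀ (mul_nonneg (mul_nonneg (hn i j hij) (sq_nonneg _)) (sq_nonneg _)) hz _
  have m10 := hpow 1 0 t (by decide) e10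
  have m21 := hpow 2 1 t (by decide) e21
  have m02 := hpow 0 2 t (by decide) e02
  have m20 := hpow 2 0 s (by decide) e20
  have hineq : 8 * (m 2 0 * v ^ 4 + m 0 2) / (h ^ 2 + 4) + 2 * μ ^ 2 * v ^ 2 * (m 1 0 + m 2 1) ≤
      v ^ 2 / 2 := by
    refine le_trans ?_ hle
    have h6 : 0 < h ^ 2 + 4 := by positivity
    have h7 : m 2 0 * v ^ 4 + m 0 2 ≤ s ^ n₀ * v ^ 4 + t ^ n₀ :=
      add_le_add (mul_le_mul_of_nonneg_right m20 (by positivity)) m02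
    have h8 : 0 ≤ 2 * μ ^ 2 * v ^ 2 := by positivity
    gcongr
  obtain ⟨hF0, hFp, hd, hlt⟩ := num_fam v μ h hv hμ m hm0 hineq _ _ _ rfl rfl rfl
  refine KD_pos_of_base R h1 hn₀ (fun i => KA v μ i * DX * powK n₀ VA)
    (fun j => KB v μ j * DY * powK n₀ VB) (UU h) (UU_isometry h) (4 * v ^ 2 + μ ^ 4 + Nn v μ m)
    (μ ^ 4 + Nn v μ m) _ ?_ ?_ ?_ hF0 hFp hd hlt
  · intro i
    have := hsk i i
    rw [trace_same3] at this
    exact_mod_cast this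
  · intro i
    have := hsk i (i + 1)
    rw [trace_diff3] at this
    exact_mod_cast this
  · rw [key, trace_overlap3 v μ h hμ]

end Vale.Agent.P372Q
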