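import Vale.Agent.P372Q.Main4

open Matrix Finset Filter Topology
open scoped Kronecker ComplexOrder BigOperators

namespace Vale.Agent.P372Q

theorem famC_sep (c : Fin 3 → ℝ) (hc : ∀ i, 0 < c i) (n : Fin 3 → Fin 3 → ℝ)
    (hn : ∀ i j, i ≠ j → 0 ≤ n i j) (h : Cyc c n) : IsSeparable (famC c n) := by
  obtain ⟨h01, h12, h02, h3, h3'⟩ := h
  obtain ⟨x, hx, hx1⟩ := exists_potential c hc n hn h01 h12 h02 h3 h3'
  set m : Fin 3 → Fin 3 → ℝ := fun i j => n i j * x i ^ 2 * ((x j * c j)⁻¹) ^ 2 with hm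
  have h1 : IsSeparable (famC (fun _ => 1) m) := famC_one_separable m fun i j hij => hx1 i j hij
  have h2 := h1.filter (Matrix.diagonal fun i => (((x i)⁻¹ : ℝ) : ℂ))
    (Matrix.diagonal fun i => ((x i * c i : ℝ) : ℂ))
  rw [famC_filter (fun _ => 1) m (fun i => (x i)⁻¹) (fun i => x i * c i)] at h2
  have h4 : (fun i => (x i)⁻¹ * 1 * (x i * c i)) = c := by
    funext i
    have := (hx i).ne'
    field_simp
  have h5 : famC (fun i => (x i)⁻¹ * 1 * (x i * c i))
      (fun i j => m i j * (x i)⁻¹ ^ 2 * (x j * c j) ^ 2) = famC c n := by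
    rw [h4]
    have h6 : (fun i j => m i j * (x i)⁻¹ ^ 2 * (x j * c j) ^ 2) = n := by
      funext i j
      have e1 := (hx i).ne'
      have e2 := (hx j).ne'
      have e3 := (hc j).ne'
      simp only [hm]
      field_simp
    rw [h6]
  rw [h5] at h2
  exact h2

theorem famC_perm (c : Fin 3 → ℝ) (hc : ∀ i, 0 < c i) (n : Fin 3 → Fin 3 → ℝ)
    (π : Equiv.Perm (Fin 3)) :
    ∃ VA VB : Matrix (Fin 3) (Fin 3) ℂ, (VA ⊗ₖ VB) * famC c n * (VA ⊗ₖ VB)ᴴ =
      famC (fun _ => 1) (fun i j => n (π i) (π j) * (c (π i))⁻¹ ^ 2) := by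
  refine ⟨(Matrix.diagonal fun i => (((c i)⁻¹ : ℝ) : ℂ)).submatrix π id,
    (Matrix.diagonal fun _ => ((1 : ℝ) : ℂ)).submatrix π id, ?_⟩
  have h1 := famC_filter c n (fun i => (c i)⁻¹) (fun _ => 1)
  have h2 : ((Matrix.diagonal fun i => (((c i)⁻¹ : ℝ) : ℂ)).submatrix π id ⊗ₖ
      (Matrix.diagonal fun _ => ((1 : ℝ) : ℂ)).submatrix π id) * famC c n *
      ((Matrix.diagonal fun i => (((c i)⁻¹ : ℝ) : ℂ)).submatrix π id ⊗ₖ
      (Matrix.diagonal fun _ => ((1 : ℝ) : ℂ)).submatrix π id)ᴴ =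
      ((((Matrix.diagonal fun i => (((c i)⁻¹ : ℝ) : ℂ)) : Matrix (Fin 3) (Fin 3) ℂ) ⊗ₖ
        ((Matrix.diagonal fun _ => ((1 : ℝ) : ℂ)) : Matrix (Fin 3) (Fin 3) ℂ)) * famC c n *
      (((Matrix.diagonal fun i => (((c i)⁻¹ : ℝ) : ℂ)) : Matrix (Fin 3) (Fin 3) ℂ) ⊗ₖ
        ((Matrix.diagonal fun _ => ((1 : ℝ) : ℂ)) : Matrix (Fin 3) (Fin 3) ℂ))ᴴ).submatrix
        (Prod.map π π) (Prod.map π π) := by
    ext p q
    rfl
  rw [h2, h1]
  ext p q
  obtain ⟨i, j⟩ := p
  obtain ⟨k, l⟩ := q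
  have hci := (hc (π i)).ne'
  have hck := (hc (π k)).ne'
  simp only [Matrix.submatrix_apply, famC, Matrix.of_apply, Prod.map_apply, Prod.mk.injEq,
    π.injective.eq_iff, mul_one, one_pow, ne_eq]
  congr 1
  congr 1
  · by_cases h : i = j ∧ k = l
    · rw [if_pos h, if_pos h]
      field_simp
    · rw [if_neg h, if_neg h]

/-- Two-cycles. -/
theorem KD_two {e : Type} [Fintype e] [DecidableEq e] (c : Fin 3 → ℝ) (n : Fin 3 → Fin 3 → ℝ)
    (htr : (famC c n).trace = 1) (i j : Fin 3) (hij : i ≠ j)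
    (hlt : n i j * n j i < (c i * c j) ^ 2) (hc : 0 < c i * c j)
    (R : Matrix (Fin 3 × Fin 3) e ℂ) (hR : R * Rᴴ = famC c n) : 0 < KD R := by
  set f : ZMod 2 → Fin 3 := fun x => if x = 0 then i else j with hf
  set K : ZMod 2 → Matrix (Fin 1) (Fin 1 → Fin 3) ℂ :=
    fun x => Matrix.of fun _ v => if v = (fun _ => f x) then 1 else 0 with hK
  have hent : ∀ x y x' y' : ZMod 2,
      ((1 : Matrix (Fin 1 × Fin 1) (Fin 1 × Fin 1) ℂ) * (K x ⊗ₖ K y) * pw (famC c n) 1 *
        (K x' ⊗ₖ K y')ᴴ).trace =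
        famC c n (f x, f y) (f x', f y') := by
    intro x y x' y'
    simp only [Matrix.trace, Matrix.diag, Matrix.mul_apply, Matrix.conjTranspose_apply, hK,
      Matrix.kroneckerMap_apply, Matrix.of_apply, pw, Matrix.one_mul, Fintype.sum_prod_type,
      Finset.univ_unique, Fin.default_eq_zero, Finset.prod_singleton, Finset.sum_singleton]
    simp only [Fintype.sum_prod_type, apply_ite (star : ℂ → ℂ), star_one, star_zero, mul_ite,
      ite_mul, mul_one, mul_zero, one_mul, zero_mul, Finset.sum_ite_eq, Finset.sum_ite_eq',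
      Finset.mem_univ, if_true, Finset.sum_const_zero, Finset.sum_ite_irrel]
  have h11 : ∀ x y : ZMod 2, ((K x ⊗ₖ K y) * pw (famC c n) 1 * (K x ⊗ₖ K y)ᴴ).trace =
      famC c n (f x, f y) (f x, f y) := by
    intro x y
    have := hent x y x y
    rwa [Matrix.one_mul] at this
  refine KD_criterion (famC c n) htr (le_refl 1) K K 1 (by simp) ?_ R hR
  rw [h11, h11, h11, h11, hent]
  have hji : ¬ j = i := fun h => hij h.symm
  simp only [famC, Matrix.of_apply, hf, if_true, one_ne_zero, if_false, and_self, ne_eq,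
    not_true_eq_false, and_false, hij, hji, not_false_eq_true, and_true, Complex.ofReal_re,
    Complex.norm_real, Real.norm_eq_abs, add_zero, zero_add]
  have h1 : |c j * c i| ^ 4 = (c i * c j) ^ 2 * (c i * c j) ^ 2 := by
    have h2 : |c j * c i| ^ 4 = (|c j * c i| ^ 2) ^ 2 := by ring
    rw [h2, sq_abs]
    ring
  rw [h1]
  have h3 : 0 < (c i * c j) ^ 2 := by positivity
  nlinarith [mul_lt_mul_of_pos_left hlt h3]

/-- Outside the cycle conditions the key is positive. -/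
theorem KD_dich {e : Type} [Fintype e] [DecidableEq e] (c : Fin 3 → ℝ) (hc : ∀ i, 0 < c i)
    (n : Fin 3 → Fin 3 → ℝ) (hn : ∀ i j, i ≠ j → 0 ≤ n i j) (htr : (famC c n).trace = 1)
    (hcyc : ¬ Cyc c n) (R : Matrix (Fin 3 × Fin 3) e ℂ) (hR : R * Rᴴ = famC c n) : 0 < KD R := by
  have h0 := hc 0
  have h1 := hc 1
  have h2 := hc 2
  have three : ∀ π : Equiv.Perm (Fin 3),
      n (π 1) (π 0) * n (π 2) (π 1) * n (π 0) (π 2) < (c (π 0) * c (π 1) * c (π 2)) ^ 2 →
      0 < KD R := by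
    intro π hlt
    obtain ⟨VA, VB, hV⟩ := famC_perm c hc n π
    refine KD_three (famC c n) htr VA VB _ ?_ hV ?_ R hR
    · intro i j hij
      have := hn (π i) (π j) (fun h => hij (π.injective h))
      positivity
    · have e0 := hc (π 0)
      have e1 := hc (π 1)
      have e2 := hc (π 2)
      have e3 : n (π 1) (π 0) * (c (π 1))⁻¹ ^ 2 * (n (π 2) (π 1) * (c (π 2))⁻¹ ^ 2) *
          (n (π 0) (π 2) * (c (π 0))⁻¹ ^ 2) =
          (n (π 1) (π 0) * n (π 2) (π 1) * n (π 0) (π 2)) / (c (π 0) * c (π 1) * c (π 2)) ^ 2 := by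
        field_simp
      rw [e3, div_lt_one (by positivity)]
      exact hlt
  unfold Cyc at hcyc
  by_contra hno
  apply hcyc
  refine ⟨?_, ?_, ?_, ?_, ?_⟩
  · by_contra h
    exact hno (KD_two c n htr 0 1 (by decide) (not_le.1 h) (by positivity) R hR)
  · by_contra h
    exact hno (KD_two c n htr 1 2 (by decide) (not_le.1 h) (by positivity) R hR)
  · by_contra h
    exact hno (KD_two c n htr 0 2 (by decide) (not_le.1 h) (by positivity) R hR)
  · by_contra h
    exact hno (three 1 (by simpa using not_le.1 h))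
  · by_contra h
    refine hno (three (Equiv.swap 0 2) ?_)
    have e0 : (Equiv.swap (0 : Fin 3) 2) 0 = 2 := by decide
    have e1 : (Equiv.swap (0 : Fin 3) 2) 1 = 1 := by decide
    have e2 : (Equiv.swap (0 : Fin 3) 2) 2 = 0 := by decide
    rw [e0, e1, e2]
    have := not_le.1 h
    nlinarith [this]

/-- `famC c n` is positive semidefinite. -/
theorem famC_psd (c : Fin 3 → ℝ) (n : Fin 3 → Fin 3 → ℝ) (hn : ∀ i j, i ≠ j → 0 ≤ n i j) :
    (famC c n).PosSemidef := by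
  have h1 : famC c n = Matrix.vecMulVec
      (fun p : Fin 3 × Fin 3 => if p.1 = p.2 then (c p.1 : ℂ) else 0)
      (star fun p : Fin 3 × Fin 3 => if p.1 = p.2 then (c p.1 : ℂ) else 0) +
      Matrix.diagonal (fun p : Fin 3 × Fin 3 => if p.1 = p.2 then 0 else (n p.1 p.2 : ℂ)) := by
    ext p q
    simp only [famC, Matrix.of_apply, Matrix.add_apply, Matrix.vecMulVec_apply, Pi.star_apply,
      Matrix.diagonal_apply]
    by_cases h2 : p.1 = p.2 <;> by_cases h3 : q.1 = q.2 <;> by_cases h4 : p = q <;>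
      simp_all
  rw [h1]
  refine (Matrix.posSemidef_vecMulVec_self_star _).add (Matrix.PosSemidef.diagonal ?_)
  intro p
  by_cases h2 : p.1 = p.2
  · simp [h2]
  · simp only [h2, if_false, Pi.zero_apply]
    exact_mod_cast hn _ _ h2

end Vale.Agent.P372Q
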