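import Vale.Agent.P372Q.Main5
import Vale.Agent.P372Q.Cv
import Vale.Agent.P372Q.Cp

open Matrix Finset Filter Topology
open scoped Kronecker ComplexOrder BigOperators

namespace Vale.Agent.P372Q

theorem M6_norm_trace_le {E : Type} [Fintype E] [DecidableEq E] (X : Matrix E E ℂ) :
    ‖X.trace‖ ≤ traceNorm X := by
  have h1 : IsContr (1 : Matrix E E ℂ) := by
    unfold IsContr
    rw [Matrix.conjTranspose_one, Matrix.one_mul, sub_self]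
    exact Matrix.PosSemidef.zero
  have h2 := trace_le_traceNorm h1 X
  rwa [Matrix.one_mul] at h2

theorem M6_traceNorm_nonneg {E : Type} [Fintype E] [DecidableEq E] (X : Matrix E E ℂ) :
    0 ≤ traceNorm X := Finset.sum_nonneg fun _ _ => Real.sqrt_nonneg _

theorem M6_triangle {E : Type} [Fintype E] [DecidableEq E] (X Y Z : Matrix E E ℂ) :
    traceNorm (X - Y) ≤ traceNorm (X - Z) + traceNorm (Y - Z) := by
  obtain ⟨C, hC, h⟩ := traceNorm_dual (X - Y)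
  have h1 : C * (X - Y) = C * (X - Z) - C * (Y - Z) := by
    rw [← Matrix.mul_sub]
    congr 1
    abel
  have h2 : traceNorm (X - Y) = ‖(C * (X - Y)).trace‖ := by
    rw [h, Complex.norm_real, Real.norm_of_nonneg (M6_traceNorm_nonneg _)]
  rw [h2, h1, Matrix.trace_sub]
  exact (norm_sub_le _ _).trans (add_le_add (trace_le_traceNorm hC _) (trace_le_traceNorm hC _))

theorem M6_trace_dist {E : Type} [Fintype E] [DecidableEq E] {I : Type} [Fintype I]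
    (X : Matrix I E ℂ) (σ : Matrix E E ℂ) (ℓ : ℕ) :
    |hs X - σ.trace.re / 2 ^ ℓ| ≤ traceNorm (eveState X - ((2 : ℂ) ^ ℓ)⁻¹ • σ) := by
  refine le_trans ?_ (M6_norm_trace_le _)
  have h1 : hs X - σ.trace.re / 2 ^ ℓ = ((eveState X - ((2 : ℂ) ^ ℓ)⁻¹ • σ).trace).re := by
    rw [Matrix.trace_sub, (eveState_psd X).2, Matrix.trace_smul, Complex.sub_re, Complex.ofReal_re]
    congr 1
    have h2 : ((2 : ℂ) ^ ℓ)⁻¹ = (((2 ^ ℓ : ℝ)⁻¹ : ℝ) : ℂ) := by push_cast; rfl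
    rw [h2, smul_eq_mul, Complex.re_ofReal_mul, div_eq_inv_mul]
  rw [h1]
  exact Complex.abs_re_le_norm _

theorem M6_trace_zero {E : Type} [Fintype E] [DecidableEq E] {I : Type} [Fintype I]
    (X : Matrix I E ℂ) : hs X ≤ traceNorm (eveState X - 0) := by
  have h1 := M6_norm_trace_le (eveState X - 0)
  rw [sub_zero, (eveState_psd X).2, Complex.norm_real] at h1
  rw [sub_zero]
  exact (le_abs_self _).trans h1

theorem M6_quad {a u : ℝ} (ha : 0 < a) :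
    0 < 3 / 5 * a ^ 2 - 13 / 10 * (a * u) + 3 / 4 * u ^ 2 := by
  have h1 : 3 / 5 * a ^ 2 - 13 / 10 * (a * u) + 3 / 4 * u ^ 2 =
      3 / 4 * (u - 13 / 15 * a) ^ 2 + 11 / 300 * a ^ 2 := by ring
  rw [h1]
  positivity

theorem M6_alg {a u S w : ℝ} (ha : 0 < a) (hu1 : u ≤ 4 / 5 * a) (hS0 : 0 < S)
    (hS1 : a - u / 2 ≤ S) (hw1 : w ≤ (4 / 5 * a - u) / 2) : S * w < (S - u / 2) ^ 2 := by
  have k1 : S * w ≤ S * ((4 / 5 * a - u) / 2) := mul_le_mul_of_nonneg_left hw1 hS0.le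
  obtain ⟨r, hr⟩ : ∃ r, r = S - (a - u / 2) := ⟨_, rfl⟩
  have hr0 : 0 ≤ r := by linarith
  have k2 : (S - u / 2) ^ 2 - S * ((4 / 5 * a - u) / 2) =
      (3 / 5 * a ^ 2 - 13 / 10 * (a * u) + 3 / 4 * u ^ 2) + r * (8 / 5 * a - 3 / 2 * u) + r ^ 2 := by
    rw [hr]
    ring
  have k3 : 0 ≤ r * (8 / 5 * a - 3 / 2 * u) := mul_nonneg hr0 (by linarith)
  have k4 := M6_quad (a := a) (u := u) ha
  have k5 := sq_nonneg r
  linarith

theorem M6_amgm (x y : ℝ) : x * y ≤ ((x + y) / 2) ^ 2 := by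
  have h : ((x + y) / 2) ^ 2 - x * y = ((x - y) / 2) ^ 2 := by ring
  have := sq_nonneg ((x - y) / 2)
  linarith

/-- Numerical end of the proof of the converse. -/
theorem M6_num {a ε p00 p11 p01 p10 d00 d11 d01 d10 T v : ℝ} (ha : 0 < a) (hε : ε ≤ 1 / 5)
    (h00 : 0 ≤ p00) (h11 : 0 ≤ p11) (h01 : 0 ≤ p01) (h10 : 0 ≤ p10)
    (e00 : |p00 - a| ≤ d00) (e11 : |p11 - a| ≤ d11) (e01 : p01 ≤ d01) (e10 : p10 ≤ d10)
    (hT : T ≤ d00 + d11) (hd : d00 + d11 + d01 + d10 ≤ 4 * (ε * a))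
    (hv : (p00 + p11 - T) / 2 ≤ v) : (p00 * p11) * (p01 * p10) < v ^ 4 := by
  have f00 := abs_le.1 e00
  have f11 := abs_le.1 e11
  have g00 : 0 ≤ d00 := (abs_nonneg _).trans e00
  have g11 : 0 ≤ d11 := (abs_nonneg _).trans e11
  have g01 : 0 ≤ d01 := h01.trans e01
  have g10 : 0 ≤ d10 := h10.trans e10
  have hεa : 4 * (ε * a) ≤ 4 / 5 * a := by
    have := mul_le_mul_of_nonneg_right hε ha.le
    linarith
  obtain ⟨S, hS⟩ : ∃ S, S = (p00 + p11) / 2 := ⟨_, rfl⟩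
  obtain ⟨u, hu⟩ : ∃ u, u = d00 + d11 := ⟨_, rfl⟩
  obtain ⟨w, hw⟩ : ∃ w, w = (p01 + p10) / 2 := ⟨_, rfl⟩
  have hu0 : 0 ≤ u := by linarith
  have hu1 : u ≤ 4 / 5 * a := by linarith
  have hw0 : 0 ≤ w := by linarith
  have hw1 : w ≤ (4 / 5 * a - u) / 2 := by linarith
  have hS1 : a - u / 2 ≤ S := by linarith [f00.1, f11.1]
  have hS0 : 0 < S := by linarith
  have hv1 : S - u / 2 ≤ v := by linarith
  have hSu : 0 < S - u / 2 := by linarith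
  have m1 : p00 * p11 ≤ S ^ 2 := by
    rw [hS]
    exact M6_amgm _ _
  have m2 : p01 * p10 ≤ w ^ 2 := by
    rw [hw]
    exact M6_amgm _ _
  have m3 : (p00 * p11) * (p01 * p10) ≤ (S * w) ^ 2 := by
    rw [mul_pow]
    exact mul_le_mul m1 m2 (mul_nonneg h01 h10) (sq_nonneg _)
  have m4 : S * w < (S - u / 2) ^ 2 := M6_alg ha hu1 hS0 hS1 hw1
  have m5 : (S * w) ^ 2 < ((S - u / 2) ^ 2) ^ 2 :=
    pow_lt_pow_left₀ m4 (mul_nonneg hS0.le hw0) (by norm_num)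
  have m6 : ((S - u / 2) ^ 2) ^ 2 ≤ v ^ 4 := by
    rw [← pow_mul]
    exact pow_le_pow_left₀ hSu.le hv1 4
  exact m3.trans_lt (m5.trans_le m6)

theorem ach_converse {A B E : Type} [Fintype A] [Fintype B] [Fintype E] [DecidableEq A]
    [DecidableEq B] [DecidableEq E] (G : Matrix (A × B) E ℂ) {ℓ : ℕ} (hℓ : 1 ≤ ℓ) {ε : ℝ}
    (hε : ε ≤ 1 / 5) (h : Ach G ℓ ε) :
    ∃ (s s' : Type) (_ : Fintype s) (_ : DecidableEq s) (_ : Fintype s') (_ : DecidableEq s')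
      (K : ZMod 2 → Matrix s A ℂ) (L : ZMod 2 → Matrix s' B ℂ) (U : Matrix (s × s') (s × s') ℂ),
      Uᴴ * U = 1 ∧
      (hs ((K 0 ⊗ₖ L 0) * G) * hs ((K 1 ⊗ₖ L 1) * G)) *
        (hs ((K 0 ⊗ₖ L 1) * G) * hs ((K 1 ⊗ₖ L 0) * G)) <
        ‖hsInner ((K 0 ⊗ₖ L 0) * G) (U * ((K 1 ⊗ₖ L 1) * G))‖ ^ 4 := by
  obtain ⟨p, σ, hσ, hσ1, hf⟩ := h
  have hg0 : ∀ t, 0 ≤ (σ t).trace.re := fun t => (Complex.nonneg_iff.1 (hσ t).trace_nonneg).1
  obtain ⟨t, hgt, hft⟩ := exists_transcript p _ (fun t => (σ t).trace.re) ε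
    (fun t => Finset.sum_nonneg fun x _ => Finset.sum_nonneg fun y _ =>
      M6_traceNorm_nonneg (p.eve G t x y - if x = y then ((2 : ℂ) ^ ℓ)⁻¹ • σ t else 0)) hg0 hσ1 hf
  obtain ⟨x, y, hxy, hd⟩ := exists_pair hℓ
    (fun x y => traceNorm (p.eve G t x y - if x = y then ((2 : ℂ) ^ ℓ)⁻¹ • σ t else 0))
    (fun x y => M6_traceNorm_nonneg _) _ hft
  obtain ⟨s, s', _, _, _, _, K, L, hKL⟩ := eve_eq_eveState p t
  simp only [if_pos, if_neg hxy, if_neg hxy.symm, hKL] at hd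
  obtain ⟨C, hC, hCv⟩ := exists_overlap ((K x ⊗ₖ L x) * G) ((K y ⊗ₖ L y) * G)
  obtain ⟨U, hU, hU2⟩ := exists_dilation hC
  refine ⟨s ⊕ s, s', inferInstance, inferInstance, inferInstance, inferInstance,
    fun i => pad (K (if i = 0 then x else y)), fun i => L (if i = 0 then x else y), U, hU, ?_⟩
  have h10 : (1 : ZMod 2) ≠ 0 := by decide
  simp only [if_pos, if_neg h10]
  rw [(pad_overlap G (K x) (K x) (L x) (L x) C U hU2).2,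
    (pad_overlap G (K y) (K y) (L y) (L y) C U hU2).2,
    (pad_overlap G (K x) (K x) (L y) (L y) C U hU2).2,
    (pad_overlap G (K y) (K y) (L x) (L x) C U hU2).2,
    (pad_overlap G (K x) (K y) (L x) (L y) C U hU2).1]
  have ha : 0 < (σ t).trace.re / 2 ^ ℓ := by positivity
  have hv : (hsInner ((K x ⊗ₖ L x) * G) (C * ((K y ⊗ₖ L y) * G))).re ≤
      ‖hsInner ((K x ⊗ₖ L x) * G) (C * ((K y ⊗ₖ L y) * G))‖ := Complex.re_le_norm _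
  refine M6_num ha hε (MAIN_hs_nonneg _) (MAIN_hs_nonneg _) (MAIN_hs_nonneg _) (MAIN_hs_nonneg _)
    (M6_trace_dist _ (σ t) ℓ) (M6_trace_dist _ (σ t) ℓ) (M6_trace_zero _) (M6_trace_zero _)
    (M6_triangle _ _ (((2 : ℂ) ^ ℓ)⁻¹ • σ t)) ?_ (hCv.trans hv)
  have h3 : ε * ((σ t).trace.re / 2 ^ ℓ) = ε * (σ t).trace.re / 2 ^ ℓ := by ring
  rw [h3]
  exact hd

/-- K_D > 0 gives one good protocol. -/
theorem KD_ach {a b e : Type} [Fintype e] [DecidableEq e] (R : Matrix (a × b) e ℂ)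
    (h : 0 < KD R) {δ : ℝ} (hδ : 0 < δ) :
    ∃ n : ℕ, 1 ≤ n ∧ ∃ ℓ : ℕ, 1 ≤ ℓ ∧ Ach (copies R n) ℓ δ := by
  unfold KD at h
  obtain ⟨ℓ, h⟩ := lt_iSup_iff.1 h
  obtain ⟨ε, h⟩ := lt_iSup_iff.1 h
  obtain ⟨hε, h⟩ := lt_iSup_iff.1 h
  obtain ⟨hA, h⟩ := lt_iSup_iff.1 h
  have h1 : ∀ᶠ n in atTop, (0 : ENNReal) < (ℓ n : ENNReal) / n := eventually_lt_of_lt_liminf h
  have h2 : ∀ᶠ n in atTop, ε n < δ := hε.eventually_lt_const hδ
  obtain ⟨n, hn1, hn2, hn3⟩ := (h1.and (h2.and (eventually_ge_atTop 1))).exists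
  have hℓ : 1 ≤ ℓ n := by
    rcases Nat.eq_zero_or_pos (ℓ n) with h0 | h0
    · rw [h0] at hn1
      simp at hn1
    · exact h0
  obtain ⟨p, σ, hσ, hσ1, hf⟩ := hA n
  exact ⟨n, hn3, ℓ n, hℓ, p, σ, hσ, hσ1, hf.trans hn2.le⟩

theorem KD_converse {a b e : Type} [Fintype a] [DecidableEq a] [Fintype b] [DecidableEq b]
    [Fintype e] [DecidableEq e] (R : Matrix (a × b) e ℂ) (h : 0 < KD R) :
    ∃ n : ℕ, 1 ≤ n ∧ ∃ (s s' : Type) (_ : Fintype s) (_ : DecidableEq s) (_ : Fintype s')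
      (_ : DecidableEq s') (K : ZMod 2 → Matrix s (Fin n → a) ℂ)
      (L : ZMod 2 → Matrix s' (Fin n → b) ℂ) (U : Matrix (s × s') (s × s') ℂ),
      Uᴴ * U = 1 ∧
      (hs ((K 0 ⊗ₖ L 0) * copiesOn R (Fin n)) * hs ((K 1 ⊗ₖ L 1) * copiesOn R (Fin n))) *
        (hs ((K 0 ⊗ₖ L 1) * copiesOn R (Fin n)) * hs ((K 1 ⊗ₖ L 0) * copiesOn R (Fin n))) <
        ‖hsInner ((K 0 ⊗ₖ L 0) * copiesOn R (Fin n))
          (U * ((K 1 ⊗ₖ L 1) * copiesOn R (Fin n)))‖ ^ 4 := by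
  obtain ⟨n, hn, ℓ, hℓ, hA⟩ := KD_ach R h (δ := 1 / 5) (by norm_num)
  exact ⟨n, hn, ach_converse (copies R n) hℓ le_rfl hA⟩

/-- Characterisation of the states with positive distillable key. -/
theorem KD_iff {a b e : Type} [Fintype a] [DecidableEq a] [Fintype b] [DecidableEq b]
    [Fintype e] [DecidableEq e] (ρ : Matrix (a × b) (a × b) ℂ) (hρ : ρ.trace = 1)
    (R : Matrix (a × b) e ℂ) (hR : R * Rᴴ = ρ) :
    0 < KD R ↔ ∃ n : ℕ, 1 ≤ n ∧ ∃ (s s' : Type) (_ : Fintype s) (_ : DecidableEq s)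
      (_ : Fintype s') (_ : DecidableEq s') (K : ZMod 2 → Matrix s (Fin n → a) ℂ)
      (L : ZMod 2 → Matrix s' (Fin n → b) ℂ) (U : Matrix (s × s') (s × s') ℂ), Uᴴ * U = 1 ∧
      (((K 0 ⊗ₖ L 0) * pw ρ n * (K 0 ⊗ₖ L 0)ᴴ).trace.re *
          ((K 1 ⊗ₖ L 1) * pw ρ n * (K 1 ⊗ₖ L 1)ᴴ).trace.re) *
        (((K 0 ⊗ₖ L 1) * pw ρ n * (K 0 ⊗ₖ L 1)ᴴ).trace.re *
          ((K 1 ⊗ₖ L 0) * pw ρ n * (K 1 ⊗ₖ L 0)ᴴ).trace.re) <
        ‖(U * (K 1 ⊗ₖ L 1) * pw ρ n * (K 0 ⊗ₖ L 0)ᴴ).trace‖ ^ 4 := by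
  constructor
  · intro h
    obtain ⟨n, hn, s, s', i1, i2, i3, i4, K, L, U, hU, hlt⟩ := KD_converse R h
    refine ⟨n, hn, s, s', i1, i2, i3, i4, K, L, U, hU, ?_⟩
    simp only [hs_eq_trace, hsInner_eq_trace2, copies_mul_conj, hR] at hlt
    exact hlt
  · rintro ⟨n, hn, s, s', i1, i2, i3, i4, K, L, U, hU, hlt⟩
    exact KD_criterion ρ hρ hn K L U hU hlt R hR

/-- Threshold theorem: a single key of error at most 1/5 from some number of copies implies a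
positive rate. -/
theorem KD_threshold {a b e : Type} [Fintype a] [DecidableEq a] [Fintype b] [DecidableEq b]
    [Fintype e] [DecidableEq e] (ρ : Matrix (a × b) (a × b) ℂ) (hρ : ρ.trace = 1)
    (R : Matrix (a × b) e ℂ) (hR : R * Rᴴ = ρ) :
    0 < KD R ↔ ∃ n : ℕ, 1 ≤ n ∧ ∃ ℓ : ℕ, 1 ≤ ℓ ∧ Ach (copies R n) ℓ (1 / 5) := by
  constructor
  · intro h
    exact KD_ach R h (by norm_num)
  · rintro ⟨n, hn, ℓ, hℓ, hA⟩
    obtain ⟨s, s', i1, i2, i3, i4, K, L, U, hU, hlt⟩ := ach_converse (copies R n) hℓ le_rfl hA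
    refine KD_criterion ρ hρ hn K L U hU ?_ R hR
    have h2 : copies R n = copiesOn R (Fin n) := rfl
    rw [h2] at hlt
    simp only [hs_eq_trace, hsInner_eq_trace2, copies_mul_conj, hR] at hlt
    exact hlt

theorem continuous_pw {a b : Type} (n : ℕ) :
    Continuous fun ρ : Matrix (a × b) (a × b) ℂ => pw ρ n :=
  continuous_matrix fun p q => by
    simp only [pw, Matrix.of_apply]
    exact continuous_finsetProd _ fun i _ =>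
      continuous_id.matrix_elem (p.1 i, p.2 i) (q.1 i, q.2 i)

/-- The set of states with positive distillable key is relatively open. -/
theorem KD_open (a b : Type) [Fintype a] [DecidableEq a] [Fintype b] [DecidableEq b] :
    ∃ O : Set (Matrix (a × b) (a × b) ℂ), IsOpen O ∧
      ∀ (ρ : Matrix (a × b) (a × b) ℂ), ρ.trace = 1 → ∀ (e : Type) [Fintype e] [DecidableEq e]
        (R : Matrix (a × b) e ℂ), R * Rᴴ = ρ → (0 < KD R ↔ ρ ∈ O) := by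
  refine ⟨{ρ | ∃ n : ℕ, 1 ≤ n ∧ ∃ (s s' : Type) (_ : Fintype s) (_ : DecidableEq s)
      (_ : Fintype s') (_ : DecidableEq s') (K : ZMod 2 → Matrix s (Fin n → a) ℂ)
      (L : ZMod 2 → Matrix s' (Fin n → b) ℂ) (U : Matrix (s × s') (s × s') ℂ), Uᴴ * U = 1 ∧
      (((K 0 ⊗ₖ L 0) * pw ρ n * (K 0 ⊗ₖ L 0)ᴴ).trace.re *
          ((K 1 ⊗ₖ L 1) * pw ρ n * (K 1 ⊗ₖ L 1)ᴴ).trace.re) *
        (((K 0 ⊗ₖ L 1) * pw ρ n * (K 0 ⊗ₖ L 1)ᴴ).trace.re *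
          ((K 1 ⊗ₖ L 0) * pw ρ n * (K 1 ⊗ₖ L 0)ᴴ).trace.re) <
        ‖(U * (K 1 ⊗ₖ L 1) * pw ρ n * (K 0 ⊗ₖ L 0)ᴴ).trace‖ ^ 4}, ?_, ?_⟩
  · rw [isOpen_iff_forall_mem_open]
    rintro ρ ⟨n, hn, s, s', i1, i2, i3, i4, K, L, U, hU, hlt⟩
    refine ⟨{ρ | (((K 0 ⊗ₖ L 0) * pw ρ n * (K 0 ⊗ₖ L 0)ᴴ).trace.re *
          ((K 1 ⊗ₖ L 1) * pw ρ n * (K 1 ⊗ₖ L 1)ᴴ).trace.re) *
        (((K 0 ⊗ₖ L 1) * pw ρ n * (K 0 ⊗ₖ L 1)ᴴ).trace.re *
          ((K 1 ⊗ₖ L 0) * pw ρ n * (K 1 ⊗ₖ L 0)ᴴ).trace.re) <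
        ‖(U * (K 1 ⊗ₖ L 1) * pw ρ n * (K 0 ⊗ₖ L 0)ᴴ).trace‖ ^ 4},
      fun ρ' h => ⟨n, hn, s, s', i1, i2, i3, i4, K, L, U, hU, h⟩, ?_, hlt⟩
    have hc : ∀ (X Y : Matrix (s × s') ((Fin n → a) × (Fin n → b)) ℂ),
        Continuous fun ρ : Matrix (a × b) (a × b) ℂ => (X * pw ρ n * Yᴴ).trace := fun X Y =>
      ((continuous_const.matrix_mul (continuous_pw n)).matrix_mul continuous_const).matrix_trace
    exact isOpen_lt
      (((Complex.continuous_re.comp (hc _ _)).mul (Complex.continuous_re.comp (hc _ _))).mul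
        ((Complex.continuous_re.comp (hc _ _)).mul (Complex.continuous_re.comp (hc _ _))))
      ((hc _ _).norm.pow 4)
  · intro ρ hρ e _ _ R hR
    exact KD_iff ρ hρ R hR

end Vale.Agent.P372Q
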