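import Vale.Agent.P372Q.Base

open Matrix Finset Filter Topology
open scoped Kronecker ComplexOrder BigOperators

namespace Vale.Agent.P372Q

/-- conditional Kraus operators -/
noncomputable def PROT_k {X S A M : Type} [DecidableEq M] (T : X → M) (K : X → Matrix S A ℂ)
    (t : M) : Matrix (X × S) A ℂ := Matrix.of fun xs a => if T xs.1 = t then K xs.1 xs.2 a else 0

theorem PROT_k_sum {X S A M : Type} [Fintype X] [Fintype S] [Fintype M] [DecidableEq A]
    [DecidableEq M] (T : X → M) (K : X → Matrix S A ℂ) (hK : ∑ x, (K x)ᴴ * K x = 1) :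
    ∑ t, (PROT_k T K t)ᴴ * PROT_k T K t = 1 := by
  rw [← hK]
  ext a a'
  rw [Matrix.sum_apply, Matrix.sum_apply]
  simp only [Matrix.mul_apply, Matrix.conjTranspose_apply, PROT_k, Matrix.of_apply,
    Fintype.sum_prod_type]
  rw [Finset.sum_comm]
  refine Finset.sum_congr rfl fun x _ => ?_
  rw [Finset.sum_comm]
  refine Finset.sum_congr rfl fun s _ => ?_
  rw [Finset.sum_eq_single (T x)]
  · rw [if_pos rfl, if_pos rfl]
  · intro t _ ht
    rw [if_neg ht.symm, if_neg ht.symm, mul_zero]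
  · intro h
    exact absurd (Finset.mem_univ _) h

/-- diagonal projections -/
noncomputable def PROT_d {I κ : Type} [DecidableEq I] [DecidableEq κ] (h : I → κ) (k : κ) :
    Matrix I I ℂ := Matrix.diagonal fun i => if h i = k then 1 else 0

theorem PROT_d_psd {I κ : Type} [Fintype I] [DecidableEq I] [DecidableEq κ] (h : I → κ) (k : κ) :
    (PROT_d h k).PosSemidef := by
  unfold PROT_d
  refine Matrix.PosSemidef.diagonal fun i => ?_
  change (0 : ℂ) ≤ if h i = k then 1 else 0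
  split_ifs
  · exact zero_le_one
  · exact le_refl _

theorem PROT_d_sum {I κ : Type} [Fintype I] [Fintype κ] [DecidableEq I] [DecidableEq κ]
    (h : I → κ) : ∑ k, PROT_d h k = 1 := by
  ext i j
  rw [Matrix.sum_apply]
  simp only [PROT_d, Matrix.diagonal_apply, Matrix.one_apply]
  split_ifs with hij
  · rw [Finset.sum_eq_single (h i)]
    · rw [if_pos rfl]
    · intro t _ ht
      rw [if_neg ht.symm]
    · intro h
      exact absurd (Finset.mem_univ _) h
  · exact Finset.sum_const_zero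

/-- the protocol -/
noncomputable def PROT_p {A B S S' X Y M₁ M₂ : Type} [Fintype A] [Fintype B]
    [Fintype S] [Fintype S'] [Fintype X] [Fintype Y] [Fintype M₁] [Fintype M₂] [DecidableEq A]
    [DecidableEq B] [DecidableEq S] [DecidableEq S'] [DecidableEq X]
    [DecidableEq Y] [DecidableEq M₁] [DecidableEq M₂]
    (K : X → Matrix S A ℂ) (L : Y → Matrix S' B ℂ) (hK : ∑ x, (K x)ᴴ * K x = 1)
    (hL : ∑ y, (L y)ᴴ * L y = 1) (ℓ : ℕ) (U : Y → M₁) (T : X → M₁ → M₂)
    (f : X → M₁ → M₂ → (Fin ℓ → ZMod 2)) (g : Y → M₁ → M₂ → (Fin ℓ → ZMod 2)) : Prot ℓ A B :=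
  Prot.bob A B M₁ (fun _ => Y × S') (PROT_k U L) (PROT_k_sum U L hL) fun u =>
    Prot.alice A (Y × S') M₂ (fun _ => X × S) (PROT_k (fun x => T x u) K)
      (PROT_k_sum _ K hK) fun t =>
        Prot.key (X × S) (Y × S') (PROT_d fun xs => f xs.1 u t) (PROT_d fun ys => g ys.1 u t)
          (PROT_d_psd _) (PROT_d_sum _) (PROT_d_psd _) (PROT_d_sum _)

theorem PROT_eve {A B E S S' X Y M₁ M₂ : Type} [Fintype A] [Fintype B]
    [Fintype S] [Fintype S'] [Fintype X] [Fintype Y] [DecidableEq A]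
    [DecidableEq B] [DecidableEq S] [DecidableEq S'] [DecidableEq X]
    [DecidableEq Y] [DecidableEq M₁] [DecidableEq M₂] (G : Matrix (A × B) E ℂ)
    (K : X → Matrix S A ℂ) (L : Y → Matrix S' B ℂ) {κ : Type} [DecidableEq κ]
    (U : Y → M₁) (T : X → M₂) (u : M₁) (t : M₂) (f : X → κ) (g : Y → κ) (k k' : κ) :
    (Matrix.of fun e e' => ∑ i, ∑ j, (PROT_d (fun xs : X × S => f xs.1) k ⊗ₖ
      PROT_d (fun ys : Y × S' => g ys.1) k') i j *
        ((PROT_k T K t ⊗ₖ (1 : Matrix (Y × S') (Y × S') ℂ)) *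
          (((1 : Matrix A A ℂ) ⊗ₖ PROT_k U L u) * G)) j e *
        star (((PROT_k T K t ⊗ₖ (1 : Matrix (Y × S') (Y × S') ℂ)) *
          (((1 : Matrix A A ℂ) ⊗ₖ PROT_k U L u) * G)) i e')) =
      ∑ x, ∑ y, if U y = u ∧ T x = t ∧ f x = k ∧ g y = k' then
        eveState ((K x ⊗ₖ L y) * G) else 0 := by
  have hG : ∀ (x : X) (s : S) (y : Y) (s' : S') (e : E),
      ((PROT_k T K t ⊗ₖ (1 : Matrix (Y × S') (Y × S') ℂ)) *
          (((1 : Matrix A A ℂ) ⊗ₖ PROT_k U L u) * G)) ((x, s), (y, s')) e =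
        if U y = u ∧ T x = t then ((K x ⊗ₖ L y) * G) (s, s') e else 0 := by
    intro x s y s' e
    rw [← Matrix.mul_assoc, ← Matrix.mul_kronecker_mul, Matrix.mul_one, Matrix.one_mul]
    rw [Matrix.mul_apply]
    by_cases h : U y = u ∧ T x = t
    · rw [if_pos h, Matrix.mul_apply]
      refine Finset.sum_congr rfl fun ab _ => ?_
      congr 1
      simp only [Matrix.kroneckerMap_apply, PROT_k, Matrix.of_apply, if_pos h.1, if_pos h.2]
    · rw [if_neg h]
      refine Finset.sum_eq_zero fun ab _ => ?_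
      simp only [Matrix.kroneckerMap_apply, PROT_k, Matrix.of_apply]
      by_cases h1 : U y = u
      · have h2 : T x ≠ t := fun h2 => h ⟨h1, h2⟩
        rw [if_neg h2, zero_mul, zero_mul]
      · rw [if_neg h1, mul_zero, zero_mul]
  ext e e'
  rw [Matrix.of_apply]
  have hdiag : ∀ i : (X × S) × (Y × S'), (∑ j, (PROT_d (fun xs : X × S => f xs.1) k ⊗ₖ
      PROT_d (fun ys : Y × S' => g ys.1) k') i j *
        ((PROT_k T K t ⊗ₖ (1 : Matrix (Y × S') (Y × S') ℂ)) *
          (((1 : Matrix A A ℂ) ⊗ₖ PROT_k U L u) * G)) j e *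
        star (((PROT_k T K t ⊗ₖ (1 : Matrix (Y × S') (Y × S') ℂ)) *
          (((1 : Matrix A A ℂ) ⊗ₖ PROT_k U L u) * G)) i e')) =
      if U i.2.1 = u ∧ T i.1.1 = t ∧ f i.1.1 = k ∧ g i.2.1 = k' then
        ((K i.1.1 ⊗ₖ L i.2.1) * G) (i.1.2, i.2.2) e *
          star (((K i.1.1 ⊗ₖ L i.2.1) * G) (i.1.2, i.2.2) e') else 0 := by
    rintro ⟨⟨x, s⟩, ⟨y, s'⟩⟩
    rw [Finset.sum_eq_single ((x, s), (y, s'))]
    · rw [hG, hG]
      simp only [Matrix.kroneckerMap_apply, PROT_d, Matrix.diagonal_apply_eq]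
      by_cases h1 : U y = u <;> by_cases h2 : T x = t <;> by_cases h3 : f x = k <;>
        by_cases h4 : g y = k' <;> simp [h1, h2, h3, h4]
    · intro j _ hj
      have : (PROT_d (fun xs : X × S => f xs.1) k ⊗ₖ
        PROT_d (fun ys : Y × S' => g ys.1) k') ((x, s), (y, s')) j = 0 := by
        simp only [Matrix.kroneckerMap_apply, PROT_d, Matrix.diagonal_apply]
        by_cases h1 : (x, s) = j.1
        · by_cases h2 : (y, s') = j.2
          · exact absurd (Prod.ext h1 h2).symm hj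
          · rw [if_neg h2, mul_zero]
        · rw [if_neg h1, zero_mul]
      rw [this, zero_mul, zero_mul]
    · intro h
      exact absurd (Finset.mem_univ _) h
  rw [Finset.sum_congr rfl fun i _ => hdiag i]
  rw [Fintype.sum_prod_type]
  simp only [Fintype.sum_prod_type, Matrix.sum_apply]
  refine Finset.sum_congr rfl fun x _ => ?_
  rw [Finset.sum_comm]
  refine Finset.sum_congr rfl fun y _ => ?_
  by_cases h : U y = u ∧ T x = t ∧ f x = k ∧ g y = k'
  · simp only [if_pos h, eveState, Matrix.of_apply, Fintype.sum_prod_type]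
  · simp only [if_neg h, Matrix.zero_apply, Finset.sum_const_zero]

/-- PROT. A two-message protocol: Bob measures with Kraus operators `L y`, announces `U y`; Alice
measures with `K x`, announces `T x u`; the keys are functions of the outcomes and the messages.
Tree: a `bob` node with messages `M₁`, new system `Y × S'` and Kraus operators
`(y, s), b ↦ if U y = u then L y s b else 0`; then an `alice` node with messages `M₂`, new system
`X × S` and `(x, s), a ↦ if T x u = t then K x s a else 0`; then `key` with the diagonal projections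
on `f x u t = k` and on `g y u t = k'`. Transcripts: `⟨u, ⟨t, ()⟩⟩`. -/
theorem ach_of_kraus {A B E S S' X Y M₁ M₂ : Type} [Fintype A] [Fintype B] [Fintype E]
    [Fintype S] [Fintype S'] [Fintype X] [Fintype Y] [Fintype M₁] [Fintype M₂] [DecidableEq A]
    [DecidableEq B] [DecidableEq E] [DecidableEq S] [DecidableEq S'] [DecidableEq X]
    [DecidableEq Y] [DecidableEq M₁] [DecidableEq M₂] (G : Matrix (A × B) E ℂ)
    (K : X → Matrix S A ℂ) (L : Y → Matrix S' B ℂ) (hK : ∑ x, (K x)ᴴ * K x = 1)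
    (hL : ∑ y, (L y)ᴴ * L y = 1) (ℓ : ℕ) (U : Y → M₁) (T : X → M₁ → M₂)
    (f : X → M₁ → M₂ → (Fin ℓ → ZMod 2)) (g : Y → M₁ → M₂ → (Fin ℓ → ZMod 2))
    (σ : M₁ → M₂ → Matrix E E ℂ) (hσ : ∀ u t, (σ u t).PosSemidef)
    (hσ1 : ∑ u, ∑ t, (σ u t).trace.re = 1) :
    Ach G ℓ (∑ u, ∑ t, ∑ k, ∑ k', traceNorm
      ((∑ x, ∑ y, if U y = u ∧ T x u = t ∧ f x u t = k ∧ g y u t = k' then
        eveState ((K x ⊗ₖ L y) * G) else 0) -
        if k = k' then ((2 : ℂ) ^ ℓ)⁻¹ • σ u t else 0)) := by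
  refine ⟨PROT_p K L hK hL ℓ U T f g, fun τ : (Σ _ : M₁, Σ _ : M₂, Unit) => σ τ.1 τ.2.1,
    fun τ => hσ _ _, hσ1, ?_⟩
  refine le_of_eq ?_
  change ∑ u, ∑ t, ∑ k, ∑ k', traceNorm ((PROT_p K L hK hL ℓ U T f g).eve G ⟨u, ⟨t, ()⟩⟩ k k' -
    if k = k' then ((2 : ℂ) ^ ℓ)⁻¹ • σ u t else 0) = _
  refine Finset.sum_congr rfl fun u _ => Finset.sum_congr rfl fun t _ =>
    Finset.sum_congr rfl fun k _ => Finset.sum_congr rfl fun k' _ => ?_
  rw [← PROT_eve G K L U (fun x => T x u) u t (fun x => f x u t) (fun y => g y u t) k k']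
  rfl

end Vale.Agent.P372Q
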