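import Vale.Agent.P372Q.SecA

open Matrix Finset Filter Topology
open scoped Kronecker ComplexOrder BigOperators

namespace Vale.Agent.P372Q

theorem SEC_zmod (x : ZMod 2) : x = 0 ∨ x = 1 := by
  revert x
  decide

theorem SEC_sgn_add (x y : ZMod 2) : sgn (x + y) = sgn x * sgn y := by
  rcases SEC_zmod x with rfl | rfl <;> rcases SEC_zmod y with rfl | rfl
  · simp [sgn]
  · simp [sgn]
  · simp [sgn]
  · have h : (1 + 1 : ZMod 2) = 0 := by decide
    rw [h]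
    simp [sgn]

theorem SEC_sgn_star (x : ZMod 2) : star (sgn x) = sgn x := by
  rcases SEC_zmod x with rfl | rfl <;> simp [sgn]

theorem SEC_sgn_norm (x : ZMod 2) : ‖sgn x‖ = 1 := by
  rcases SEC_zmod x with rfl | rfl <;> simp [sgn]

/-- cross terms of `eveState` -/
noncomputable def SEC_cross {I E : Type} [Fintype I] (G H : Matrix I E ℂ) : Matrix E E ℂ :=
  Matrix.of fun e e' => ∑ i, G i e * star (H i e')

theorem SEC_expand {κ I E : Type} [Fintype κ] [Fintype I] [Fintype E] (C : Matrix E E ℂ)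
    (h : κ → Matrix I E ℂ) (a : κ → ZMod 2) :
    (C * eveState (∑ k, sgn (a k) • h k)).trace =
      ∑ k, ∑ k', sgn (a k + a k') * (C * SEC_cross (h k) (h k')).trace := by
  have e1 : eveState (∑ k, sgn (a k) • h k) =
      ∑ k, ∑ k', sgn (a k + a k') • SEC_cross (h k) (h k') := by
    ext e e'
    simp only [eveState, SEC_cross, Matrix.of_apply, Matrix.sum_apply, Matrix.smul_apply,
      smul_eq_mul, star_sum, star_mul', SEC_sgn_star]
    simp_rw [Finset.sum_mul_sum]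
    rw [Finset.sum_comm]
    refine Finset.sum_congr rfl fun k _ => ?_
    rw [Finset.sum_comm]
    refine Finset.sum_congr rfl fun k' _ => ?_
    rw [Finset.mul_sum]
    refine Finset.sum_congr rfl fun i _ => ?_
    rw [SEC_sgn_add]
    ring
  rw [e1, Matrix.mul_sum, Matrix.trace_sum]
  refine Finset.sum_congr rfl fun k _ => ?_
  rw [Matrix.mul_sum, Matrix.trace_sum]
  refine Finset.sum_congr rfl fun k' _ => ?_
  rw [Matrix.mul_smul, Matrix.trace_smul, smul_eq_mul]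

theorem SEC_sum {m : ℕ} {D I E : Type} [Fintype D] [Fintype I] [Fintype E]
    [DecidableEq D] (C : Matrix E E ℂ) (h : (Fin m → ZMod 2) → Matrix I E ℂ)
    (θ : Matrix D (Fin m) (ZMod 2)) (t : D → ZMod 2)
    (hθ : ∀ k k', k ≠ k' → h k ≠ 0 → h k' ≠ 0 → ∀ c : D → ZMod 2, c ᵥ* θ ≠ k + k') :
    (∑ b, if θ *ᵥ b = t then
      (C * eveState (∑ k', sgn (∑ i, k' i * b i) • h k')).trace else 0) =
      (∑ b : Fin m → ZMod 2, if θ *ᵥ b = t then (1 : ℂ) else 0) *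
        ∑ k, (C * SEC_cross (h k) (h k)).trace := by
  have e1 : ∀ b : Fin m → ZMod 2, (if θ *ᵥ b = t then
      (C * eveState (∑ k', sgn (∑ i, k' i * b i) • h k')).trace else 0) =
      ∑ k, ∑ k', (if θ *ᵥ b = t then sgn (∑ i, (k + k') i * b i) else 0) *
        (C * SEC_cross (h k) (h k')).trace := by
    intro b
    by_cases hb : θ *ᵥ b = t
    · simp only [if_pos hb]
      rw [SEC_expand C h (fun k => ∑ i, k i * b i)]
      refine Finset.sum_congr rfl fun k _ => Finset.sum_congr rfl fun k' _ => ?_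
      congr 2
      rw [← Finset.sum_add_distrib]
      refine Finset.sum_congr rfl fun i _ => ?_
      rw [Pi.add_apply, add_mul]
    · simp only [if_neg hb, zero_mul, Finset.sum_const_zero]
  rw [Finset.sum_congr rfl fun b _ => e1 b, Finset.sum_comm, Finset.mul_sum]
  refine Finset.sum_congr rfl fun k _ => ?_
  rw [Finset.sum_comm, Finset.sum_eq_single k]
  · rw [← Finset.sum_mul]
    congr 1
    refine Finset.sum_congr rfl fun b _ => ?_
    have h2 : ∀ x : ZMod 2, x + x = 0 := by decide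
    have h0 : ∑ i, (k + k) i * b i = 0 := by
      refine Finset.sum_eq_zero fun i _ => ?_
      rw [Pi.add_apply, h2, zero_mul]
    rw [h0]
    simp [sgn]
  · intro k' _ hk'
    by_cases h1 : h k = 0
    · refine Finset.sum_eq_zero fun b _ => ?_
      have : SEC_cross (h k) (h k') = 0 := by
        ext e e'
        simp [SEC_cross, h1]
      rw [this]
      simp
    by_cases h2 : h k' = 0
    · refine Finset.sum_eq_zero fun b _ => ?_
      have : SEC_cross (h k) (h k') = 0 := by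
        ext e e'
        simp [SEC_cross, h2]
      rw [this]
      simp
    rw [← Finset.sum_mul, char_sum_zero θ t (k + k') (hθ k k' (Ne.symm hk') h1 h2), zero_mul]
  · intro h3
    exact absurd (Finset.mem_univ k) h3

theorem SEC_id {m : ℕ} {D₁ D₂ I E : Type} [Fintype D₁] [Fintype D₂] [Fintype I] [Fintype E]
    [DecidableEq D₁] [DecidableEq D₂] (h : (Fin m → ZMod 2) → Matrix I E ℂ)
    (θ₁ : Matrix D₁ (Fin m) (ZMod 2)) (θ₂ : Matrix D₂ (Fin m) (ZMod 2)) (C : Matrix E E ℂ)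
    (hsep : ∀ k k', k ≠ k' → h k ≠ 0 → h k' ≠ 0 → ∀ (c₁ : D₁ → ZMod 2) (c₂ : D₂ → ZMod 2),
      c₁ ᵥ* θ₁ + c₂ ᵥ* θ₂ ≠ k + k')
    (hind' : (∃ k, h k ≠ 0) → ∀ (c₁ : D₁ → ZMod 2) (c₂ : D₂ → ZMod 2), (c₁ ≠ 0 ∨ c₂ ≠ 0) →
      c₁ ᵥ* θ₁ + c₂ ᵥ* θ₂ ≠ 0) (k : D₁ → ZMod 2) (t : D₂ → ZMod 2) :
    (∑ b, if θ₁ *ᵥ b = k ∧ θ₂ *ᵥ b = t then
          (C * eveState (∑ k', sgn (∑ i, k' i * b i) • h k')).trace else 0) =
        ((2 : ℂ) ^ Fintype.card D₁)⁻¹ * (∑ b, if θ₂ *ᵥ b = t then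
          (C * eveState (∑ k', sgn (∑ i, k' i * b i) • h k')).trace else 0) := by
  set θ : Matrix (D₁ ⊕ D₂) (Fin m) (ZMod 2) := Matrix.fromRows θ₁ θ₂ with hθdef
  have hvm : ∀ c : D₁ ⊕ D₂ → ZMod 2, c ᵥ* θ = (c ∘ Sum.inl) ᵥ* θ₁ + (c ∘ Sum.inr) ᵥ* θ₂ :=
    fun c => by rw [hθdef, Matrix.vecMul_fromRows]
  have hcond : ∀ (k : D₁ → ZMod 2) (t : D₂ → ZMod 2) (b : Fin m → ZMod 2),
      (θ₁ *ᵥ b = k ∧ θ₂ *ᵥ b = t) ↔ θ *ᵥ b = Sum.elim k t := by
    intro k t b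
    rw [hθdef, Matrix.fromRows_mulVec]
    constructor
    · rintro ⟨rfl, rfl⟩
      rfl
    · intro h0
      exact ⟨funext fun i => congrFun h0 (Sum.inl i), funext fun i => congrFun h0 (Sum.inr i)⟩
  have e1 : (∑ b, if θ₁ *ᵥ b = k ∧ θ₂ *ᵥ b = t then
        (C * eveState (∑ k', sgn (∑ i, k' i * b i) • h k')).trace else 0) =
      ∑ b, if θ *ᵥ b = Sum.elim k t then
        (C * eveState (∑ k', sgn (∑ i, k' i * b i) • h k')).trace else 0 :=
    Finset.sum_congr rfl fun b _ => if_congr (hcond k t b) rfl rfl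
  rw [e1, SEC_sum (C) h θ (Sum.elim k t) (fun k k' hkk hk hk' c => by
      rw [hvm]; exact hsep k k' hkk hk hk' _ _),
    SEC_sum (C) h θ₂ t (fun k k' hkk hk hk' c => by
      have := hsep k k' hkk hk hk' 0 c
      rwa [Matrix.zero_vecMul, zero_add] at this)]
  by_cases hall : ∀ k, h k = 0
  · have hz : ∑ k', (C * SEC_cross (h k') (h k')).trace = 0 := by
      refine Finset.sum_eq_zero fun k' _ => ?_
      have : SEC_cross (h k') (h k') = 0 := by
        ext e e'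
        simp [SEC_cross, hall k']
      rw [this]
      simp
    rw [hz]
    simp
  · rw [not_forall] at hall
    obtain ⟨k₀, hk₀⟩ := hall
    have hind := hind' ⟨k₀, hk₀⟩
    have n1 := card_solutions θ (fun c hc => by
      rw [hvm]
      refine hind _ _ ?_
      by_contra hcon
      rw [not_or, not_not, not_not] at hcon
      apply hc
      funext i
      rcases i with i | i
      · exact congrFun hcon.1 i
      · exact congrFun hcon.2 i) (Sum.elim k t)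
    have n2 := card_solutions θ₂ (fun c hc => by
      have := hind 0 c (Or.inr hc)
      rwa [Matrix.zero_vecMul, zero_add] at this) t
    have hp1 : (2 : ℂ) ^ Fintype.card D₁ ≠ 0 := pow_ne_zero _ two_ne_zero
    have hp2 : (2 : ℂ) ^ Fintype.card D₂ ≠ 0 := pow_ne_zero _ two_ne_zero
    rw [Fintype.card_sum, pow_add] at n1
    have n3 : (∑ b : Fin m → ZMod 2, if θ *ᵥ b = Sum.elim k t then (1 : ℂ) else 0) =
        ((2 : ℂ) ^ Fintype.card D₁)⁻¹ *
          ∑ b : Fin m → ZMod 2, if θ₂ *ᵥ b = t then (1 : ℂ) else 0 := by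
      rw [← n2] at n1
      have n4 : (2 : ℂ) ^ Fintype.card D₁ *
          (∑ b : Fin m → ZMod 2, if θ *ᵥ b = Sum.elim k t then (1 : ℂ) else 0) =
          ∑ b : Fin m → ZMod 2, if θ₂ *ᵥ b = t then (1 : ℂ) else 0 := by
        apply mul_left_cancel₀ hp2
        rw [← n1]
        ring
      rw [← n4, ← mul_assoc, inv_mul_cancel₀ hp1, one_mul]
    rw [n3, mul_assoc]

theorem SEC_norms {m : ℕ} {I E : Type} [Fintype I] [Fintype E] [DecidableEq E]
    (g : (Fin m → ZMod 2) → Matrix I E ℂ) (hg : ∀ k k', k ≠ k' → hsInner (g k) (g k') = 0)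
    (bad : (Fin m → ZMod 2) → Prop) [DecidablePred bad] (b : Fin m → ZMod 2) :
    hs (∑ k', sgn (∑ i, k' i * b i) • g k') = ∑ k, hs (g k) ∧
    hs (∑ k', sgn (∑ i, k' i * b i) • (if bad k' then 0 else g k')) ≤ ∑ k, hs (g k) ∧
    hs ((∑ k', sgn (∑ i, k' i * b i) • g k') -
      ∑ k', sgn (∑ i, k' i * b i) • (if bad k' then 0 else g k')) =
      ∑ k, if bad k then hs (g k) else 0 := by
  have hs0 : ∀ G : Matrix I E ℂ, 0 ≤ hs G := fun G =>
    Finset.sum_nonneg fun i _ => Finset.sum_nonneg fun e _ => sq_nonneg _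
  have hs00 : hs (0 : Matrix I E ℂ) = 0 := by simp [hs]
  have hinner0 : ∀ G : Matrix I E ℂ, hsInner G 0 = 0 := fun G => by simp [hsInner]
  have hinner0' : ∀ G : Matrix I E ℂ, hsInner 0 G = 0 := fun G => by simp [hsInner]
  refine ⟨?_, ?_, ?_⟩
  · rw [hs_sum_orth g hg]
    refine Finset.sum_congr rfl fun k _ => ?_
    rw [SEC_sgn_norm, one_pow, one_mul]
  · rw [hs_sum_orth (fun k' => if bad k' then 0 else g k') (fun k k' hkk => by
      show hsInner (if bad k then 0 else g k) (if bad k' then 0 else g k') = 0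
      split_ifs
      · exact hinner0 _
      · exact hinner0' _
      · exact hinner0 _
      · exact hg k k' hkk)]
    refine Finset.sum_le_sum fun k _ => ?_
    rw [SEC_sgn_norm, one_pow, one_mul]
    split_ifs
    · rw [hs00]
      exact hs0 _
    · exact le_rfl
  · have e1 : (∑ k', sgn (∑ i, k' i * b i) • g k') -
        ∑ k', sgn (∑ i, k' i * b i) • (if bad k' then 0 else g k') =
        ∑ k', sgn (∑ i, k' i * b i) • (if bad k' then g k' else 0) := by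
      rw [← Finset.sum_sub_distrib]
      refine Finset.sum_congr rfl fun k' _ => ?_
      split_ifs
      · rw [smul_zero, sub_zero]
      · rw [sub_self, smul_zero]
    rw [e1, hs_sum_orth (fun k' => if bad k' then g k' else 0) (fun k k' hkk => by
      show hsInner (if bad k then g k else 0) (if bad k' then g k' else 0) = 0
      split_ifs
      · exact hg k k' hkk
      · exact hinner0 _
      · exact hinner0' _
      · exact hinner0 _)]
    refine Finset.sum_congr rfl fun k _ => ?_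
    rw [SEC_sgn_norm, one_pow, one_mul]
    split_ifs
    · rfl
    · exact hs00

theorem SEC_term {β : Type} [Fintype β] (p q : β → Prop) [DecidablePred p] [DecidablePred q]
    (F F' : β → ℂ) (r : ℂ) (δ : ℝ) (hF : ∀ b, ‖F b - F' b‖ ≤ δ)
    (hid : (∑ b, if p b then F' b else 0) = r * ∑ b, if q b then F' b else 0) :
    ‖(∑ b, if p b then F b else 0) - r * ∑ b, if q b then F b else 0‖ ≤
      (∑ b, if p b then δ else 0) + ‖r‖ * ∑ b, if q b then δ else 0 := by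
  have s1 : ∀ (p : β → Prop) [DecidablePred p], (∑ b, if p b then (F b - F' b) else 0) =
      (∑ b, if p b then F b else 0) - ∑ b, if p b then F' b else 0 := by
    intro p _
    rw [← Finset.sum_sub_distrib]
    refine Finset.sum_congr rfl fun b _ => ?_
    split_ifs
    · rfl
    · rw [sub_zero]
  have e1 : (∑ b, if p b then F b else 0) - r * ∑ b, (if q b then F b else 0) =
      (∑ b, if p b then (F b - F' b) else 0) - r * ∑ b, if q b then (F b - F' b) else 0 := by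
    rw [s1, s1, mul_sub, hid]
    ring
  rw [e1]
  have s2 : ∀ (p : β → Prop) [DecidablePred p],
      ‖∑ b, if p b then (F b - F' b) else 0‖ ≤ ∑ b, if p b then δ else 0 := by
    intro p _
    refine (norm_sum_le _ _).trans (Finset.sum_le_sum fun b _ => ?_)
    split_ifs
    · exact hF b
    · rw [norm_zero]
  refine (norm_sub_le _ _).trans (add_le_add (s2 p) ?_)
  rw [norm_mul]
  exact mul_le_mul_of_nonneg_left (s2 q) (norm_nonneg _)

theorem SEC_count {m : ℕ} {D₁ D₂ : Type} [Fintype D₁] [Fintype D₂] [DecidableEq D₁]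
    [DecidableEq D₂] (θ₁ : Matrix D₁ (Fin m) (ZMod 2)) (θ₂ : Matrix D₂ (Fin m) (ZMod 2)) (δ : ℝ) :
    ∑ k : D₁ → ZMod 2, ∑ t : D₂ → ZMod 2,
      ((∑ b : Fin m → ZMod 2, if θ₁ *ᵥ b = k ∧ θ₂ *ᵥ b = t then δ else 0) +
        ((2 : ℝ) ^ Fintype.card D₁)⁻¹ *
          ∑ b : Fin m → ZMod 2, if θ₂ *ᵥ b = t then δ else 0) = 2 * 2 ^ m * δ := by
  simp only [Finset.sum_add_distrib]
  have t1 : ∑ k : D₁ → ZMod 2, ∑ t : D₂ → ZMod 2, ∑ b : Fin m → ZMod 2,
      (if θ₁ *ᵥ b = k ∧ θ₂ *ᵥ b = t then δ else 0) = 2 ^ m * δ := by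
    have u1 : ∀ k : D₁ → ZMod 2, ∑ t : D₂ → ZMod 2, ∑ b : Fin m → ZMod 2,
        (if θ₁ *ᵥ b = k ∧ θ₂ *ᵥ b = t then δ else 0) =
        ∑ b : Fin m → ZMod 2, if θ₁ *ᵥ b = k then δ else 0 := by
      intro k
      rw [Finset.sum_comm]
      refine Finset.sum_congr rfl fun b _ => ?_
      by_cases hb : θ₁ *ᵥ b = k
      · simp [hb]
      · simp [hb]
    rw [Finset.sum_congr rfl fun k _ => u1 k, Finset.sum_comm]
    have u2 : ∀ b : Fin m → ZMod 2, ∑ k : D₁ → ZMod 2, (if θ₁ *ᵥ b = k then δ else 0) = δ := by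
      intro b
      simp
    rw [Finset.sum_congr rfl fun b _ => u2 b, Finset.sum_const, Finset.card_univ]
    simp [ZMod.card]
  have t2 : ∑ k : D₁ → ZMod 2, ∑ t : D₂ → ZMod 2, ((2 : ℝ) ^ Fintype.card D₁)⁻¹ *
      ∑ b : Fin m → ZMod 2, (if θ₂ *ᵥ b = t then δ else 0) = 2 ^ m * δ := by
    have u1 : ∑ t : D₂ → ZMod 2, ((2 : ℝ) ^ Fintype.card D₁)⁻¹ *
        ∑ b : Fin m → ZMod 2, (if θ₂ *ᵥ b = t then δ else 0) =
        ((2 : ℝ) ^ Fintype.card D₁)⁻¹ * (2 ^ m * δ) := by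
      rw [← Finset.mul_sum, Finset.sum_comm]
      congr 1
      have u2 : ∀ b : Fin m → ZMod 2, ∑ t : D₂ → ZMod 2, (if θ₂ *ᵥ b = t then δ else 0) = δ := by
        intro b
        simp
      rw [Finset.sum_congr rfl fun b _ => u2 b, Finset.sum_const, Finset.card_univ]
      simp [ZMod.card]
    rw [Finset.sum_congr rfl fun k _ => u1, Finset.sum_const, Finset.card_univ]
    rw [nsmul_eq_mul, Fintype.card_fun, ZMod.card]
    push_cast
    have hp : (2 : ℝ) ^ Fintype.card D₁ ≠ 0 := by positivity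
    rw [← mul_assoc, mul_inv_cancel₀ hp, one_mul]
  rw [t1, t2]
  ring

theorem SEC_sep {m : ℕ} {D₁ D₂ I E : Type} [Fintype D₁] [Fintype D₂] [Fintype I] [Fintype E]
    (g : (Fin m → ZMod 2) → Matrix I E ℂ)
    (θ₁ : Matrix D₁ (Fin m) (ZMod 2)) (θ₂ : Matrix D₂ (Fin m) (ZMod 2)) :
    (∀ k k', k ≠ k' → (¬ ∃ (c₁ : D₁ → ZMod 2) (c₂ : D₂ → ZMod 2),
        (c₁ ≠ 0 ∨ c₂ ≠ 0) ∧ hs (g k) ≤ hs (g (k + (c₁ ᵥ* θ₁ + c₂ ᵥ* θ₂)))) →
      (¬ ∃ (c₁ : D₁ → ZMod 2) (c₂ : D₂ → ZMod 2),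
        (c₁ ≠ 0 ∨ c₂ ≠ 0) ∧ hs (g k') ≤ hs (g (k' + (c₁ ᵥ* θ₁ + c₂ ᵥ* θ₂)))) →
      ∀ (c₁ : D₁ → ZMod 2) (c₂ : D₂ → ZMod 2), c₁ ᵥ* θ₁ + c₂ ᵥ* θ₂ ≠ k + k') ∧
    (∀ k, (¬ ∃ (c₁ : D₁ → ZMod 2) (c₂ : D₂ → ZMod 2),
        (c₁ ≠ 0 ∨ c₂ ≠ 0) ∧ hs (g k) ≤ hs (g (k + (c₁ ᵥ* θ₁ + c₂ ᵥ* θ₂)))) →
      ∀ (c₁ : D₁ → ZMod 2) (c₂ : D₂ → ZMod 2), (c₁ ≠ 0 ∨ c₂ ≠ 0) →
        c₁ ᵥ* θ₁ + c₂ ᵥ* θ₂ ≠ 0) := by
  have hdbl : ∀ x : ZMod 2, x + x = 0 := by decide
  have hdbl' : ∀ x : Fin m → ZMod 2, x + x = 0 := fun x => funext fun i => hdbl (x i)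
  constructor
  · intro k k' hkk h1 h2 c₁ c₂ hc
    have hne : c₁ ≠ 0 ∨ c₂ ≠ 0 := by
      by_contra hcon
      rw [not_or, not_not, not_not] at hcon
      rw [hcon.1, hcon.2, Matrix.zero_vecMul, Matrix.zero_vecMul, add_zero] at hc
      apply hkk
      have : k + k + k' = k := by rw [add_assoc, ← hc, add_zero]
      rw [hdbl', zero_add] at this
      exact this.symm
    simp only [not_exists, not_and, not_le] at h1 h2
    have h3 := h1 c₁ c₂ hne
    have h4 := h2 c₁ c₂ hne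
    rw [hc] at h3 h4
    have e3 : k + (k + k') = k' := by rw [← add_assoc, hdbl', zero_add]
    have e4 : k' + (k + k') = k := by rw [add_comm k, ← add_assoc, hdbl', zero_add]
    rw [e3] at h3
    rw [e4] at h4
    exact lt_asymm h3 h4
  · intro k h1 c₁ c₂ hc h0
    simp only [not_exists, not_and, not_le] at h1
    have := h1 c₁ c₂ hc
    rw [h0, add_zero] at this
    exact lt_irrefl _ this

open Classical in
/-- SEC (privacy amplification). `v b = ∑ k, (-1)^(k·b) g k` with pairwise orthogonal `g k`.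
Let `T'` be the set of `k` which are not bad, `ṽ b = ∑_(k ∈ T') (-1)^(k·b) g k`. Two distinct
elements of `T'` do not differ by an element `c₁ ᵥ* θ₁ + c₂ ᵥ* θ₂` (each would be strictly heavier
than the other), and if `T'` is nonempty no nontrivial combination of the rows vanishes, so every
system `θ₁ b = k, θ₂ b = t` has exactly `2^m / (|κ₁| |κ₂|)` solutions (`κ_i` = the bit strings
indexed by `D_i`) and the character sums `∑_(θ b = (k,t)) (-1)^((k'+k'')·b)` vanish for distinct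
`k', k'' ∈ T'`. Hence for `ṽ` the two sums inside the norm are equal:
`∑_(θ₁ b = k, θ₂ b = t) form C (ṽ b) = 2^m / (|κ₁| |κ₂|) ∑_(k' ∈ T') form C (g k')`.
Replacing `v` by `ṽ` costs `|form C (v b) - form C (ṽ b)| ≤ 2 ‖v b‖ ‖v b - ṽ b‖` for each `b`
(TN2), where `‖v b‖^2 = ∑ hs (g k)` and `‖v b - ṽ b‖^2 = ∑_(k bad) hs (g k)`. -/
theorem sec_bound {m : ℕ} {D₁ D₂ I E : Type} [Fintype D₁] [Fintype D₂] [Fintype I] [Fintype E]
    [DecidableEq D₁] [DecidableEq D₂] [DecidableEq E]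
    (g : (Fin m → ZMod 2) → Matrix I E ℂ) (hg : ∀ k k', k ≠ k' → hsInner (g k) (g k') = 0)
    (θ₁ : Matrix D₁ (Fin m) (ZMod 2)) (θ₂ : Matrix D₂ (Fin m) (ZMod 2))
    (C : (D₁ → ZMod 2) → (D₂ → ZMod 2) → Matrix E E ℂ) (hC : ∀ k t, IsContr (C k t)) :
    ∑ k, ∑ t, ‖(∑ b, if θ₁ *ᵥ b = k ∧ θ₂ *ᵥ b = t then
          (C k t * eveState (∑ k', sgn (∑ i, k' i * b i) • g k')).trace else 0) -
        ((2 : ℂ) ^ Fintype.card D₁)⁻¹ * (∑ b, if θ₂ *ᵥ b = t then
          (C k t * eveState (∑ k', sgn (∑ i, k' i * b i) • g k')).trace else 0)‖ ≤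
      4 * 2 ^ m * √(∑ k, hs (g k)) * √(∑ k, if (∃ (c₁ : D₁ → ZMod 2) (c₂ : D₂ → ZMod 2),
        (c₁ ≠ 0 ∨ c₂ ≠ 0) ∧ hs (g k) ≤ hs (g (k + (c₁ ᵥ* θ₁ + c₂ ᵥ* θ₂)))) then
          hs (g k) else 0) := by
  set bad : (Fin m → ZMod 2) → Prop := fun k => ∃ (c₁ : D₁ → ZMod 2) (c₂ : D₂ → ZMod 2),
        (c₁ ≠ 0 ∨ c₂ ≠ 0) ∧ hs (g k) ≤ hs (g (k + (c₁ ᵥ* θ₁ + c₂ ᵥ* θ₂))) with hbad
  show _ ≤ 4 * 2 ^ m * √(∑ k, hs (g k)) * √(∑ k, if bad k then hs (g k) else 0)
  have hgood : ∀ k, (if bad k then 0 else g k) ≠ 0 → ¬ bad k := fun k hk hb => hk (if_pos hb)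
  have hsep := SEC_sep g θ₁ θ₂
  set δ : ℝ := 2 * √(∑ k, hs (g k)) * √(∑ k, if bad k then hs (g k) else 0) with hδ
  have hterm : ∀ k t, ‖(∑ b, if θ₁ *ᵥ b = k ∧ θ₂ *ᵥ b = t then
          (C k t * eveState (∑ k', sgn (∑ i, k' i * b i) • g k')).trace else 0) -
        ((2 : ℂ) ^ Fintype.card D₁)⁻¹ * (∑ b, if θ₂ *ᵥ b = t then
          (C k t * eveState (∑ k', sgn (∑ i, k' i * b i) • g k')).trace else 0)‖ ≤
      (∑ b : Fin m → ZMod 2, if θ₁ *ᵥ b = k ∧ θ₂ *ᵥ b = t then δ else 0) +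
        ((2 : ℝ) ^ Fintype.card D₁)⁻¹ *
          ∑ b : Fin m → ZMod 2, if θ₂ *ᵥ b = t then δ else 0 := by
    intro k t
    have hr : ‖((2 : ℂ) ^ Fintype.card D₁)⁻¹‖ = ((2 : ℝ) ^ Fintype.card D₁)⁻¹ := by
      rw [norm_inv, norm_pow, Complex.norm_two]
    rw [← hr]
    refine SEC_term (fun b => θ₁ *ᵥ b = k ∧ θ₂ *ᵥ b = t) (fun b => θ₂ *ᵥ b = t)
      (fun b => (C k t * eveState (∑ k', sgn (∑ i, k' i * b i) • g k')).trace)
      (fun b => (C k t * eveState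
        (∑ k', sgn (∑ i, k' i * b i) • (if bad k' then 0 else g k'))).trace) _ δ
      (fun b => ?_) ?_
    · obtain ⟨n1, n2, n3⟩ := SEC_norms g hg bad b
      refine (form_sub_bound (hC k t) _ _).trans ?_
      rw [n1, n3, hδ]
      refine mul_le_mul_of_nonneg_right ?_ (Real.sqrt_nonneg _)
      have := Real.sqrt_le_sqrt n2
      linarith
    · refine SEC_id (fun k' => if bad k' then 0 else g k') θ₁ θ₂ (C k t)
        (fun k₁ k₂ hkk h1 h2 c₁ c₂ => hsep.1 k₁ k₂ hkk (hgood k₁ h1) (hgood k₂ h2) c₁ c₂)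
        (fun ⟨k₀, hk₀⟩ c₁ c₂ hc => hsep.2 k₀ (hgood k₀ hk₀) c₁ c₂ hc) k t
  refine (Finset.sum_le_sum fun k _ => Finset.sum_le_sum fun t _ => hterm k t).trans ?_
  rw [SEC_count, hδ]
  exact le_of_eq (by ring)

end Vale.Agent.P372Q
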