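import Vale.Agent.P372Q.Base

open Matrix Finset Filter Topology
open scoped Kronecker ComplexOrder BigOperators

namespace Vale.Agent.P372Q

theorem TN1_spec {E : Type} [Fintype E] [DecidableEq E] {A : Matrix E E ℂ} (hA : A.IsHermitian) :
    ∃ U : Matrix E E ℂ, Uᴴ * U = 1 ∧
      A = U * Matrix.diagonal (fun i => ((hA.eigenvalues i : ℝ) : ℂ)) * Uᴴ := by
  refine ⟨(hA.eigenvectorUnitary : Matrix E E ℂ), ?_, ?_⟩
  · exact Matrix.UnitaryGroup.star_mul_self hA.eigenvectorUnitary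
  · have h := hA.spectral_theorem
    rw [Unitary.conjStarAlgAut_apply] at h
    exact h

theorem TN1_diag {E : Type} [Fintype E] [DecidableEq E] {l : E → ℝ} (hl : ∀ i, 0 ≤ l i)
    (Z : Matrix E E ℂ) :
    Matrix.diagonal (fun i => (((√(l i))⁻¹ : ℝ) : ℂ)) *
      (Matrix.diagonal (fun i => (((√(l i))⁻¹ : ℝ) : ℂ)) *
      (Matrix.diagonal (fun i => ((l i : ℝ) : ℂ)) *
      (Matrix.diagonal (fun i => (((√(l i))⁻¹ : ℝ) : ℂ)) *
      (Matrix.diagonal (fun i => (((√(l i))⁻¹ : ℝ) : ℂ)) * Z)))) =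
    Matrix.diagonal (fun i => (((√(l i))⁻¹ : ℝ) : ℂ)) *
      (Matrix.diagonal (fun i => (((√(l i))⁻¹ : ℝ) : ℂ)) * Z) := by
  simp only [← Matrix.mul_assoc, Matrix.diagonal_mul_diagonal]
  congr 2
  funext i
  rcases (hl i).eq_or_lt with h | h
  · rw [← h]
    simp
  · have h1 : (√(l i) : ℝ) ≠ 0 := (Real.sqrt_pos.2 h).ne'
    have h2 : (√(l i))⁻¹ * ((√(l i))⁻¹ * (l i * ((√(l i))⁻¹ * (√(l i))⁻¹))) =
        (√(l i))⁻¹ * (√(l i))⁻¹ := by
      have h3 : l i = √(l i) * √(l i) := (Real.mul_self_sqrt h.le).symm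
      generalize √(l i) = r at *
      rw [h3]
      field_simp
    exact_mod_cast congrArg (fun r : ℝ => (r : ℂ)) h2

/-- TN1. Duality for the trace norm. Let `u_i` be an orthonormal eigenbasis of `Xᴴ X` with
eigenvalues `λ_i`; for `λ_i > 0` the vectors `w_i = X u_i / √λ_i` are orthonormal; take
`C = ∑_(λ_i > 0) u_i w_iᴴ`. -/
theorem traceNorm_dual {E : Type} [Fintype E] [DecidableEq E] (X : Matrix E E ℂ) :
    ∃ C : Matrix E E ℂ, IsContr C ∧ (C * X).trace = (traceNorm X : ℂ) := by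
  have hA := Matrix.isHermitian_conjTranspose_mul_self X
  have hpos : ∀ i, 0 ≤ (Matrix.isHermitian_conjTranspose_mul_self X).eigenvalues i :=
    (Matrix.posSemidef_conjTranspose_mul_self X).eigenvalues_nonneg
  obtain ⟨U, hU, hXX⟩ := TN1_spec (Matrix.isHermitian_conjTranspose_mul_self X)
  unfold traceNorm
  generalize (Matrix.isHermitian_conjTranspose_mul_self X).eigenvalues = l at *
  have hdiag := fun Z => TN1_diag hpos Z
  have hDH : (Matrix.diagonal (fun i => (((√(l i))⁻¹ : ℝ) : ℂ)))ᴴ =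
      Matrix.diagonal (fun i => (((√(l i))⁻¹ : ℝ) : ℂ)) := by
    rw [Matrix.diagonal_conjTranspose]
    congr 1
    funext i
    exact Complex.conj_ofReal _
  have htr : (Matrix.diagonal (fun i => (((√(l i))⁻¹ : ℝ) : ℂ)) *
      Matrix.diagonal (fun i => ((l i : ℝ) : ℂ))).trace = ((∑ i, √(l i) : ℝ) : ℂ) := by
    rw [Matrix.diagonal_mul_diagonal, Matrix.trace_diagonal, Complex.ofReal_sum]
    refine Finset.sum_congr rfl fun i _ => ?_
    rw [← Complex.ofReal_mul]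
    congr 1
    rcases (hpos i).eq_or_lt with h | h
    · rw [← h]
      simp
    · have h1 : (√(l i) : ℝ) ≠ 0 := (Real.sqrt_pos.2 h).ne'
      nth_rewrite 2 [← Real.mul_self_sqrt h.le]
      field_simp
  generalize hD : Matrix.diagonal (fun i => (((√(l i))⁻¹ : ℝ) : ℂ)) = D at *
  generalize hL : Matrix.diagonal (fun i => ((l i : ℝ) : ℂ)) = L at *
  have hUU : ∀ Z : Matrix E E ℂ, Uᴴ * (U * Z) = Z := by
    intro Z
    rw [← Matrix.mul_assoc, hU, Matrix.one_mul]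
  have hmid : ∀ Z : Matrix E E ℂ, Uᴴ * (Xᴴ * (X * (U * Z))) = L * Z := by
    intro Z
    have h1 : Xᴴ * (X * (U * Z)) = (Xᴴ * X) * (U * Z) := by rw [Matrix.mul_assoc]
    rw [h1, hXX]
    simp only [Matrix.mul_assoc]
    rw [hUU, hUU]
  refine ⟨U * (D * (Uᴴ * Xᴴ)), ?_, ?_⟩
  · unfold IsContr
    have hCH : (U * (D * (Uᴴ * Xᴴ)))ᴴ = X * (U * (D * Uᴴ)) := by
      simp only [Matrix.conjTranspose_mul, Matrix.conjTranspose_conjTranspose, hDH,
        Matrix.mul_assoc]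
    obtain ⟨P, hP⟩ : ∃ P, P = (U * (D * (Uᴴ * Xᴴ)))ᴴ * (U * (D * (Uᴴ * Xᴴ))) := ⟨_, rfl⟩
    have hP1 : P = X * (U * (D * (D * (Uᴴ * Xᴴ)))) := by
      rw [hP, hCH]
      simp only [Matrix.mul_assoc]
      rw [hUU]
    have hPH : Pᴴ = P := by
      rw [hP, Matrix.conjTranspose_mul, Matrix.conjTranspose_conjTranspose]
    have hPP : P * P = P := by
      rw [hP1]
      simp only [Matrix.mul_assoc]
      rw [hmid, hdiag]
    rw [← hP]
    have h2 : 1 - P = (1 - P)ᴴ * (1 - P) := by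
      rw [Matrix.conjTranspose_sub, Matrix.conjTranspose_one, hPH, Matrix.sub_mul, Matrix.one_mul,
        Matrix.mul_sub, Matrix.mul_one, hPP, sub_self, sub_zero]
    rw [h2]
    exact Matrix.posSemidef_conjTranspose_mul_self _
  · rw [← htr]
    have h3 : U * (D * (Uᴴ * Xᴴ)) * X = U * (D * L * Uᴴ) := by
      have h4 : U * (D * (Uᴴ * Xᴴ)) * X = U * (D * (Uᴴ * (Xᴴ * X))) := by
        simp only [Matrix.mul_assoc]
      rw [h4, hXX]
      simp only [Matrix.mul_assoc]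
      rw [hUU]
    rw [h3, Matrix.trace_mul_comm, Matrix.mul_assoc, hU, Matrix.mul_one]

end Vale.Agent.P372Q
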